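import Vale.Agent.P025.H16.GeoSec
import Vale.Agent.P025.H641.OMax
import Vale.Agent.P025.H641.OSupp
import Vale.Agent.P025.H641.ChiPad
import Mathlib.Topology.Algebra.Module.Cardinality

/-! # Bad places; roots; fine sets avoiding countable sets -/

open IntermediateField Polynomial

namespace P025H16

open P025H641

universe u v w

section finite

variable {k : Type u} {E : Type v} {K : Type w} [Field k] [CharZero k] [Field E] [Field K]
  [Algebra k E] [Algebra k K] [Algebra E K] [IsScalarTower k E K] [FiniteDimensional E K]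

/-- the places over a given place are finitely many -/
theorem finite_over (hE : IsFunctionField k E) (V₀ : ValuationSubring E) :
    {V : ValuationSubring K | IsPlace k K V ∧ V.comap (algebraMap E K) = V₀}.Finite := by
  by_cases hne : {V : ValuationSubring K | IsPlace k K V ∧ V.comap (algebraMap E K) = V₀} = ∅
  · rw [hne]
    exact Set.finite_empty
  obtain ⟨V₁, hV₁, h1⟩ := Set.nonempty_iff_ne_empty.2 hne
  have hV₀ : IsPlace k E V₀ := by
    rw [← h1]
    exact hV₁.comap
  obtain ⟨t, ht0, ht1, -⟩ := hV₀.exists_unif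
  have hK : IsFunctionField k K := funField_ext hE
  have htK : algebraMap E K t ≠ 0 := (_root_.map_ne_zero _).2 ht0
  refine (finite_support hK (algebraMap E K t) htK).subset ?_
  rintro V ⟨hV, hVV⟩
  refine ⟨hV, ?_⟩
  intro h2
  rw [← map_one V.valuation] at h2
  rw [← map_one (algebraMap E K), ← comap_val_eq_iff, hVV, map_one] at h2
  exact ht1.ne h2

/-- the ramified places are finitely many -/
theorem finite_ram (hE : IsFunctionField k E) :
    {V : ValuationSubring K | IsPlace k K V ∧
      ¬ ∀ x : K, ∃ y : E, V.valuation (algebraMap E K y) = V.valuation x}.Finite := by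
  classical
  have hchar : CharZero E := charZero_of_injective_algebraMap (algebraMap k E).injective
  have hK : IsFunctionField k K := funField_ext hE
  obtain ⟨α, hα⟩ := Field.exists_primitive_element E K
  have hαint : IsIntegral E α := Algebra.IsIntegral.isIntegral α
  set P := minpoly E α with hP
  have hsep : P.Separable := (minpoly.irreducible hαint).separable
  obtain ⟨a, b, hab⟩ := hsep
  -- the coefficients
  set C : Finset E := (P.coeffs ∪ a.coeffs) ∪ b.coeffs with hC
  have hfin : (⋃ c ∈ C, {V : ValuationSubring K | IsPlace k K V ∧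
      V.valuation (algebraMap E K c) ≠ 1 ∧ c ≠ 0}).Finite := by
    refine Set.Finite.biUnion C.finite_toSet (fun c _ => ?_)
    by_cases hc : c = 0
    · refine Set.finite_empty.subset ?_
      rintro V ⟨-, -, h⟩
      exact h hc
    · refine (finite_support hK (algebraMap E K c) ((_root_.map_ne_zero _).2 hc)).subset ?_
      rintro V ⟨h1, h2, -⟩
      exact ⟨h1, h2⟩
  refine hfin.subset ?_
  rintro V ⟨hV, hram⟩
  by_contra hcon
  apply hram
  simp only [Set.mem_iUnion, not_exists] at hcon
  have hone : ∀ c ∈ C, c ≠ 0 → V.valuation (algebraMap E K c) = 1 := by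
    intro c hc hc0
    by_contra h
    exact hcon c hc ⟨hV, h, hc0⟩
  set W := V.comap (algebraMap E K) with hW
  have hmem : ∀ c ∈ C, c ∈ W := by
    intro c hc
    by_cases hc0 : c = 0
    · rw [hc0]; exact W.zero_mem
    · rw [hW, ValuationSubring.mem_comap, ← V.valuation_le_one_iff, hone c hc hc0]
  have hlift : ∀ Q : E[X], Q.coeffs ⊆ C → ∃ q : W[X], q.map W.subtype = Q := by
    intro Q hQ
    have h1 : Q ∈ lifts W.subtype := by
      rw [lifts_iff_coeff_lifts]
      intro n
      by_cases hn : Q.coeff n = 0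
      · exact ⟨0, by rw [hn, map_zero]⟩
      · exact ⟨⟨_, hmem _ (hQ (coeff_mem_coeffs hn))⟩, rfl⟩
    exact h1
  have hPlift : P ∈ lifts W.subtype := by
    obtain ⟨q, hq⟩ := hlift P (by rw [hC, Finset.union_assoc]; exact Finset.subset_union_left)
    exact ⟨q, hq⟩
  obtain ⟨h, hh, -, hmon⟩ := lifts_and_natDegree_eq_and_monic hPlift (minpoly.monic hαint)
  obtain ⟨a', ha'⟩ := hlift a (by
    rw [hC]; exact Finset.subset_union_right.trans Finset.subset_union_left)
  obtain ⟨b', hb'⟩ := hlift b (by rw [hC]; exact Finset.subset_union_right)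
  have hid : a' * h + b' * derivative h = 1 := by
    apply Polynomial.map_injective W.subtype Subtype.val_injective
    rw [Polynomial.map_add, Polynomial.map_mul, Polynomial.map_mul, ← derivative_map, ha', hb', hh,
      hab, Polynomial.map_one]
  have hsep' : (h.map (IsLocalRing.residue W)).Separable := by
    refine ⟨a'.map (IsLocalRing.residue W), b'.map (IsLocalRing.residue W), ?_⟩
    rw [derivative_map, ← Polynomial.map_mul, ← Polynomial.map_mul, ← Polynomial.map_add, hid,
      Polynomial.map_one]
  refine etale_value hV α ?_ W hW h hmon ?_ hsep'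
  · intro x
    have hx : x ∈ E⟮α⟯ := by rw [hα]; exact IntermediateField.mem_top
    have hx2 : x ∈ Algebra.adjoin E {α} := by
      rw [← IntermediateField.adjoin_simple_toSubalgebra_of_isAlgebraic hαint.isAlgebraic]
      exact hx
    rw [Algebra.adjoin_singleton_eq_range_aeval] at hx2
    obtain ⟨Q, hQ⟩ := hx2
    exact ⟨Q, hQ.symm⟩
  · rw [hh]
    exact minpoly.aeval E α

end finite

section bad

variable {k : Type u} {E : Type v} [Field k] [Field E] [Algebra k E]

/-- The places of `K` over `T` and the places ramified over `E`. -/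
def Bad (k : Type u) {E : Type v} [Field k] [Field E] [Algebra k E]
    (T : Set (ValuationSubring E)) (K : IntermediateField E (AlgebraicClosure E)) :
    Set (ValuationSubring K) :=
  {V | IsPlace k K V ∧ (V.comap (algebraMap E K) ∈ T ∨
    ¬ ∀ x : K, ∃ y : E, V.valuation (algebraMap E K y) = V.valuation x)}

variable [CharZero k]

/-- (U1) there are countably many bad places -/
theorem countable_Bad (hE : IsFunctionField k E) {T : Set (ValuationSubring E)}
    (hT : T.Countable) (K : IntermediateField E (AlgebraicClosure E)) [FiniteDimensional E K] :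
    (Bad k T K).Countable := by
  have h1 : (⋃ V₀ ∈ T, {V : ValuationSubring K | IsPlace k K V ∧
      V.comap (algebraMap E K) = V₀}).Countable :=
    hT.biUnion (fun V₀ _ => (finite_over hE V₀).countable)
  refine (h1.union (finite_ram (K := K) hE).countable).mono ?_
  rintro V ⟨hV, h | h⟩
  · exact Or.inl (Set.mem_biUnion h ⟨hV, rfl⟩)
  · exact Or.inr ⟨hV, h⟩

/-- (U2) roots of functions which are units at the bad places -/
theorem root_mem_maxOrb {p : ℕ} (hp : p.Prime) {T : Set (ValuationSubring E)}
    (K : IntermediateField E (AlgebraicClosure E)) [FiniteDimensional E K]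
    (hK : K ≤ maxOrb p k T) (f : K) (hf : ∀ V ∈ Bad k T K, V.valuation f = 1)
    (w : AlgebraicClosure E) (hw : w ^ p = (f : AlgebraicClosure E)) : w ∈ maxOrb p k T := by
  have htow : IsScalarTower k K (AlgebraicClosure E) :=
    IsScalarTower.of_algebraMap_eq (fun x => rfl)
  have hKo : IsFinOrbi p k T K := isFinOrbi_of_le_maxOrb hp hK
  have hintK : IsIntegral K w := by
    apply isIntegral_of_pow' hp.pos
    rw [hw]
    exact isIntegral_algebraMap (R := K) (x := f)
  have hintE : IsIntegral E w := by
    have : Algebra.IsIntegral E K := inferInstance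
    exact isIntegral_trans (R := E) (A := K) w hintK
  have hfin : FiniteDimensional E E⟮w⟯ := IntermediateField.adjoin.finiteDimensional hintE
  have hfin2 : FiniteDimensional E
      (K ⊔ E⟮w⟯ : IntermediateField E (AlgebraicClosure E)) := finiteDimensional_sup _ _
  have hA : IsFinOrbi p k T (K ⊔ E⟮w⟯) := by
    refine ⟨hfin2, ?_⟩
    have hK2 := hKo.2
    rw [isOrbi_iff] at hK2 ⊢
    intro W hW
    obtain ⟨h1, h2⟩ := hK2 W hW
    set V := W.comap (algebraMap K (AlgebraicClosure E)) with hV
    have hVp : IsPlace k K V := place_of_fin hW K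
    have hcomap : V.comap (algebraMap E K) = W.comap (algebraMap E (AlgebraicClosure E)) := by
      ext x
      rw [ValuationSubring.mem_comap, ValuationSubring.mem_comap, ValuationSubring.mem_comap,
        ← IsScalarTower.algebraMap_apply]
    by_cases hbad : V ∈ Bad k T K
    · have hu : W.valuation (f : AlgebraicClosure E) = W.valuation (1 : AlgebraicClosure E) := by
        have h3 := hf V hbad
        rw [← map_one V.valuation, hV, comap_sub_val_iff] at h3
        exact h3
      have h3 : SameVal W (K ⊔ E⟮w⟯) K :=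
        sameVal_root hW K hp.ne_zero w _ f.2 hw ⟨1, one_mem _, by
          rw [hu, ← map_pow, one_pow]⟩
      refine ⟨fun x hx => ?_, fun hT => h3.trans (h2 hT)⟩
      obtain ⟨y, hy, hxy⟩ := h3 x hx
      obtain ⟨z, hz⟩ := h1 y hy
      exact ⟨z, by rw [hz, hxy]⟩
    · have h3 : V.comap (algebraMap E K) ∉ T ∧
          ∀ x : K, ∃ y : E, V.valuation (algebraMap E K y) = V.valuation x := by
        constructor
        · exact fun h => hbad ⟨hVp, Or.inl h⟩
        · by_contra h
          exact hbad ⟨hVp, Or.inr h⟩
      refine ⟨fun x hx => ?_, fun hT => absurd (hcomap ▸ hT) h3.1⟩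
      have h4 : PVal p W K⟮w⟯ := pVal_root (k := k) hp hVp f w hw
      have h5 : x ∈ K⟮w⟯ := by
        rw [← IntermediateField.restrictScalars_adjoin_eq_sup] at hx
        exact hx
      obtain ⟨y, hy⟩ := h4 x h5
      obtain ⟨z, hz⟩ := h3.2 y
      rw [hV, comap_sub_val_iff] at hz
      exact ⟨z, by rw [← hy]; exact hz⟩
  exact hA.le_maxOrb ((le_sup_right : E⟮w⟯ ≤ K ⊔ E⟮w⟯)
    (IntermediateField.mem_adjoin_simple_self E w))

end bad

section fine

variable {p : ℕ} [Fact p.Prime] {k : Type u} [Field k] [Algebra ℚ_[p] k]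
  [FiniteDimensional ℚ_[p] k]

/-- (U3) fine sets avoiding a countable set exist -/
theorem exists_fine_avoid (A₀ : Finset k) {B : Set k} (hB : B.Countable)
    (hA₀ : ∀ a ∈ A₀, a ∉ B) :
    ∃ (r : ℕ) (A : Finset k), IsFine p r A₀ A ∧ ∀ a ∈ A, a ∉ B := by
  classical
  have hpp : p.Prime := Fact.out
  let inst1 : NontriviallyNormedField k := spectralNorm.nontriviallyNormedField ℚ_[p] k
  have hproper : ProperSpace k := by
    let _ : NormedAlgebra ℚ_[p] k := spectralNorm.normedAlgebra ℚ_[p] k
    exact FiniteDimensional.proper ℚ_[p] k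
  have hpR : (1 : ℝ) < p := by exact_mod_cast hpp.one_lt
  have hpR0 : (0 : ℝ) < p := by linarith
  obtain ⟨r, A, hA⟩ := exists_fine (p := p) A₀
  set N := precision (Module.finrank ℚ_[p] k) r with hN
  have hρ : 0 < ((p : ℝ) ^ N)⁻¹ := inv_pos.2 (pow_pos hpR0 _)
  obtain ⟨T, hT1, hT2⟩ := (isCompact_closedBall (0 : k) ((p : ℝ) ^ (r + 2))).elim_nhds_subcover
    (fun x => Metric.closedBall x (((p : ℝ) ^ N)⁻¹ / 2))
    (fun x _ => Metric.closedBall_mem_nhds x (half_pos hρ))
  have hex : ∀ x : k, ∃ y : k, y ∉ B ∧ ‖x - y‖ ≤ ((p : ℝ) ^ N)⁻¹ / 2 := by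
    intro x
    obtain ⟨y, hy1, hy2⟩ := (hB.dense_compl k).exists_mem_open Metric.isOpen_ball
      ⟨x, Metric.mem_ball_self (half_pos hρ)⟩
    rw [Metric.mem_ball, dist_comm, dist_eq_norm] at hy2
    exact ⟨y, hy1, hy2.le⟩
  choose g hg1 hg2 using hex
  refine ⟨r, A₀ ∪ T.image g, ⟨Finset.subset_union_left, hA.bound, hA.sep, ?_⟩, ?_⟩
  · intro x hx
    have h1 := hT2 (show x ∈ Metric.closedBall (0 : k) ((p : ℝ) ^ (r + 2)) by
      rw [mem_closedBall_zero_iff]; exact hx)
    simp only [Set.mem_iUnion] at h1
    obtain ⟨t, ht, h2⟩ := h1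
    rw [Metric.mem_closedBall, dist_eq_norm] at h2
    refine ⟨g t, Finset.mem_union_right _ (Finset.mem_image_of_mem _ ht), ?_⟩
    show ‖x - g t‖ ≤ _
    have e1 : x - g t = (x - t) + (t - g t) := by ring
    rw [e1]
    refine (norm_add_le _ _).trans ?_
    have := hg2 t
    linarith
  · intro a ha
    rcases Finset.mem_union.1 ha with h | h
    · exact hA₀ a h
    · obtain ⟨t, -, rfl⟩ := Finset.mem_image.1 h
      exact hg1 t

end fine

end P025H16
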