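import Vale.Agent.P025.H641.PlcGen

/-! # Base change of unramified extensions -/

namespace P025H16

open P025H641 Polynomial IntermediateField

universe u v w

/-- primitive element of the field generated by finitely many integral elements -/
lemma exists_prim {κ : Type u} {Ω : Type v} [Field κ] [CharZero κ] [Field Ω] [Algebra κ Ω] {n : ℕ}
    (β : Fin n → Ω) (hβ : ∀ i, IsIntegral κ (β i)) :
    ∃ θ : Ω, IsIntegral κ θ ∧ θ ∈ IntermediateField.adjoin κ (Set.range β) ∧
      ∀ i, ∃ c : κ[X], β i = aeval θ c := by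
  set M := IntermediateField.adjoin κ (Set.range β) with hM
  have hfin : FiniteDimensional κ M := by
    apply IntermediateField.finiteDimensional_adjoin
    rintro _ ⟨i, rfl⟩
    exact hβ i
  obtain ⟨α, hα⟩ := Field.exists_primitive_element κ M
  have hint : IsIntegral κ α := IsIntegral.of_finite κ α
  refine ⟨(α : Ω), hint.map (IsScalarTower.toAlgHom κ M Ω), α.2, fun i => ?_⟩
  have h1 : β i ∈ M := IntermediateField.subset_adjoin κ _ ⟨i, rfl⟩
  have h2 : (⟨β i, h1⟩ : M) ∈ κ⟮α⟯ := by rw [hα]; trivial
  rw [← IntermediateField.mem_toSubalgebra,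
    IntermediateField.adjoin_simple_toSubalgebra_of_isAlgebraic hint.isAlgebraic,
    Algebra.adjoin_singleton_eq_range_aeval] at h2
  obtain ⟨c, hc⟩ := h2
  refine ⟨c, ?_⟩
  have h3 := congrArg (fun z : M => (z : Ω)) hc
  have h4 : ((aeval α c : M) : Ω) = aeval (α : Ω) c :=
    (aeval_algHom_apply (IsScalarTower.toAlgHom κ M Ω) α c).symm
  rw [← h4]
  exact h3.symm

section sub

variable {F : Type v} [Field F] (W : ValuationSubring F) (L : Type w) [Field L] [Algebra L F]

/-- the elements of `W` coming from `L` -/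
def subW : Subring W := (algebraMap L F).range.comap W.subtype

lemma mem_subW {x : W} : x ∈ subW W L ↔ ∃ l : L, algebraMap L F l = (x : F) := Iff.rfl

/-- the residue field of `L` inside the residue field of `W` -/
noncomputable def resF : Subfield (IsLocalRing.ResidueField W) where
  toSubring := (subW W L).map (IsLocalRing.residue W)
  inv_mem' := by
    rintro _ ⟨x, ⟨l, hl⟩, rfl⟩
    by_cases hx : IsLocalRing.residue W x = 0
    · exact ⟨0, (subW W L).zero_mem, by rw [hx, inv_zero, map_zero]⟩
    · have hu : IsUnit x := by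
        by_contra hnu
        exact hx ((IsLocalRing.residue_eq_zero_iff x).2 ((IsLocalRing.mem_maximalIdeal x).2 hnu))
      obtain ⟨y, hy⟩ := isUnit_iff_exists_inv.1 hu
      have hl' : algebraMap L F l = (x : F) := hl
      have hxy : (x : F) * (y : F) = 1 := congrArg (fun z : W => (z : F)) hy
      refine ⟨y, ⟨l⁻¹, ?_⟩, ?_⟩
      · show algebraMap L F l⁻¹ = (y : F)
        rw [map_inv₀, hl']
        exact inv_eq_of_mul_eq_one_right hxy
      · have h1 := congrArg (IsLocalRing.residue W) hy
        rw [map_mul, map_one] at h1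
        exact (inv_eq_of_mul_eq_one_right h1).symm

/-- the residue map of `L` -/
noncomputable def resMap : subW W L →+* resF W L :=
  ((IsLocalRing.residue W).comp (subW W L).subtype).codRestrict (resF W L)
    (fun x => ⟨x, x.2, rfl⟩)

lemma resMap_surj : Function.Surjective (resMap W L) := by
  rintro ⟨_, ⟨x, hx, rfl⟩⟩
  exact ⟨⟨x, hx⟩, rfl⟩

lemma resMap_coe (x : subW W L) :
    ((resMap W L x : resF W L) : IsLocalRing.ResidueField W) = IsLocalRing.residue W (x : W) := rfl

lemma res_eval (q : (subW W L)[X]) (θ : W) :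
    IsLocalRing.residue W (q.eval₂ (subW W L).subtype θ) =
      aeval (IsLocalRing.residue W θ) (q.map (resMap W L)) := by
  rw [hom_eval₂, aeval_def, eval₂_map]
  rfl

lemma residue_eq_zero_iff' (x : W) : IsLocalRing.residue W x = 0 ↔ W.valuation (x : F) < 1 := by
  rw [IsLocalRing.residue_eq_zero_iff, W.valuation_lt_one_iff]

end sub

section main

variable {E E' K F : Type*} [Field E] [Field E'] [Field K] [Field F] [Algebra E E'] [Algebra E' F]
  [Algebra E F] [Algebra E K] [Algebra K F] [IsScalarTower E E' F] [IsScalarTower E K F]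
  (W : ValuationSubring F)

/-- the data for the base change argument -/
structure BC (π : subW W K) : Prop where
  ne : ((π : W) : F) ≠ 0
  lt : W.valuation ((π : W) : F) < 1
  max : ∀ x : K, W.valuation (algebraMap K F x) < 1 →
    W.valuation (algebraMap K F x) ≤ W.valuation ((π : W) : F)
  vals : ∀ b : E', ∃ y : E, W.valuation (algebraMap E' F b) = W.valuation (algebraMap E F y)
  alg : Algebra.IsAlgebraic E E'
  char : CharZero (IsLocalRing.ResidueField W)

lemma subW_le : subW W E ≤ subW W K := by
  rintro x ⟨l, hl⟩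
  exact ⟨algebraMap E K l, by
    show algebraMap K F (algebraMap E K l) = _
    rw [← IsScalarTower.algebraMap_apply]; exact hl⟩

lemma resF_le : resF W E ≤ resF W K := by
  rintro _ ⟨x, hx, rfl⟩
  exact ⟨x, subW_le W hx, rfl⟩

namespace BC

variable {W} {π : subW W K} (B : BC (E := E) (E' := E') W π)

include B

omit [Algebra E K] [IsScalarTower E E' F] [IsScalarTower E K F] in
/-- divisibility by the uniformizer, in `K` -/
lemma dvdK (x : subW W K) (hx : W.valuation ((x : W) : F) < 1) : π ∣ x := by
  obtain ⟨l, hl⟩ := (mem_subW W K).1 x.2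
  obtain ⟨p, hp⟩ := (mem_subW W K).1 π.2
  have h1 := B.max l (by rw [hl]; exact hx)
  rw [hl] at h1
  have hpos : 0 < W.valuation ((π : W) : F) := zero_lt_iff.2 ((_root_.map_ne_zero _).2 B.ne)
  have h2 : W.valuation (algebraMap K F (l / p)) ≤ 1 := by
    rw [map_div₀, map_div₀, hp, hl]
    exact (div_le_one₀ hpos).2 h1
  refine ⟨⟨⟨algebraMap K F (l / p), (W.valuation_le_one_iff _).1 h2⟩, ⟨l / p, rfl⟩⟩, ?_⟩
  apply Subtype.ext
  apply Subtype.ext
  show ((x : W) : F) = ((π : W) : F) * algebraMap K F (l / p)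
  rw [map_div₀, hp, hl, mul_div_cancel₀ _ B.ne]

omit [Algebra E K] [IsScalarTower E E' F] [IsScalarTower E K F] in
lemma dvd_poly (q : (subW W K)[X]) (hq : q.map (resMap W K) = 0) : ∃ q', q = C π * q' := by
  have h1 : C π ∣ q := by
    rw [C_dvd_iff_dvd_coeff]
    intro i
    apply B.dvdK
    have h2 := congrArg (fun z => ((z.coeff i : resF W K) : IsLocalRing.ResidueField W)) hq
    simp only [coeff_map, coeff_zero] at h2
    rw [resMap_coe] at h2
    exact (residue_eq_zero_iff' W _).1 h2
  exact h1

end BC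

variable (K E') in
/-- the ring generated by the integral elements of `K` and `E'` -/
noncomputable def baseR : Subalgebra (subW W K) W := Algebra.adjoin (subW W K) (subW W E' : Set W)

lemma mem_baseR_K (x : subW W K) : (x : W) ∈ baseR E' K W := Subalgebra.algebraMap_mem _ x

lemma mem_baseR_E' (x : W) (hx : x ∈ subW W E') : x ∈ baseR E' K W := Algebra.subset_adjoin hx

lemma eval_mem_baseR (q : (subW W K)[X]) (θ : W) (hθ : θ ∈ baseR E' K W) :
    q.eval₂ (subW W K).subtype θ ∈ baseR E' K W := by
  rw [eval₂_eq_sum_range]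
  exact Subalgebra.sum_mem _ fun i _ =>
    Subalgebra.mul_mem _ (mem_baseR_K W _) (Subalgebra.pow_mem _ hθ _)

omit [Algebra K F] [Algebra E K] [IsScalarTower E K F] in
lemma eval_mem_subW (q : (subW W E)[X]) (θ : W) (hθ : θ ∈ subW W E') :
    q.eval₂ (subW W E).subtype θ ∈ subW W E' := by
  rw [eval₂_eq_sum_range]
  exact Subring.sum_mem _ fun i _ =>
    Subring.mul_mem _ (subW_le W (q.coeff i).2) (Subring.pow_mem _ hθ _)

namespace BC

variable {W} {π : subW W K} (B : BC (E := E) (E' := E') W π)

include B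

lemma dvdE' (b : W) (hb : b ∈ subW W E') (hb1 : IsLocalRing.residue W b = 0) :
    ∃ r ∈ baseR E' K W, b = π * r := by
  rw [residue_eq_zero_iff'] at hb1
  obtain ⟨b0, hb0⟩ := (mem_subW W E').1 hb
  obtain ⟨y, hy⟩ := B.vals b0
  by_cases hy0 : y = 0
  · rw [hy0, map_zero, map_zero, map_eq_zero, hb0] at hy
    refine ⟨0, Subalgebra.zero_mem _, ?_⟩
    rw [mul_zero]
    exact Subtype.ext hy
  have hyF : algebraMap E F y ≠ 0 := (_root_.map_ne_zero _).2 hy0
  have hy1 : W.valuation (algebraMap E F y) < 1 := by rw [← hy, hb0]; exact hb1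
  obtain ⟨r, hr⟩ := B.dvdK ⟨⟨algebraMap E F y, (W.valuation_le_one_iff _).1 hy1.le⟩,
    ⟨algebraMap E K y, (IsScalarTower.algebraMap_apply E K F y).symm⟩⟩ hy1
  have hr' : algebraMap E F y = ((π : W) : F) * ((r : W) : F) :=
    congrArg (fun z : subW W K => ((z : W) : F)) hr
  have hq : W.valuation ((b : F) / algebraMap E F y) ≤ 1 := by
    rw [map_div₀, ← hy, hb0]
    exact div_self_le_one _
  refine ⟨r * ⟨(b : F) / algebraMap E F y, (W.valuation_le_one_iff _).1 hq⟩,
    Subalgebra.mul_mem _ (mem_baseR_K W r) (mem_baseR_E' W _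
      ⟨b0 / algebraMap E E' y, ?_⟩), ?_⟩
  · show algebraMap E' F (b0 / algebraMap E E' y) = (b : F) / algebraMap E F y
    rw [map_div₀, hb0, ← IsScalarTower.algebraMap_apply]
  · apply Subtype.ext
    show (b : F) = ((π : W) : F) * (((r : W) : F) * ((b : F) / algebraMap E F y))
    rw [← mul_assoc, ← hr', mul_div_cancel₀ _ hyF]

omit [Algebra E K] [IsScalarTower E K F] in
/-- residues of elements of `E'` are algebraic over the residue field of `E` -/
lemma res_alg (b : W) (hb : b ∈ subW W E') : IsIntegral (resF W E) (IsLocalRing.residue W b) := by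
  classical
  obtain ⟨b0, hb0⟩ := (mem_subW W E').1 hb
  have halg := B.alg
  have hint : IsIntegral E b0 := Algebra.IsIntegral.isIntegral b0
  set O := W.comap (algebraMap E F) with hO
  obtain ⟨i, D, hi0, hP, hD⟩ := exists_content O (minpoly E b0) (minpoly.ne_zero hint)
  let ι : O →+* subW W E :=
    { toFun := fun x => ⟨⟨algebraMap E F x, x.2⟩, ⟨x, rfl⟩⟩
      map_one' := by apply Subtype.ext; apply Subtype.ext; exact map_one _
      map_zero' := by apply Subtype.ext; apply Subtype.ext; exact map_zero _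
      map_add' := fun x y => by apply Subtype.ext; apply Subtype.ext; exact map_add _ _ _
      map_mul' := fun x y => by apply Subtype.ext; apply Subtype.ext; exact map_mul _ _ _ }
  apply IsAlgebraic.isIntegral
  refine ⟨D.map ((resMap W E).comp ι), ?_, ?_⟩
  · intro h0
    apply hD
    ext j
    rw [coeff_map, coeff_zero, IsLocalRing.residue_eq_zero_iff, O.valuation_lt_one_iff]
    have h1 := congrArg (fun z => ((z.coeff j : resF W E) : IsLocalRing.ResidueField W)) h0
    simp only [coeff_map, coeff_zero, RingHom.comp_apply] at h1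
    rw [resMap_coe] at h1
    have h2 := (residue_eq_zero_iff' W _).1 h1
    exact ((comap_isEquiv (F := E) W).lt_one_iff_lt_one (x := ((D.coeff j : O) : E))).2 h2
  · rw [aeval_def, eval₂_map]
    have h1 : ((algebraMap (resF W E) (IsLocalRing.ResidueField W)).comp ((resMap W E).comp ι)) =
        (IsLocalRing.residue W).comp ((subW W E).subtype.comp ι) := rfl
    rw [h1, ← hom_eval₂]
    have h2 : D.eval₂ ((subW W E).subtype.comp ι) b = 0 := by
      apply Subtype.ext
      have h3 : ((D.eval₂ ((subW W E).subtype.comp ι) b : W) : F) =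
          W.subtype (D.eval₂ ((subW W E).subtype.comp ι) b) := rfl
      rw [h3, hom_eval₂]
      have h4 : (W.subtype).comp ((subW W E).subtype.comp ι) =
          (algebraMap E F).comp O.subtype := rfl
      have h5 : W.subtype b = algebraMap E' F b0 := hb0.symm
      rw [h4, h5, ← eval₂_map]
      have h6 := minpoly.aeval E b0
      rw [hP, map_mul, aeval_C, mul_eq_zero] at h6
      have h7 := h6.resolve_left ((_root_.map_ne_zero _).2 hi0)
      have h8 := congrArg (algebraMap E' F) h7
      rw [← aeval_algebraMap_apply, aeval_def, map_zero] at h8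
      exact h8
    rw [h2, map_zero]

/-- the key claim: an element of `baseR` of value `< 1` is, up to a unit of `W` in `baseR`,
divisible by `π` inside `baseR` -/
lemma key (y : W) (hy : y ∈ baseR E' K W) (hy1 : IsLocalRing.residue W y = 0) :
    ∃ u ∈ baseR E' K W, IsLocalRing.residue W u ≠ 0 ∧
      ∃ y2 ∈ baseR E' K W, u * y = (π : W) * y2 := by
  classical
  have hchar : CharZero (resF W E) := by
    have := B.char
    exact (resF W E).subtype.charZero
  -- write `y` as a sum
  obtain ⟨n, f, g, hfg⟩ : ∃ (n : ℕ) (f : Fin n → subW W K) (g : Fin n → W),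
      (∀ i, g i ∈ subW W E') ∧ ∑ i, (f i : W) * g i = y := by
    have h1 : y ∈ Subalgebra.toSubmodule (baseR E' K W) := hy
    rw [baseR, Algebra.adjoin_eq_span] at h1
    have h2 : (Submonoid.closure (subW W E' : Set W) : Set W) = (subW W E' : Set W) := by
      have h3 := Submonoid.closure_eq (subW W E').toSubmonoid
      exact congrArg (fun z : Submonoid W => (z : Set W)) h3
    rw [h2, Submodule.mem_span_set'] at h1
    obtain ⟨n, f, g, h⟩ := h1
    exact ⟨n, f, fun i => g i, fun i => (g i).2, h⟩
  obtain ⟨hg, hfg⟩ := hfg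
  obtain ⟨θb, hθint, hθadj, hθc⟩ := exists_prim (κ := resF W E)
    (fun i => IsLocalRing.residue W (g i)) (fun i => B.res_alg (g i) (hg i))
  -- `θb` is a residue of an element of `E'`
  have hle : resF W E ≤ resF W E' := resF_le (K := E') W
  have hθE' : θb ∈ resF W E' := by
    have h1 : IntermediateField.adjoin (resF W E)
        (Set.range fun i => IsLocalRing.residue W (g i)) ≤ Subfield.extendScalars hle := by
      rw [IntermediateField.adjoin_le_iff]
      rintro _ ⟨i, rfl⟩
      exact ⟨g i, hg i, rfl⟩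
    exact h1 hθadj
  obtain ⟨θ, hθ, hθb⟩ := hθE'
  have hθb' : IsLocalRing.residue W θ = θb := hθb
  choose cb hcb using hθc
  have hlift : ∀ i, ∃ C' : (subW W E)[X], C'.map (resMap W E) = cb i := fun i =>
    Polynomial.map_surjective _ (resMap_surj W E) (cb i)
  choose Ci hCi using hlift
  have hθR : θ ∈ baseR E' K W := mem_baseR_E' W _ hθ
  have hdiff : ∀ i, ∃ r ∈ baseR E' K W,
      g i - (Ci i).eval₂ (subW W E).subtype θ = (π : W) * r := by
    intro i
    apply B.dvdE'
    · exact Subring.sub_mem _ (hg i) (eval_mem_subW W _ _ hθ)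
    · rw [map_sub, res_eval, hCi, hθb', ← hcb, sub_self]
  choose r hrR hr using hdiff
  set incl : subW W E →+* subW W K := Subring.inclusion (subW_le W) with hincl
  set inclb : resF W E →+* resF W K := Subfield.inclusion (resF_le W) with hinclb
  have hcomm : inclb.comp (resMap W E) = (resMap W K).comp incl := rfl
  have hevincl : ∀ q : (subW W E)[X],
      (q.map incl).eval₂ (subW W K).subtype θ = q.eval₂ (subW W E).subtype θ := by
    intro q
    rw [eval₂_map]
    rfl
  set cc : (subW W K)[X] := ∑ i, C (f i) * (Ci i).map incl with hcc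
  have hccθ : cc.eval₂ (subW W K).subtype θ =
      ∑ i, (f i : W) * (Ci i).eval₂ (subW W E).subtype θ := by
    rw [hcc, eval₂_finsetSum]
    refine Finset.sum_congr rfl fun i _ => ?_
    rw [eval₂_mul, eval₂_C, hevincl]
    rfl
  have hysum : y = cc.eval₂ (subW W K).subtype θ + (π : W) * ∑ i, (f i : W) * r i := by
    rw [hccθ, Finset.mul_sum, ← Finset.sum_add_distrib, ← hfg]
    refine Finset.sum_congr rfl fun i _ => ?_
    linear_combination (f i : W) * hr i
  have hπres : IsLocalRing.residue W (π : W) = 0 := (residue_eq_zero_iff' W _).2 B.lt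
  have hccres : aeval θb (cc.map (resMap W K)) = 0 := by
    rw [← hθb', ← res_eval]
    rw [hysum, map_add, map_mul, hπres, zero_mul, add_zero] at hy1
    exact hy1
  -- minimal polynomials
  set h0 := minpoly (resF W E) θb with hh0
  have hintK : IsIntegral (resF W K) θb := by
    obtain ⟨q, hq, hq0⟩ := hθint
    refine ⟨q.map inclb, hq.map _, ?_⟩
    rw [eval₂_map]
    exact hq0
  have hh0K : aeval θb (h0.map inclb) = 0 := by
    rw [aeval_def, eval₂_map]
    exact minpoly.aeval (resF W E) θb
  obtain ⟨gb, hgb⟩ := minpoly.dvd (resF W K) θb hh0K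
  obtain ⟨eb, heb⟩ := minpoly.dvd (resF W K) θb hccres
  have hsep : (h0.map inclb).Separable := by
    have h1 : h0.Separable := (minpoly.irreducible hθint).separable
    exact h1.map
  have hgbne : aeval θb gb ≠ 0 := by
    rw [hgb] at hsep
    obtain ⟨a, b, hab⟩ := hsep.isCoprime
    intro h0'
    have h1 := congrArg (aeval θb) hab
    rw [map_add, map_mul, map_mul, minpoly.aeval, h0', mul_zero, mul_zero, add_zero,
      map_one] at h1
    exact zero_ne_one h1
  obtain ⟨gl, hgl⟩ := Polynomial.map_surjective _ (resMap_surj W K) gb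
  obtain ⟨el, hel⟩ := Polynomial.map_surjective _ (resMap_surj W K) eb
  obtain ⟨hl, hhl⟩ := Polynomial.map_surjective _ (resMap_surj W E) h0
  obtain ⟨q', hq'⟩ := B.dvd_poly (gl * cc - (hl.map incl) * el) (by
    rw [Polynomial.map_sub, Polynomial.map_mul, Polynomial.map_mul, hgl, hel, Polynomial.map_map,
      ← hcomm, ← Polynomial.map_map, hhl, hgb, heb]
    ring)
  obtain ⟨rh, hrhR, hrh⟩ := B.dvdE' (hl.eval₂ (subW W E).subtype θ) (eval_mem_subW W _ _ hθ) (by
    rw [res_eval, hhl, hθb']
    exact minpoly.aeval _ _)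
  refine ⟨gl.eval₂ (subW W K).subtype θ, eval_mem_baseR W _ _ hθR, ?_,
    rh * el.eval₂ (subW W K).subtype θ + q'.eval₂ (subW W K).subtype θ +
      gl.eval₂ (subW W K).subtype θ * ∑ i, (f i : W) * r i, ?_, ?_⟩
  · rw [res_eval, hgl, hθb']
    exact hgbne
  · refine Subalgebra.add_mem _ (Subalgebra.add_mem _ (Subalgebra.mul_mem _ hrhR
      (eval_mem_baseR W _ _ hθR)) (eval_mem_baseR W _ _ hθR))
      (Subalgebra.mul_mem _ (eval_mem_baseR W _ _ hθR) (Subalgebra.sum_mem _ fun i _ => ?_))
    exact Subalgebra.mul_mem _ (mem_baseR_K W _) (hrR i)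
  · have h1 := congrArg (fun z => z.eval₂ (subW W K).subtype θ) hq'
    simp only [eval₂_sub, eval₂_mul, eval₂_C, hevincl] at h1
    have h2 : (subW W K).subtype π = (π : W) := rfl
    rw [h2] at h1
    rw [hysum]
    linear_combination h1 + el.eval₂ (subW W K).subtype θ * hrh

/-- the values of `baseR` are the powers of the value of `π` -/
lemma val_pow (harch : ∀ y : F, y ≠ 0 → ∃ N : ℕ, W.valuation ((π : W) : F) ^ N < W.valuation y)
    (y : W) (hy : y ∈ baseR E' K W) (hy0 : (y : F) ≠ 0) :
    ∃ m : ℕ, W.valuation (y : F) = W.valuation ((π : W) : F) ^ m := by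
  have hpos : 0 < W.valuation ((π : W) : F) := zero_lt_iff.2 ((_root_.map_ne_zero _).2 B.ne)
  have main : ∀ (N : ℕ) (y : W), y ∈ baseR E' K W →
      W.valuation ((π : W) : F) ^ N < W.valuation (y : F) →
      ∃ m : ℕ, W.valuation (y : F) = W.valuation ((π : W) : F) ^ m := by
    intro N
    induction N with
    | zero =>
      intro y _ h
      rw [pow_zero] at h
      exact absurd ((W.valuation_le_one_iff _).2 y.2) (not_le.2 h)
    | succ N ih =>
      intro y hy h
      rcases W.valuation_lt_one_or_eq_one y with h1 | h1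
      · obtain ⟨u, huR, hu, y2, hy2, huy⟩ := B.key y hy ((residue_eq_zero_iff' W y).2 h1)
        have hu1 : W.valuation (u : F) = 1 := by
          rcases W.valuation_lt_one_or_eq_one u with h2 | h2
          · exact absurd ((residue_eq_zero_iff' W u).2 h2) hu
          · exact h2
        have h3 : W.valuation (y : F) = W.valuation ((π : W) : F) * W.valuation (y2 : F) := by
          have h4 : (u : F) * (y : F) = ((π : W) : F) * (y2 : F) :=
            congrArg (fun z : W => (z : F)) huy
          rw [← map_mul, ← h4, map_mul, hu1, one_mul]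
        rw [h3, pow_succ', mul_lt_mul_iff_right₀ hpos] at h
        obtain ⟨m, hm⟩ := ih y2 hy2 h
        exact ⟨m + 1, by rw [h3, hm, pow_succ']⟩
      · exact ⟨0, by rw [h1, pow_zero]⟩
  obtain ⟨N, hN⟩ := harch y hy0
  exact main N y hy hN

end BC

end main

/-- base change of unramified extensions: if `E'/E` is finite and unramified, then so is the
compositum `F = K E'` over `K` -/
theorem unram_base_change {k : Type*} {E E' K F : Type*} [Field k] [Field E] [Field E']
    [Field K] [Field F] [CharZero k] [Algebra k E'] [Algebra k K] [Algebra k F]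
    [Algebra E E'] [Algebra E K] [Algebra E F] [Algebra E' F] [Algebra K F]
    [IsScalarTower k E' F] [IsScalarTower k K F] [IsScalarTower E E' F] [IsScalarTower E K F]
    [FiniteDimensional E E']
    (hgen : ∀ x : F, ∃ (n : ℕ) (a : Fin n → K) (b : Fin n → E'),
      x = ∑ i, algebraMap K F (a i) * algebraMap E' F (b i))
    (h : IsUnramified k E E') : IsUnramified k K F := by
  intro W hW x
  have halgEE' : Algebra.IsAlgebraic E E' := Algebra.IsAlgebraic.of_finite E E'
  have halg : Algebra.IsAlgebraic K F := by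
    refine ⟨fun x => ?_⟩
    obtain ⟨n, a, b, rfl⟩ := hgen x
    apply IsIntegral.isAlgebraic
    apply IsIntegral.sum
    intro i _
    apply IsIntegral.mul
    · exact isIntegral_algebraMap
    · have h1 : IsIntegral E (b i) := Algebra.IsIntegral.isIntegral (b i)
      have h2 : IsIntegral E (algebraMap E' F (b i)) :=
        h1.map (IsScalarTower.toAlgHom E E' F)
      exact h2.tower_top
  obtain ⟨p, hp0, hp1, hpmax⟩ := hW.exists_unif_comap (F := K)
  set π : subW W K := ⟨⟨algebraMap K F p, (W.valuation_le_one_iff _).1 hp1.le⟩, ⟨p, rfl⟩⟩ with hπ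
  have hπF : ((π : W) : F) = algebraMap K F p := rfl
  have hvals : ∀ b : E', ∃ y : E, W.valuation (algebraMap E' F b) =
      W.valuation (algebraMap E F y) := by
    intro b
    by_cases hb0 : b = 0
    · exact ⟨0, by simp [hb0]⟩
    by_cases hlt : ∃ x : E', x ≠ 0 ∧ W.valuation (algebraMap E' F x) < 1
    · have hV := hW.comap' (F := E') hlt
      obtain ⟨y, hy⟩ := h _ hV b
      rw [comap_val_eq_iff, ← IsScalarTower.algebraMap_apply] at hy
      exact ⟨y, hy.symm⟩
    · push Not at hlt
      refine ⟨1, ?_⟩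
      rw [map_one, map_one]
      apply le_antisymm
      · have h1 := hlt b⁻¹ (inv_ne_zero hb0)
        rw [map_inv₀, map_inv₀] at h1
        have hpos : 0 < W.valuation (algebraMap E' F b) :=
          zero_lt_iff.2 ((_root_.map_ne_zero _).2 ((_root_.map_ne_zero _).2 hb0))
        exact (one_le_inv₀ hpos).1 h1
      · exact hlt b hb0
  have hchar : CharZero (IsLocalRing.ResidueField W) := by
    let φ : k →+* W := (algebraMap k F).codRestrict W.toSubring (fun x => hW.const_mem x)
    exact charZero_of_injective_ringHom ((IsLocalRing.residue W).comp φ).injective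
  have B : BC (E := E) (E' := E') W π :=
    { ne := by rw [hπF]; exact (_root_.map_ne_zero _).2 hp0
      lt := by rw [hπF]; exact hp1
      max := fun x hx => by rw [hπF]; exact hpmax x hx
      vals := hvals
      alg := halgEE'
      char := hchar }
  have harch : ∀ y : F, y ≠ 0 → ∃ N : ℕ, W.valuation ((π : W) : F) ^ N < W.valuation y :=
    fun y hy => hW.archimedean y _ hy hp1
  by_cases hx0 : x = 0
  · exact ⟨0, by rw [hx0, map_zero]⟩
  have hppos : 0 < W.valuation (algebraMap K F p) :=
    zero_lt_iff.2 ((_root_.map_ne_zero _).2 ((_root_.map_ne_zero _).2 hp0))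
  obtain ⟨n, a, b, hx⟩ := hgen x
  -- normalise the summands
  have hterm : ∀ i, ∃ (c : K) (b' : W), b' ∈ subW W E' ∧
      algebraMap K F (a i) * algebraMap E' F (b i) = algebraMap K F c * (b' : F) := by
    intro i
    obtain ⟨y, hy⟩ := hvals (b i)
    by_cases hb0 : b i = 0
    · exact ⟨0, 0, (subW W E').zero_mem, by rw [hb0, map_zero, map_zero]; simp⟩
    have hy0 : y ≠ 0 := by
      rintro rfl
      rw [map_zero, map_zero, map_eq_zero, map_eq_zero] at hy
      exact hb0 hy
    have hyF : algebraMap E F y ≠ 0 := (_root_.map_ne_zero _).2 hy0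
    have h1 : W.valuation (algebraMap E' F (b i / algebraMap E E' y)) ≤ 1 := by
      rw [map_div₀, map_div₀, ← IsScalarTower.algebraMap_apply, hy]
      exact div_self_le_one _
    refine ⟨a i * algebraMap E K y, ⟨_, (W.valuation_le_one_iff _).1 h1⟩,
      ⟨b i / algebraMap E E' y, rfl⟩, ?_⟩
    rw [map_mul, ← IsScalarTower.algebraMap_apply]
    show _ = _ * algebraMap E' F (b i / algebraMap E E' y)
    rw [map_div₀, ← IsScalarTower.algebraMap_apply]
    field_simp
  choose c b' hb' hcb using hterm
  have hN : ∀ i, ∃ N : ℕ, W.valuation (algebraMap K F (p ^ N * c i)) ≤ 1 := by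
    intro i
    by_cases hc0 : c i = 0
    · exact ⟨0, by rw [hc0, mul_zero, map_zero, map_zero]; exact zero_le_one⟩
    have hcF : algebraMap K F (c i) ≠ 0 := (_root_.map_ne_zero _).2 hc0
    obtain ⟨N, hN⟩ := hW.archimedean (algebraMap K F (c i))⁻¹ _ (inv_ne_zero hcF) hp1
    refine ⟨N, ?_⟩
    have hcpos : 0 < W.valuation (algebraMap K F (c i)) :=
      zero_lt_iff.2 ((_root_.map_ne_zero _).2 hcF)
    rw [map_inv₀] at hN
    rw [map_mul, map_mul, map_pow, map_pow]
    calc _ ≤ (W.valuation (algebraMap K F (c i)))⁻¹ * W.valuation (algebraMap K F (c i)) := by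
          gcongr
      _ = 1 := inv_mul_cancel₀ hcpos.ne'
  choose N hN using hN
  set M := ∑ i, N i with hM
  have hNM : ∀ i, W.valuation (algebraMap K F (p ^ M * c i)) ≤ 1 := by
    intro i
    have h1 : N i ≤ M := Finset.single_le_sum (f := N) (fun _ _ => Nat.zero_le _)
      (Finset.mem_univ i)
    obtain ⟨d, hd⟩ := Nat.exists_eq_add_of_le h1
    have h2 : p ^ M * c i = p ^ d * (p ^ N i * c i) := by rw [hd, pow_add]; ring
    rw [h2, map_mul, map_mul, map_pow, map_pow]
    exact mul_le_one' (pow_le_one' hp1.le d) (hN i)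
  -- the integral multiple
  set y : W := ∑ i, (⟨algebraMap K F (p ^ M * c i), (W.valuation_le_one_iff _).1 (hNM i)⟩ : W) *
    b' i with hy
  have hyR : y ∈ baseR E' K W := by
    refine Subalgebra.sum_mem _ fun i _ => Subalgebra.mul_mem _ ?_ (mem_baseR_E' W _ (hb' i))
    exact mem_baseR_K W ⟨⟨algebraMap K F (p ^ M * c i), (W.valuation_le_one_iff _).1 (hNM i)⟩,
      ⟨p ^ M * c i, rfl⟩⟩
  have hyx : (y : F) = algebraMap K F p ^ M * x := by
    have h1 : (y : F) = W.subtype y := rfl
    rw [h1, hy, map_sum, hx, Finset.mul_sum]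
    refine Finset.sum_congr rfl fun i _ => ?_
    rw [map_mul, hcb i]
    show algebraMap K F (p ^ M * c i) * (b' i : F) = _
    rw [map_mul, map_pow, mul_assoc]
  have hpF : algebraMap K F p ≠ 0 := (_root_.map_ne_zero _).2 hp0
  have hy0 : (y : F) ≠ 0 := by
    rw [hyx]
    exact mul_ne_zero (pow_ne_zero _ hpF) hx0
  obtain ⟨m, hm⟩ := B.val_pow harch y hyR hy0
  rw [hyx, map_mul, map_pow, hπF] at hm
  refine ⟨p ^ m / p ^ M, ?_⟩
  rw [map_div₀, map_div₀, map_pow, map_pow, map_pow, map_pow, ← hm]
  rw [mul_div_cancel_left₀ _ (pow_pos hppos M).ne']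

end P025H16
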