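import Mathlib

/-! # A compactness lemma -/

namespace P025H16

universe u v

/-- If all global solutions `x : ι → V` (`V` finite) of a system of binary relations have a
property depending only on finitely many coordinates, then so have all solutions of a suitable
finite subsystem. -/
theorem exists_finset_of_global {ι : Type u} {V : Type v} [Finite V]
    (R : ι → ι → V → V → Prop) (A₀ : Finset ι) (T : (ι → V) → Prop)
    (hT : ∀ x y : ι → V, (∀ a ∈ A₀, x a = y a) → T x → T y)
    (h : ∀ x : ι → V, (∀ a b, R a b (x a) (x b)) → T x) :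
    ∃ B : Finset ι, ∀ x : ι → V, (∀ a ∈ B, ∀ b ∈ B, R a b (x a) (x b)) → T x := by
  classical
  letI : TopologicalSpace V := ⊥
  haveI : DiscreteTopology V := ⟨rfl⟩
  set C : ι × ι → Set (ι → V) := fun q => {x | R q.1 q.2 (x q.1) (x q.2)} with hC
  set D : Set (ι → V) := {x | ¬ T x} with hD
  have hCclosed : ∀ q, IsClosed (C q) := by
    intro q
    have h1 : C q = (fun x : ι → V => (x q.1, x q.2)) ⁻¹' {v | R q.1 q.2 v.1 v.2} := rfl
    rw [h1]
    exact (isClosed_discrete _).preimage ((continuous_apply _).prodMk (continuous_apply _))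
  have hDclosed : IsClosed D := by
    have h1 : D = (fun (x : ι → V) (a : A₀) => x a) ⁻¹'
        ((fun (x : ι → V) (a : A₀) => x a) '' D) := by
      ext x
      constructor
      · intro hx; exact ⟨x, hx, rfl⟩
      · rintro ⟨y, hy, hxy⟩
        intro hTx
        exact hy (hT x y (fun a ha => (congrFun hxy ⟨a, ha⟩).symm) hTx)
    rw [h1]
    refine (isClosed_discrete _).preimage ?_
    exact continuous_pi (fun a => continuous_apply _)
  have hcomp : IsCompact D := hDclosed.isCompact
  obtain ⟨Q, hQ⟩ := hcomp.elim_finite_subfamily_closed C hCclosed (by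
    rw [Set.eq_empty_iff_forall_notMem]
    rintro x ⟨hx, hx'⟩
    exact hx (h x (fun a b => (Set.mem_iInter.1 hx') (a, b))))
  refine ⟨Q.image Prod.fst ∪ Q.image Prod.snd, fun x hx => ?_⟩
  by_contra hTx
  have : x ∈ D ∩ ⋂ i ∈ Q, C i := by
    refine ⟨hTx, ?_⟩
    rw [Set.mem_iInter₂]
    intro q hq
    exact hx q.1 (Finset.mem_union_left _ (Finset.mem_image_of_mem _ hq)) q.2
      (Finset.mem_union_right _ (Finset.mem_image_of_mem _ hq))
  rw [hQ] at this
  exact this

end P025H16
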