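import Vale.Agent.P025.H16.FermatN

/-! # The statements of `NormCriterion` -/

open P025H641 Polynomial

universe u v w z

namespace P025H16

/-- The Steinberg relation mod `n` for sections: if the values of `g` are divisible by `n`
(by `2 n` if `n` is even) and those of `1 - g` by `n`, then `g = a y ^ n`, `1 - g = b y' ^ n` with
`a`, `b` in `k` and `y`, `y'` fixed by the section, and for all such `a`, `b`, `y`, `y'` the
element `b` is a norm from `k(a ^ (1 / n))`. -/
def SteinbergRelation (n : ℕ) (k : Type u) (K : Type v) [Field k] [Field K] [Algebra k K] :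
    Prop :=
  ∀ (s : Section k K) (g : K), g ≠ 0 → g ≠ 1 →
    IsDivisible (expo n) k g → IsDivisible n k (1 - g) →
      (∃ (a b : k) (y y' : AlgebraicClosure K), a ≠ 0 ∧ b ≠ 0 ∧ s.Fixes y ∧ s.Fixes y' ∧
        emb g = emb (algebraMap k K a) * y ^ n ∧
        emb (1 - g) = emb (algebraMap k K b) * y' ^ n) ∧
      ∀ (a b : k) (y y' : AlgebraicClosure K), s.Fixes y → s.Fixes y' →
        emb g = emb (algebraMap k K a) * y ^ n →
        emb (1 - g) = emb (algebraMap k K b) * y' ^ n → NormTrivial n a b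

/-- The norm criterion, `K₁ = K k₁`: if `g` in `K₁` has norm `b` in `k`, the values of the `h i`
are divisible by `m` and `g ^ m ∏ σ_i(h_i) / h_i` is in `k₁`, then `b` is a norm from `k₁`. -/
def NormCriterion (k : Type u) (k₁ : Type w) (K : Type v) (K₁ : Type z) [Field k] [Field k₁]
    [Field K] [Field K₁] [Algebra k k₁] [Algebra k K] [Algebra K K₁] [Algebra k₁ K₁]
    [Algebra k K₁] : Prop :=
  ∀ (I : Type) [Fintype I] (σ : I → Gal(K₁/K)) (g : K₁) (h : I → K₁) (b : k)
    (c : k₁) (m : ℕ), 0 < m → (∀ i, h i ≠ 0) → Algebra.norm K g = algebraMap k K b →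
    (∀ i, IsDivisible m k (h i)) →
    g ^ m * ∏ i, σ i (h i) = algebraMap k₁ K₁ c * ∏ i, h i →
      ∃ z₁ : k₁, Algebra.norm k z₁ = b

/-- `K` contains a solution of `b y ^ n = f(x)`, `y ≠ 0`, where `n` is the degree of `k₁ / k`, `b`
is not a norm from `k₁`, and `f` is the norm of a polynomial `g` over `k₁` which is prime to its
other conjugates; `n` divides an odd multiple of the degree of `g`, or `k₁ / k` is cyclic and the
degree of `g` is even. -/
def OverNormCurve (k : Type u) (k₁ : Type w) (K : Type v) [Field k] [Field k₁] [Field K]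
    [Algebra k k₁] [Algebra k K] : Prop :=
  ∃ (n : ℕ) (b : k) (f : k[X]) (g : k₁[X]) (x y : K), Module.finrank k k₁ = n ∧
    (∀ z : k₁, Algebra.norm k z ≠ b) ∧
    f.map (algebraMap k k₁) = ∏ᶠ σ : Gal(k₁/k), g.map (σ : k₁ →+* k₁) ∧
    (∀ σ : Gal(k₁/k), σ ≠ 1 → IsCoprime g (g.map (σ : k₁ →+* k₁))) ∧
    ((∃ r : ℕ, n ∣ (2 * r + 1) * g.natDegree) ∨ (IsCyclic Gal(k₁/k) ∧ Even g.natDegree)) ∧
    y ≠ 0 ∧ algebraMap k K b * y ^ n = aeval x f

/-- `K` contains a solution of `a x ^ n + b y ^ n = 1` (`a x ^ (2 n) + b y ^ n = 1` if `n` is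
even), `y ≠ 0`, where `a` and `b` are in `k` and `b` is not a norm from `k(a ^ (1 / n))`. -/
def OverFermatCurve (n : ℕ) (k : Type u) (K : Type v) [Field k] [Field K] [Algebra k K] : Prop :=
  ∃ (a b : k) (x y : K), a ≠ 0 ∧ b ≠ 0 ∧ ¬ NormTrivial n a b ∧ y ≠ 0 ∧
    algebraMap k K a * x ^ expo n + algebraMap k K b * y ^ n = 1

/-- For every `a` in `k` which is not an `n`-th power some `b` is not a norm from
`k(a ^ (1 / n))`. -/
def HasNonNorms (n : ℕ) (k : Type u) [Field k] : Prop :=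
  ∀ a : k, a ≠ 0 → (¬ ∃ c : k, a = c ^ n) → ∃ b : k, b ≠ 0 ∧ ¬ NormTrivial n a b

/-- For some cyclic extension of degree `n` some element of `k` is not a norm. -/
def HasCyclicNonNorm (n : ℕ) (k : Type u) [Field k] : Prop :=
  ∃ (k₁ : Type u) (_ : Field k₁) (_ : Algebra k k₁) (_ : FiniteDimensional k k₁)
    (_ : IsGalois k k₁) (_ : IsCyclic Gal(k₁/k)),
    Module.finrank k k₁ = n ∧ ∃ b : k, b ≠ 0 ∧ ∀ z : k₁, Algebra.norm k z ≠ b

end P025H16
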