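import Vale.Agent.P025.H16.Shadow

open IntermediateField Polynomial
open P025H25 (constClosure GalOf emb NonConst isGalois_const)

namespace P025H16

universe u v w

section branch

variable {k : Type u} [Field k] {K : Type v} [Field K] [Algebra k K]

lemma div_of_pow {p : ℕ} (hp : p.Prime) (V : ValuationSubring K) (x w : K) (n : ℕ)
    (hn : ¬ p ∣ n) (h : V.valuation x ^ n = V.valuation w ^ p) :
    ∃ z : K, V.valuation x = V.valuation z ^ p := by
  by_cases hx : x = 0
  · exact ⟨0, by rw [hx, map_zero, zero_pow hp.ne_zero]⟩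
  have hx' : V.valuation x ≠ 0 := (_root_.map_ne_zero _).2 hx
  have hcop : Nat.Coprime n p := ((hp.coprime_iff_not_dvd).2 hn).symm
  -- `n r = 1 + p q`
  obtain ⟨r, q, hrq⟩ : ∃ r q : ℕ, n * r = 1 + p * q := by
    obtain ⟨r, hr⟩ := Nat.exists_mul_mod_eq_one_of_coprime hcop hp.one_lt
    refine ⟨r, n * r / p, ?_⟩
    have := Nat.mod_add_div (n * r) p
    rw [hr.2] at this
    exact this.symm
  refine ⟨w ^ r / x ^ q, ?_⟩
  have h1 : V.valuation x * (V.valuation x ^ q) ^ p = (V.valuation w ^ r) ^ p := by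
    rw [← pow_mul, ← pow_mul, mul_comm r p, pow_mul _ p r, ← h, ← pow_mul, hrq, pow_add, pow_one,
      mul_comm q p]
  rw [map_div₀, map_pow, map_pow, div_pow, ← h1, mul_div_cancel_right₀ _ (pow_ne_zero p
    (pow_ne_zero q hx'))]

lemma val_sub_of_pole {V : ValuationSubring K} (hV : IsPlace k K V) (t : K)
    (ht : 1 < V.valuation t) (a : k) : V.valuation (t - algebraMap k K a) = V.valuation t :=
  Valuation.map_sub_eq_of_lt_left _ ((hV.val_const_le a).trans_lt ht)

lemma val_other {V : ValuationSubring K} (hV : IsPlace k K V) (t : K) (a b : k) (hab : a ≠ b)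
    (h : V.valuation (t - algebraMap k K a) < 1) : V.valuation (t - algebraMap k K b) = 1 := by
  have h1 : t - algebraMap k K b = algebraMap k K (a - b) + (t - algebraMap k K a) := by
    rw [map_sub]; ring
  have h2 : V.valuation (algebraMap k K (a - b)) = 1 := hV.val_const (sub_ne_zero.2 hab)
  rw [h1, Valuation.map_add_eq_of_lt_left, h2]
  rw [h2]; exact h

/-- poles of `t` -/
lemma pole_div {p : ℕ} (hp : p.Prime) {V : ValuationSubring K} (hV : IsPlace k K V) (t : K)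
    (ht : 1 < V.valuation t) (S : Finset k) (m : k → ℕ) (hm : ¬ p ∣ ∑ a ∈ S, m a) (c : k)
    (hc : c ≠ 0) (w : K) (hw : algebraMap k K c * w ^ p = ∏ a ∈ S, (t - algebraMap k K a) ^ m a) :
    ∃ z : K, V.valuation t = V.valuation z ^ p := by
  apply div_of_pow hp V t w _ hm
  have h1 := congrArg V.valuation hw
  rw [map_mul, hV.val_const hc, one_mul, map_prod] at h1
  rw [← map_pow V.valuation w, h1, ← Finset.prod_pow_eq_pow_sum]
  refine Finset.prod_congr rfl (fun a _ => ?_)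
  rw [map_pow, val_sub_of_pole hV t ht a]

theorem isDiv_of_relation {p : ℕ} (hp : p.Prime) (t : K) (S : Finset k) (m : k → ℕ) (c : k)
    (hc : c ≠ 0) (w : K) (hw : algebraMap k K c * w ^ p = ∏ a ∈ S, (t - algebraMap k K a) ^ m a)
    (a : k) (ha : a ∈ S) (hma : ¬ p ∣ m a) (S' : Finset k) (m' : k → ℕ)
    (hm' : ¬ p ∣ ∑ a ∈ S', m' a) (c' : k) (hc' : c' ≠ 0) (w' : K)
    (hw' : algebraMap k K c' * w' ^ p = ∏ a ∈ S', (t - algebraMap k K a) ^ m' a) :
    IsDiv p k (t - algebraMap k K a) := by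
  intro V hV
  rcases le_or_gt (V.valuation t) 1 with hle | hgt
  · have hle' : V.valuation (t - algebraMap k K a) ≤ 1 :=
      (V.valuation.map_sub _ _).trans (max_le hle (hV.val_const_le a))
    by_cases h1 : V.valuation (t - algebraMap k K a) = 1
    · exact ⟨1, by rw [h1, map_one, one_pow]⟩
    have hlt := lt_of_le_of_ne hle' h1
    apply div_of_pow hp V _ w _ hma
    have h2 := congrArg V.valuation hw
    rw [map_mul, hV.val_const hc, one_mul, map_prod, Finset.prod_eq_single a, map_pow, map_pow]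
      at h2
    · exact h2.symm
    · intro b _ hba
      rw [map_pow, val_other hV t a b hba.symm hlt, one_pow]
    · intro h; exact absurd ha h
  · obtain ⟨z, hz⟩ := pole_div hp hV t hgt S' m' hm' c' hc' w' hw'
    exact ⟨z, by rw [val_sub_of_pole hV t hgt, hz]⟩

theorem isDiv_of_pair {p : ℕ} (hp : p.Prime) (t : K) (b b' : k) (hb : b ≠ b') (u : K)
    (hu : u ^ p * (t - algebraMap k K b') = t - algebraMap k K b) (S' : Finset k) (m' : k → ℕ)
    (hm' : ¬ p ∣ ∑ a ∈ S', m' a) (c' : k) (hc' : c' ≠ 0) (w' : K)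
    (hw' : algebraMap k K c' * w' ^ p = ∏ a ∈ S', (t - algebraMap k K a) ^ m' a) :
    IsDiv p k (t - algebraMap k K b) := by
  intro V hV
  rcases le_or_gt (V.valuation t) 1 with hle | hgt
  · have hle' : V.valuation (t - algebraMap k K b) ≤ 1 :=
      (V.valuation.map_sub _ _).trans (max_le hle (hV.val_const_le b))
    by_cases h1 : V.valuation (t - algebraMap k K b) = 1
    · exact ⟨1, by rw [h1, map_one, one_pow]⟩
    have hlt := lt_of_le_of_ne hle' h1
    refine ⟨u, ?_⟩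
    have h2 := congrArg V.valuation hu
    rw [map_mul, map_pow, val_other hV t b b' hb hlt, mul_one] at h2
    exact h2.symm
  · obtain ⟨z, hz⟩ := pole_div hp hV t hgt S' m' hm' c' hc' w' hw'
    exact ⟨z, by rw [val_sub_of_pole hV t hgt, hz]⟩

end branch

section pairs

variable {k : Type u} [Field k]

/-- Pairs of auxiliary branch points: every `z ∉ A₀` can be moved, without changing the classes of
`z - a`, `a ∈ A₀`, to a `z'` such that `z' - b` and `z' - b'` have the same class for all pairs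
`(b, b')`. -/
def GoodPairs (p : ℕ) (A₀ : Finset k) (B : Finset (k × k)) : Prop :=
  (∀ q ∈ B, q.1 ≠ q.2) ∧ ∀ z : k, (∀ a ∈ A₀, z ≠ a) → ∃ z' : k,
    (∀ a ∈ A₀, z' ≠ a ∧ SameClass p (z' - a) (z - a)) ∧
      ∀ q ∈ B, z' ≠ q.1 ∧ z' ≠ q.2 ∧ SameClass p (z' - q.1) (z' - q.2)

/-- `c_j w_j^p = ∏_{a ∈ S_j} (t - a)^{m_j(a)}` for all `j`, with `c_j ≠ 0`. -/
def OnCurve (p : ℕ) {K : Type v} [Field K] [Algebra k K] {J : Type w} (S : J → Finset k)
    (m : J → k → ℕ) (c : J → k) (t : K) (wf : J → K) : Prop :=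
  ∀ j, c j ≠ 0 ∧ algebraMap k K (c j) * wf j ^ p = ∏ a ∈ S j, (t - algebraMap k K a) ^ m j a

/-- every point of `A` and the point `∞` is a branch point -/
def IsBranchSet (p : ℕ) (A : Finset k) {J : Type w} (S : J → Finset k) (m : J → k → ℕ) : Prop :=
  (∀ j, S j ⊆ A) ∧ (∀ a ∈ A, ∃ j, a ∈ S j ∧ ¬ p ∣ m j a) ∧ ∃ j, ¬ p ∣ ∑ a ∈ S j, m j a

end pairs

section main

variable {k : Type u} {K : Type v} [Field k] [Field K] [Algebra k K] [CharZero k]
variable {s : Gal(constClosure k K/k) →* Gal(maxUnr k K/K)}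

theorem curve_point {p : ℕ} (hp : p.Prime) {ζ : k} (hζ : IsPrimitiveRoot ζ p)
    (hs : IsSection k K s) (t : K) (ht : ∀ z : k, t ≠ algebraMap k K z) (A A₀ : Finset k)
    (B : Finset (k × k)) (hA₀ : A₀ ⊆ A) (hrig : RigidOn p ζ A A₀)
    (hAB : ∀ a ∈ A, a ∈ A₀ ∨ ∃ b', (a, b') ∈ B) (hB : GoodPairs p A₀ B) {J : Type w}
    (S : J → Finset k) (m : J → k → ℕ) (c : J → k) (wf : J → K) (hS : IsBranchSet p A₀ S m)
    (hw : OnCurve p S m c t wf) (uf : k × k → K)
    (hu : ∀ q ∈ B, uf q ^ p * (t - algebraMap k K q.2) = t - algebraMap k K q.1) :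
    ∃ (z : k) (η : J → k) (y : k → maxUnr k K),
      (∀ a ∈ A₀, z ≠ a ∧ (∀ σ, s σ (y a) = y a) ∧
        algebraMap K (maxUnr k K) (t - algebraMap k K a) =
          algebraMap k (maxUnr k K) (z - a) * y a ^ p) ∧
      (∀ j, c j * η j ^ p = ∏ a ∈ S j, (z - a) ^ m j a ∧
        algebraMap K (maxUnr k K) (wf j) =
          algebraMap k (maxUnr k K) (η j) * ∏ a ∈ S j, y a ^ m j a) ∧
      ∀ q ∈ B, z ≠ q.1 ∧ z ≠ q.2 ∧ SameClass p (z - q.1) (z - q.2) := by
  obtain ⟨hSA, hbr, j', hj'⟩ := hS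
  obtain ⟨z₀, hz₀⟩ := kummer_shadow hp hζ hs t ht A A₀ hA₀ hrig (by
    intro a ha
    rcases hAB a ha with h | ⟨b', hb'⟩
    · obtain ⟨j, hj, hmj⟩ := hbr a h
      exact isDiv_of_relation hp t (S j) (m j) (c j) (hw j).1 (wf j) (hw j).2 a hj hmj (S j')
        (m j') hj' (c j') (hw j').1 (wf j') (hw j').2
    · exact isDiv_of_pair hp t a b' (hB.1 _ hb') (uf (a, b')) (hu _ hb') (S j') (m j') hj' (c j')
        (hw j').1 (wf j') (hw j').2)
  obtain ⟨z, hz1, hz2⟩ := hB.2 z₀ (fun a ha => (hz₀ a ha).1)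
  have hy : ∀ a ∈ A₀, ∃ y : maxUnr k K, (∀ σ, s σ y = y) ∧ y ≠ 0 ∧
      algebraMap K (maxUnr k K) (t - algebraMap k K a) =
        algebraMap k (maxUnr k K) (z - a) * y ^ p := by
    intro a ha
    obtain ⟨-, y, hfix, hy0, hty⟩ := hz₀ a ha
    obtain ⟨e, he0, he⟩ := (hz1 a ha).2.symm
    refine ⟨algebraMap k (maxUnr k K) e * y, ?_, ?_, ?_⟩
    · intro σ
      rw [map_mul, s_const, hfix]
    · exact mul_ne_zero ((_root_.map_ne_zero _).2 he0) hy0
    · rw [hty, he, map_mul, map_pow, mul_pow, mul_assoc]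
  choose! y hyfix hy0 hty using hy
  have heta : ∀ j, ∃ η : k, algebraMap K (maxUnr k K) (wf j) =
        algebraMap k (maxUnr k K) η * ∏ a ∈ S j, y a ^ m j a ∧
      c j * η ^ p = ∏ a ∈ S j, (z - a) ^ m j a := by
    intro j
    exact exists_eta hp hs (c j) (hw j).1 (wf j) (S j) (m j) (fun a => t - algebraMap k K a)
      (fun a => z - a) y (fun a ha => hyfix a (hSA j ha)) (fun a ha => hy0 a (hSA j ha))
      (fun a ha => hty a (hSA j ha)) (hw j).2
  choose η hη1 hη2 using heta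
  exact ⟨z, η, y, fun a ha => ⟨(hz1 a ha).1, hyfix a ha, hty a ha⟩,
    fun j => ⟨hη2 j, hη1 j⟩, hz2⟩

theorem section_gives_place {p : ℕ} (hp : p.Prime) {ζ : k} (hζ : IsPrimitiveRoot ζ p)
    (hs : IsSection k K s) (t : K) (ht : Transcendental k t) (A A₀ : Finset k)
    (B : Finset (k × k)) (hA₀ : A₀ ⊆ A) (hrig : RigidOn p ζ A A₀)
    (hAB : ∀ a ∈ A, a ∈ A₀ ∨ ∃ b', (a, b') ∈ B) (hB : GoodPairs p A₀ B) {J : Type w}
    (S : J → Finset k) (m : J → k → ℕ) (c : J → k) (wf : J → K) (hS : IsBranchSet p A₀ S m)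
    (hw : OnCurve p S m c t wf) (uf : k × k → K)
    (hu : ∀ q ∈ B, uf q ^ p * (t - algebraMap k K q.2) = t - algebraMap k K q.1)
    (hgen : IntermediateField.adjoin k ({t} ∪ Set.range wf ∪ uf '' B) = ⊤) :
    ∃ V : ValuationSubring K, IsRatPlace k K V := by
  classical
  have ht' : ∀ z : k, t ≠ algebraMap k K z := by
    intro z h
    apply ht
    rw [h]
    exact isAlgebraic_algebraMap z
  obtain ⟨z, η, y, hz1, hz2, hz3⟩ := curve_point hp hζ hs t ht' A A₀ B hA₀ hrig hAB hB S m c wf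
    hS hw uf hu
  have htb : ∀ b : k, t - algebraMap k K b ≠ 0 := fun b => sub_ne_zero.2 (ht' b)
  have hpair : ∀ q : {q : k × k // q ∈ B}, ∃ e : k,
      z - q.1.1 = (z - q.1.2) * e ^ p := fun q => by
    obtain ⟨e, -, he⟩ := (hz3 q.1 q.2).2.2
    exact ⟨e, he⟩
  choose e he using hpair
  set S₂ : J ⊕ {q : k × k // q ∈ B} → Finset k :=
    Sum.elim S (fun q => {q.1.1, q.1.2}) with hS₂
  set m₂ : J ⊕ {q : k × k // q ∈ B} → k → ℕ :=
    Sum.elim m (fun q b => if b = q.1.1 then 1 else p - 1) with hm₂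
  set c₂ : J ⊕ {q : k × k // q ∈ B} → k := Sum.elim c (fun _ => 1) with hc₂
  set w₂ : J ⊕ {q : k × k // q ∈ B} → K :=
    Sum.elim wf (fun q => uf q.1 * (t - algebraMap k K q.1.2)) with hw₂
  have hp1 : 1 + (p - 1) = p := by have := hp.pos; omega
  refine exists_ratPlace hp hζ t ht S₂ m₂ c₂ ?_ w₂ ?_ ?_ z ?_
    (Sum.elim η (fun q => e q * (z - q.1.2))) ?_
  · rintro (j | q)
    · exact (hw j).1
    · exact one_ne_zero
  · rintro (j | q)
    · exact (hw j).2
    · have hne : q.1.1 ≠ q.1.2 := hB.1 _ q.2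
      show algebraMap k K 1 * (uf q.1 * (t - algebraMap k K q.1.2)) ^ p =
        ∏ b ∈ {q.1.1, q.1.2}, (t - algebraMap k K b) ^ (if b = q.1.1 then 1 else p - 1)
      rw [Finset.prod_pair hne, if_pos rfl, if_neg hne.symm, pow_one, map_one, one_mul, mul_pow,
        ← hu q.1 q.2, mul_assoc]
      congr 1
      conv_lhs => rw [← hp1, pow_add, pow_one]
  · rw [eq_top_iff, ← hgen, IntermediateField.adjoin_le_iff]
    have hmemt : t ∈ IntermediateField.adjoin k ({t} ∪ Set.range w₂) :=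
      IntermediateField.subset_adjoin k _ (Or.inl rfl)
    rintro x ((hx | ⟨j, rfl⟩) | ⟨q, hq, rfl⟩)
    · rw [Set.mem_singleton_iff] at hx
      rw [hx]
      exact hmemt
    · exact IntermediateField.subset_adjoin k _ (Or.inr ⟨Sum.inl j, rfl⟩)
    · have h1 : uf q * (t - algebraMap k K q.2) ∈
          IntermediateField.adjoin k ({t} ∪ Set.range w₂) :=
        IntermediateField.subset_adjoin k _ (Or.inr ⟨Sum.inr ⟨q, hq⟩, rfl⟩)
      have h2 : t - algebraMap k K q.2 ∈ IntermediateField.adjoin k ({t} ∪ Set.range w₂) :=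
        sub_mem hmemt (IntermediateField.algebraMap_mem _ _)
      have h3 := div_mem h1 h2
      rwa [mul_div_cancel_right₀ _ (htb q.2)] at h3
  · rintro (j | q) a ha
    · exact (hz1 a (hS.1 j ha)).1
    · have h1 := hz3 q.1 q.2
      have ha' : a = q.1.1 ∨ a = q.1.2 := by
        have : a ∈ ({q.1.1, q.1.2} : Finset k) := ha
        simpa using this
      rcases ha' with h | h
      · rw [h]; exact h1.1
      · rw [h]; exact h1.2.1
  · rintro (j | q)
    · exact (hz2 j).1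
    · have hne : q.1.1 ≠ q.1.2 := hB.1 _ q.2
      show 1 * (e q * (z - q.1.2)) ^ p =
        ∏ b ∈ {q.1.1, q.1.2}, (z - b) ^ (if b = q.1.1 then 1 else p - 1)
      rw [Finset.prod_pair hne, if_pos rfl, if_neg hne.symm, pow_one, one_mul, mul_pow, he q]
      conv_lhs => rw [← hp1, pow_add, pow_add, pow_one, pow_one]
      conv_rhs => rw [← hp1, pow_add, pow_one]
      rw [Nat.add_sub_cancel_left]
      ring

end main

end P025H16
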