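import Vale.Agent.P025.H25.Stmt

/-!
# Function field language for the p-adic section conjecture, general `p`

As in `H25/Stmt.lean`, but with places of rank one (for a function field of one variable over `k`
every valuation ring `≠ K` containing `k` is of this kind) and with `p`-th powers in place of
squares.
-/

open IntermediateField P025H25

namespace P025H16

universe u v w

/-- A place of the field `E` over `k`: a valuation subring of `E` containing `k`, different
from `E` itself, of rank one. -/
structure IsPlace (k : Type u) (E : Type v) [Field k] [Field E] [Algebra k E]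
    (V : ValuationSubring E) : Prop where
  const_mem : ∀ c : k, algebraMap k E c ∈ V
  ne_top : V ≠ ⊤
  rank_one : ∀ x y : E, x ≠ 0 → V.valuation y < 1 →
    ∃ n : ℕ, V.valuation y ^ n < V.valuation x

/-- A place of `E` over `k` with residue field `k`. -/
structure IsRatPlace (k : Type u) (E : Type v) [Field k] [Field E] [Algebra k E]
    (V : ValuationSubring E) : Prop extends IsPlace k E V where
  residue : ∀ x ∈ V, ∃ c : k, V.valuation (x - algebraMap k E c) < 1

/-- `E/K` is unramified at all places of `E` over `k`: every value of a place `V` of `E`
is already the value of an element of `K`. -/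
def IsUnramified (k : Type u) (K : Type v) (E : Type w) [Field k] [Field K] [Field E]
    [Algebra k E] [Algebra K E] : Prop :=
  ∀ V : ValuationSubring E, IsPlace k E V →
    ∀ x : E, ∃ y : K, V.valuation (algebraMap K E y) = V.valuation x

/-- The maximal unramified extension of `K` in its algebraic closure: the compositum of all
finite extensions of `K` that are unramified at all places over `k`. -/
noncomputable def maxUnr (k : Type u) (K : Type v) [Field k] [Field K] [Algebra k K] :
    IntermediateField K (AlgebraicClosure K) :=
  sSup {E : IntermediateField K (AlgebraicClosure K) |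
    FiniteDimensional K E ∧ IsUnramified k K E}

/-- A section of `Gal(maxUnr k K / K) → Gal(constClosure k K / k)`: a continuous homomorphism
such that the image of `σ` acts on constants as `σ`. -/
structure Section (k : Type u) (K : Type v) [Field k] [Field K] [Algebra k K] where
  hom : GalOf (constClosure k K) →* GalOf (maxUnr k K)
  cont : Continuous hom
  lifts : ∀ (σ : GalOf (constClosure k K)) (x y : AlgebraicClosure K),
    σ.Maps x y → x ∈ maxUnr k K → (hom σ).Maps x y

/-- the value of `f` at every place of `F` over `k` is divisible by `p`. -/
def IsDiv (p : ℕ) (k : Type u) {F : Type v} [Field k] [Field F] [Algebra k F] (f : F) : Prop :=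
  ∀ V : ValuationSubring F, IsPlace k F V → ∃ y : F, V.valuation f = V.valuation y ^ p

/-- `y` lies in the maximal unramified extension and is fixed by the section. -/
def Section.Fixes {k : Type u} {K : Type v} [Field k] [Field K] [Algebra k K]
    (s : Section k K) (y : AlgebraicClosure K) : Prop :=
  ∀ σ, (s.hom σ).Maps y y

/-- `s` is a section of `Gal(maxUnr k K / K) → Gal(constClosure k K / k)`: it is continuous and
`s σ` acts on constants as `σ`. -/
structure IsSection (k : Type u) (K : Type v) [Field k] [Field K] [Algebra k K]
    (s : Gal(constClosure k K/k) →* Gal(maxUnr k K/K)) : Prop where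
  continuous : Continuous s
  lifts : ∀ (σ : Gal(constClosure k K/k)) (x : constClosure k K) (y : maxUnr k K),
    (x : AlgebraicClosure K) = (y : AlgebraicClosure K) →
      ((σ x : constClosure k K) : AlgebraicClosure K) =
        ((s σ y : maxUnr k K) : AlgebraicClosure K)

/-- the homomorphism underlying a section -/
noncomputable def Section.toHom {k : Type u} {K : Type v} [Field k] [Field K] [Algebra k K]
    (s : Section k K) : Gal(constClosure k K/k) →* Gal(maxUnr k K/K) := s.hom

lemma Section.isSection {k : Type u} {K : Type v} [Field k] [Field K] [Algebra k K]
    (s : Section k K) : IsSection k K s.toHom where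
  continuous := s.cont
  lifts := by
    intro σ x y hxy
    obtain ⟨y', hy', h⟩ := s.lifts σ (x : AlgebraicClosure K) (σ x : constClosure k K)
      ⟨x, rfl, rfl⟩ (by rw [hxy]; exact y.2)
    have : y' = y := Subtype.ext (hy'.trans hxy)
    rw [this] at h
    exact h.symm

lemma Section.fixes_of {k : Type u} {K : Type v} [Field k] [Field K] [Algebra k K]
    (s : Section k K) (y : maxUnr k K) (h : ∀ σ, s.toHom σ y = y) :
    s.Fixes (y : AlgebraicClosure K) := by
  intro σ
  exact ⟨y, rfl, congrArg (fun z : maxUnr k K => (z : AlgebraicClosure K)) (h σ)⟩

/-- `x` is a norm from `k(g^{1/p})` (formulated with polynomials): for some polynomial `q` the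
product of the `q(ζ^i T)` is congruent to `x` modulo `T^p - g`. -/
def IsNormP (p : ℕ) {k : Type u} [Field k] (ζ g x : k) : Prop :=
  ∃ q : Polynomial k, (Polynomial.X ^ p - Polynomial.C g) ∣
    (∏ i ∈ Finset.range p, q.comp (Polynomial.C (ζ ^ i) * Polynomial.X) - Polynomial.C x)

end P025H16
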