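import Vale.Agent.P025.H641.Plc

/-! # Values of polynomials in a function, with constant coefficients -/

open Polynomial

namespace P025H16

universe u v w

open P025H641

variable {k : Type u} [Field k] {F : Type w} [Field F] [Algebra k F] {V : ValuationSubring F}
  {k₁ : Type v} [Field k₁] (ι : k₁ →+* F)

/-- constants have value at most one -/
lemma val_const_le' (hV : IsPlace k F V) (hι : ∀ c, IsIntegral k (ι c)) (c : k₁) :
    V.valuation (ι c) ≤ 1 :=
  (V.valuation_le_one_iff _).2 (hV.mem_of_isIntegral (hι c))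

/-- values of polynomials at integral elements -/
lemma val_eval_le (hV : IsPlace k F V) (hι : ∀ c, IsIntegral k (ι c)) (g : k₁[X]) (x : F)
    (hx : V.valuation x ≤ 1) : V.valuation (eval₂ ι x g) ≤ 1 := by
  rw [eval₂_eq_sum_range]
  refine V.valuation.map_sum_le (fun i _ => ?_)
  rw [map_mul, map_pow]
  exact mul_le_one' (val_const_le' ι hV hι _) (pow_le_one' hx i)

/-- values of polynomials at poles -/
lemma val_eval_pole (hV : IsPlace k F V) (hι : ∀ c, IsIntegral k (ι c)) (g : k₁[X]) (hg : g ≠ 0)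
    (x : F) (hx : 1 < V.valuation x) :
    V.valuation (eval₂ ι x g) = V.valuation x ^ g.natDegree := by
  have hx0 : V.valuation x ≠ 0 := (zero_lt_one.trans hx).ne'
  have hlc : V.valuation (ι g.leadingCoeff) = 1 :=
    hV.val_alg (hι _) ((_root_.map_ne_zero ι).2 (leadingCoeff_ne_zero.2 hg))
  have h1 : V.valuation (ι (g.coeff g.natDegree) * x ^ g.natDegree) =
      V.valuation x ^ g.natDegree := by
    rw [map_mul, map_pow, coeff_natDegree, hlc, one_mul]
  rw [eval₂_eq_sum_range, Finset.sum_range_succ, add_comm, Valuation.map_add_eq_of_lt_left, h1]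
  rw [h1]
  refine V.valuation.map_sum_lt (pow_ne_zero _ hx0) (fun i hi => ?_)
  rw [map_mul, map_pow]
  have h2 : V.valuation x ^ i < V.valuation x ^ g.natDegree :=
    pow_lt_pow_right₀ hx (Finset.mem_range.1 hi)
  refine lt_of_le_of_lt ?_ h2
  calc V.valuation (ι (g.coeff i)) * V.valuation x ^ i ≤ 1 * V.valuation x ^ i :=
        mul_le_mul_left (val_const_le' ι hV hι _) _
    _ = _ := one_mul _

/-- a factor prime to the cofactor is divisible where `x` has no pole -/
lemma val_eval_factor (hV : IsPlace k F V) (hι : ∀ c, IsIntegral k (ι c)) (g g' : k₁[X])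
    (hcop : IsCoprime g g') (x b y : F) (hb : V.valuation b = 1) {p : ℕ}
    (h : eval₂ ι x g * eval₂ ι x g' = b * y ^ p) (hx : V.valuation x ≤ 1) :
    ∃ e : F, V.valuation (eval₂ ι x g) = V.valuation e ^ p := by
  have h1 := val_eval_le ι hV hι g x hx
  rcases h1.lt_or_eq with hlt | heq
  · obtain ⟨A, B, hAB⟩ := hcop
    have h2 : eval₂ ι x A * eval₂ ι x g + eval₂ ι x B * eval₂ ι x g' = 1 := by
      rw [← eval₂_mul, ← eval₂_mul, ← eval₂_add, hAB, eval₂_one]
    have h3 : V.valuation (eval₂ ι x A * eval₂ ι x g) < 1 := by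
      rw [map_mul]
      calc V.valuation (eval₂ ι x A) * V.valuation (eval₂ ι x g) ≤
          1 * V.valuation (eval₂ ι x g) := mul_le_mul_left (val_eval_le ι hV hι A x hx) _
        _ < 1 := by rw [one_mul]; exact hlt
    have h4 : V.valuation (eval₂ ι x B * eval₂ ι x g') = 1 := by
      have h5 : eval₂ ι x B * eval₂ ι x g' = 1 - eval₂ ι x A * eval₂ ι x g := by
        rw [← h2]; ring
      rw [h5, Valuation.map_sub_eq_of_lt_left, map_one]
      rw [map_one]; exact h3
    have h6 : V.valuation (eval₂ ι x g') = 1 := by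
      apply le_antisymm (val_eval_le ι hV hι g' x hx)
      rw [map_mul] at h4
      rw [← h4]
      calc V.valuation (eval₂ ι x B) * V.valuation (eval₂ ι x g') ≤
          1 * V.valuation (eval₂ ι x g') := mul_le_mul_left (val_eval_le ι hV hι B x hx) _
        _ = _ := one_mul _
    refine ⟨y, ?_⟩
    have h7 := congrArg V.valuation h
    rw [map_mul, map_mul, h6, mul_one, hb, one_mul, map_pow] at h7
    exact h7
  · exact ⟨1, by rw [heq, map_one, one_pow]⟩

/-- quotients of factors of the same degree are divisible -/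
lemma isDivisible_eval_quot (hι : ∀ c, IsIntegral k (ι c)) (g g' h h' : k₁[X])
    (hg : IsCoprime g g') (hh : IsCoprime h h') (hg0 : g ≠ 0) (hh0 : h ≠ 0)
    (hdeg : g.natDegree = h.natDegree) (x b y : F) (hb : IsIntegral k b) (hb0 : b ≠ 0) {p : ℕ}
    (h1 : eval₂ ι x g * eval₂ ι x g' = b * y ^ p)
    (h2 : eval₂ ι x h * eval₂ ι x h' = b * y ^ p) :
    IsDivisible p k (eval₂ ι x h / eval₂ ι x g) := by
  intro V hV
  have hbv := hV.val_alg hb hb0
  rcases le_or_gt (V.valuation x) 1 with hx | hx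
  · obtain ⟨e1, he1⟩ := val_eval_factor ι hV hι g g' hg x b y hbv h1 hx
    obtain ⟨e2, he2⟩ := val_eval_factor ι hV hι h h' hh x b y hbv h2 hx
    exact ⟨e2 / e1, by rw [map_div₀, map_div₀, he1, he2, div_pow]⟩
  · refine ⟨1, ?_⟩
    have hx0 : V.valuation x ≠ 0 := (zero_lt_one.trans hx).ne'
    rw [map_div₀, val_eval_pole ι hV hι g hg0 x hx, val_eval_pole ι hV hι h hh0 x hx, hdeg,
      div_self (pow_ne_zero _ hx0), map_one, one_pow]

/-- factors of degree divisible by `p` are divisible -/
lemma isDivisible_eval (hι : ∀ c, IsIntegral k (ι c)) (g g' : k₁[X])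
    (hg : IsCoprime g g') (hg0 : g ≠ 0) {p : ℕ}
    (hdeg : p ∣ g.natDegree) (x b y : F) (hb : IsIntegral k b) (hb0 : b ≠ 0)
    (h1 : eval₂ ι x g * eval₂ ι x g' = b * y ^ p) :
    IsDivisible p k (eval₂ ι x g) := by
  intro V hV
  have hbv := hV.val_alg hb hb0
  rcases le_or_gt (V.valuation x) 1 with hx | hx
  · exact val_eval_factor ι hV hι g g' hg x b y hbv h1 hx
  · obtain ⟨m, hm⟩ := hdeg
    refine ⟨x ^ m, ?_⟩
    rw [val_eval_pole ι hV hι g hg0 x hx, hm, map_pow, ← pow_mul, mul_comm]

end P025H16
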