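import Mathlib

/-! # Valuation rings of function fields of one variable are discrete -/

namespace P025H16

open IntermediateField IsDedekindDomain IsDedekindDomain.HeightOneSpectrum
open scoped algebraAdjoinAdjoin

universe u v

variable {k : Type u} {E : Type v} [Field k] [CharZero k] [Field E] [Algebra k E]

omit [CharZero k] in
lemma adjoin_inv (t : E) : k⟮t⁻¹⟯ = k⟮t⟯ := by
  apply le_antisymm
  · rw [adjoin_simple_le_iff]
    exact inv_mem (mem_adjoin_simple_self k t)
  · rw [adjoin_simple_le_iff]
    have := inv_mem (mem_adjoin_simple_self k t⁻¹)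
    rwa [inv_inv] at this

lemma dvr_atPrime (R : Type*) [CommRing R] [IsDedekindDomain R] (F : Type*) [Field F] [Algebra R F]
    [IsFractionRing R F] (v : HeightOneSpectrum R) :
    IsDiscreteValuationRing (valuationSubringAtPrime F v) :=
  have : IsLocalization.AtPrime (valuationSubringAtPrime F v) v.asIdeal :=
    inferInstanceAs (IsLocalization (v.asIdeal.primeCompl) (valuationSubringAtPrime F v))
  IsLocalization.AtPrime.isDiscreteValuationRing_of_dedekind_domain R v.ne_bot
    (valuationSubringAtPrime F v)

theorem dvr_aux (t : E) [FiniteDimensional k⟮t⟯ E] (V : ValuationSubring E)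
    (hk : ∀ c : k, algebraMap k E c ∈ V) (ht : t ∈ V) (hV : V ≠ ⊤) :
    IsDiscreteValuationRing V := by
  classical
  set A := Algebra.adjoin k {t} with hA
  have hAV : ∀ a : A, (a : E) ∈ V := by
    rintro ⟨a, ha⟩
    exact Algebra.adjoin_induction (p := fun x _ => x ∈ V) (fun x hx => by
      rw [Set.mem_singleton_iff.1 hx]; exact ht) (fun c => hk c)
      (fun x y _ _ hx hy => add_mem hx hy) (fun x y _ _ hx hy => mul_mem hx hy) ha
  -- `A` is a principal ideal domain
  have hpir : IsPrincipalIdealRing A := by
    have hr : (Polynomial.aeval (R := k) t).range = A := by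
      rw [hA, Algebra.adjoin_singleton_eq_range_aeval]
    let f : Polynomial k →ₐ[k] A :=
      (Subalgebra.inclusion hr.le).comp (Polynomial.aeval (R := k) t).rangeRestrict
    have hf : Function.Surjective f := by
      rintro ⟨x, hx⟩
      rw [← hr] at hx
      obtain ⟨q, rfl⟩ := hx
      exact ⟨q, rfl⟩
    exact IsPrincipalIdealRing.of_surjective f.toRingHom hf
  have hded : IsDedekindDomain A := inferInstance
  have hsep : Algebra.IsSeparable k⟮t⟯ E := inferInstance
  have hB : IsDedekindDomain (integralClosure A E) :=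
    integralClosure.isDedekindDomain A k⟮t⟯ E
  have hfrac : IsFractionRing (integralClosure A E) E :=
    integralClosure.isFractionRing_of_finite_extension k⟮t⟯ E
  -- the integral closure lies in `V`
  let ι : A →+* V := (algebraMap A E).codRestrict V.toSubring hAV
  have hBV : ∀ b : integralClosure A E, (b : E) ∈ V := by
    rintro ⟨b, f, hf, hfb⟩
    have h1 : IsIntegral V b := by
      refine ⟨f.map ι, hf.map ι, ?_⟩
      rw [Polynomial.eval₂_map]
      exact hfb
    obtain ⟨y, hy⟩ := IsIntegrallyClosed.isIntegral_iff.1 h1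
    have h2 : b ∈ V := hy ▸ y.2
    exact h2
  let ιB : integralClosure A E →+* V := (algebraMap (integralClosure A E) E).codRestrict
    V.toSubring hBV
  let P : Ideal (integralClosure A E) := (IsLocalRing.maximalIdeal V).comap ιB
  have hPmem : ∀ b, b ∈ P ↔ ιB b ∈ IsLocalRing.maximalIdeal V := fun b => Iff.rfl
  have hPinv : ∀ b, b ∉ P → ((b : E))⁻¹ ∈ V := by
    intro b hb
    rw [hPmem, IsLocalRing.mem_maximalIdeal, mem_nonunits_iff, not_not] at hb
    obtain ⟨c, hc⟩ := isUnit_iff_exists_inv.1 hb
    have h1 : (b : E) * (c : E) = 1 := by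
      have := congrArg (fun x : V => (x : E)) hc
      exact this
    rw [inv_eq_of_mul_eq_one_right h1]
    exact c.2
  have hP0 : P ≠ ⊥ := by
    intro h0
    apply hV
    rw [eq_top_iff]
    intro x _
    obtain ⟨a, b, hb, rfl⟩ := IsFractionRing.div_surjective (A := integralClosure A E) x
    have hb0 : b ∉ P := by
      rw [h0, Ideal.mem_bot]
      exact nonZeroDivisors.ne_zero hb
    rw [div_eq_mul_inv]
    exact mul_mem (hBV a) (hPinv b hb0)
  let v : HeightOneSpectrum (integralClosure A E) := ⟨P, inferInstance, hP0⟩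
  have hle : valuationSubringAtPrime E v ≤ V := by
    rintro x ⟨a, s, hs, rfl⟩
    exact mul_mem (hBV a) (hPinv s hs)
  have heq : valuationSubringAtPrime E v = V := ValuationSubring.eq_of_le_of_ne_top _ hle hV
  rw [← heq]
  exact dvr_atPrime _ _ v

/-- **Valuation rings of function fields of one variable.** -/
theorem dvr_of_funField (t : E) [hfin : FiniteDimensional k⟮t⟯ E] (V : ValuationSubring E)
    (hk : ∀ c : k, algebraMap k E c ∈ V) (hV : V ≠ ⊤) : IsDiscreteValuationRing V := by
  rcases V.mem_or_inv_mem t with h | h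
  · exact dvr_aux t V hk h hV
  · have : FiniteDimensional k⟮t⁻¹⟯ E := by rw [adjoin_inv]; exact hfin
    exact dvr_aux t⁻¹ V hk h hV

end P025H16
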