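import Vale.Agent.P025.H641.Final
import Vale.Agent.P025.H641.Stein

/-! # The Steinberg relation for sections, and the curves `a x ^ (p ^ 2) + b y ^ p = 1` -/

open IntermediateField Polynomial

namespace P025H641

universe u v w

/-- The symbol of `a` and `b` modulo `p` is trivial: `a` is a `p`-th power in `k`, or `b` is a
norm from `k(a ^ (1 / p)) = k[X] / (X ^ p - a)`. -/
def SymbolTrivial (p : ℕ) {k : Type u} [Field k] (a b : k) : Prop :=
  (∃ c : k, a = c ^ p) ∨ ∃ z : AdjoinRoot (X ^ p - C a), Algebra.norm k z = b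

lemma norm_eq_nrm {k : Type u} [Field k] [CharZero k] {p : ℕ} [Fact p.Prime] {ζ : k}
    (hζ : IsPrimitiveRoot ζ p) (a : k) (ha0 : a ≠ 0) (ha : ¬ ∃ c : k, a = c ^ p) (f : k[X]) :
    Algebra.norm k (aeval (AdjoinRoot.root (X ^ p - C a)) f) = nrm p ζ f a := by
  classical
  have hpp : p.Prime := Fact.out
  have hirr : Irreducible (X ^ p - C a) :=
    X_pow_sub_C_irreducible_of_prime hpp (fun c hc => ha ⟨c, hc.symm⟩)
  have hfact : Fact (Irreducible (X ^ p - C a)) := ⟨hirr⟩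
  have hfin : FiniteDimensional k (AdjoinRoot (X ^ p - C a)) :=
    (AdjoinRoot.powerBasis hirr.ne_zero).finite
  set Ω := AlgebraicClosure k with hΩ
  obtain ⟨θ, hθ⟩ := IsAlgClosed.exists_pow_nat_eq (algebraMap k Ω a) hpp.pos
  have hZ : IsPrimitiveRoot (algebraMap k Ω ζ) p :=
    hζ.map_of_injective (algebraMap k Ω).injective
  have hθ0 : θ ≠ 0 := by
    rintro rfl
    rw [zero_pow hpp.ne_zero] at hθ
    exact ha0 ((_root_.map_eq_zero _).1 hθ.symm)
  apply (algebraMap k Ω).injective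
  rw [Algebra.norm_eq_prod_embeddings k Ω, nrm_spec hpp.pos hζ f a θ hθ]
  have hex : ∀ σ : AdjoinRoot (X ^ p - C a) →ₐ[k] Ω, ∃ i : ℕ, i < p ∧
      σ (AdjoinRoot.root (X ^ p - C a)) = algebraMap k Ω (ζ ^ i) * θ := by
    intro σ
    have h1 : aeval (AdjoinRoot.root (X ^ p - C a)) (X ^ p - C a) = 0 := by
      rw [AdjoinRoot.aeval_eq, AdjoinRoot.mk_self]
    have h2 := congrArg σ h1
    rw [← aeval_algHom_apply, map_zero, map_sub, map_pow, aeval_X, aeval_C, sub_eq_zero] at h2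
    have h3 : (σ (AdjoinRoot.root (X ^ p - C a)) / θ) ^ p = 1 := by
      rw [div_pow, h2, hθ, div_self]
      rw [← hθ]
      exact pow_ne_zero p hθ0
    obtain ⟨i, hi, h4⟩ := hZ.eq_pow_of_pow_eq_one h3
    refine ⟨i, hi, ?_⟩
    rw [map_pow, h4, div_mul_cancel₀ _ hθ0]
  choose idx hidx hidxr using hex
  refine Finset.prod_bij (fun σ _ => idx σ) (fun σ _ => Finset.mem_range.2 (hidx σ)) ?_ ?_ ?_
  · intro σ _ τ _ h
    apply AdjoinRoot.algHom_ext
    rw [hidxr, hidxr, h]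
  · intro j hj
    have hj' := Finset.mem_range.1 hj
    have h1 : (X ^ p - C a).eval₂ (Algebra.ofId k Ω : k →ₐ[k] Ω) (algebraMap k Ω (ζ ^ j) * θ) =
        0 := by
      rw [eval₂_sub, eval₂_pow, eval₂_X, eval₂_C, mul_pow, hθ, ← map_pow, ← pow_mul, mul_comm j p,
        pow_mul, hζ.pow_eq_one, one_pow, map_one, one_mul, sub_eq_zero]
      rfl
    obtain ⟨σ, hσ⟩ : ∃ σ : AdjoinRoot (X ^ p - C a) →ₐ[k] Ω,
        σ (AdjoinRoot.root (X ^ p - C a)) = algebraMap k Ω (ζ ^ j) * θ :=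
      ⟨AdjoinRoot.liftAlgHom (X ^ p - C a) (Algebra.ofId k Ω) _ h1,
        AdjoinRoot.liftAlgHom_root _ _ _ _⟩
    refine ⟨σ, Finset.mem_univ _, ?_⟩
    have h2 := hidxr σ
    rw [hσ] at h2
    have h3 := mul_right_cancel₀ hθ0 h2
    rw [map_pow, map_pow] at h3
    exact (hZ.pow_inj hj' (hidx _) h3).symm
  · intro σ _
    rw [← aeval_algHom_apply, hidxr]

/-- **The Steinberg relation for sections**, with given representatives. -/
theorem steinberg_of {k : Type u} {K : Type v} [Field k] [Field K] [Algebra k K] [CharZero k]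
    {p : ℕ} [Fact p.Prime] {ζ : k} (hζ : IsPrimitiveRoot ζ p) (s : Section k K) (g : K)
    (hg1 : g ≠ 1) (h1 : IsDivisible (p ^ 2) k g) (h2 : IsDivisible p k (1 - g))
    (a b : k) (ha0 : a ≠ 0) (hb0 : b ≠ 0) (y y' : maxUnr k K) (hy : ∀ σ, s.toHom σ y = y)
    (hy' : ∀ σ, s.toHom σ y' = y')
    (hg : algebraMap K (maxUnr k K) g = algebraMap k (maxUnr k K) a * y ^ p)
    (hg' : algebraMap K (maxUnr k K) (1 - g) = algebraMap k (maxUnr k K) b * y' ^ p) :
    SymbolTrivial p a b := by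
  classical
  have hpp : p.Prime := Fact.out
  have hs := s.isSection
  have B := base_top hs
  set F : IntermediateField K (AlgebraicClosure K) := ⊥ with hF
  have hkF : ∀ c : k, ((algebraMap k (maxUnr k K) c : maxUnr k K) : AlgebraicClosure K) ∈ F := by
    intro c
    exact IntermediateField.mem_bot.2 ⟨algebraMap k K c, rfl⟩
  have hgF : ((algebraMap K (maxUnr k K) g : maxUnr k K) : AlgebraicClosure K) ∈ F :=
    IntermediateField.mem_bot.2 ⟨g, rfl⟩
  have e1 : (⟨(algebraMap K (maxUnr k K) g : maxUnr k K), hgF⟩ : F) = algebraMap K F g := rfl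
  rcases stein_rel hs B hζ isFinUnr_bot hkF (algebraMap K (maxUnr k K) g) hgF
    (by rw [e1]; exact h1.map_algebraMap (E := F))
    (by rw [e1, ← map_one (algebraMap K F), ← map_sub]; exact h2.map_algebraMap (E := F))
    (by
      intro h
      apply hg1
      apply (algebraMap K (maxUnr k K)).injective
      rw [h, map_one]) a b y y' ha0 hb0 (fun σ _ => hy σ) (fun σ _ => hy' σ) hg
    (by rw [← hg', map_sub, map_one]) with h | ⟨f, hf⟩
  · exact Or.inl h
  · by_cases hap : ∃ c : k, a = c ^ p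
    · exact Or.inl hap
    · exact Or.inr ⟨_, (norm_eq_nrm hζ a ha0 hap f).trans hf.symm⟩

/-- **The Steinberg relation for sections.** -/
theorem steinberg_section {k : Type u} {K : Type v} [Field k] [Field K] [Algebra k K]
    [CharZero k] {p : ℕ} [Fact p.Prime] {ζ : k} (hζ : IsPrimitiveRoot ζ p) (s : Section k K)
    (g : K) (hg0 : g ≠ 0) (hg1 : g ≠ 1) (h1 : IsDivisible (p ^ 2) k g)
    (h2 : IsDivisible p k (1 - g)) :
    ∃ (a b : k) (y y' : AlgebraicClosure K), a ≠ 0 ∧ b ≠ 0 ∧ s.Fixes y ∧ s.Fixes y' ∧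
      emb g = emb (algebraMap k K a) * y ^ p ∧ emb (1 - g) = emb (algebraMap k K b) * y' ^ p ∧
      SymbolTrivial p a b := by
  classical
  have hpp : p.Prime := Fact.out
  have hpk : (p : k) ≠ 0 := by exact_mod_cast hpp.ne_zero
  have hs := s.isSection
  have B := base_top hs
  have hroot : ∀ f : K, f ≠ 0 → IsDivisible p k f → ∃ (x : k) (y : maxUnr k K), x ≠ 0 ∧
      (∀ σ, s.toHom σ y = y) ∧
      algebraMap K (maxUnr k K) f = algebraMap k (maxUnr k K) x * y ^ p := by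
    intro f hf0 hf
    obtain ⟨γ', hγ'⟩ := IsAlgClosed.exists_pow_nat_eq (algebraMap K (AlgebraicClosure K) f)
      hpp.pos
    obtain ⟨F, hF, -, hγF⟩ := (isFinUnr_bot (k := k) (K := K)).exists_root hpk γ'
      (algebraMap K (⊥ : IntermediateField K (AlgebraicClosure K)) f) hγ'
      (hf.map_algebraMap (E := (⊥ : IntermediateField K (AlgebraicClosure K))))
    obtain ⟨x, y, hx, hy, hxy⟩ := exists_class hs B hζ (algebraMap K (maxUnr k K) f)
      ⟨γ', hF.le_maxUnr hγF⟩ ((_root_.map_ne_zero _).2 hf0) (Subtype.ext hγ')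
      (fun σ _ => AlgEquiv.commutes _ _)
    exact ⟨x, y, hx, fun σ => hy σ trivial, hxy⟩
  obtain ⟨a, y, ha0, hy, hg⟩ := hroot g hg0 (by
    intro V hV
    obtain ⟨z, hz⟩ := h1 V hV
    exact ⟨z ^ p, by rw [hz, map_pow, ← pow_mul, sq]⟩)
  obtain ⟨b, y', hb0, hy', hg'⟩ := hroot (1 - g) (sub_ne_zero.2 (Ne.symm hg1)) h2
  have coe : ∀ z : K, ((algebraMap K (maxUnr k K) z : maxUnr k K) : AlgebraicClosure K) = emb z :=
    fun z => rfl
  refine ⟨a, b, y, y', ha0, hb0, s.fixes_of y hy, s.fixes_of y' hy', ?_, ?_,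
    steinberg_of hζ s g hg1 h1 h2 a b ha0 hb0 y y' hy hy' hg hg'⟩
  · exact congrArg (fun z : maxUnr k K => (z : AlgebraicClosure K)) hg
  · exact congrArg (fun z : maxUnr k K => (z : AlgebraicClosure K)) hg'

/-- Sections and the curve `a x ^ (p ^ 2) + b y ^ p = 1`. -/
theorem fermat_section {k : Type u} {K : Type v} [Field k] [Field K] [Algebra k K]
    [CharZero k] {p : ℕ} [Fact p.Prime] {ζ : k} (hζ : IsPrimitiveRoot ζ p) (s : Section k K)
    (a b : k) (ha0 : a ≠ 0) (hb0 : b ≠ 0) (x y : K) (hy : y ≠ 0)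
    (h : algebraMap k K a * x ^ (p ^ 2) + algebraMap k K b * y ^ p = 1) :
    SymbolTrivial p a b := by
  have h1g : 1 - algebraMap k K a * x ^ (p ^ 2) = algebraMap k K b * y ^ p := by
    linear_combination -h
  refine steinberg_of hζ s (algebraMap k K a * x ^ (p ^ 2)) ?_ ?_ ?_ a b ha0 hb0
    (algebraMap K (maxUnr k K) (x ^ p)) (algebraMap K (maxUnr k K) y)
    (fun σ => AlgEquiv.commutes _ _) (fun σ => AlgEquiv.commutes _ _) ?_ ?_
  · intro h0
    rw [h0, sub_self] at h1g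
    exact mul_ne_zero ((_root_.map_ne_zero _).2 hb0) (pow_ne_zero _ hy) h1g.symm
  · intro V hV
    exact ⟨x, by rw [map_mul, hV.val_const ha0, one_mul, map_pow]⟩
  · intro V hV
    exact ⟨y, by rw [h1g, map_mul, hV.val_const hb0, one_mul, map_pow]⟩
  · rw [map_mul, ← IsScalarTower.algebraMap_apply, ← map_pow (algebraMap K (maxUnr k K)),
      ← pow_mul, sq]
  · rw [h1g, map_mul, ← IsScalarTower.algebraMap_apply, map_pow]

section padic

variable {p : ℕ} [Fact p.Prime]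

lemma exists_nonnorm_normed {k : Type u} [NontriviallyNormedField k] [IsUltrametricDist k]
    [ProperSpace k] [Algebra ℚ_[p] k] (hn : ∀ x : ℚ_[p], ‖algebraMap ℚ_[p] k x‖ = ‖x‖)
    {ζ : k} (hζ : IsPrimitiveRoot ζ p) (a : k) (ha0 : a ≠ 0) (ha : ¬ ∃ c : k, a = c ^ p) :
    ∃ b : k, b ≠ 0 ∧ ¬ SymbolTrivial p a b := by
  have hpp : p.Prime := Fact.out
  have hpk : ‖(p : k)‖ = (p : ℝ)⁻¹ := by
    rw [← map_natCast (algebraMap ℚ_[p] k), hn, Padic.norm_p]
  have hpR : (1 : ℝ) < p := by exact_mod_cast hpp.one_lt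
  have hpR0 : (0 : ℝ) < p := by linarith
  have hpk1 : ‖(p : k)‖ < 1 := by
    rw [hpk]
    exact inv_lt_one_of_one_lt₀ hpR
  have hpk0 : (p : k) ≠ 0 := by
    rw [← norm_pos_iff, hpk, inv_pos]
    exact hpR0
  have : CharZero k := charZero_of_injective_algebraMap (algebraMap ℚ_[p] k).injective
  obtain ⟨R⟩ := exists_ram hpk1 hpk0 hζ
  obtain ⟨H, hH, h0, hnorm⟩ := R.exists_H hζ
  have hcls : clsm p a ≠ 0 := fun h => ha ((clsm_eq_zero hpp.ne_zero a ha0).1 h)
  have hex : ∃ w, H (clsm p a) w ≠ 0 := by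
    by_contra hcon
    push Not at hcon
    exact hcls (hH.nondeg h0 (clsm p a) hcon)
  obtain ⟨w, hw⟩ := hex
  obtain ⟨b, hb0, rfl⟩ := clsm_surj w
  refine ⟨b, hb0, ?_⟩
  rintro (h | ⟨z, hz⟩)
  · exact ha h
  · obtain ⟨f, rfl⟩ := AdjoinRoot.mk_surjective z
    rw [← AdjoinRoot.aeval_eq, norm_eq_nrm hζ a ha0 ha] at hz
    exact hw (hnorm a b f ha0 hb0 hz.symm)

/-- nondegeneracy of the symbol of a `p`-adic field -/
lemma exists_nonnorm {k : Type u} [Field k] [Algebra ℚ_[p] k] [FiniteDimensional ℚ_[p] k]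
    {ζ : k} (hζ : IsPrimitiveRoot ζ p) (a : k) (ha0 : a ≠ 0) (ha : ¬ ∃ c : k, a = c ^ p) :
    ∃ b : k, b ≠ 0 ∧ ¬ SymbolTrivial p a b := by
  let inst1 : NontriviallyNormedField k := spectralNorm.nontriviallyNormedField ℚ_[p] k
  have hu : IsUltrametricDist k :=
    IsUltrametricDist.isUltrametricDist_of_isNonarchimedean_norm isNonarchimedean_spectralNorm
  have hn : ∀ x : ℚ_[p], ‖algebraMap ℚ_[p] k x‖ = ‖x‖ := fun x => spectralNorm_extends x
  have hproper : ProperSpace k := by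
    let _ : NormedAlgebra ℚ_[p] k := spectralNorm.normedAlgebra ℚ_[p] k
    exact FiniteDimensional.proper ℚ_[p] k
  exact exists_nonnorm_normed hn hζ a ha0 ha

end padic

end P025H641
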