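import Vale.Agent.P025.H16.SteinMain
import Vale.Agent.P025.H16.Fermat

/-! # The Steinberg relation mod `n`, final form, and the curves `a x ^ n + b y ^ n = 1` -/

open IntermediateField Polynomial

namespace P025H16

open P025H641

universe u v w

/-- The exponent `n` for odd `n`, and `2 n` for even `n`. -/
def expo (n : ℕ) : ℕ := if Even n then 2 * n else n

lemma exists_of_fixes {k : Type u} {K : Type v} [Field k] [Field K] [Algebra k K]
    (s : Section k K) {y : AlgebraicClosure K} (h : s.Fixes y) :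
    ∃ z : maxUnr k K, (z : AlgebraicClosure K) = y ∧ ∀ σ, s.toHom σ z = z := by
  obtain ⟨z, hz, -⟩ := h 1
  refine ⟨z, hz, fun σ => ?_⟩
  obtain ⟨z', hz', hσ⟩ := h σ
  have h1 : z' = z := Subtype.ext (hz'.trans hz.symm)
  rw [h1] at hσ
  exact Subtype.ext (hσ.trans hz.symm)

/-- **The Steinberg relation for sections**, mod `n`. -/
theorem steinberg_all_n {k : Type u} {K : Type v} [Field k] [Field K] [Algebra k K] [CharZero k]
    {n : ℕ} (hn : 0 < n) {ζ : k} (hζ : IsPrimitiveRoot ζ n) (s : Section k K) (g : K)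
    (hg0 : g ≠ 0) (hg1 : g ≠ 1) (h1 : IsDivisible (expo n) k g) (h2 : IsDivisible n k (1 - g)) :
    (∃ (a b : k) (y y' : AlgebraicClosure K), a ≠ 0 ∧ b ≠ 0 ∧ s.Fixes y ∧ s.Fixes y' ∧
      emb g = emb (algebraMap k K a) * y ^ n ∧
      emb (1 - g) = emb (algebraMap k K b) * y' ^ n) ∧
    ∀ (a b : k) (y y' : AlgebraicClosure K), s.Fixes y → s.Fixes y' →
      emb g = emb (algebraMap k K a) * y ^ n →
      emb (1 - g) = emb (algebraMap k K b) * y' ^ n → NormTrivial n a b := by
  have h1n : IsDivisible n k g := by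
    rcases Nat.even_or_odd n with hev | hodd
    · intro V hV
      obtain ⟨z, hz⟩ := h1 V hV
      rw [expo, if_pos hev] at hz
      exact ⟨z ^ 2, by rw [hz, map_pow, ← pow_mul]⟩
    · rwa [expo, if_neg (Nat.not_even_iff_odd.2 hodd)] at h1
  have h1e : Even n → IsDivisible (2 * n) k g := by
    intro hev
    rwa [expo, if_pos hev] at h1
  constructor
  · obtain ⟨a, y, ha0, hy, hg⟩ := exists_repr s hn g hg0 h1n
    obtain ⟨b, y', hb0, hy', hg'⟩ := exists_repr s hn (1 - g) (sub_ne_zero.2 (Ne.symm hg1)) h2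
    exact ⟨a, b, y, y', ha0, hb0, s.fixes_of y hy, s.fixes_of y' hy',
      congrArg (fun z : maxUnr k K => (z : AlgebraicClosure K)) hg,
      congrArg (fun z : maxUnr k K => (z : AlgebraicClosure K)) hg'⟩
  · intro a b y y' hy hy' hg hg'
    obtain ⟨z, rfl, hz⟩ := exists_of_fixes s hy
    obtain ⟨z', rfl, hz'⟩ := exists_of_fixes s hy'
    refine steinberg_repr s hn hζ g hg1 h1n h1e h2 a b ?_ z z' hz hz' (Subtype.ext hg)
      (Subtype.ext hg')
    rintro rfl
    rw [map_zero, emb, emb, map_zero, zero_mul] at hg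
    exact hg0 ((_root_.map_eq_zero _).1 hg)

/-- Sections and the curves `a x ^ n + b y ^ n = 1` (`a x ^ (2 n) + b y ^ n = 1` for even `n`). -/
theorem fermat_section_n {k : Type u} {K : Type v} [Field k] [Field K] [Algebra k K]
    [CharZero k] {n : ℕ} (hn : 0 < n) {ζ : k} (hζ : IsPrimitiveRoot ζ n) (s : Section k K)
    (a b : k) (ha0 : a ≠ 0) (hb0 : b ≠ 0) (x y : K) (hy : y ≠ 0)
    (h : algebraMap k K a * x ^ expo n + algebraMap k K b * y ^ n = 1) :
    NormTrivial n a b := by
  have hb0' : algebraMap k K b ≠ 0 := (_root_.map_ne_zero _).2 hb0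
  have h1g : 1 - algebraMap k K a * x ^ expo n = algebraMap k K b * y ^ n := by
    linear_combination -h
  obtain ⟨x', hx'⟩ : ∃ x' : K, x ^ expo n = x' ^ n := by
    rcases Nat.even_or_odd n with hev | hodd
    · exact ⟨x ^ 2, by rw [expo, if_pos hev, pow_mul]⟩
    · exact ⟨x, by rw [expo, if_neg (Nat.not_even_iff_odd.2 hodd)]⟩
  refine steinberg_repr s hn hζ (algebraMap k K a * x ^ expo n) ?_ ?_ ?_ ?_ a b ha0
    (algebraMap K (maxUnr k K) x') (algebraMap K (maxUnr k K) y)
    (fun σ => AlgEquiv.commutes _ _) (fun σ => AlgEquiv.commutes _ _) ?_ ?_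
  · intro h0
    rw [h0, sub_self] at h1g
    exact mul_ne_zero hb0' (pow_ne_zero _ hy) h1g.symm
  · intro V hV
    exact ⟨x', by rw [map_mul, hV.val_const ha0, one_mul, hx', map_pow]⟩
  · intro hev V hV
    exact ⟨x, by rw [map_mul, hV.val_const ha0, one_mul, map_pow, expo, if_pos hev]⟩
  · intro V hV
    exact ⟨y, by rw [h1g, map_mul, hV.val_const hb0, one_mul, map_pow]⟩
  · rw [hx', map_mul, map_pow, ← IsScalarTower.algebraMap_apply]
  · rw [h1g, map_mul, map_pow, ← IsScalarTower.algebraMap_apply]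

/-- the two forms of the triviality of the symbol agree -/
lemma symbolTrivial_of {k : Type u} [Field k] [CharZero k] {p : ℕ} (hp : p.Prime) {a b : k}
    (h : NormTrivial p a b) : SymbolTrivial p a b := by
  by_cases hap : ∃ c : k, a = c ^ p
  · exact Or.inl hap
  right
  obtain ⟨α, hα, z, hz⟩ := h
  have hirr : Irreducible (X ^ p - C a) :=
    X_pow_sub_C_irreducible_of_prime hp (fun c hc => hap ⟨c, hc.symm⟩)
  have hmin : minpoly k α = X ^ p - C a := by
    refine (minpoly.eq_of_irreducible_of_monic hirr ?_ (monic_X_pow_sub_C a hp.ne_zero)).symm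
    rw [map_sub, map_pow, aeval_X, aeval_C, hα, sub_self]
  have hint : IsIntegral k α := Algebra.IsIntegral.isIntegral α
  rw [← hmin]
  exact ⟨(IntermediateField.adjoinRootEquivAdjoin k hint).symm z, by
    rw [Algebra.norm_eq_of_algEquiv, hz]⟩

end P025H16
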