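import Vale.Agent.P025.H16.SteinOdd
import Vale.Agent.P025.H16.Fermat

/-! # The Steinberg relation for sections, and the curves `a x ^ p + b y ^ p = 1` -/

open IntermediateField Polynomial

namespace P025H16

open P025H641

universe u v w

/-- The exponent `p` for odd `p`, and `4` for `p = 2`. -/
def exponent (p : ℕ) : ℕ := if p = 2 then 4 else p

/-- **The Steinberg relation for sections**, with given representatives, `p` odd. -/
theorem steinberg_of_odd {k : Type u} {K : Type v} [Field k] [Field K] [Algebra k K] [CharZero k]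
    {p : ℕ} [Fact p.Prime] (hp2 : p ≠ 2) {ζ : k} (hζ : IsPrimitiveRoot ζ p) (s : Section k K)
    (g : K) (hg1 : g ≠ 1) (h1 : IsDivisible p k g) (h2 : IsDivisible p k (1 - g))
    (a b : k) (ha0 : a ≠ 0) (y y' : maxUnr k K) (hy : ∀ σ, s.toHom σ y = y)
    (hy' : ∀ σ, s.toHom σ y' = y')
    (hg : algebraMap K (maxUnr k K) g = algebraMap k (maxUnr k K) a * y ^ p)
    (hg' : algebraMap K (maxUnr k K) (1 - g) = algebraMap k (maxUnr k K) b * y' ^ p) :
    SymbolTrivial p a b := by
  classical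
  have hs := s.isSection
  have B := base_top hs
  have hkF : ∀ c : k, ((algebraMap k (maxUnr k K) c : maxUnr k K) : AlgebraicClosure K) ∈
      (⊥ : IntermediateField K (AlgebraicClosure K)) := by
    intro c
    exact IntermediateField.mem_bot.2 ⟨algebraMap k K c, rfl⟩
  have hgF : ((algebraMap K (maxUnr k K) g : maxUnr k K) : AlgebraicClosure K) ∈
      (⊥ : IntermediateField K (AlgebraicClosure K)) :=
    IntermediateField.mem_bot.2 ⟨g, rfl⟩
  have e1 : (⟨(algebraMap K (maxUnr k K) g : maxUnr k K), hgF⟩ :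
      (⊥ : IntermediateField K (AlgebraicClosure K))) = algebraMap K _ g := rfl
  rcases stein_rel_odd hp2 hs B hζ isFinUnr_bot hkF (algebraMap K (maxUnr k K) g) hgF
    (by rw [e1]; exact h1.map_algebraMap)
    (by rw [e1, ← map_one (algebraMap K _), ← map_sub]; exact h2.map_algebraMap)
    (by
      intro h
      apply hg1
      apply (algebraMap K (maxUnr k K)).injective
      rw [h, map_one]) a b y y' ha0 (fun σ _ => hy σ) (fun σ _ => hy' σ) hg
    (by rw [← hg', map_sub, map_one]) with h | ⟨f, hf⟩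
  · exact Or.inl h
  · by_cases hap : ∃ c : k, a = c ^ p
    · exact Or.inl hap
    · exact Or.inr ⟨_, (norm_eq_nrm hζ a ha0 hap f).trans hf.symm⟩

/-- **The Steinberg relation for sections**, `p` odd. -/
theorem steinberg_section_odd {k : Type u} {K : Type v} [Field k] [Field K] [Algebra k K]
    [CharZero k] {p : ℕ} [Fact p.Prime] (hp2 : p ≠ 2) {ζ : k} (hζ : IsPrimitiveRoot ζ p)
    (s : Section k K) (g : K) (hg0 : g ≠ 0) (hg1 : g ≠ 1) (h1 : IsDivisible p k g)
    (h2 : IsDivisible p k (1 - g)) :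
    ∃ (a b : k) (y y' : AlgebraicClosure K), a ≠ 0 ∧ b ≠ 0 ∧ s.Fixes y ∧ s.Fixes y' ∧
      emb g = emb (algebraMap k K a) * y ^ p ∧ emb (1 - g) = emb (algebraMap k K b) * y' ^ p ∧
      SymbolTrivial p a b := by
  classical
  have hpp : p.Prime := Fact.out
  have hpk : (p : k) ≠ 0 := by exact_mod_cast hpp.ne_zero
  have hs := s.isSection
  have B := base_top hs
  have hroot : ∀ f : K, f ≠ 0 → IsDivisible p k f → ∃ (x : k) (y : maxUnr k K), x ≠ 0 ∧
      (∀ σ, s.toHom σ y = y) ∧
      algebraMap K (maxUnr k K) f = algebraMap k (maxUnr k K) x * y ^ p := by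
    intro f hf0 hf
    obtain ⟨γ', hγ'⟩ := IsAlgClosed.exists_pow_nat_eq (algebraMap K (AlgebraicClosure K) f)
      hpp.pos
    obtain ⟨F, hF, -, hγF⟩ := (isFinUnr_bot (k := k) (K := K)).exists_root hpk γ'
      (algebraMap K (⊥ : IntermediateField K (AlgebraicClosure K)) f) hγ'
      (hf.map_algebraMap (E := (⊥ : IntermediateField K (AlgebraicClosure K))))
    obtain ⟨x, y, hx, hy, hxy⟩ := exists_class hs B hζ (algebraMap K (maxUnr k K) f)
      ⟨γ', hF.le_maxUnr hγF⟩ ((_root_.map_ne_zero _).2 hf0) (Subtype.ext hγ')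
      (fun σ _ => AlgEquiv.commutes _ _)
    exact ⟨x, y, hx, fun σ => hy σ trivial, hxy⟩
  obtain ⟨a, y, ha0, hy, hg⟩ := hroot g hg0 h1
  obtain ⟨b, y', hb0, hy', hg'⟩ := hroot (1 - g) (sub_ne_zero.2 (Ne.symm hg1)) h2
  refine ⟨a, b, y, y', ha0, hb0, s.fixes_of y hy, s.fixes_of y' hy', ?_, ?_,
    steinberg_of_odd hp2 hζ s g hg1 h1 h2 a b ha0 y y' hy hy' hg hg'⟩
  · exact congrArg (fun z : maxUnr k K => (z : AlgebraicClosure K)) hg
  · exact congrArg (fun z : maxUnr k K => (z : AlgebraicClosure K)) hg'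

/-- **The Steinberg relation for sections**, all `p`. -/
theorem steinberg_section_all {k : Type u} {K : Type v} [Field k] [Field K] [Algebra k K]
    [CharZero k] {p : ℕ} [Fact p.Prime] {ζ : k} (hζ : IsPrimitiveRoot ζ p)
    (s : Section k K) (g : K) (hg0 : g ≠ 0) (hg1 : g ≠ 1) (h1 : IsDivisible (exponent p) k g)
    (h2 : IsDivisible p k (1 - g)) :
    ∃ (a b : k) (y y' : AlgebraicClosure K), a ≠ 0 ∧ b ≠ 0 ∧ s.Fixes y ∧ s.Fixes y' ∧
      emb g = emb (algebraMap k K a) * y ^ p ∧ emb (1 - g) = emb (algebraMap k K b) * y' ^ p ∧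
      SymbolTrivial p a b := by
  by_cases hp2 : p = 2
  · refine steinberg_section hζ s g hg0 hg1 ?_ h2
    have h3 : exponent p = p ^ 2 := by rw [exponent, if_pos hp2, hp2]; norm_num
    rwa [h3] at h1
  · refine steinberg_section_odd hp2 hζ s g hg0 hg1 ?_ h2
    rwa [exponent, if_neg hp2] at h1

/-- Sections and the curves `a x ^ p + b y ^ p = 1` (`a x ^ 4 + b y ^ 2 = 1` for `p = 2`). -/
theorem fermat_section_all {k : Type u} {K : Type v} [Field k] [Field K] [Algebra k K]
    [CharZero k] {p : ℕ} [Fact p.Prime] {ζ : k} (hζ : IsPrimitiveRoot ζ p) (s : Section k K)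
    (a b : k) (ha0 : a ≠ 0) (hb0 : b ≠ 0) (x y : K) (hy : y ≠ 0)
    (h : algebraMap k K a * x ^ exponent p + algebraMap k K b * y ^ p = 1) :
    SymbolTrivial p a b := by
  by_cases hp2 : p = 2
  · have h3 : exponent p = p ^ 2 := by rw [exponent, if_pos hp2, hp2]; norm_num
    rw [h3] at h
    exact fermat_section hζ s a b ha0 hb0 x y hy h
  have h3 : exponent p = p := by rw [exponent, if_neg hp2]
  rw [h3] at h
  have h1g : 1 - algebraMap k K a * x ^ p = algebraMap k K b * y ^ p := by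
    linear_combination -h
  refine steinberg_of_odd hp2 hζ s (algebraMap k K a * x ^ p) ?_ ?_ ?_ a b ha0
    (algebraMap K (maxUnr k K) x) (algebraMap K (maxUnr k K) y)
    (fun σ => AlgEquiv.commutes _ _) (fun σ => AlgEquiv.commutes _ _) ?_ ?_
  · intro h0
    rw [h0, sub_self] at h1g
    exact mul_ne_zero ((_root_.map_ne_zero _).2 hb0) (pow_ne_zero _ hy) h1g.symm
  · intro V hV
    exact ⟨x, by rw [map_mul, hV.val_const ha0, one_mul, map_pow]⟩
  · intro V hV
    exact ⟨y, by rw [h1g, map_mul, hV.val_const hb0, one_mul, map_pow]⟩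
  · rw [map_mul, ← IsScalarTower.algebraMap_apply, ← map_pow (algebraMap K (maxUnr k K))]
  · rw [h1g, map_mul, ← IsScalarTower.algebraMap_apply, map_pow]

end P025H16
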