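import Vale.Agent.P025.H16.GeoSecM
import Vale.Agent.P025.H641.OSec

/-! # Geometric sections lift to the orbifold extension -/

namespace P025H16

open P025H641 Polynomial IntermediateField

open scoped Topology

universe u v w

section root

variable {k : Type u} {E : Type v} {Ω : Type w} [Field k] [Field E] [Field Ω]
  [Algebra k E] [Algebra E Ω] [Algebra k Ω] [IsScalarTower k E Ω]
  {W : ValuationSubring Ω} {p : ℕ}

/-- the uniformizer is not a `p`-th power in value -/
lemma unif_not_pow (hp : p.Prime) (t : E) (ht0 : t ≠ 0)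
    (ht1 : W.valuation (algebraMap E Ω t) < 1)
    (ht : ∀ x : E, x ≠ 0 → ∃ n : ℤ,
      W.valuation (algebraMap E Ω x) = W.valuation (algebraMap E Ω t) ^ n) (y : E) (j : ℕ)
    (hj : j < p) (hj0 : j ≠ 0) :
    W.valuation (algebraMap E Ω y) ^ p ≠ W.valuation (algebraMap E Ω t) ^ j := by
  intro h
  have hvt : W.valuation (algebraMap E Ω t) ≠ 0 :=
    (_root_.map_ne_zero _).2 ((_root_.map_ne_zero _).2 ht0)
  have hpos : 0 < W.valuation (algebraMap E Ω t) := zero_lt_iff.2 hvt
  have hy0 : y ≠ 0 := by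
    rintro rfl
    rw [map_zero, map_zero, zero_pow hp.ne_zero] at h
    exact pow_ne_zero j hvt h.symm
  obtain ⟨n, hn⟩ := ht y hy0
  rw [hn, ← zpow_natCast, ← zpow_mul, ← zpow_natCast] at h
  have hinj := (zpow_right_strictAnti₀ hpos ht1).injective h
  have h1 : (p : ℤ) ∣ (j : ℤ) := ⟨n, by rw [← hinj]; ring⟩
  have h2 : p ∣ j := by exact_mod_cast h1
  exact hj0 (Nat.eq_zero_of_dvd_of_lt h2 hj)

/-- adjoining a `p`-th root of a uniformizer keeps rational places rational -/
lemma ratPlace_root [CharZero k] (hp : p.Prime)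
    (hV : IsRatPlace k E (W.comap (algebraMap E Ω)))
    (t : E) (ht0 : t ≠ 0) (ht1 : W.valuation (algebraMap E Ω t) < 1)
    (ht : ∀ x : E, x ≠ 0 → ∃ n : ℤ,
      W.valuation (algebraMap E Ω x) = W.valuation (algebraMap E Ω t) ^ n) (w : Ω)
    (hw : w ^ p = algebraMap E Ω t) :
    IsRatPlace k E⟮w⟯ (W.comap (algebraMap E⟮w⟯ Ω)) := by
  have hintE : IsIntegral E w := isIntegral_of_pow' hp.pos (by rw [hw]; exact isIntegral_algebraMap)
  have hfin : FiniteDimensional E E⟮w⟯ := IntermediateField.adjoin.finiteDimensional hintE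
  have htow : IsScalarTower k E⟮w⟯ Ω := IsScalarTower.of_algebraMap_eq (fun x => rfl)
  refine ⟨place_of_fin hV.toIsPlace E⟮w⟯, ?_⟩
  rintro ⟨x, hx⟩ hxW
  rw [ValuationSubring.mem_comap] at hxW
  have hxW' : x ∈ W := hxW
  have hwB : w ∈ E⟮w⟯ := IntermediateField.mem_adjoin_simple_self E w
  have hvw : W.valuation w ^ p = W.valuation (algebraMap E Ω t) := by rw [← map_pow, hw]
  have hlift : ∀ c : k, W.valuation (x - algebraMap k Ω c) < 1 →
      (W.comap (algebraMap E⟮w⟯ Ω)).valuation ((⟨x, hx⟩ : E⟮w⟯) - algebraMap k E⟮w⟯ c) < 1 := by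
    intro c hc
    rw [(comap_isEquiv (F := E⟮w⟯) W).lt_one_iff_lt_one, Valuation.comap_apply, map_sub,
      ← IsScalarTower.algebraMap_apply]
    exact hc
  by_cases hx0 : x = 0
  · refine ⟨0, hlift 0 ?_⟩
    rw [hx0, map_zero, sub_zero, map_zero]
    exact zero_lt_one
  have hgen : ∀ x : E⟮w⟯, ∃ P : E[X], x = aeval (⟨w, hwB⟩ : E⟮w⟯) P := by
    rintro ⟨x, hx⟩
    have hx2 : x ∈ Algebra.adjoin E {w} := by
      rw [← IntermediateField.adjoin_simple_toSubalgebra_of_isAlgebraic hintE.isAlgebraic]
      exact hx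
    rw [Algebra.adjoin_singleton_eq_range_aeval] at hx2
    obtain ⟨P, hP⟩ := hx2
    refine ⟨P, Subtype.ext ?_⟩
    have h3 := aeval_algebraMap_apply Ω (⟨w, hwB⟩ : E⟮w⟯) P
    refine Eq.trans ?_ h3
    exact hP.symm
  obtain ⟨e, m, hm, hsum, hval, hlt⟩ := ram_root_local hp (⟨w, hwB⟩ : E⟮w⟯) t
    (Subtype.ext hw) hgen (W.comap (algebraMap E⟮w⟯ Ω)) (by
      rintro ⟨y, hy⟩
      rw [← map_pow, comap_sub_val_iff, ← map_pow] at hy
      have h1 := unif_not_pow (W := W) hp t ht0 ht1 ht y 1 hp.one_lt one_ne_zero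
      apply h1
      rw [pow_one, ← map_pow, ← map_pow]
      exact hy.symm) ⟨x, hx⟩ (fun h => hx0 (congrArg Subtype.val h))
  rw [comap_sub_val_iff] at hval
  have hval' : W.valuation x = W.valuation (algebraMap E Ω (e m) * w ^ m) := hval
  have hlt' : ∀ j < p, j ≠ m → W.valuation (algebraMap E Ω (e j) * w ^ j) < W.valuation x := by
    intro j hj hjm
    have h1 := (comap_isEquiv (F := E⟮w⟯) W).lt_iff_lt.1 (hlt j hj hjm)
    exact h1
  have hx1 : W.valuation x ≤ 1 := (W.valuation_le_one_iff _).2 hxW'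
  have hxsum : x = ∑ j ∈ Finset.range p, algebraMap E Ω (e j) * w ^ j := by
    have h1 := congrArg (algebraMap E⟮w⟯ Ω) hsum
    rw [map_sum] at h1
    refine Eq.trans h1 (Finset.sum_congr rfl fun j _ => ?_)
    rw [map_mul, map_pow]
    rfl
  by_cases hm0 : m = 0
  · -- the constant term dominates
    have he0 : W.valuation (algebraMap E Ω (e 0)) ≤ 1 := by
      rw [hm0, pow_zero, mul_one] at hval'
      rw [← hval']
      exact hx1
    have he0V : e 0 ∈ W.comap (algebraMap E Ω) := by
      rw [ValuationSubring.mem_comap, ← W.valuation_le_one_iff]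
      exact he0
    obtain ⟨c, hc⟩ := hV.residue (e 0) he0V
    rw [(comap_isEquiv (F := E) W).lt_one_iff_lt_one, Valuation.comap_apply, map_sub,
      ← IsScalarTower.algebraMap_apply] at hc
    refine ⟨c, hlift c ?_⟩
    have h2 : x - algebraMap k Ω c = (algebraMap E Ω (e 0) - algebraMap k Ω c) +
        ∑ j ∈ (Finset.range p).erase 0, algebraMap E Ω (e j) * w ^ j := by
      rw [hxsum, ← Finset.add_sum_erase _ _ (Finset.mem_range.2 hp.pos), pow_zero, mul_one]
      ring
    rw [h2]
    refine (Valuation.map_add _ _ _).trans_lt (max_lt hc ?_)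
    apply Valuation.map_sum_lt _ one_ne_zero
    intro j hj
    have h3 := Finset.mem_erase.1 hj
    exact (hlt' j (Finset.mem_range.1 h3.2) (by rw [hm0]; exact h3.1)).trans_le hx1
  · -- the value is not one
    refine ⟨0, hlift 0 ?_⟩
    rw [map_zero, sub_zero]
    refine lt_of_le_of_ne hx1 ?_
    intro h1
    rw [h1] at hval'
    have hem0 : e m ≠ 0 := by
      intro h0
      rw [h0, map_zero, zero_mul, map_zero] at hval'
      exact one_ne_zero hval'
    have h2 := congrArg (fun z => z ^ p) hval'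
    simp only [one_pow] at h2
    rw [map_mul, mul_pow, map_pow, ← pow_mul, mul_comm m p, pow_mul, hvw] at h2
    have hvt : W.valuation (algebraMap E Ω t) ≠ 0 :=
      (_root_.map_ne_zero _).2 ((_root_.map_ne_zero _).2 ht0)
    have h3 := unif_not_pow (W := W) hp t ht0 ht1 ht (e m)⁻¹ m hm hm0
    apply h3
    rw [map_inv₀, map_inv₀, inv_pow, inv_eq_of_mul_eq_one_right h2.symm]

end root

section lift

variable {k : Type u} {E : Type v} [Field k] [CharZero k] [Field E] [Algebra k E]

/-- **Geometric sections lift to the orbifold extension.** -/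
theorem exists_lift_orb {p : ℕ} (hp : p.Prime) (hE : IsFunctionField k E) (s : Section k E)
    (hs : s.IsGeometric) : ∃ s1 : SecOf k (maxOrb p k (∅ : Set (ValuationSubring E))),
      ∀ (σ : GalOf (constClosure k E)) (x y : AlgebraicClosure E),
        (s.hom σ).Maps x y → (s1.hom σ).Maps x y := by
  have hchar : CharZero E := charZero_of_injective_algebraMap (algebraMap k E).injective
  obtain ⟨W₀, hW₀, hst⟩ := hs
  set M : IntermediateField E (AlgebraicClosure E) :=
    maxOrb p k (∅ : Set (ValuationSubring E)) with hM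
  have hUM : maxUnr k E ≤ M := maxUnr_le_maxOrb
  obtain ⟨WΩ, hWΩ⟩ := exists_val_extension (L := AlgebraicClosure E) W₀
  have hcomap : WΩ.comap (algebraMap E (AlgebraicClosure E)) =
      W₀.comap (algebraMap E (maxUnr k E)) := by
    rw [← hWΩ]
    ext x
    rw [ValuationSubring.mem_comap, ValuationSubring.mem_comap, ValuationSubring.mem_comap,
      ← IsScalarTower.algebraMap_apply]
  have hV : IsRatPlace k E (WΩ.comap (algebraMap E (AlgebraicClosure E))) := by
    rw [hcomap]; exact hW₀
  obtain ⟨t, ht0, ht1, ht⟩ := exists_unif_E hV.toIsPlace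
  obtain ⟨w, hw⟩ := IsAlgClosed.exists_pow_nat_eq (algebraMap E (AlgebraicClosure E) t) hp.pos
  have hintE : IsIntegral E w := isIntegral_of_pow' hp.pos (by rw [hw]; exact isIntegral_algebraMap)
  have hfin : FiniteDimensional E E⟮w⟯ := IntermediateField.adjoin.finiteDimensional hintE
  have hFM : E⟮w⟯ ≤ M := (isFinOrbi_root hp t w hw (fun V hV => absurd hV (by simp))).le_maxOrb
  have hrat := ratPlace_root (k := k) hp hV t ht0 ht1 ht w hw
  -- the tower `E ⊆ F ⊆ M`
  set F : IntermediateField E (AlgebraicClosure E) := E⟮w⟯ with hF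
  let _ : Algebra F M := (IntermediateField.inclusion hFM).toRingHom.toAlgebra
  have t1 : IsScalarTower E F M := IsScalarTower.of_algebraMap_eq (fun x => rfl)
  have t2 : IsScalarTower k F M := IsScalarTower.of_algebraMap_eq (fun x => rfl)
  have t3 : IsScalarTower F M (AlgebraicClosure E) := IsScalarTower.of_algebraMap_eq (fun x => rfl)
  have t4 : IsScalarTower k E M := IsScalarTower.of_algebraMap_eq (fun x => rfl)
  have hgal : IsGalois E M := ⟨⟩
  have hgalF : IsGalois F M := IsGalois.tower_top_of_isGalois E F M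
  set W : ValuationSubring M := WΩ.comap (algebraMap M (AlgebraicClosure E)) with hW
  have hWF : W.comap (algebraMap F M) = WΩ.comap (algebraMap F (AlgebraicClosure E)) := by
    ext x
    rw [hW, ValuationSubring.mem_comap, ValuationSubring.mem_comap, ValuationSubring.mem_comap,
      ← IsScalarTower.algebraMap_apply]
  have hWrat : IsRatPlace k F (W.comap (algebraMap F M)) := by rw [hWF]; exact hrat
  -- the constants
  have hconst : ∀ c : constClosure k E, (c : AlgebraicClosure E) ∈ maxUnr k E := fun c =>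
    mem_maxUnr_of_const _ (mem_algebraicClosure_iff.1 c.2).isIntegral
  let ιU : constClosure k E →ₐ[k] maxUnr k E :=
    (constClosure k E).val.codRestrict ((maxUnr k E).restrictScalars k).toSubalgebra hconst
  let ι : constClosure k E →ₐ[k] M :=
    (constClosure k E).val.codRestrict (M.restrictScalars k).toSubalgebra
      (fun c => hUM (hconst c))
  have hιc : ∀ c, ((ι c : M) : AlgebraicClosure E) = c := fun _ => rfl
  have hιUc : ∀ c, ((ιU c : maxUnr k E) : AlgebraicClosure E) = c := fun _ => rfl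
  have hι : ∀ x : M, IsIntegral k x ↔ ∃ c, ι c = x := by
    intro x
    constructor
    · intro h
      have h1 : IsIntegral k (x : AlgebraicClosure E) := h.map ((M.val).restrictScalars k)
      exact ⟨⟨x, mem_algebraicClosure_iff.2 h1.isAlgebraic⟩, rfl⟩
    · rintro ⟨c, rfl⟩
      have h1 : IsIntegral k c := Algebra.IsIntegral.isIntegral c
      exact h1.map ι
  have hιU : ∀ x : maxUnr k E, IsIntegral k x ↔ ∃ c, ιU c = x := by
    intro x
    constructor
    · intro h
      have h1 : IsIntegral k (x : AlgebraicClosure E) :=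
        h.map (((maxUnr k E).val).restrictScalars k)
      exact ⟨⟨x, mem_algebraicClosure_iff.2 h1.isAlgebraic⟩, rfl⟩
    · rintro ⟨c, rfl⟩
      have h1 : IsIntegral k c := Algebra.IsIntegral.isIntegral c
      exact h1.map ιU
  -- splitting
  have hsplitU : ∀ P : k[X], (P.map (algebraMap k (maxUnr k E))).Splits := splits_maxUnr
  have hsplit : ∀ P : k[X], (P.map (algebraMap k M)).Splits := by
    intro P
    have h1 := (hsplitU P).map (IntermediateField.inclusion hUM).toRingHom
    rw [Polynomial.map_map] at h1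
    exact h1
  -- values
  have hval : ∀ y : M, ∃ a : F, W.valuation (algebraMap F M a) = W.valuation y := by
    intro y
    obtain ⟨A, hA, hyA⟩ := exists_finOrbi_mem (k := k) hp y.2
    have hAf : FiniteDimensional E A := hA.1
    have hAp := ((isOrbi_iff A).1 hA.2 WΩ hV.toIsPlace).1
    have h1 := sameVal_unif hp hV.toIsPlace A hAp t ht0 ht w hw
    obtain ⟨z, hz, hzy⟩ := h1 y ((le_sup_left : A ≤ A ⊔ E⟮w⟯) hyA)
    refine ⟨⟨z, hz⟩, ?_⟩
    rw [hW, comap_val_eq_iff]
    exact hzy
  obtain ⟨φ, hφc, hφ⟩ := Dec.exists_hom W hWrat ι hι hsplit hval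
  -- the section
  let ρ : Gal(constClosure k E/k) →* Gal(M/E) := (AlgEquiv.restrictScalarsHom E).comp φ
  have hρ : ∀ σ x, ρ σ x = φ σ x := fun _ _ => rfl
  have hρc : Continuous ρ := by
    apply continuous_of_stab
    intro x
    exact stab_preimage φ hφc x (Algebra.IsIntegral.isIntegral x)
  refine ⟨{ hom := ρ, cont := hρc, lifts := ?_ }, ?_⟩
  · rintro σ x y ⟨c, hc, hc'⟩ _
    refine ⟨ι c, hc, ?_⟩
    rw [← hc']
    exact congrArg (fun z : M => (z : AlgebraicClosure E)) ((hφ σ).2 c)
  · -- comparison on the unramified part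
    let _ : Algebra (maxUnr k E) M := (IntermediateField.inclusion hUM).toRingHom.toAlgebra
    have t5 : IsScalarTower E (maxUnr k E) M := IsScalarTower.of_algebraMap_eq (fun x => rfl)
    have hinc : ∀ x : maxUnr k E, ((algebraMap (maxUnr k E) M x : M) : AlgebraicClosure E) = x :=
      fun _ => rfl
    have hincinj : ∀ x y : maxUnr k E, algebraMap (maxUnr k E) M x = algebraMap (maxUnr k E) M y →
        x = y := fun x y h => (algebraMap (maxUnr k E) M).injective h
    have hmemW : ∀ x : maxUnr k E, x ∈ W₀ ↔ algebraMap (maxUnr k E) M x ∈ W := by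
      intro x
      rw [← hWΩ, ValuationSubring.mem_comap, hW, ValuationSubring.mem_comap]
      exact Iff.rfl
    have hvalU : ∀ y : maxUnr k E, ∃ a : E,
        W₀.valuation (algebraMap E (maxUnr k E) a) = W₀.valuation y := exists_val W₀ hE hW₀
    have hstab : ∀ (σ : Gal(constClosure k E/k)) (x : maxUnr k E), x ∈ W₀ →
        s.toHom σ x ∈ W₀ := fun σ x hx => hst σ x _ ⟨x, rfl, rfl⟩ hx
    have hmain : ∀ (σ : Gal(constClosure k E/k)) (x : maxUnr k E),
        ρ σ (algebraMap (maxUnr k E) M x) = algebraMap (maxUnr k E) M (s.toHom σ x) := by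
      intro σ
      set τ' : Gal(maxUnr k E/E) := (ρ σ).restrictNormal (maxUnr k E) with hτ'
      have hτc : ∀ x : maxUnr k E, algebraMap (maxUnr k E) M (τ' x) =
          ρ σ (algebraMap (maxUnr k E) M x) := fun x =>
        AlgEquiv.restrictNormal_commutes (ρ σ) (maxUnr k E) x
      have hg1 : Dec.Good W₀ ιU σ τ' := by
        refine ⟨fun x => ?_, fun c => ?_⟩
        · rw [hmemW, hmemW, hτc, hρ]
          exact (hφ σ).1 _
        · apply hincinj
          rw [hτc]
          exact (hφ σ).2 c
      have hg2 : Dec.Good W₀ ιU σ (s.toHom σ) := by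
        refine ⟨fun x => ⟨hstab σ x, fun h => ?_⟩, fun c => ?_⟩
        · have h1 := hstab σ⁻¹ _ h
          rw [map_inv] at h1
          have h2 : (s.toHom σ)⁻¹ (s.toHom σ x) = x := by
            rw [← AlgEquiv.mul_apply, inv_mul_cancel]; rfl
          rwa [h2] at h1
        · apply Subtype.ext
          exact (s.isSection.lifts σ c (ιU c) rfl).symm
      have heq : τ' = s.toHom σ := Dec.Good.unique hW₀ hιU hsplitU hvalU hg1 hg2
      intro x
      rw [← hτc, heq]
    rintro σ x y ⟨x', hx', hy⟩
    refine ⟨algebraMap (maxUnr k E) M x', hx', ?_⟩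
    rw [← hy]
    exact congrArg (fun z : M => (z : AlgebraicClosure E)) (hmain σ x')

end lift

end P025H16
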