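import Vale.Agent.P025.H641.GeoStmt
import Vale.Agent.P025.H641.Every

/-! # Geometric sections: decomposition groups of rational places -/

namespace P025H16

open P025H641 Polynomial IntermediateField

open scoped Pointwise

universe u v w

section local_

variable {k : Type u} {K : Type v} [Field k] [CharZero k] [Field K] [Algebra k K]

/-- polynomials over `k` split in the maximal unramified extension -/
lemma splits_maxUnr (P : k[X]) : (P.map (algebraMap k (maxUnr k K))).Splits := by
  have h1 : ((P.map (algebraMap k K)).map (algebraMap K (maxUnr k K))).Splits := by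
    by_cases hP : P = 0
    · rw [hP, Polynomial.map_zero, Polynomial.map_zero]
      exact Splits.zero
    refine IntermediateField.splits_of_splits (IsAlgClosed.splits _) (fun x hx => ?_)
    apply mem_maxUnr_of_const
    have hP' : (P.map (algebraMap k K)) ≠ 0 :=
      (Polynomial.map_ne_zero_iff (algebraMap k K).injective).2 hP
    have hx' := (mem_rootSet.1 hx).2
    rw [aeval_map_algebraMap] at hx'
    exact IsAlgebraic.isIntegral ⟨P, hP, hx'⟩
  rw [Polynomial.map_map, ← IsScalarTower.algebraMap_eq] at h1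
  exact h1

variable (W : ValuationSubring (maxUnr k K))

omit [CharZero k] in
lemma const_mem' (hW : IsRatPlace k K (W.comap (algebraMap K (maxUnr k K)))) (c : k) :
    algebraMap k (maxUnr k K) c ∈ W := by
  have h := hW.const_mem c
  rw [ValuationSubring.mem_comap, ← IsScalarTower.algebraMap_apply] at h
  exact h

omit [CharZero k] in
lemma mem_of_const (hW : IsRatPlace k K (W.comap (algebraMap K (maxUnr k K)))) {c : maxUnr k K}
    (hc : IsIntegral k c) : c ∈ W := by
  by_cases h0 : c = 0
  · rw [h0]; exact W.zero_mem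
  · rw [← W.valuation_le_one_iff, val_alg_gen (const_mem' W hW) hc h0]

/-- elements of `W` are near to constants -/
lemma exists_const_near (hW : IsRatPlace k K (W.comap (algebraMap K (maxUnr k K))))
    (y : maxUnr k K) (hy : y ∈ W) : ∃ c : maxUnr k K, IsIntegral k c ∧ W.valuation (y - c) < 1 := by
  classical
  set V := W.comap (algebraMap K (maxUnr k K)) with hV
  have hint : IsIntegral K y := Algebra.IsIntegral.isIntegral y
  obtain ⟨i, D, hi0, hP, hD⟩ := exists_content V (minpoly K y) (minpoly.ne_zero hint)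
  have hDy : aeval y (D.map V.subtype) = 0 := by
    have h := minpoly.aeval K y
    rw [hP, map_mul, aeval_C, mul_eq_zero] at h
    exact h.resolve_left ((_root_.map_ne_zero _).2 hi0)
  -- approximate the coefficients by constants
  have hex : ∀ j, ∃ c : k, V.valuation ((D.coeff j : K) - algebraMap k K c) < 1 :=
    fun j => hW.residue _ (D.coeff j).2
  choose c hc using hex
  have hcW : ∀ j, W.valuation (algebraMap K (maxUnr k K) (D.coeff j : K) -
      algebraMap k (maxUnr k K) (c j)) < 1 := by
    intro j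
    have h := ((comap_isEquiv (F := K) W).lt_one_iff_lt_one).1 (hc j)
    rw [Valuation.comap_apply, map_sub, ← IsScalarTower.algebraMap_apply] at h
    exact h
  set d : k[X] := ∑ j ∈ Finset.range (D.natDegree + 1), monomial j (c j) with hd
  have hdcoeff : ∀ j ≤ D.natDegree, d.coeff j = c j := by
    intro j hj
    rw [hd, finsetSum_coeff]
    simp only [coeff_monomial]
    rw [Finset.sum_ite_eq']
    rw [if_pos (Finset.mem_range.2 (by omega))]
  have hd0 : d ≠ 0 := by
    intro h0
    apply hD
    ext j
    rw [coeff_map, coeff_zero]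
    by_cases hj : j ≤ D.natDegree
    · rw [IsLocalRing.residue_eq_zero_iff, V.valuation_lt_one_iff]
      have h1 := hc j
      rw [← hdcoeff j hj, h0, coeff_zero, map_zero, sub_zero] at h1
      exact h1
    · rw [coeff_eq_zero_of_natDegree_lt (not_le.1 hj), map_zero]
  -- the value of `d` at `y`
  have hdy : W.valuation (aeval y d) < 1 := by
    have h1 : aeval y d = ∑ j ∈ Finset.range (D.natDegree + 1),
        (algebraMap k (maxUnr k K) (c j) - algebraMap K (maxUnr k K) (D.coeff j : K)) * y ^ j := by
      have h2 : aeval y (D.map V.subtype) = ∑ j ∈ Finset.range (D.natDegree + 1),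
          algebraMap K (maxUnr k K) (D.coeff j : K) * y ^ j := by
        rw [aeval_def, eval₂_map, eval₂_eq_sum_range]
        rfl
      have h3 : aeval y d = ∑ j ∈ Finset.range (D.natDegree + 1),
          algebraMap k (maxUnr k K) (c j) * y ^ j := by
        rw [hd, map_sum]
        exact Finset.sum_congr rfl (fun j _ => by rw [aeval_monomial])
      have h4 : aeval y d = aeval y d - aeval y (D.map V.subtype) := by rw [hDy, sub_zero]
      rw [h4, h2, h3, ← Finset.sum_sub_distrib]
      exact Finset.sum_congr rfl (fun j _ => by rw [sub_mul])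
    rw [h1]
    apply Valuation.map_sum_lt _ one_ne_zero
    intro j _
    rw [map_mul, map_pow, ← Valuation.map_neg, neg_sub]
    exact mul_lt_one_of_lt_of_le (hcW j) (pow_le_one' ((W.valuation_le_one_iff _).2 hy) j)
  -- factorization
  have hsp := splits_maxUnr (K := K) d
  have h5 : aeval y d = (d.map (algebraMap k (maxUnr k K))).eval y := by
    rw [eval_map, aeval_def]
  rw [h5, hsp.eval_eq_prod_roots, map_mul] at hdy
  have hlead : W.valuation (d.map (algebraMap k (maxUnr k K))).leadingCoeff = 1 := by
    rw [leadingCoeff_map]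
    exact val_alg_gen (const_mem' W hW) isIntegral_algebraMap
      ((_root_.map_ne_zero _).2 (leadingCoeff_ne_zero.2 hd0))
  rw [hlead, one_mul, map_multiset_prod, Multiset.map_map] at hdy
  by_contra hcon
  push Not at hcon
  have h6 : ∀ a ∈ (d.map (algebraMap k (maxUnr k K))).roots, 1 ≤ W.valuation (y - a) := by
    intro a ha
    apply hcon
    have h7 := (mem_roots'.1 ha).2
    rw [IsRoot, eval_map, ← aeval_def] at h7
    exact IsAlgebraic.isIntegral ⟨d, hd0, h7⟩
  have h8 : 1 ≤ (Multiset.map (⇑W.valuation ∘ fun x => y - x)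
      (d.map (algebraMap k (maxUnr k K))).roots).prod := by
    apply Multiset.one_le_prod_of_one_le
    intro x hx
    obtain ⟨a, ha, rfl⟩ := Multiset.mem_map.1 hx
    exact h6 a ha
  exact absurd hdy (not_lt.2 h8)

omit [CharZero k] in
/-- finite extensions of function fields are function fields -/
lemma funField_ext {F : Type*} [Field F] [Algebra k F] [Algebra K F] [IsScalarTower k K F]
    [FiniteDimensional K F] (hK : IsFunctionField k K) : IsFunctionField k F := by
  obtain ⟨t, ht, hfin⟩ := hK
  refine ⟨algebraMap K F t, ?_, ?_⟩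
  · intro h
    exact ht ((isAlgebraic_algebraMap_iff (algebraMap K F).injective).1 h)
  · let f : K →ₐ[k] F := IsScalarTower.toAlgHom k K F
    have hmem : ∀ x : k⟮t⟯, algebraMap K F x ∈ k⟮algebraMap K F t⟯ := by
      intro x
      have h1 : f (x : K) ∈ (k⟮t⟯).map f := ⟨x, x.2, rfl⟩
      rw [IntermediateField.adjoin_map, Set.image_singleton] at h1
      exact h1
    let _ : Algebra k⟮t⟯ k⟮algebraMap K F t⟯ :=
      (((algebraMap K F).comp (algebraMap k⟮t⟯ K)).codRestrict
        (k⟮algebraMap K F t⟯).toSubfield.toSubring hmem).toAlgebra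
    have t1 : IsScalarTower k⟮t⟯ K F := inferInstance
    have t2 : IsScalarTower k⟮t⟯ k⟮algebraMap K F t⟯ F :=
      IsScalarTower.of_algebraMap_eq (fun x => rfl)
    have h2 : FiniteDimensional k⟮t⟯ F := FiniteDimensional.trans k⟮t⟯ K F
    exact Module.Finite.of_restrictScalars_finite k⟮t⟯ k⟮algebraMap K F t⟯ F

/-- the values of `W` are the values of `K` -/
lemma exists_val (hK : IsFunctionField k K)
    (hW : IsRatPlace k K (W.comap (algebraMap K (maxUnr k K)))) (y : maxUnr k K) :
    ∃ a : K, W.valuation (algebraMap K (maxUnr k K) a) = W.valuation y := by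
  obtain ⟨F, hF, hyF⟩ := exists_finUnr_mem y.2
  let _ : Algebra F (maxUnr k K) := (IntermediateField.inclusion hF.le_maxUnr).toRingHom.toAlgebra
  have t1 : IsScalarTower K F (maxUnr k K) := IsScalarTower.of_algebraMap_eq (fun x => rfl)
  have t2 : IsScalarTower k F (maxUnr k K) := IsScalarTower.of_algebraMap_eq (fun x => rfl)
  have hfin : FiniteDimensional K F := hF.1
  have hplace : IsPlace k F (W.comap (algebraMap F (maxUnr k K))) := by
    refine ⟨fun c => ?_, ?_⟩
    · rw [ValuationSubring.mem_comap, ← IsScalarTower.algebraMap_apply]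
      exact const_mem' W hW c
    · refine (funField_ext (F := F) hK).dvr _ (fun c => ?_) ?_
      · rw [ValuationSubring.mem_comap, ← IsScalarTower.algebraMap_apply]
        exact const_mem' W hW c
      · intro htop
        apply hW.toIsPlace.ne_top
        rw [eq_top_iff]
        intro x _
        have h1 : algebraMap K F x ∈ W.comap (algebraMap F (maxUnr k K)) := by
          rw [htop]; exact ValuationSubring.mem_top _
        rw [ValuationSubring.mem_comap, ← IsScalarTower.algebraMap_apply] at h1
        exact h1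
  obtain ⟨a, ha⟩ := hF.2 _ hplace ⟨y, hyF⟩
  refine ⟨a, ?_⟩
  rw [comap_val_eq_iff, ← IsScalarTower.algebraMap_apply] at ha
  exact ha

omit [CharZero k] in
/-- a uniformizer of `W` in `K` -/
lemma exists_unif' (hW : IsRatPlace k K (W.comap (algebraMap K (maxUnr k K)))) :
    ∃ π : K, W.valuation (algebraMap K (maxUnr k K) π) < 1 ∧ π ≠ 0 ∧
      (∀ x : K, W.valuation (algebraMap K (maxUnr k K) x) < 1 →
        W.valuation (algebraMap K (maxUnr k K) x) ≤ W.valuation (algebraMap K (maxUnr k K) π)) ∧
      ∀ x : K, x ≠ 0 → ∃ n : ℕ, W.valuation (algebraMap K (maxUnr k K) π) ^ n <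
        W.valuation (algebraMap K (maxUnr k K) x) := by
  have heq := comap_isEquiv (F := K) W
  obtain ⟨ϖ, hϖ0, hϖ1, hϖ⟩ := hW.toIsPlace.exists_unif
  have hlt1 : W.valuation (algebraMap K (maxUnr k K) ϖ) < 1 := heq.lt_one_iff_lt_one.1 hϖ1
  refine ⟨ϖ, hlt1, hϖ0, fun x hx => ?_, fun x hx => ?_⟩
  · by_cases hx0 : x = 0
    · rw [hx0, map_zero, map_zero]; exact zero_le
    obtain ⟨n, hn⟩ := hϖ x hx0
    have hx1 := (heq.lt_one_iff_lt_one (x := x)).2 hx
    have hpos : 0 < (W.comap (algebraMap K (maxUnr k K))).valuation ϖ :=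
      zero_lt_iff.2 ((_root_.map_ne_zero _).2 hϖ0)
    have hn1 : 1 ≤ n := by
      by_contra h
      push Not at h
      have h1 : 1 ≤ (W.comap (algebraMap K (maxUnr k K))).valuation ϖ ^ n :=
        one_le_zpow_of_nonpos₀ hpos hϖ1.le (by omega)
      rw [← hn] at h1
      exact absurd hx1 (not_lt.2 h1)
    have h2 : (W.comap (algebraMap K (maxUnr k K))).valuation x ≤
        (W.comap (algebraMap K (maxUnr k K))).valuation ϖ := by
      rw [hn]
      conv_rhs => rw [← zpow_one ((W.comap (algebraMap K (maxUnr k K))).valuation ϖ)]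
      exact zpow_le_zpow_right_of_le_one₀ hpos hϖ1.le hn1
    exact (heq x ϖ).1 h2
  · obtain ⟨n, hn⟩ := hW.toIsPlace.archimedean x ϖ hx hϖ1
    refine ⟨n, ?_⟩
    rw [← map_pow] at hn
    have h1 := heq.lt_iff_lt.1 hn
    rw [Valuation.comap_apply, Valuation.comap_apply, map_pow, map_pow] at h1
    exact h1

/-- automorphisms preserving `W` and fixing the constants are trivial -/
theorem inertia_trivial (hK : IsFunctionField k K)
    (hW : IsRatPlace k K (W.comap (algebraMap K (maxUnr k K))))
    (τ : Gal(maxUnr k K/K)) (h1 : ∀ x ∈ W, τ x ∈ W)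
    (h2 : ∀ x : maxUnr k K, IsIntegral k x → τ x = x) : τ = 1 := by
  obtain ⟨π, hπ1, hπ0, hπmax, harch⟩ := exists_unif' W hW
  set P : maxUnr k K := algebraMap K (maxUnr k K) π with hP
  have hP0 : P ≠ 0 := (_root_.map_ne_zero _).2 hπ0
  have hPpos : 0 < W.valuation P := zero_lt_iff.2 ((_root_.map_ne_zero _).2 hP0)
  have hstep : ∀ y ∈ W, ∃ c : maxUnr k K, IsIntegral k c ∧ ∃ y' ∈ W, y = c + P * y' := by
    intro y hy
    obtain ⟨c, hc, hlt⟩ := exists_const_near W hW y hy
    obtain ⟨a, ha⟩ := exists_val W hK hW (y - c)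
    refine ⟨c, hc, (y - c) / P, ?_, ?_⟩
    · rw [← W.valuation_le_one_iff, map_div₀, ← ha]
      exact (div_le_one₀ hPpos).2 (hπmax a (by rw [ha]; exact hlt))
    · rw [mul_div_cancel₀ _ hP0]
      ring
  have hmain : ∀ (n : ℕ), ∀ y ∈ W, ∃ z : maxUnr k K, τ z = z ∧ ∃ y' ∈ W, y = z + P ^ n * y' := by
    intro n
    induction n with
    | zero =>
      intro y hy
      exact ⟨0, map_zero τ, y, hy, by rw [pow_zero, one_mul, zero_add]⟩
    | succ n ih =>
      intro y hy
      obtain ⟨z, hz, y', hy', hyz⟩ := ih y hy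
      obtain ⟨c, hc, y'', hy'', hy'c⟩ := hstep y' hy'
      refine ⟨z + P ^ n * c, ?_, y'', hy'', ?_⟩
      · rw [map_add, map_mul, map_pow, hz, h2 c hc, hP, AlgEquiv.commutes]
      · rw [hyz, hy'c, pow_succ]
        ring
  have hfix : ∀ y ∈ W, τ y = y := by
    intro y hy
    by_contra hne
    have he0 : τ y - y ≠ 0 := sub_ne_zero.2 hne
    obtain ⟨a, ha⟩ := exists_val W hK hW (τ y - y)
    have ha0 : a ≠ 0 := by
      rintro rfl
      rw [map_zero, map_zero] at ha
      exact he0 ((_root_.map_eq_zero _).1 ha.symm)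
    obtain ⟨n, hn⟩ := harch a ha0
    obtain ⟨z, hz, y', hy', hyz⟩ := hmain n y hy
    have h3 : τ y - y = P ^ n * (τ y' - y') := by
      conv_lhs => rw [hyz]
      rw [map_add, map_mul, map_pow, hz, hP, AlgEquiv.commutes]
      ring
    have h4 : W.valuation (τ y' - y') ≤ 1 := by
      rw [W.valuation_le_one_iff]
      exact W.sub_mem (h1 _ hy') hy'
    have h5 : W.valuation (τ y - y) ≤ W.valuation P ^ n := by
      rw [h3, map_mul, map_pow]
      exact mul_le_of_le_one_right' h4
    rw [← ha] at h5
    exact absurd hn (not_lt.2 h5)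
  ext1 y
  rcases W.mem_or_inv_mem y with h | h
  · exact hfix y h
  · have h3 := hfix _ h
    rw [map_inv₀] at h3
    exact inv_injective h3

end local_

section denom

/-- elements of a valuation ring are quotients of integral elements with unit denominator -/
lemma exists_denom {R L : Type*} [CommRing R] [Field L] [Algebra R L] (W : ValuationSubring L)
    (hRW : ∀ b : L, IsIntegral R b → b ∈ W) (y : L) (hy : y ∈ W) :
    ∀ (m : ℕ) (f : (integralClosure R L)[X]), f.natDegree ≤ m → aeval y f = 0 →
      (∃ n, W.valuation ((f.coeff n : integralClosure R L) : L) = 1) →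
      ∃ b : integralClosure R L, W.valuation (b : L) = 1 ∧ IsIntegral R ((b : L) * y) := by
  intro m
  induction m with
  | zero =>
    intro f hf hfy hn
    obtain ⟨n, hn⟩ := hn
    exfalso
    rw [eq_C_of_natDegree_le_zero hf, aeval_C] at hfy
    have h0 : f.coeff 0 = 0 := by
      apply Subtype.ext
      exact hfy
    have h1 : f.coeff n = 0 := by
      rcases Nat.eq_zero_or_pos n with h | h
      · rw [h, h0]
      · exact coeff_eq_zero_of_natDegree_lt (by omega)
    rw [h1] at hn
    have h2 : ((0 : integralClosure R L) : L) = 0 := rfl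
    rw [h2, map_zero] at hn
    exact zero_ne_one hn
  | succ m ih =>
    intro f hf hfy hn
    obtain ⟨n, hn⟩ := hn
    set c := f.coeff (m + 1) with hc
    have hcW : W.valuation (c : L) ≤ 1 := (W.valuation_le_one_iff _).2 (hRW _ c.2)
    have hcy : IsIntegral R ((c : L) * y) := by
      by_cases h : f.natDegree = m + 1
      · have h1 := isIntegral_leadingCoeff_smul f y hfy
        rw [leadingCoeff, h, ← hc] at h1
        exact isIntegral_trans _ h1
      · have h1 : c = 0 := coeff_eq_zero_of_natDegree_lt (by omega)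
        rw [h1]
        have h2 : ((0 : integralClosure R L) : L) = 0 := rfl
        rw [h2, zero_mul]
        exact isIntegral_zero
    rcases hcW.lt_or_eq with hlt | heq
    · set a : integralClosure R L := ⟨(c : L) * y, hcy⟩ with ha
      have halt : W.valuation (a : L) < 1 := by
        show W.valuation ((c : L) * y) < 1
        rw [map_mul]
        exact mul_lt_one_of_lt_of_le hlt ((W.valuation_le_one_iff _).2 hy)
      refine ih (f - C c * X ^ (m + 1) + C a * X ^ m) ?_ ?_ ⟨n, ?_⟩
      · rw [natDegree_le_iff_coeff_eq_zero]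
        intro N hN
        rw [coeff_add, coeff_sub, coeff_C_mul, coeff_C_mul, coeff_X_pow, coeff_X_pow]
        rw [if_neg (by omega : ¬ N = m), mul_zero, add_zero]
        by_cases h : N = m + 1
        · rw [if_pos h, mul_one, h, hc, sub_self]
        · rw [if_neg h, mul_zero, sub_zero]
          exact coeff_eq_zero_of_natDegree_lt (by omega)
      · rw [map_add, map_sub, hfy, map_mul, map_mul, aeval_C, aeval_C, map_pow, map_pow, aeval_X]
        show 0 - (c : L) * y ^ (m + 1) + ((c : L) * y) * y ^ m = 0
        ring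
      · have hnm : n ≠ m + 1 := by
          rintro rfl
          rw [← hc] at hn
          exact hlt.ne hn
        rw [coeff_add, coeff_sub, coeff_C_mul, coeff_C_mul, coeff_X_pow, coeff_X_pow,
          if_neg hnm, mul_zero, sub_zero]
        by_cases h : n = m
        · rw [if_pos h, mul_one]
          show W.valuation ((f.coeff n : L) + (a : L)) = 1
          rw [Valuation.map_add_eq_of_lt_left, hn]
          rw [hn]
          exact halt
        · rw [if_neg h, mul_zero, add_zero, hn]
    · exact ⟨c, heq, hcy⟩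

end denom

section decomp

variable {k : Type u} {K : Type v} [Field k] [CharZero k] [Field K] [Algebra k K]
  (W : ValuationSubring (maxUnr k K))

/-- the restriction to `K` -/
noncomputable abbrev VK : ValuationSubring K := W.comap (algebraMap K (maxUnr k K))

omit [CharZero k] in
lemma integral_mem {b : maxUnr k K} (hb : IsIntegral (VK W) b) : b ∈ W := by
  let φ : VK W →+* W := ((algebraMap K (maxUnr k K)).comp (VK W).subtype).codRestrict
    W.toSubring (fun x => x.2)
  let _ : Algebra (VK W) W := φ.toAlgebra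
  have : IsScalarTower (VK W) W (maxUnr k K) := IsScalarTower.of_algebraMap_eq (fun x => rfl)
  have hx : IsIntegral W b := hb.tower_top
  obtain ⟨y, hy⟩ := IsIntegrallyClosed.isIntegral_iff.mp hx
  rw [← hy]
  exact y.2

/-- the integral closure -/
noncomputable abbrev BK : Subalgebra (VK W) (maxUnr k K) := integralClosure (VK W) (maxUnr k K)

/-- the inclusion of the integral closure -/
noncomputable def toW : BK W →+* W :=
  ((BK W).val : BK W →+* maxUnr k K).codRestrict W.toSubring (fun x => integral_mem W x.2)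

/-- the center of `W` on the integral closure -/
noncomputable def PK : Ideal (BK W) := (IsLocalRing.maximalIdeal W).comap (toW W)

instance : (PK W).IsPrime := Ideal.comap_isPrime _ _

omit [CharZero k] in
lemma mem_PK (b : BK W) : b ∈ PK W ↔ W.valuation (b : maxUnr k K) < 1 := by
  rw [PK, Ideal.mem_comap]
  exact W.valuation_lt_one_iff _

omit [CharZero k] in
lemma val_BK_le (b : BK W) : W.valuation (b : maxUnr k K) ≤ 1 :=
  (W.valuation_le_one_iff _).2 (integral_mem W b.2)

instance isInvariant_BK [CharZero K] : Algebra.IsInvariant (VK W) (BK W) Gal(maxUnr k K/K) where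
  isInvariant b hb := by
    have h1 : ∀ g : Gal(maxUnr k K/K), g (b : maxUnr k K) = b := fun g =>
      congrArg (fun z : BK W => (z : maxUnr k K)) (hb g)
    obtain ⟨a, ha⟩ := (InfiniteGalois.mem_range_algebraMap_iff_fixed (b : maxUnr k K)).2 h1
    have haV : a ∈ VK W := by
      show algebraMap K (maxUnr k K) a ∈ W
      rw [ha]
      exact integral_mem W b.2
    exact ⟨⟨a, haV⟩, Subtype.ext ha⟩

omit [CharZero k] in
/-- the action on the integral closure is continuous -/
lemma continuousSMul_BK : letI : TopologicalSpace (BK W) := ⊥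
    ContinuousSMul Gal(maxUnr k K/K) (BK W) := by
  let _ : TopologicalSpace (BK W) := ⊥
  have hd : DiscreteTopology (BK W) := ⟨rfl⟩
  rw [continuousSMul_iff_stabilizer_isOpen]
  intro b
  have h1 := stabilizer_isOpen_of_isIntegral (K := K) (b : maxUnr k K)
  have h2 : (MulAction.stabilizer Gal(maxUnr k K/K) b : Set Gal(maxUnr k K/K)) =
      (MulAction.stabilizer Gal(maxUnr k K/K) (b : maxUnr k K) : Set Gal(maxUnr k K/K)) := by
    ext g
    constructor
    · intro h
      exact congrArg (fun z : BK W => (z : maxUnr k K)) h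
    · intro h
      exact Subtype.ext h
  rw [h2]
  exact h1

/-- the constants in the integral closure -/
noncomputable def ofC (hW : IsRatPlace k K (W.comap (algebraMap K (maxUnr k K)))) :
    constClosure k K →+* BK W where
  toFun c := ⟨⟨(c : AlgebraicClosure K),
      mem_maxUnr_of_const _ (mem_algebraicClosure_iff.1 c.2).isIntegral⟩, by
    have h1 : IsIntegral k (⟨(c : AlgebraicClosure K),
      mem_maxUnr_of_const _ (mem_algebraicClosure_iff.1 c.2).isIntegral⟩ : maxUnr k K) :=
      isIntegral_coe.1 (mem_algebraicClosure_iff.1 c.2).isIntegral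
    let φ : k →+* VK W := (algebraMap k K).codRestrict (VK W).toSubring
      (fun x => hW.const_mem x)
    let _ : Algebra k (VK W) := φ.toAlgebra
    have : IsScalarTower k (VK W) (maxUnr k K) := IsScalarTower.of_algebraMap_eq (fun x => rfl)
    exact h1.tower_top⟩
  map_one' := by apply Subtype.ext; apply Subtype.ext; rfl
  map_zero' := by apply Subtype.ext; apply Subtype.ext; rfl
  map_add' := fun x y => by apply Subtype.ext; apply Subtype.ext; rfl
  map_mul' := fun x y => by apply Subtype.ext; apply Subtype.ext; rfl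

variable (hW : IsRatPlace k K (W.comap (algebraMap K (maxUnr k K))))

lemma ofC_coe (c : constClosure k K) :
    (((ofC W hW c : BK W) : maxUnr k K) : AlgebraicClosure K) = c := rfl

lemma ofC_integral (c : constClosure k K) : IsIntegral k ((ofC W hW c : BK W) : maxUnr k K) :=
  isIntegral_coe.1 (mem_algebraicClosure_iff.1 c.2).isIntegral

/-- the residue field consists of constants -/
lemma ofC_bij : Function.Bijective ((Ideal.Quotient.mk (PK W)).comp (ofC W hW)) := by
  refine ⟨?_, ?_⟩
  · have : Nontrivial (BK W ⧸ PK W) := Ideal.Quotient.nontrivial_iff.2 (Ideal.IsPrime.ne_top')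
    exact RingHom.injective _
  · intro x
    obtain ⟨b, rfl⟩ := Ideal.Quotient.mk_surjective x
    obtain ⟨c, hc, hlt⟩ := exists_const_near W hW (b : maxUnr k K) (integral_mem W b.2)
    refine ⟨⟨(c : AlgebraicClosure K), mem_algebraicClosure_iff.2
      (isIntegral_coe.2 hc).isAlgebraic⟩, ?_⟩
    rw [RingHom.comp_apply, eq_comm, Ideal.Quotient.mk_eq_mk_iff_sub_mem, mem_PK]
    exact hlt

/-- the residue field is the field of constants -/
noncomputable def eC : constClosure k K ≃+* BK W ⧸ PK W :=
  RingEquiv.ofBijective _ (ofC_bij W hW)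

lemma eC_apply (c : constClosure k K) : eC W hW c = Ideal.Quotient.mk (PK W) (ofC W hW c) := rfl

omit [CharZero k] in
/-- denominators -/
lemma exists_denom_maxUnr (x : maxUnr k K) (hx : x ∈ W) : ∃ b : BK W,
    W.valuation (b : maxUnr k K) = 1 ∧ IsIntegral (VK W) ((b : maxUnr k K) * x) := by
  have hint : IsIntegral K x := Algebra.IsIntegral.isIntegral x
  obtain ⟨i, D, hi0, hP, hD⟩ := exists_content (VK W) (minpoly K x) (minpoly.ne_zero hint)
  have hDx : aeval x (D.map (VK W).subtype) = 0 := by
    have h := minpoly.aeval K x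
    rw [hP, map_mul, aeval_C, mul_eq_zero] at h
    exact h.resolve_left ((_root_.map_ne_zero _).2 hi0)
  have hex : ∃ n, (VK W).valuation (D.coeff n : K) = 1 := by
    by_contra hcon
    push Not at hcon
    apply hD
    ext n
    rw [coeff_map, coeff_zero, IsLocalRing.residue_eq_zero_iff, (VK W).valuation_lt_one_iff]
    exact lt_of_le_of_ne (((VK W).valuation_le_one_iff _).2 (D.coeff n).2) (hcon n)
  obtain ⟨n, hn⟩ := hex
  refine exists_denom W (fun b hb => integral_mem W hb) x hx _
    (D.map (algebraMap (VK W) (BK W))) le_rfl ?_ ⟨n, ?_⟩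
  · rw [aeval_map_algebraMap]
    rw [aeval_def, eval₂_map] at hDx
    exact hDx
  · rw [coeff_map]
    have h1 := (comap_val_eq_iff (F := K) W (D.coeff n : K) 1).1 (by rw [hn, map_one])
    rw [map_one, map_one] at h1
    exact h1

/-- lifting automorphisms of the constants to the decomposition group -/
lemma exists_lift (σ : Gal(constClosure k K/k)) :
    ∃ τ : Gal(maxUnr k K/K), (∀ x, x ∈ W ↔ τ x ∈ W) ∧ ∀ c : constClosure k K,
      ((τ (ofC W hW c : maxUnr k K) : maxUnr k K) : AlgebraicClosure K) =
        ((σ c : constClosure k K) : AlgebraicClosure K) := by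
  have hchar : CharZero K := charZero_of_injective_algebraMap (algebraMap k K).injective
  let _ : TopologicalSpace (BK W) := ⊥
  have hd : DiscreteTopology (BK W) := ⟨rfl⟩
  have hcont := continuousSMul_BK W
  -- the automorphism of the residue field
  set e := eC W hW with he
  let σr : (BK W ⧸ PK W) ≃+* (BK W ⧸ PK W) := e.symm.trans ((σ : constClosure k K ≃+* _).trans e)
  have hcomm : ∀ r : VK W ⧸ (PK W).under (VK W), σr (algebraMap _ _ r) = algebraMap _ _ r := by
    intro r
    obtain ⟨v, rfl⟩ := Ideal.Quotient.mk_surjective r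
    obtain ⟨c, hc⟩ := hW.residue (v : K) v.2
    have h1 : algebraMap (VK W ⧸ (PK W).under (VK W)) (BK W ⧸ PK W)
        (Ideal.Quotient.mk _ v) = e (algebraMap k (constClosure k K) c) := by
      rw [he, eC_apply]
      show Ideal.Quotient.mk (PK W) (algebraMap (VK W) (BK W) v) = _
      rw [Ideal.Quotient.mk_eq_mk_iff_sub_mem, mem_PK]
      have h2 := ((comap_isEquiv (F := K) W).lt_one_iff_lt_one).1 hc
      rw [Valuation.comap_apply, map_sub, ← IsScalarTower.algebraMap_apply] at h2
      exact h2
    rw [h1]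
    show e (σ (e.symm (e (algebraMap k (constClosure k K) c)))) = _
    rw [RingEquiv.symm_apply_apply, AlgEquiv.commutes]
  let σ' : (BK W ⧸ PK W) ≃ₐ[VK W ⧸ (PK W).under (VK W)] (BK W ⧸ PK W) :=
    AlgEquiv.ofRingEquiv (f := σr) hcomm
  obtain ⟨⟨τ, hτP⟩, hτ⟩ := Ideal.Quotient.stabilizerHom_surjective_of_profinite
    (G := Gal(maxUnr k K/K)) ((PK W).under (VK W)) (PK W) σ'
  have hmk : ∀ b : BK W, Ideal.Quotient.mk (PK W) (τ • b) = σr (Ideal.Quotient.mk (PK W) b) := by
    intro b
    have h1 := congrArg (fun f => f (Ideal.Quotient.mk (PK W) b)) hτ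
    exact h1
  have hP : ∀ b : BK W, b ∈ PK W ↔ τ • b ∈ PK W := by
    intro b
    have h1 : τ • PK W = PK W := hτP
    conv_rhs => rw [← h1]
    exact (Ideal.smul_mem_pointwise_smul_iff).symm
  refine ⟨τ, ?_, ?_⟩
  · have key : ∀ (g : Gal(maxUnr k K/K)), (∀ b : BK W, b ∈ PK W ↔ g • b ∈ PK W) →
        ∀ x ∈ W, g x ∈ W := by
      intro g hg x hx
      obtain ⟨b, hb1, hbx⟩ := exists_denom_maxUnr W x hx
      have hgb : W.valuation ((g • b : BK W) : maxUnr k K) = 1 := by
        rcases (val_BK_le W (g • b)).lt_or_eq with h | h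
        · rw [← mem_PK, ← hg, mem_PK, hb1] at h
          exact absurd h (lt_irrefl _)
        · exact h
      have h1 : g (((b : BK W) : maxUnr k K) * x) ∈ W :=
        integral_mem W ((g • (⟨_, hbx⟩ : BK W)) : BK W).2
      rw [map_mul] at h1
      have h2 : g ((b : BK W) : maxUnr k K) = ((g • b : BK W) : maxUnr k K) := rfl
      rw [h2, ← W.valuation_le_one_iff, map_mul, hgb, one_mul] at h1
      exact (W.valuation_le_one_iff _).1 h1
    intro x
    refine ⟨key τ hP x, fun h => ?_⟩
    have h1 := key τ⁻¹ (fun b => by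
      rw [hP (τ⁻¹ • b), smul_inv_smul]) _ h
    have h2 : τ⁻¹ (τ x) = x := by
      rw [← AlgEquiv.mul_apply, inv_mul_cancel]; rfl
    rwa [h2] at h1
  · intro c
    have h1 := hmk (ofC W hW c)
    have h2 : σr (Ideal.Quotient.mk (PK W) (ofC W hW c)) =
        Ideal.Quotient.mk (PK W) (ofC W hW (σ c)) := by
      rw [← eC_apply W hW c, ← eC_apply W hW (σ c), ← he]
      show e (σ (e.symm (e c))) = _
      rw [RingEquiv.symm_apply_apply]
    rw [h2, Ideal.Quotient.mk_eq_mk_iff_sub_mem, mem_PK] at h1
    by_contra hne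
    set d : maxUnr k K := τ (ofC W hW c : maxUnr k K) - (ofC W hW (σ c) : maxUnr k K) with hdd
    have hd0 : d ≠ 0 := by
      intro h0
      apply hne
      rw [sub_eq_zero.1 h0]
      rfl
    have hdint : IsIntegral k d := by
      refine IsIntegral.sub ?_ (ofC_integral W hW _)
      exact (ofC_integral W hW c).map
        (((τ : (maxUnr k K) ≃ₐ[K] (maxUnr k K)) : (maxUnr k K) →ₐ[K] (maxUnr k K)).restrictScalars k)
    have h3 := val_alg_gen (const_mem' W hW) hdint hd0
    have h4 : W.valuation d < 1 := h1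
    exact h4.ne h3

/-- `τ` stabilizes `W` and acts on the constants as `σ` -/
def Good (σ : Gal(constClosure k K/k)) (τ : Gal(maxUnr k K/K)) : Prop :=
  (∀ x, x ∈ W ↔ τ x ∈ W) ∧ ∀ c : constClosure k K,
      ((τ (ofC W hW c : maxUnr k K) : maxUnr k K) : AlgebraicClosure K) =
        ((σ c : constClosure k K) : AlgebraicClosure K)

variable {W hW}

lemma Good.eq {σ : Gal(constClosure k K/k)} {τ : Gal(maxUnr k K/K)} (h : Good W hW σ τ)
    (c : constClosure k K) : τ (ofC W hW c : maxUnr k K) = (ofC W hW (σ c) : maxUnr k K) :=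
  Subtype.ext (h.2 c)

lemma Good.mul {σ σ' : Gal(constClosure k K/k)} {τ τ' : Gal(maxUnr k K/K)} (h : Good W hW σ τ)
    (h' : Good W hW σ' τ') : Good W hW (σ * σ') (τ * τ') := by
  refine ⟨fun x => ?_, fun c => ?_⟩
  · rw [AlgEquiv.mul_apply, ← h.1, ← h'.1]
  · rw [AlgEquiv.mul_apply, AlgEquiv.mul_apply, h'.eq, h.2]

lemma Good.unique (hK : IsFunctionField k K) {σ : Gal(constClosure k K/k)}
    {τ τ' : Gal(maxUnr k K/K)} (h : Good W hW σ τ) (h' : Good W hW σ τ') : τ = τ' := by
  have h1 : τ⁻¹ * τ' = 1 := by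
    have hinv : ∀ z, τ (τ⁻¹ z) = z := by
      intro z
      rw [← AlgEquiv.mul_apply, mul_inv_cancel]
      rfl
    apply inertia_trivial W hK hW
    · intro x hx
      rw [AlgEquiv.mul_apply, h.1, hinv]
      exact (h'.1 x).1 hx
    · intro x hx
      have h2 : x = (ofC W hW ⟨(x : AlgebraicClosure K), mem_algebraicClosure_iff.2
        (isIntegral_coe.2 hx).isAlgebraic⟩ : maxUnr k K) := rfl
      rw [AlgEquiv.mul_apply]
      apply τ.injective
      rw [hinv]
      rw [h2, h.eq, h'.eq]
  have h2 := eq_of_inv_mul_eq_one h1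
  exact h2

omit [CharZero k] in
/-- evaluation is locally constant -/
lemma isOpen_eval {F : Type*} {L : Type*} [Field F] [Field L] [Algebra F L]
    [Algebra.IsIntegral F L] (x : L) (Q : L → Prop) : IsOpen {τ : Gal(L/F) | Q (τ x)} := by
  rw [isOpen_iff_forall_mem_open]
  intro τ₀ hτ₀
  refine ⟨(fun τ => τ₀⁻¹ * τ) ⁻¹' (MulAction.stabilizer Gal(L/F) x : Set Gal(L/F)), ?_, ?_, ?_⟩
  · intro τ hτ
    have h1 : (τ₀⁻¹ * τ) x = x := hτ
    have h2 : τ x = τ₀ x := by
      rw [AlgEquiv.mul_apply] at h1
      have h3 := congrArg τ₀ h1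
      rw [← AlgEquiv.mul_apply, mul_inv_cancel] at h3
      exact h3
    show Q (τ x)
    rw [h2]
    exact hτ₀
  · exact (stabilizer_isOpen_of_isIntegral (K := F) x).preimage (continuous_const_mul _)
  · show τ₀⁻¹ * τ₀ ∈ MulAction.stabilizer Gal(L/F) x
    rw [inv_mul_cancel]
    exact Subgroup.one_mem _

lemma isClosed_good : IsClosed {q : Gal(constClosure k K/k) × Gal(maxUnr k K/K) |
    Good W hW q.1 q.2} := by
  have h1 : {q : Gal(constClosure k K/k) × Gal(maxUnr k K/K) | Good W hW q.1 q.2} =
      (⋂ x, Prod.snd ⁻¹' {τ : Gal(maxUnr k K/K) | x ∈ W ↔ τ x ∈ W}) ∩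
      ⋂ c : constClosure k K, {q : Gal(constClosure k K/k) × Gal(maxUnr k K/K) |
        ((q.2 (ofC W hW c : maxUnr k K) : maxUnr k K) : AlgebraicClosure K) =
        ((q.1 c : constClosure k K) : AlgebraicClosure K)} := by
    ext q
    simp only [Good, Set.mem_inter_iff, Set.mem_iInter, Set.mem_preimage, Set.mem_ofPred_eq]
  rw [h1]
  refine IsClosed.inter (isClosed_iInter fun x => ?_) (isClosed_iInter fun c => ?_)
  · refine IsClosed.preimage continuous_snd ?_
    rw [← isOpen_compl_iff]
    exact isOpen_eval x (fun z => ¬ (x ∈ W ↔ z ∈ W))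
  · rw [← isOpen_compl_iff]
    have h2 : {q : Gal(constClosure k K/k) × Gal(maxUnr k K/K) |
        ((q.2 (ofC W hW c : maxUnr k K) : maxUnr k K) : AlgebraicClosure K) =
        ((q.1 c : constClosure k K) : AlgebraicClosure K)}ᶜ =
        ⋃ e : AlgebraicClosure K, {σ : Gal(constClosure k K/k) |
          ((σ c : constClosure k K) : AlgebraicClosure K) = e} ×ˢ
          {τ : Gal(maxUnr k K/K) |
            ((τ (ofC W hW c : maxUnr k K) : maxUnr k K) : AlgebraicClosure K) ≠ e} := by
      ext q
      simp only [Set.mem_compl_iff, Set.mem_ofPred_eq, Set.mem_iUnion, Set.mem_prod]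
      constructor
      · intro h
        exact ⟨_, rfl, h⟩
      · rintro ⟨e, rfl, h⟩
        exact h
    rw [h2]
    refine isOpen_iUnion fun e => IsOpen.prod ?_ ?_
    · exact isOpen_eval c (fun z : constClosure k K => (z : AlgebraicClosure K) = e)
    · exact isOpen_eval (ofC W hW c : maxUnr k K)
        (fun z : maxUnr k K => (z : AlgebraicClosure K) ≠ e)

variable (W hW)

include hW in
/-- **Existence of geometric sections.** -/
theorem exists_geo_section (hK : IsFunctionField k K) : ∃ s : Section k K,
    ∀ (σ : GalOf (constClosure k K)) (x y : maxUnr k K), (s.hom σ).Maps x y → x ∈ W → y ∈ W := by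
  have hchar : CharZero K := charZero_of_injective_algebraMap (algebraMap k K).injective
  have hex : ∀ σ, ∃ τ, Good W hW σ τ := exists_lift W hW
  choose t ht using hex
  have hmul : ∀ σ σ', t (σ * σ') = t σ * t σ' := fun σ σ' =>
    Good.unique hK (ht _) ((ht σ).mul (ht σ'))
  let φ : Gal(constClosure k K/k) →* Gal(maxUnr k K/K) := MonoidHom.mk' t hmul
  have hcont : Continuous φ := by
    rw [continuous_iff_isClosed]
    intro Z hZ
    have h1 : φ ⁻¹' Z = Prod.fst '' ({q : Gal(constClosure k K/k) × Gal(maxUnr k K/K) |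
        Good W hW q.1 q.2} ∩ Prod.snd ⁻¹' Z) := by
      ext σ
      constructor
      · intro h
        exact ⟨(σ, t σ), ⟨ht σ, h⟩, rfl⟩
      · rintro ⟨⟨σ', τ⟩, ⟨h2, h3⟩, rfl⟩
        have h4 : t σ' = τ := Good.unique hK (ht σ') h2
        show t σ' ∈ Z
        rw [h4]
        exact h3
    rw [h1]
    exact isClosedMap_fst_of_compactSpace _ (isClosed_good.inter (hZ.preimage continuous_snd))
  refine ⟨{ hom := φ, cont := hcont, lifts := ?_ }, ?_⟩
  · rintro σ x y ⟨c, hc, hc'⟩ _
    refine ⟨(ofC W hW c : maxUnr k K), hc, ?_⟩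
    rw [← hc']
    exact (ht σ).2 c
  · rintro σ x y ⟨x', hx', hy⟩ hx
    have h1 : x' = x := Subtype.ext hx'
    have h2 : t σ x' = y := Subtype.ext hy
    rw [← h2, h1]
    exact ((ht σ).1 x).1 hx

end decomp

end P025H16
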