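import Vale.Agent.P025.H16.GeoSec

/-! # Decomposition groups of rational places: general version -/

namespace P025H16

open P025H641 Polynomial IntermediateField

open scoped Pointwise

universe u v w x

namespace Dec

section local_

variable {k : Type u} {K : Type v} {N : Type w} [Field k] [Field K] [Field N]
  [Algebra k K] [Algebra k N] [Algebra K N] [IsScalarTower k K N]
  (W : ValuationSubring N)

lemma const_mem (hW : IsRatPlace k K (W.comap (algebraMap K N))) (c : k) :
    algebraMap k N c ∈ W := by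
  have h := hW.const_mem c
  rw [ValuationSubring.mem_comap, ← IsScalarTower.algebraMap_apply] at h
  exact h

/-- elements of `W` are near to constants -/
lemma exists_const_near [Algebra.IsAlgebraic K N]
    (hsplit : ∀ P : k[X], (P.map (algebraMap k N)).Splits)
    (hW : IsRatPlace k K (W.comap (algebraMap K N)))
    (y : N) (hy : y ∈ W) : ∃ c : N, IsIntegral k c ∧ W.valuation (y - c) < 1 := by
  classical
  set V := W.comap (algebraMap K N) with hV
  have hint : IsIntegral K y := Algebra.IsIntegral.isIntegral y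
  obtain ⟨i, D, hi0, hP, hD⟩ := exists_content V (minpoly K y) (minpoly.ne_zero hint)
  have hDy : aeval y (D.map V.subtype) = 0 := by
    have h := minpoly.aeval K y
    rw [hP, map_mul, aeval_C, mul_eq_zero] at h
    exact h.resolve_left ((_root_.map_ne_zero _).2 hi0)
  -- approximate the coefficients by constants
  have hex : ∀ j, ∃ c : k, V.valuation ((D.coeff j : K) - algebraMap k K c) < 1 :=
    fun j => hW.residue _ (D.coeff j).2
  choose c hc using hex
  have hcW : ∀ j, W.valuation (algebraMap K N (D.coeff j : K) -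
      algebraMap k N (c j)) < 1 := by
    intro j
    have h := ((comap_isEquiv (F := K) W).lt_one_iff_lt_one).1 (hc j)
    rw [Valuation.comap_apply, map_sub, ← IsScalarTower.algebraMap_apply] at h
    exact h
  set d : k[X] := ∑ j ∈ Finset.range (D.natDegree + 1), monomial j (c j) with hd
  have hdcoeff : ∀ j ≤ D.natDegree, d.coeff j = c j := by
    intro j hj
    rw [hd, finsetSum_coeff]
    simp only [coeff_monomial]
    rw [Finset.sum_ite_eq']
    rw [if_pos (Finset.mem_range.2 (by omega))]
  have hd0 : d ≠ 0 := by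
    intro h0
    apply hD
    ext j
    rw [coeff_map, coeff_zero]
    by_cases hj : j ≤ D.natDegree
    · rw [IsLocalRing.residue_eq_zero_iff, V.valuation_lt_one_iff]
      have h1 := hc j
      rw [← hdcoeff j hj, h0, coeff_zero, map_zero, sub_zero] at h1
      exact h1
    · rw [coeff_eq_zero_of_natDegree_lt (not_le.1 hj), map_zero]
  -- the value of `d` at `y`
  have hdy : W.valuation (aeval y d) < 1 := by
    have h1 : aeval y d = ∑ j ∈ Finset.range (D.natDegree + 1),
        (algebraMap k N (c j) - algebraMap K N (D.coeff j : K)) * y ^ j := by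
      have h2 : aeval y (D.map V.subtype) = ∑ j ∈ Finset.range (D.natDegree + 1),
          algebraMap K N (D.coeff j : K) * y ^ j := by
        rw [aeval_def, eval₂_map, eval₂_eq_sum_range]
        rfl
      have h3 : aeval y d = ∑ j ∈ Finset.range (D.natDegree + 1),
          algebraMap k N (c j) * y ^ j := by
        rw [hd, map_sum]
        exact Finset.sum_congr rfl (fun j _ => by rw [aeval_monomial])
      have h4 : aeval y d = aeval y d - aeval y (D.map V.subtype) := by rw [hDy, sub_zero]
      rw [h4, h2, h3, ← Finset.sum_sub_distrib]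
      exact Finset.sum_congr rfl (fun j _ => by rw [sub_mul])
    rw [h1]
    apply Valuation.map_sum_lt _ one_ne_zero
    intro j _
    rw [map_mul, map_pow, ← Valuation.map_neg, neg_sub]
    exact mul_lt_one_of_lt_of_le (hcW j) (pow_le_one' ((W.valuation_le_one_iff _).2 hy) j)
  -- factorization
  have hsp := hsplit d
  have h5 : aeval y d = (d.map (algebraMap k N)).eval y := by
    rw [eval_map, aeval_def]
  rw [h5, hsp.eval_eq_prod_roots, map_mul] at hdy
  have hlead : W.valuation (d.map (algebraMap k N)).leadingCoeff = 1 := by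
    rw [leadingCoeff_map]
    exact val_alg_gen (const_mem (K := K) W hW) isIntegral_algebraMap
      ((_root_.map_ne_zero _).2 (leadingCoeff_ne_zero.2 hd0))
  rw [hlead, one_mul, map_multiset_prod, Multiset.map_map] at hdy
  by_contra hcon
  push Not at hcon
  have h6 : ∀ a ∈ (d.map (algebraMap k N)).roots, 1 ≤ W.valuation (y - a) := by
    intro a ha
    apply hcon
    have h7 := (mem_roots'.1 ha).2
    rw [IsRoot, eval_map, ← aeval_def] at h7
    exact IsAlgebraic.isIntegral ⟨d, hd0, h7⟩
  have h8 : 1 ≤ (Multiset.map (⇑W.valuation ∘ fun x => y - x)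
      (d.map (algebraMap k N)).roots).prod := by
    apply Multiset.one_le_prod_of_one_le
    intro x hx
    obtain ⟨a, ha, rfl⟩ := Multiset.mem_map.1 hx
    exact h6 a ha
  exact absurd hdy (not_lt.2 h8)

omit [Algebra k N] [IsScalarTower k K N] in
/-- a uniformizer of `W` in `K` -/
lemma exists_unif (hW : IsRatPlace k K (W.comap (algebraMap K N))) :
    ∃ π : K, W.valuation (algebraMap K N π) < 1 ∧ π ≠ 0 ∧
      (∀ x : K, W.valuation (algebraMap K N x) < 1 →
        W.valuation (algebraMap K N x) ≤ W.valuation (algebraMap K N π)) ∧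
      ∀ x : K, x ≠ 0 → ∃ n : ℕ, W.valuation (algebraMap K N π) ^ n <
        W.valuation (algebraMap K N x) := by
  have heq := comap_isEquiv (F := K) W
  obtain ⟨ϖ, hϖ0, hϖ1, hϖ⟩ := hW.toIsPlace.exists_unif
  have hlt1 : W.valuation (algebraMap K N ϖ) < 1 := heq.lt_one_iff_lt_one.1 hϖ1
  refine ⟨ϖ, hlt1, hϖ0, fun x hx => ?_, fun x hx => ?_⟩
  · by_cases hx0 : x = 0
    · rw [hx0, map_zero, map_zero]; exact zero_le
    obtain ⟨n, hn⟩ := hϖ x hx0
    have hx1 := (heq.lt_one_iff_lt_one (x := x)).2 hx
    have hpos : 0 < (W.comap (algebraMap K N)).valuation ϖ :=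
      zero_lt_iff.2 ((_root_.map_ne_zero _).2 hϖ0)
    have hn1 : 1 ≤ n := by
      by_contra h
      push Not at h
      have h1 : 1 ≤ (W.comap (algebraMap K N)).valuation ϖ ^ n :=
        one_le_zpow_of_nonpos₀ hpos hϖ1.le (by omega)
      rw [← hn] at h1
      exact absurd hx1 (not_lt.2 h1)
    have h2 : (W.comap (algebraMap K N)).valuation x ≤
        (W.comap (algebraMap K N)).valuation ϖ := by
      rw [hn]
      conv_rhs => rw [← zpow_one ((W.comap (algebraMap K N)).valuation ϖ)]
      exact zpow_le_zpow_right_of_le_one₀ hpos hϖ1.le hn1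
    exact (heq x ϖ).1 h2
  · obtain ⟨n, hn⟩ := hW.toIsPlace.archimedean x ϖ hx hϖ1
    refine ⟨n, ?_⟩
    rw [← map_pow] at hn
    have h1 := heq.lt_iff_lt.1 hn
    rw [Valuation.comap_apply, Valuation.comap_apply, map_pow, map_pow] at h1
    exact h1

/-- automorphisms preserving `W` and fixing the constants are trivial -/
theorem inertia_trivial [Algebra.IsAlgebraic K N]
    (hsplit : ∀ P : k[X], (P.map (algebraMap k N)).Splits)
    (hW : IsRatPlace k K (W.comap (algebraMap K N)))
    (hval : ∀ y : N, ∃ a : K, W.valuation (algebraMap K N a) = W.valuation y)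
    (τ : Gal(N/K)) (h1 : ∀ x ∈ W, τ x ∈ W)
    (h2 : ∀ x : N, IsIntegral k x → τ x = x) : τ = 1 := by
  obtain ⟨π, hπ1, hπ0, hπmax, harch⟩ := exists_unif W hW
  set P : N := algebraMap K N π with hP
  have hP0 : P ≠ 0 := (_root_.map_ne_zero _).2 hπ0
  have hPpos : 0 < W.valuation P := zero_lt_iff.2 ((_root_.map_ne_zero _).2 hP0)
  have hstep : ∀ y ∈ W, ∃ c : N, IsIntegral k c ∧ ∃ y' ∈ W, y = c + P * y' := by
    intro y hy
    obtain ⟨c, hc, hlt⟩ := exists_const_near W hsplit hW y hy
    obtain ⟨a, ha⟩ := hval (y - c)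
    refine ⟨c, hc, (y - c) / P, ?_, ?_⟩
    · rw [← W.valuation_le_one_iff, map_div₀, ← ha]
      exact (div_le_one₀ hPpos).2 (hπmax a (by rw [ha]; exact hlt))
    · rw [mul_div_cancel₀ _ hP0]
      ring
  have hmain : ∀ (n : ℕ), ∀ y ∈ W, ∃ z : N, τ z = z ∧ ∃ y' ∈ W, y = z + P ^ n * y' := by
    intro n
    induction n with
    | zero =>
      intro y hy
      exact ⟨0, map_zero τ, y, hy, by rw [pow_zero, one_mul, zero_add]⟩
    | succ n ih =>
      intro y hy
      obtain ⟨z, hz, y', hy', hyz⟩ := ih y hy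
      obtain ⟨c, hc, y'', hy'', hy'c⟩ := hstep y' hy'
      refine ⟨z + P ^ n * c, ?_, y'', hy'', ?_⟩
      · rw [map_add, map_mul, map_pow, hz, h2 c hc, hP, AlgEquiv.commutes]
      · rw [hyz, hy'c, pow_succ]
        ring
  have hfix : ∀ y ∈ W, τ y = y := by
    intro y hy
    by_contra hne
    have he0 : τ y - y ≠ 0 := sub_ne_zero.2 hne
    obtain ⟨a, ha⟩ := hval (τ y - y)
    have ha0 : a ≠ 0 := by
      rintro rfl
      rw [map_zero, map_zero] at ha
      exact he0 ((_root_.map_eq_zero _).1 ha.symm)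
    obtain ⟨n, hn⟩ := harch a ha0
    obtain ⟨z, hz, y', hy', hyz⟩ := hmain n y hy
    have h3 : τ y - y = P ^ n * (τ y' - y') := by
      conv_lhs => rw [hyz]
      rw [map_add, map_mul, map_pow, hz, hP, AlgEquiv.commutes]
      ring
    have h4 : W.valuation (τ y' - y') ≤ 1 := by
      rw [W.valuation_le_one_iff]
      exact W.sub_mem (h1 _ hy') hy'
    have h5 : W.valuation (τ y - y) ≤ W.valuation P ^ n := by
      rw [h3, map_mul, map_pow]
      exact mul_le_of_le_one_right' h4
    rw [← ha] at h5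
    exact absurd hn (not_lt.2 h5)
  ext1 y
  rcases W.mem_or_inv_mem y with h | h
  · exact hfix y h
  · have h3 := hfix _ h
    rw [map_inv₀] at h3
    exact inv_injective h3

end local_

section decomp

variable (K : Type v) {N : Type w} [Field K] [Field N] [Algebra K N] (W : ValuationSubring N)

/-- the restriction to `K` -/
noncomputable abbrev VK : ValuationSubring K := W.comap (algebraMap K N)

lemma integral_mem {b : N} (hb : IsIntegral (VK K W) b) : b ∈ W := by
  let φ : VK K W →+* W := ((algebraMap K N).comp (VK K W).subtype).codRestrict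
    W.toSubring (fun x => x.2)
  let _ : Algebra (VK K W) W := φ.toAlgebra
  have : IsScalarTower (VK K W) W N := IsScalarTower.of_algebraMap_eq (fun x => rfl)
  have hx : IsIntegral W b := hb.tower_top
  obtain ⟨y, hy⟩ := IsIntegrallyClosed.isIntegral_iff.mp hx
  rw [← hy]
  exact y.2

/-- the integral closure -/
noncomputable abbrev BK : Subalgebra (VK K W) N := integralClosure (VK K W) N

/-- the inclusion of the integral closure -/
noncomputable def toW : BK K W →+* W :=
  ((BK K W).val : BK K W →+* N).codRestrict W.toSubring (fun x => integral_mem K W x.2)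

/-- the center of `W` on the integral closure -/
noncomputable def PK : Ideal (BK K W) := (IsLocalRing.maximalIdeal W).comap (toW K W)

instance : (PK K W).IsPrime := Ideal.comap_isPrime _ _

lemma mem_PK (b : BK K W) : b ∈ PK K W ↔ W.valuation (b : N) < 1 := by
  rw [PK, Ideal.mem_comap]
  exact W.valuation_lt_one_iff _

lemma val_BK_le (b : BK K W) : W.valuation (b : N) ≤ 1 :=
  (W.valuation_le_one_iff _).2 (integral_mem K W b.2)

instance isInvariant_BK [IsGalois K N] : Algebra.IsInvariant (VK K W) (BK K W) Gal(N/K) where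
  isInvariant b hb := by
    have h1 : ∀ g : Gal(N/K), g (b : N) = b := fun g =>
      congrArg (fun z : BK K W => (z : N)) (hb g)
    obtain ⟨a, ha⟩ := (InfiniteGalois.mem_range_algebraMap_iff_fixed (b : N)).2 h1
    have haV : a ∈ VK K W := by
      show algebraMap K N a ∈ W
      rw [ha]
      exact integral_mem K W b.2
    exact ⟨⟨a, haV⟩, Subtype.ext ha⟩

/-- the action on the integral closure is continuous -/
lemma continuousSMul_BK [Algebra.IsAlgebraic K N] :
    letI : TopologicalSpace (BK K W) := ⊥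
    ContinuousSMul Gal(N/K) (BK K W) := by
  let _ : TopologicalSpace (BK K W) := ⊥
  have hd : DiscreteTopology (BK K W) := ⟨rfl⟩
  rw [continuousSMul_iff_stabilizer_isOpen]
  intro b
  have h1 := stabilizer_isOpen_of_isIntegral (K := K) (b : N)
  have h2 : (MulAction.stabilizer Gal(N/K) b : Set Gal(N/K)) =
      (MulAction.stabilizer Gal(N/K) (b : N) : Set Gal(N/K)) := by
    ext g
    constructor
    · intro h
      exact congrArg (fun z : BK K W => (z : N)) h
    · intro h
      exact Subtype.ext h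
  rw [h2]
  exact h1

/-- denominators -/
lemma exists_denom_N [Algebra.IsAlgebraic K N] (x : N) (hx : x ∈ W) : ∃ b : BK K W,
    W.valuation (b : N) = 1 ∧ IsIntegral (VK K W) ((b : N) * x) := by
  have hint : IsIntegral K x := Algebra.IsIntegral.isIntegral x
  obtain ⟨i, D, hi0, hP, hD⟩ := exists_content (VK K W) (minpoly K x) (minpoly.ne_zero hint)
  have hDx : aeval x (D.map (VK K W).subtype) = 0 := by
    have h := minpoly.aeval K x
    rw [hP, map_mul, aeval_C, mul_eq_zero] at h
    exact h.resolve_left ((_root_.map_ne_zero _).2 hi0)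
  have hex : ∃ n, (VK K W).valuation (D.coeff n : K) = 1 := by
    by_contra hcon
    push Not at hcon
    apply hD
    ext n
    rw [coeff_map, coeff_zero, IsLocalRing.residue_eq_zero_iff, (VK K W).valuation_lt_one_iff]
    exact lt_of_le_of_ne (((VK K W).valuation_le_one_iff _).2 (D.coeff n).2) (hcon n)
  obtain ⟨n, hn⟩ := hex
  refine exists_denom W (fun b hb => integral_mem K W hb) x hx _
    (D.map (algebraMap (VK K W) (BK K W))) le_rfl ?_ ⟨n, ?_⟩
  · rw [aeval_map_algebraMap]
    rw [aeval_def, eval₂_map] at hDx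
    exact hDx
  · rw [coeff_map]
    have h1 := (comap_val_eq_iff (F := K) W (D.coeff n : K) 1).1 (by rw [hn, map_one])
    rw [map_one, map_one] at h1
    exact h1

end decomp

section const

variable {k : Type u} {K : Type v} {N : Type w} {C : Type x} [Field k] [Field K] [Field N]
  [Field C] [Algebra k K] [Algebra k N] [Algebra K N] [IsScalarTower k K N] [Algebra k C]
  (W : ValuationSubring N) (hW : IsRatPlace k K (W.comap (algebraMap K N)))
  (ι : C →ₐ[k] N) (hι : ∀ x : N, IsIntegral k x ↔ ∃ c, ι c = x)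

/-- the constants in the integral closure -/
noncomputable def ofC : C →+* BK K W where
  toFun c := ⟨ι c, by
    have h1 : IsIntegral k (ι c) := (hι _).2 ⟨c, rfl⟩
    let φ : k →+* VK K W := (algebraMap k K).codRestrict (VK K W).toSubring
      (fun x => hW.const_mem x)
    let _ : Algebra k (VK K W) := φ.toAlgebra
    have : IsScalarTower k (VK K W) N := IsScalarTower.of_algebraMap_eq (fun x =>
      IsScalarTower.algebraMap_apply k K N x)
    exact h1.tower_top⟩
  map_one' := by apply Subtype.ext; exact map_one ι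
  map_zero' := by apply Subtype.ext; exact map_zero ι
  map_add' := fun x y => by apply Subtype.ext; exact map_add ι x y
  map_mul' := fun x y => by apply Subtype.ext; exact map_mul ι x y

lemma ofC_coe (c : C) : ((ofC W hW ι hι c : BK K W) : N) = ι c := rfl

variable [Algebra.IsAlgebraic K N] (hsplit : ∀ P : k[X], (P.map (algebraMap k N)).Splits)

include hsplit in
/-- the residue field consists of constants -/
lemma ofC_bij : Function.Bijective ((Ideal.Quotient.mk (PK K W)).comp (ofC W hW ι hι)) := by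
  refine ⟨?_, ?_⟩
  · have : Nontrivial (BK K W ⧸ PK K W) :=
      Ideal.Quotient.nontrivial_iff.2 (Ideal.IsPrime.ne_top')
    exact RingHom.injective _
  · intro x
    obtain ⟨b, rfl⟩ := Ideal.Quotient.mk_surjective x
    obtain ⟨c, hc, hlt⟩ := exists_const_near W hsplit hW (b : N) (integral_mem K W b.2)
    obtain ⟨c', rfl⟩ := (hι c).1 hc
    refine ⟨c', ?_⟩
    rw [RingHom.comp_apply, eq_comm, Ideal.Quotient.mk_eq_mk_iff_sub_mem, mem_PK]
    exact hlt

/-- the residue field is the field of constants -/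
noncomputable def eC : C ≃+* BK K W ⧸ PK K W :=
  RingEquiv.ofBijective _ (ofC_bij W hW ι hι hsplit)

lemma eC_apply (c : C) :
    eC W hW ι hι hsplit c = Ideal.Quotient.mk (PK K W) (ofC W hW ι hι c) := rfl

include hW hι hsplit in
/-- lifting automorphisms of the constants to the decomposition group -/
lemma exists_lift [IsGalois K N] (σ : Gal(C/k)) :
    ∃ τ : Gal(N/K), (∀ x, x ∈ W ↔ τ x ∈ W) ∧ ∀ c : C, τ (ι c) = ι (σ c) := by
  let _ : TopologicalSpace (BK K W) := ⊥
  have hd : DiscreteTopology (BK K W) := ⟨rfl⟩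
  have hcont := continuousSMul_BK K W
  -- the automorphism of the residue field
  set e := eC W hW ι hι hsplit with he
  let σr : (BK K W ⧸ PK K W) ≃+* (BK K W ⧸ PK K W) :=
    e.symm.trans ((σ : C ≃+* _).trans e)
  have hcomm : ∀ r : VK K W ⧸ (PK K W).under (VK K W),
      σr (algebraMap _ _ r) = algebraMap _ _ r := by
    intro r
    obtain ⟨v, rfl⟩ := Ideal.Quotient.mk_surjective r
    obtain ⟨c, hc⟩ := hW.residue (v : K) v.2
    have h1 : algebraMap (VK K W ⧸ (PK K W).under (VK K W)) (BK K W ⧸ PK K W)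
        (Ideal.Quotient.mk _ v) = e (algebraMap k C c) := by
      rw [he, eC_apply]
      show Ideal.Quotient.mk (PK K W) (algebraMap (VK K W) (BK K W) v) = _
      rw [Ideal.Quotient.mk_eq_mk_iff_sub_mem, mem_PK]
      have h2 := ((comap_isEquiv (F := K) W).lt_one_iff_lt_one).1 hc
      rw [Valuation.comap_apply, map_sub, ← IsScalarTower.algebraMap_apply] at h2
      show W.valuation (algebraMap K N v - ι (algebraMap k C c)) < 1
      rw [AlgHom.commutes]
      exact h2
    rw [h1]
    show e (σ (e.symm (e (algebraMap k C c)))) = _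
    rw [RingEquiv.symm_apply_apply, AlgEquiv.commutes]
  let σ' : (BK K W ⧸ PK K W) ≃ₐ[VK K W ⧸ (PK K W).under (VK K W)] (BK K W ⧸ PK K W) :=
    AlgEquiv.ofRingEquiv (f := σr) hcomm
  obtain ⟨⟨τ, hτP⟩, hτ⟩ := Ideal.Quotient.stabilizerHom_surjective_of_profinite
    (G := Gal(N/K)) ((PK K W).under (VK K W)) (PK K W) σ'
  have hmk : ∀ b : BK K W, Ideal.Quotient.mk (PK K W) (τ • b) =
      σr (Ideal.Quotient.mk (PK K W) b) := by
    intro b
    have h1 := congrArg (fun f => f (Ideal.Quotient.mk (PK K W) b)) hτ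
    exact h1
  have hP : ∀ b : BK K W, b ∈ PK K W ↔ τ • b ∈ PK K W := by
    intro b
    have h1 : τ • PK K W = PK K W := hτP
    conv_rhs => rw [← h1]
    exact (Ideal.smul_mem_pointwise_smul_iff).symm
  refine ⟨τ, ?_, ?_⟩
  · have key : ∀ (g : Gal(N/K)), (∀ b : BK K W, b ∈ PK K W ↔ g • b ∈ PK K W) →
        ∀ x ∈ W, g x ∈ W := by
      intro g hg x hx
      obtain ⟨b, hb1, hbx⟩ := exists_denom_N K W x hx
      have hgb : W.valuation ((g • b : BK K W) : N) = 1 := by
        rcases (val_BK_le K W (g • b)).lt_or_eq with h | h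
        · rw [← mem_PK, ← hg, mem_PK, hb1] at h
          exact absurd h (lt_irrefl _)
        · exact h
      have h1 : g (((b : BK K W) : N) * x) ∈ W :=
        integral_mem K W ((g • (⟨_, hbx⟩ : BK K W)) : BK K W).2
      rw [map_mul] at h1
      have h2 : g ((b : BK K W) : N) = ((g • b : BK K W) : N) := rfl
      rw [h2, ← W.valuation_le_one_iff, map_mul, hgb, one_mul] at h1
      exact (W.valuation_le_one_iff _).1 h1
    intro x
    refine ⟨key τ hP x, fun h => ?_⟩
    have h1 := key τ⁻¹ (fun b => by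
      rw [hP (τ⁻¹ • b), smul_inv_smul]) _ h
    have h2 : τ⁻¹ (τ x) = x := by
      rw [← AlgEquiv.mul_apply, inv_mul_cancel]; rfl
    rwa [h2] at h1
  · intro c
    have h1 := hmk (ofC W hW ι hι c)
    have h2 : σr (Ideal.Quotient.mk (PK K W) (ofC W hW ι hι c)) =
        Ideal.Quotient.mk (PK K W) (ofC W hW ι hι (σ c)) := by
      rw [← eC_apply W hW ι hι hsplit c, ← eC_apply W hW ι hι hsplit (σ c), ← he]
      show e (σ (e.symm (e c))) = _
      rw [RingEquiv.symm_apply_apply]
    rw [h2, Ideal.Quotient.mk_eq_mk_iff_sub_mem, mem_PK] at h1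
    by_contra hne
    set d : N := τ (ι c) - ι (σ c) with hdd
    have hd0 : d ≠ 0 := sub_ne_zero.2 hne
    have hdint : IsIntegral k d := by
      refine IsIntegral.sub ?_ ((hι _).2 ⟨_, rfl⟩)
      exact ((hι (ι c)).2 ⟨_, rfl⟩).map (((τ : N ≃ₐ[K] N) : N →ₐ[K] N).restrictScalars k)
    have h3 := val_alg_gen (const_mem (K := K) W hW) hdint hd0
    have h4 : W.valuation d < 1 := h1
    exact h4.ne h3

end const

section good

variable {k : Type u} {K : Type v} {N : Type w} {C : Type x} [Field k] [Field K] [Field N]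
  [Field C] [Algebra k K] [Algebra k N] [Algebra K N] [IsScalarTower k K N] [Algebra k C]
  (W : ValuationSubring N) (ι : C →ₐ[k] N)

/-- `τ` stabilizes `W` and acts on the constants as `σ` -/
def Good (σ : Gal(C/k)) (τ : Gal(N/K)) : Prop :=
  (∀ x, x ∈ W ↔ τ x ∈ W) ∧ ∀ c : C, τ (ι c) = ι (σ c)

variable {W ι}

omit [Algebra k K] [IsScalarTower k K N] in
lemma Good.mul {σ σ' : Gal(C/k)} {τ τ' : Gal(N/K)} (h : Good W ι σ τ)
    (h' : Good W ι σ' τ') : Good W ι (σ * σ') (τ * τ') := by
  refine ⟨fun x => ?_, fun c => ?_⟩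
  · rw [AlgEquiv.mul_apply, ← h.1, ← h'.1]
  · rw [AlgEquiv.mul_apply, AlgEquiv.mul_apply, h'.2, h.2]

/-- uniqueness of the lift -/
lemma Good.unique [Algebra.IsAlgebraic K N]
    (hW : IsRatPlace k K (W.comap (algebraMap K N)))
    (hι : ∀ x : N, IsIntegral k x ↔ ∃ c, ι c = x)
    (hsplit : ∀ P : k[X], (P.map (algebraMap k N)).Splits)
    (hval : ∀ y : N, ∃ a : K, W.valuation (algebraMap K N a) = W.valuation y)
    {σ : Gal(C/k)} {τ τ' : Gal(N/K)} (h : Good W ι σ τ) (h' : Good W ι σ τ') : τ = τ' := by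
  have h1 : τ⁻¹ * τ' = 1 := by
    have hinv : ∀ z, τ (τ⁻¹ z) = z := by
      intro z
      rw [← AlgEquiv.mul_apply, mul_inv_cancel]
      rfl
    apply inertia_trivial W hsplit hW hval
    · intro x hx
      rw [AlgEquiv.mul_apply, h.1, hinv]
      exact (h'.1 x).1 hx
    · intro x hx
      obtain ⟨c, rfl⟩ := (hι x).1 hx
      rw [AlgEquiv.mul_apply]
      apply τ.injective
      rw [hinv, h.2, h'.2]
  exact eq_of_inv_mul_eq_one h1

omit [Algebra k K] [IsScalarTower k K N] in
lemma isClosed_good [Algebra.IsAlgebraic K N] [Algebra.IsAlgebraic k C] :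
    IsClosed {q : Gal(C/k) × Gal(N/K) | Good W ι q.1 q.2} := by
  have h1 : {q : Gal(C/k) × Gal(N/K) | Good W ι q.1 q.2} =
      (⋂ x, Prod.snd ⁻¹' {τ : Gal(N/K) | x ∈ W ↔ τ x ∈ W}) ∩
      ⋂ c : C, {q : Gal(C/k) × Gal(N/K) | q.2 (ι c) = ι (q.1 c)} := by
    ext q
    simp only [Good, Set.mem_inter_iff, Set.mem_iInter, Set.mem_preimage, Set.mem_ofPred_eq]
  rw [h1]
  refine IsClosed.inter (isClosed_iInter fun x => ?_) (isClosed_iInter fun c => ?_)
  · refine IsClosed.preimage continuous_snd ?_
    rw [← isOpen_compl_iff]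
    exact isOpen_eval x (fun z => ¬ (x ∈ W ↔ z ∈ W))
  · rw [← isOpen_compl_iff]
    have h2 : {q : Gal(C/k) × Gal(N/K) | q.2 (ι c) = ι (q.1 c)}ᶜ =
        ⋃ e : N, {σ : Gal(C/k) | ι (σ c) = e} ×ˢ {τ : Gal(N/K) | τ (ι c) ≠ e} := by
      ext q
      simp only [Set.mem_compl_iff, Set.mem_ofPred_eq, Set.mem_iUnion, Set.mem_prod]
      constructor
      · intro h
        exact ⟨_, rfl, h⟩
      · rintro ⟨e, rfl, h⟩
        exact h
    rw [h2]
    refine isOpen_iUnion fun e => IsOpen.prod ?_ ?_
    · exact isOpen_eval c (fun z : C => ι z = e)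
    · exact isOpen_eval (ι c) (fun z : N => z ≠ e)

/-- **The section of the decomposition group of a rational place.** -/
theorem exists_hom [IsGalois K N] [Algebra.IsAlgebraic k C]
    (W : ValuationSubring N) (hW : IsRatPlace k K (W.comap (algebraMap K N)))
    (ι : C →ₐ[k] N) (hι : ∀ x : N, IsIntegral k x ↔ ∃ c, ι c = x)
    (hsplit : ∀ P : k[X], (P.map (algebraMap k N)).Splits)
    (hval : ∀ y : N, ∃ a : K, W.valuation (algebraMap K N a) = W.valuation y) :
    ∃ φ : Gal(C/k) →* Gal(N/K), Continuous φ ∧ ∀ σ, (∀ x, x ∈ W ↔ φ σ x ∈ W) ∧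
      ∀ c : C, φ σ (ι c) = ι (σ c) := by
  have hex : ∀ σ, ∃ τ, Good (K := K) W ι σ τ := exists_lift W hW ι hι hsplit
  choose t ht using hex
  have hmul : ∀ σ σ', t (σ * σ') = t σ * t σ' := fun σ σ' =>
    Good.unique hW hι hsplit hval (ht _) ((ht σ).mul (ht σ'))
  let φ : Gal(C/k) →* Gal(N/K) := MonoidHom.mk' t hmul
  have hcont : Continuous φ := by
    rw [continuous_iff_isClosed]
    intro Z hZ
    have h1 : φ ⁻¹' Z = Prod.fst '' ({q : Gal(C/k) × Gal(N/K) |
        Good W ι q.1 q.2} ∩ Prod.snd ⁻¹' Z) := by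
      ext σ
      constructor
      · intro h
        exact ⟨(σ, t σ), ⟨ht σ, h⟩, rfl⟩
      · rintro ⟨⟨σ', τ⟩, ⟨h2, h3⟩, rfl⟩
        have h4 : t σ' = τ := Good.unique hW hι hsplit hval (ht σ') h2
        show t σ' ∈ Z
        rw [h4]
        exact h3
    rw [h1]
    exact isClosedMap_fst_of_compactSpace _ (isClosed_good.inter (hZ.preimage continuous_snd))
  exact ⟨φ, hcont, ht⟩

end good

end Dec

end P025H16
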