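import Vale.Agent.P025.H16.NormThm

/-! # Classes of `n`-divisible functions, without roots of unity -/

open IntermediateField

namespace P025H16

universe u v w

open Polynomial P025H641

section inc

variable {k : Type u} {K : Type v} [Field k] [Field K] [Algebra k K] [CharZero k]

/-- the inclusion of the constants in the maximal unramified extension -/
noncomputable def incl (k : Type u) (K : Type v) [Field k] [Field K] [Algebra k K] [CharZero k] :
    constClosure k K →+* maxUnr k K :=
  ((constClosure k K).val : constClosure k K →+* AlgebraicClosure K).codRestrict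
    (maxUnr k K).toSubfield.toSubring (fun x => mem_maxUnr_of_const _
      (mem_algebraicClosure_iff.1 x.2).isIntegral)

lemma incl_integral (x : constClosure k K) : IsIntegral k (incl k K x) :=
  isIntegral_coe.1 (mem_algebraicClosure_iff.1 x.2).isIntegral

lemma incl_algebraMap (c : k) : incl k K (algebraMap k (constClosure k K) c) =
    algebraMap k (maxUnr k K) c := rfl

lemma exists_incl (x : maxUnr k K) (hx : IsIntegral k x) :
    ∃ c : constClosure k K, incl k K c = x :=
  ⟨⟨x, mem_algebraicClosure_iff.2 (isIntegral_coe.2 hx).isAlgebraic⟩, rfl⟩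

variable {s : Gal(constClosure k K/k) →* Gal(maxUnr k K/K)}

lemma act_incl (hs : IsSection k K s) (σ : Gal(constClosure k K/k)) (x : constClosure k K) :
    s σ (incl k K x) = incl k K (σ x) :=
  Subtype.ext (hs.lifts σ x (incl k K x) rfl).symm

omit [CharZero k] in
/-- stabilizers are open -/
lemma isOpen_stabS {s : Gal(constClosure k K/k) →* Gal(maxUnr k K/K)} (hs : IsSection k K s)
    (γ : maxUnr k K) : IsOpen (stabS s γ : Set Gal(constClosure k K/k)) := by
  have : FiniteDimensional K (IntermediateField.adjoin K {γ}) :=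
    IntermediateField.adjoin.finiteDimensional (Algebra.IsIntegral.isIntegral γ)
  have hopen := IntermediateField.fixingSubgroup_isOpen (IntermediateField.adjoin K {γ})
  have h1 : IsOpen (((IntermediateField.adjoin K {γ}).fixingSubgroup.comap s :
      Subgroup Gal(constClosure k K/k)) : Set Gal(constClosure k K/k)) :=
    hopen.preimage hs.continuous
  have h2 : (IntermediateField.adjoin K {γ}).fixingSubgroup.comap s ≤ stabS s γ := by
    intro σ hσ
    rw [Subgroup.mem_comap, IntermediateField.mem_fixingSubgroup_iff] at hσ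
    exact hσ γ (IntermediateField.mem_adjoin_simple_self K γ)
  exact Subgroup.isOpen_mono h2 h1

/-- **Classes of `n`-divisible elements**, for a closed subgroup `H`, without roots of unity. -/
lemma exists_const_class_gen (hs : IsSection k K s) {n : ℕ} (hn : 0 < n)
    (H : Subgroup Gal(constClosure k K/k)) (hH : IsClosed (H : Set Gal(constClosure k K/k)))
    (γ : maxUnr k K) (hγ0 : γ ≠ 0) (hγ : ∀ σ ∈ H, s σ (γ ^ n) = γ ^ n) :
    ∃ l : maxUnr k K, l ≠ 0 ∧ IsIntegral k l ∧ ∀ σ ∈ H, s σ (γ / l) = γ / l := by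
  classical
  set I := incl k K with hI
  set St := stabS s γ with hSt
  set S₀ : Subgroup H := St.subgroupOf H with hS₀
  have hcomp : CompactSpace Gal(constClosure k K/k) := inferInstance
  have hfi : St.FiniteIndex := by
    have h1 := Subgroup.quotient_finite_of_isOpen St (isOpen_stabS hs γ)
    exact Subgroup.finiteIndex_of_finite_quotient
  have hfin : Finite (H ⧸ S₀) := inferInstance
  have hft : Fintype (H ⧸ S₀) := Fintype.ofFinite _
  set H₀ : Subgroup Gal(constClosure k K/k) := H ⊓ St with hH₀
  set Ω₀ : IntermediateField k (constClosure k K) := IntermediateField.fixedField H₀ with hΩ₀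
  -- values on cosets
  have hout : ∀ (h : H), ∃ g : S₀, ((h : H ⧸ S₀).out : H) = h * g := fun h =>
    QuotientGroup.mk_out_eq_mul S₀ h
  have hinv : ∀ (c : Ω₀) (h : H) (g : S₀),
      s ((h * (g : H) : H) : Gal(constClosure k K/k)) (γ⁻¹ * I c) = s h (γ⁻¹ * I c) := by
    intro c h g
    have hg1 : ((g : H) : Gal(constClosure k K/k)) ∈ St := Subgroup.mem_subgroupOf.1 g.2
    have hg2 : ((g : H) : Gal(constClosure k K/k)) (c : constClosure k K) = c :=
      (IntermediateField.mem_fixedField_iff _ _).1 c.2 _ (Subgroup.mem_inf.2 ⟨(g : H).2, hg1⟩)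
    rw [Subgroup.coe_mul, map_mul s, AlgEquiv.mul_apply, map_mul (s ((g : H) : _)), map_inv₀,
      (mem_stabS _ _).1 hg1, act_incl hs, hg2]
  set T : Ω₀ → maxUnr k K := fun c => ∑ q : H ⧸ S₀,
    s ((q.out : H) : Gal(constClosure k K/k)) (γ⁻¹ * I c) with hT
  have hmk : ∀ (c : Ω₀) (h : H),
      s (((h : H ⧸ S₀).out : H) : Gal(constClosure k K/k)) (γ⁻¹ * I c) =
        s (h : Gal(constClosure k K/k)) (γ⁻¹ * I c) := by
    intro c h
    obtain ⟨g, hg⟩ := hout h
    rw [hg, hinv]
  have hTH : ∀ (c : Ω₀), ∀ σ ∈ H, s σ (T c) = T c := by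
    intro c σ hσ
    have h1 : ∀ q : H ⧸ S₀, s σ (s ((q.out : H) : Gal(constClosure k K/k)) (γ⁻¹ * I c)) =
        s ((((⟨σ, hσ⟩ : H) • q).out : H) : Gal(constClosure k K/k)) (γ⁻¹ * I c) := by
      intro q
      have h2 : ((⟨σ, hσ⟩ : H) • q) = (((⟨σ, hσ⟩ : H) * q.out : H) : H ⧸ S₀) := by
        conv_lhs => rw [← QuotientGroup.out_eq' q]
        rfl
      rw [h2, hmk, Subgroup.coe_mul, map_mul s, AlgEquiv.mul_apply]
    rw [hT]
    simp only
    rw [map_sum, Finset.sum_congr rfl (fun q _ => h1 q)]
    exact Fintype.sum_bijective (fun q => (⟨σ, hσ⟩ : H) • q) (MulAction.bijective _) _ _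
      (fun _ => rfl)
  -- non-vanishing
  have hex : ∃ c : Ω₀, T c ≠ 0 := by
    by_contra hcon
    push Not at hcon
    let χ : (H ⧸ S₀) → (Ω₀ →* maxUnr k K) := fun q =>
      (((s ((q.out : H) : Gal(constClosure k K/k)) : maxUnr k K ≃ₐ[K] maxUnr k K) :
        maxUnr k K →+* maxUnr k K).comp (I.comp (algebraMap Ω₀ (constClosure k K)))).toMonoidHom
    have hχ : ∀ q c, χ q c = s ((q.out : H) : Gal(constClosure k K/k)) (I c) := fun _ _ => rfl
    have hinj : Function.Injective χ := by
      intro q q' hqq
      have h1 : ∀ c : Ω₀, ((q.out : H) : Gal(constClosure k K/k)) (c : constClosure k K) =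
          ((q'.out : H) : Gal(constClosure k K/k)) (c : constClosure k K) := by
        intro c
        have h2 := DFunLike.congr_fun hqq c
        rw [hχ, hχ, act_incl hs, act_incl hs] at h2
        exact I.injective h2
      have hcl : IsClosed (H₀ : Set Gal(constClosure k K/k)) := by
        rw [hH₀, Subgroup.coe_inf]
        exact hH.inter (isClosed_stabS hs γ)
      have h3 : (((q.out : H) : Gal(constClosure k K/k)))⁻¹ * ((q'.out : H) :
          Gal(constClosure k K/k)) ∈ H₀ := by
        have h4 := InfiniteGalois.fixingSubgroup_fixedField (⟨H₀, hcl⟩ : ClosedSubgroup _)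
        have h5 : (IntermediateField.fixedField H₀).fixingSubgroup = H₀ := h4
        rw [← h5, IntermediateField.mem_fixingSubgroup_iff]
        intro x hx
        have h6 := h1 ⟨x, hx⟩
        rw [AlgEquiv.mul_apply, ← h6, ← AlgEquiv.mul_apply, inv_mul_cancel, AlgEquiv.one_apply]
      rw [← QuotientGroup.out_eq' q, ← QuotientGroup.out_eq' q']
      apply QuotientGroup.eq.2
      exact Subgroup.mem_subgroupOf.2 (Subgroup.mem_inf.1 h3).2
    have hli := (linearIndependent_monoidHom Ω₀ (maxUnr k K)).comp χ hinj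
    rw [Fintype.linearIndependent_iff] at hli
    have h1 := hli (fun q => s ((q.out : H) : Gal(constClosure k K/k)) γ⁻¹) (by
      funext c
      rw [Finset.sum_apply]
      have h2 := hcon c
      rw [hT] at h2
      simp only [map_mul] at h2
      exact h2) ((1 : H) : H ⧸ S₀)
    rw [EmbeddingLike.map_eq_zero_iff] at h1
    exact inv_ne_zero hγ0 h1
  obtain ⟨c, hc⟩ := hex
  refine ⟨γ * T c, mul_ne_zero hγ0 hc, ?_, ?_⟩
  · rw [hT]
    simp only
    rw [Finset.mul_sum]
    refine IsIntegral.sum _ (fun q _ => ?_)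
    set h : Gal(constClosure k K/k) := ((q.out : H) : Gal(constClosure k K/k)) with hh
    have hhH : h ∈ H := (q.out : H).2
    rw [map_mul, ← mul_assoc, map_inv₀]
    refine IsIntegral.mul ?_ (integral_conj _ (incl_integral _))
    apply IsIntegral.of_pow hn
    rw [mul_pow, inv_pow, ← map_pow, hγ h hhH, mul_inv_cancel₀ (pow_ne_zero n hγ0)]
    exact isIntegral_one
  · intro σ hσ
    have h1 : γ / (γ * T c) = (T c)⁻¹ := by field_simp
    rw [h1, map_inv₀, hTH c σ hσ]

end inc

end P025H16
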