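import Vale.Agent.P025.H16.SteinN

/-! # Reduction of the triviality of symbols mod `n` to prime exponents -/

open IntermediateField Polynomial

namespace P025H16

open P025H641

universe u v w

/-- norms in a tower -/
lemma exists_norm_tower {k : Type u} {A : Type v} {B : Type w} [Field k] [Field A] [Field B]
    [Algebra k A] [Algebra k B] [FiniteDimensional k A] [FiniteDimensional k B]
    (f : A →ₐ[k] B) (z : B) : ∃ w : A, Algebra.norm k w = Algebra.norm k z := by
  let _ : Algebra A B := f.toRingHom.toAlgebra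
  have ht : IsScalarTower k A B := IsScalarTower.of_algebraMap_eq (fun x => (f.commutes x).symm)
  have hf3 : FiniteDimensional A B := FiniteDimensional.right k A B
  exact ⟨Algebra.norm A z, Algebra.norm_norm⟩

/-- If `a` is no `n`-th power then triviality of the symbol of `a` and `b` mod `n` implies
triviality of the symbol of `c` and `b` modulo a prime `q`, `c` no `q`-th power. -/
lemma exists_prime_red {k : Type u} [Field k] [CharZero k] {n : ℕ} (hn : 0 < n) {ζ : k}
    (hζ : IsPrimitiveRoot ζ n) (a : k) (ha0 : a ≠ 0) (ha : ¬ ∃ c : k, a = c ^ n) :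
    ∃ (q : ℕ) (c : k), q.Prime ∧ q ∣ n ∧ c ≠ 0 ∧ (¬ ∃ e : k, c = e ^ q) ∧
      ∀ b : k, NormTrivial n a b → NormTrivial q c b := by
  classical
  have hn' : NeZero n := ⟨hn.ne'⟩
  set Ω := AlgebraicClosure k with hΩ
  have hζΩ : IsPrimitiveRoot (algebraMap k Ω ζ) n :=
    hζ.map_of_injective (algebraMap k Ω).injective
  obtain ⟨α₀, hα₀⟩ := IsAlgClosed.exists_pow_nat_eq (algebraMap k Ω a) hn
  have hα0 : α₀ ≠ 0 := by
    rintro rfl
    rw [zero_pow hn.ne'] at hα₀
    exact ha0 ((_root_.map_eq_zero _).1 hα₀.symm)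
  have hex : ∃ m : ℕ, 0 < m ∧ ∃ c : k, α₀ ^ m = algebraMap k Ω c := ⟨n, hn, a, hα₀⟩
  set d := Nat.find hex with hd
  obtain ⟨hd0, c, hc⟩ := Nat.find_spec hex
  rw [← hd] at hd0 hc
  have hmin : ∀ m : ℕ, 0 < m → m < d → ¬ ∃ c : k, α₀ ^ m = algebraMap k Ω c := by
    intro m hm hmd h
    exact Nat.find_min hex hmd ⟨hm, h⟩
  have hc0 : c ≠ 0 := by
    rintro rfl
    rw [map_zero] at hc
    exact pow_ne_zero d hα0 hc
  have hdn : d ∣ n := by
    by_contra hnd
    have hr0 : 0 < n % d := Nat.pos_of_ne_zero (fun h0 => hnd (Nat.dvd_of_mod_eq_zero h0))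
    refine hmin (n % d) hr0 (Nat.mod_lt _ hd0) ⟨a / c ^ (n / d), ?_⟩
    rw [map_div₀, map_pow, ← hα₀, ← hc, ← pow_mul, eq_div_iff (pow_ne_zero _ hα0), ← pow_add,
      Nat.mod_add_div]
  have hd1 : d ≠ 1 := by
    intro h1
    rw [h1, pow_one] at hc
    apply ha
    refine ⟨c, (algebraMap k Ω).injective ?_⟩
    rw [map_pow, ← hc, hα₀]
  have hq : (Nat.minFac d).Prime := Nat.minFac_prime hd1
  set q := Nat.minFac d with hqdef
  have hqd : q ∣ d := Nat.minFac_dvd d
  have hqn : q ∣ n := hqd.trans hdn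
  obtain ⟨e, he⟩ := hqd
  have he0 : 0 < e := Nat.pos_of_ne_zero (by rintro rfl; omega)
  have hed : e < d := by
    rw [he]
    exact (Nat.lt_mul_iff_one_lt_left he0).2 hq.one_lt
  set β₀ := α₀ ^ e with hβ₀
  have hβq : β₀ ^ q = algebraMap k Ω c := by
    rw [hβ₀, ← pow_mul, mul_comm, ← he, hc]
  refine ⟨q, c, hq, hqn, hc0, ?_, ?_⟩
  · rintro ⟨x, hx⟩
    have hx0 : algebraMap k Ω x ≠ 0 := by
      rw [_root_.map_ne_zero]
      rintro rfl
      rw [zero_pow hq.ne_zero] at hx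
      exact hc0 hx
    obtain ⟨f, hf⟩ := hqn
    have h1 : (β₀ / algebraMap k Ω x) ^ n = 1 := by
      rw [hf, pow_mul, div_pow, hβq, hx, map_pow, div_self (pow_ne_zero _ hx0), one_pow]
    obtain ⟨j, -, hj⟩ := hζΩ.eq_pow_of_pow_eq_one h1
    refine hmin e he0 hed ⟨ζ ^ j * x, ?_⟩
    rw [map_mul, map_pow, hj, div_mul_cancel₀ _ hx0]
  · rintro b ⟨α, hα, z, hz⟩
    have hαne : α ≠ 0 := by
      rintro rfl
      rw [zero_pow hn.ne'] at hα
      exact ha0 ((_root_.map_eq_zero _).1 hα.symm)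
    have h1 : (α₀ / α) ^ n = 1 := by
      rw [div_pow, hα, hα₀, div_self]
      rw [_root_.map_ne_zero]
      exact ha0
    obtain ⟨j, -, hj⟩ := hζΩ.eq_pow_of_pow_eq_one h1
    have hmem : α₀ ∈ k⟮α⟯ := by
      have h2 : α₀ = algebraMap k Ω ζ ^ j * α := by rw [hj, div_mul_cancel₀ _ hαne]
      rw [h2]
      exact mul_mem (pow_mem (k⟮α⟯.algebraMap_mem ζ) j) (IntermediateField.mem_adjoin_simple_self k α)
    have hle : k⟮β₀⟯ ≤ k⟮α⟯ := by
      rw [IntermediateField.adjoin_simple_le_iff]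
      exact pow_mem hmem e
    have hαint : IsIntegral k α := Algebra.IsIntegral.isIntegral α
    have hβint : IsIntegral k β₀ := Algebra.IsIntegral.isIntegral β₀
    have hf1 : FiniteDimensional k k⟮α⟯ := IntermediateField.adjoin.finiteDimensional hαint
    have hf2 : FiniteDimensional k k⟮β₀⟯ := IntermediateField.adjoin.finiteDimensional hβint
    obtain ⟨w, hw⟩ := exists_norm_tower (IntermediateField.inclusion hle) z
    exact ⟨β₀, hβq, w, by rw [hw, hz]⟩

end P025H16
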