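import Vale.Agent.P025.H16.CritStmt
import Vale.Agent.P025.H16.RedPrime
import Vale.Agent.P025.H461.Tame

/-! # Existence of elements which are no norms, `p`-adic fields, any exponent -/

open IntermediateField Polynomial

namespace P025H16

open P025H641

universe u v w

/-- reduction to prime exponents -/
lemma hasNonNorms_of_prime {k : Type u} [Field k] [CharZero k]
    (H : ∀ (q : ℕ) (ζ c : k), q.Prime → IsPrimitiveRoot ζ q → c ≠ 0 → (¬ ∃ e : k, c = e ^ q) →
      ∃ b : k, b ≠ 0 ∧ ¬ SymbolTrivial q c b)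
    {n : ℕ} (hn : 0 < n) {ζ : k} (hζ : IsPrimitiveRoot ζ n) : HasNonNorms n k := by
  intro a ha0 ha
  obtain ⟨q, c, hq, ⟨e, he⟩, hc0, hc, hred⟩ := exists_prime_red hn hζ a ha0 ha
  obtain ⟨b, hb0, hb⟩ := H q (ζ ^ e) c hq (hζ.pow hn (by rw [he, mul_comm])) hc0 hc
  exact ⟨b, hb0, fun h => hb (symbolTrivial_of hq (hred b h))⟩

/-- For every finite extension `k` of `ℚ_p` and every `a` which is no `n`-th power some `b` is
not a norm from `k(a ^ (1 / n))`. -/
theorem hasNonNorms {p : ℕ} [Fact p.Prime] {k : Type u} [Field k] [Algebra ℚ_[p] k]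
    [FiniteDimensional ℚ_[p] k] {n : ℕ} (hn : 0 < n) {ζ : k} (hζ : IsPrimitiveRoot ζ n) :
    HasNonNorms n k := by
  have : CharZero k := charZero_of_injective_algebraMap (algebraMap ℚ_[p] k).injective
  refine hasNonNorms_of_prime (fun q ζ c hq hζ hc0 hc => ?_) hn hζ
  have : Fact q.Prime := ⟨hq⟩
  by_cases hqp : q = p
  · subst hqp
    exact exists_nonnorm hζ c hc0 hc
  · exact P025H461.exists_nonnorm_tame hqp hζ c hc0 hc

end P025H16
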