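import Vale.Agent.P025.H16.SteinOdd
import Vale.Agent.P025.H16.DivNorm
import Vale.Agent.P025.H461.ExDesc

/-! # Sections and the curves `b y ^ p = N(g(x))` -/

open IntermediateField

namespace P025H16

universe u v w

open Polynomial P025H641

section inc

variable {k : Type u} {K : Type v} [Field k] [Field K] [Algebra k K] [CharZero k]

omit [CharZero k] in
lemma isIntegral_const (x : constClosure k K) : IsIntegral k (x : AlgebraicClosure K) :=
  (mem_algebraicClosure_iff.1 x.2).isIntegral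

/-- the inclusion of the constants in the maximal unramified extension -/
noncomputable def inc (k : Type u) (K : Type v) [Field k] [Field K] [Algebra k K] [CharZero k] :
    constClosure k K →+* maxUnr k K :=
  ((constClosure k K).val : constClosure k K →+* AlgebraicClosure K).codRestrict
    (maxUnr k K).toSubfield.toSubring (fun x => mem_maxUnr_of_const _ (isIntegral_const x))

lemma inc_coe (x : constClosure k K) : ((inc k K x : maxUnr k K) : AlgebraicClosure K) = x := rfl

lemma inc_integral (x : constClosure k K) : IsIntegral k (inc k K x) :=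
  isIntegral_coe.1 (isIntegral_const x)

lemma inc_algebraMap (c : k) : inc k K (algebraMap k (constClosure k K) c) =
    algebraMap k (maxUnr k K) c := rfl

lemma exists_inc (x : maxUnr k K) (hx : IsIntegral k x) : ∃ c : constClosure k K, inc k K c = x :=
  ⟨⟨x, mem_algebraicClosure_iff.2 (isIntegral_coe.2 hx).isAlgebraic⟩, rfl⟩

variable {s : Gal(constClosure k K/k) →* Gal(maxUnr k K/K)}

lemma act_inc (hs : IsSection k K s) (σ : Gal(constClosure k K/k)) (x : constClosure k K) :
    s σ (inc k K x) = inc k K (σ x) :=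
  Subtype.ext (hs.lifts σ x (inc k K x) rfl).symm

end inc

/-- products over a cyclic group -/
lemma prod_pow_eq {G M : Type*} [Group G] [Fintype G] [CommMonoid M] (σ : G) {p : ℕ}
    (hσ : orderOf σ = p) (hcard : Fintype.card G = p) (F : G → M) :
    ∏ i ∈ Finset.range p, F (σ ^ i) = ∏ ρ : G, F ρ := by
  classical
  have hinj : Set.InjOn (fun i : ℕ => σ ^ i) (Finset.range p : Set ℕ) := by
    intro i hi j hj h
    rw [Finset.coe_range, Set.mem_Iio, ← hσ] at hi hj
    exact pow_injOn_Iio_orderOf hi hj h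
  have h1 : (Finset.range p).image (fun i : ℕ => σ ^ i) = Finset.univ := by
    apply Finset.eq_univ_of_card
    rw [Finset.card_image_of_injOn hinj, Finset.card_range, hcard]
  rw [← h1, Finset.prod_image (fun i hi j hj h => hinj hi hj h)]

/-- **Sections and the curves `b y ^ p = N(g(x))`**: `b` is a norm. -/
theorem norm_curve_section {k : Type u} {k₁ : Type v} {K : Type w} [Field k] [CharZero k]
    [Field k₁] [Field K] [Algebra k k₁] [Algebra k K] [IsGalois k k₁] (p : ℕ) [Fact p.Prime]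
    (hdeg : Module.finrank k k₁ = p) (s : Section k K) (b : k) (hb0 : b ≠ 0) (f : k[X])
    (g : k₁[X]) (hf : f.map (algebraMap k k₁) =
      ∏ᶠ σ : Gal(k₁/k), g.map (σ : k₁ →+* k₁)) (hsq : Squarefree f)
    (hp2 : p = 2 → Even g.natDegree) (x y : K) (hy : y ≠ 0)
    (h : algebraMap k K b * y ^ p = aeval x f) :
    ∃ z₁ : k₁, Algebra.norm k z₁ = b := by
  classical
  have hpp : p.Prime := Fact.out
  have hpk : (p : k) ≠ 0 := by exact_mod_cast hpp.ne_zero
  have hs := s.isSection
  have hfink : FiniteDimensional k k₁ := Module.finite_of_finrank_pos (by rw [hdeg]; exact hpp.pos)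
  have hΩc : IsAlgClosed (constClosure k K) :=
    (inferInstance : IsAlgClosure k (constClosure k K)).isAlgClosed
  obtain ⟨e₁, ζ, θ, τ, σ, hζ, hθ0, hτζ, hτθ, hθG, hτe, hσ, hHe, hdesc⟩ :=
    P025H461.exists_desc (k := k) (k₁ := k₁) (Ω := constClosure k K) p hdeg
  set I := inc k K with hI
  set t := s.toHom with ht
  -- the base
  set G := stabS t (I ζ) with hG
  have hGζ : ∀ ρ, ρ ∈ G ↔ ρ ζ = ζ := by
    intro ρ
    rw [hG, mem_stabS, act_inc hs, I.injective.eq_iff]
  set k' : IntermediateField k (constClosure k K) := IntermediateField.fixedField G with hk'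
  let _ : Algebra k' (maxUnr k K) := (I.comp (algebraMap k' (constClosure k K))).toAlgebra
  have hmap : ∀ c : k', algebraMap k' (maxUnr k K) c = I c := fun _ => rfl
  have B : Base t G k' := by
    refine ⟨isClosed_stabS hs _, fun c => inc_integral _, ?_, ?_⟩
    · intro c ρ hρ
      rw [hmap, act_inc hs, (IntermediateField.mem_fixedField_iff _ _).1 c.2 ρ hρ]
    · intro z hz hzG
      obtain ⟨c, hc⟩ := exists_inc z hz
      refine ⟨⟨c, ?_⟩, hc⟩
      rw [IntermediateField.mem_fixedField_iff]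
      intro ρ hρ
      have h1 := hzG ρ hρ
      rw [← hc, act_inc hs] at h1
      exact I.injective h1
  have hζk : ζ ∈ k' := by
    rw [hk', IntermediateField.mem_fixedField_iff]
    exact fun ρ hρ => (hGζ ρ).1 hρ
  have hak : θ ^ p ∈ k' := by
    rw [hk', IntermediateField.mem_fixedField_iff]
    exact fun ρ hρ => hθG ρ ((hGζ ρ).1 hρ)
  have hζ' : IsPrimitiveRoot (⟨ζ, hζk⟩ : k') p :=
    IsPrimitiveRoot.of_map_of_injective (f := k'.val) hζ Subtype.val_injective
  have hτG : τ ∈ G := (hGζ τ).2 hτζ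
  -- the coefficients
  set ι : k₁ →+* maxUnr k K := I.comp (e₁ : k₁ →+* constClosure k K) with hι
  have hιint : ∀ c, IsIntegral k (ι c) := fun c => inc_integral _
  have hιk : ι.comp (algebraMap k k₁) = algebraMap k (maxUnr k K) := by
    refine RingHom.ext (fun c => ?_)
    show I (e₁ (algebraMap k k₁ c)) = _
    rw [AlgHom.commutes]
    rfl
  have hact : ∀ (i : ℕ) (c : k₁), t (τ ^ i) (ι c) = ι ((σ ^ i) c) := by
    intro i
    induction i with
    | zero => intro c; rw [pow_zero, map_one, pow_zero]; rfl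
    | succ i ih =>
      intro c
      rw [pow_succ, map_mul, AlgEquiv.mul_apply]
      have h1 : t τ (ι c) = ι (σ c) := by
        show t τ (I (e₁ c)) = I (e₁ (σ c))
        rw [act_inc hs, hτe]
      rw [h1, ih, pow_succ]
      rfl
  set xM := algebraMap K (maxUnr k K) x with hxM
  set yM := algebraMap K (maxUnr k K) y with hyM
  have hxfix : ∀ ρ, t ρ xM = xM := fun ρ => AlgEquiv.commutes _ _
  have hyfix : ∀ ρ, t ρ yM = yM := fun ρ => AlgEquiv.commutes _ _
  have heval : ∀ (i : ℕ) (q : k₁[X]), t (τ ^ i) (eval₂ ι xM q) =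
      eval₂ ι xM (q.map ((σ ^ i : Gal(k₁/k)) : k₁ →+* k₁)) := by
    intro i q
    rw [eval₂_map, eval₂_eq_sum_range, eval₂_eq_sum_range, map_sum]
    refine Finset.sum_congr rfl (fun j _ => ?_)
    rw [map_mul (t (τ ^ i)), map_pow (t (τ ^ i)) xM j, hxfix, hact]
    rfl
  -- the products
  have hcard : Fintype.card (Gal(k₁/k)) = p := by
    rw [← Nat.card_eq_fintype_card, IsGalois.card_aut_eq_finrank, hdeg]
  have hprod : f.map (algebraMap k k₁) =
      ∏ i ∈ Finset.range p, g.map ((σ ^ i : Gal(k₁/k)) : k₁ →+* k₁) := by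
    rw [hf, finprod_eq_prod_of_fintype,
      prod_pow_eq σ hσ hcard (fun ρ => g.map (ρ : k₁ →+* k₁))]
  obtain ⟨q, hq⟩ : ∃ q, p = q + 1 := ⟨p - 1, by have := hpp.pos; omega⟩
  set g' : k₁[X] := ∏ i ∈ Finset.range q, g.map ((σ ^ (i + 1) : Gal(k₁/k)) : k₁ →+* k₁) with hg'
  have hgg' : g * g' = f.map (algebraMap k k₁) := by
    rw [hprod, hq, Finset.prod_range_succ', mul_comm, hg']
    congr 1
    rw [pow_zero]
    exact (Polynomial.map_id (p := g)).symm
  have hsep : (g * g').Separable := by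
    rw [hgg', separable_map]
    exact PerfectField.separable_iff_squarefree.2 hsq
  have hcop : IsCoprime g g' := hsep.isCoprime
  set h₁ : k₁[X] := g.map (σ : k₁ →+* k₁) with hh₁
  set h₁' : k₁[X] := g'.map (σ : k₁ →+* k₁) with hh₁'
  have hfσ : (f.map (algebraMap k k₁)).map (σ : k₁ →+* k₁) = f.map (algebraMap k k₁) := by
    rw [Polynomial.map_map]
    congr 1
    ext c
    exact σ.commutes c
  have hhh' : h₁ * h₁' = f.map (algebraMap k k₁) := by
    rw [hh₁, hh₁', ← Polynomial.map_mul, hgg', hfσ]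
  have hcop' : IsCoprime h₁ h₁' := hcop.map (mapRingHom (σ : k₁ →+* k₁))
  have hf0 : f.map (algebraMap k k₁) ≠ 0 := by
    rw [Ne, Polynomial.map_eq_zero]
    exact hsq.ne_zero
  have hg0 : g ≠ 0 := by
    rintro rfl
    rw [zero_mul] at hgg'
    exact hf0 hgg'.symm
  have hh0 : h₁ ≠ 0 := by
    intro h0
    rw [h0, zero_mul] at hhh'
    exact hf0 hhh'.symm
  have hfx : eval₂ ι xM (f.map (algebraMap k k₁)) = algebraMap k (maxUnr k K) b * yM ^ p := by
    rw [eval₂_map, hιk]
    have h1 := congrArg (algebraMap K (maxUnr k K)) h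
    rw [map_mul, map_pow, ← IsScalarTower.algebraMap_apply, aeval_def, hom_eval₂,
      ← IsScalarTower.algebraMap_eq] at h1
    exact h1.symm
  have hyM0 : yM ≠ 0 := (_root_.map_ne_zero _).2 hy
  have hbM0 : algebraMap k (maxUnr k K) b ≠ 0 := (_root_.map_ne_zero _).2 hb0
  set U := eval₂ ι xM g with hU
  have hU0 : U ≠ 0 := by
    intro h0
    rw [← hgg', eval₂_mul, ← hU, h0, zero_mul] at hfx
    exact mul_ne_zero hbM0 (pow_ne_zero p hyM0) hfx.symm
  have hUτ : t τ U = eval₂ ι xM h₁ := by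
    have h1 := heval 1 g
    rw [pow_one, pow_one] at h1
    exact h1
  have hUH : ∀ ρ ∈ G ⊓ stabS t (I θ), t ρ U = U := by
    intro ρ hρ
    obtain ⟨h1, h2⟩ := Subgroup.mem_inf.1 hρ
    rw [mem_stabS, act_inc hs, I.injective.eq_iff] at h2
    have h3 := hHe ρ ((hGζ ρ).1 h1) h2
    rw [hU, eval₂_eq_sum_range, map_sum]
    refine Finset.sum_congr rfl (fun j _ => ?_)
    have h4 : t ρ (ι (g.coeff j)) = ι (g.coeff j) := by
      show t ρ (I (e₁ _)) = I (e₁ _)
      rw [act_inc hs, h3]
    rw [map_mul (t ρ), map_pow (t ρ) xM j, hxfix, h4]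
  have hNU : ∏ i ∈ Finset.range p, t (τ ^ i) U =
      algebraMap k' (maxUnr k K) (algebraMap k k' b) * yM ^ p := by
    have h1 : ∏ i ∈ Finset.range p, t (τ ^ i) U =
        eval₂ ι xM (∏ i ∈ Finset.range p, g.map ((σ ^ i : Gal(k₁/k)) : k₁ →+* k₁)) := by
      rw [eval₂_finsetProd]
      exact Finset.prod_congr rfl (fun i _ => heval i g)
    rw [h1, ← hprod, hfx]
    rfl
  -- a finite unramified extension containing the coefficients
  obtain ⟨F, hF, hkF⟩ : ∃ F : IntermediateField K (AlgebraicClosure K), IsFinUnr k F ∧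
      ∀ c : k₁, ((ι c : maxUnr k K) : AlgebraicClosure K) ∈ F := by
    obtain ⟨α, hα⟩ := Field.exists_primitive_element k k₁
    obtain ⟨F, hF, -, hαF⟩ := (isFinUnr_bot (k := k) (K := K)).exists_const
      ((ι α : maxUnr k K) : AlgebraicClosure K) (isIntegral_coe.2 (hιint α))
    refine ⟨F, hF, fun c => ?_⟩
    have hc : c ∈ k⟮α⟯ := by rw [hα]; trivial
    rw [IntermediateField.mem_adjoin_simple_iff] at hc
    have hαint : IsIntegral k α := Algebra.IsIntegral.isIntegral α
    have hc2 : c ∈ Algebra.adjoin k {α} := by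
      rw [← IntermediateField.adjoin_simple_toSubalgebra_of_isAlgebraic hαint.isAlgebraic, hα]
      trivial
    rw [Algebra.adjoin_singleton_eq_range_aeval] at hc2
    obtain ⟨P, rfl⟩ := hc2
    have h1 : ι (aeval α P) = eval₂ (algebraMap k (maxUnr k K)) (ι α) P := by
      rw [aeval_def, hom_eval₂, hιk]
    show ((ι (aeval α P) : maxUnr k K) : AlgebraicClosure K) ∈ F
    rw [h1, eval₂_eq_sum_range]
    have h2 : ((∑ i ∈ Finset.range (P.natDegree + 1),
        algebraMap k (maxUnr k K) (P.coeff i) * ι α ^ i : maxUnr k K) : AlgebraicClosure K) =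
        ∑ i ∈ Finset.range (P.natDegree + 1),
          algebraMap K (AlgebraicClosure K) (algebraMap k K (P.coeff i)) *
            ((ι α : maxUnr k K) : AlgebraicClosure K) ^ i := by
      rw [AddSubmonoidClass.coe_finsetSum]
      rfl
    rw [h2]
    exact sum_mem (fun i _ => mul_mem (F.algebraMap_mem _) (pow_mem hαF i))
  let ιF : k₁ →+* F := ((algebraMap (maxUnr k K) (AlgebraicClosure K)).comp ι).codRestrict
    F.toSubfield.toSubring hkF
  have hιF : ∀ c, ((ιF c : F) : AlgebraicClosure K) = ι c := fun _ => rfl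
  have hιFint : ∀ c, IsIntegral k (ιF c) := fun c =>
    (isIntegral_algHom_iff ((F.val).restrictScalars k) (Subtype.val_injective)).1
      (isIntegral_coe.2 (hιint c))
  set xF := algebraMap K F x with hxF
  set yF := algebraMap K F y with hyF
  have hevF : ∀ P : k₁[X], ((eval₂ ιF xF P : F) : AlgebraicClosure K) = eval₂ ι xM P := by
    intro P
    have h1 := hom_eval₂ P ιF (algebraMap F (AlgebraicClosure K)) xF
    have h2 := hom_eval₂ P ι (algebraMap (maxUnr k K) (AlgebraicClosure K)) xM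
    exact h1.trans h2.symm
  have hfF : ∀ P Q : k₁[X], P * Q = f.map (algebraMap k k₁) →
      eval₂ ιF xF P * eval₂ ιF xF Q = algebraMap k F b * yF ^ p := by
    intro P Q hPQ
    apply Subtype.ext
    have h1 := hevF (P * Q)
    rw [eval₂_mul, hPQ] at h1
    rw [h1, hfx]
    rfl
  have hbF0 : algebraMap k F b ≠ 0 := (_root_.map_ne_zero _).2 hb0
  have hexroot : ∀ f₀ : F, IsDivisible p k f₀ → ∀ u : maxUnr k K,
      (f₀ : AlgebraicClosure K) = u → ∃ γ : maxUnr k K, γ ^ p = u := by
    intro f₀ hf₀ u hu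
    obtain ⟨γ', hγ'⟩ := IsAlgClosed.exists_pow_nat_eq (f₀ : AlgebraicClosure K) hpp.pos
    obtain ⟨F2, hF2, -, hγF2⟩ := hF.exists_root hpk γ' _ hγ' hf₀
    exact ⟨⟨γ', hF2.le_maxUnr hγF2⟩, Subtype.ext (hγ'.trans hu)⟩
  have hθp : I θ ^ p = algebraMap k' (maxUnr k K) ⟨θ ^ p, hak⟩ := by
    rw [hmap, ← map_pow]
  have ha0 : (⟨θ ^ p, hak⟩ : k') ≠ 0 := fun h0 => pow_ne_zero p hθ0 (congrArg Subtype.val h0)
  have hτθ' : t τ (I θ) = algebraMap k' (maxUnr k K) ⟨ζ, hζk⟩ * I θ := by
    rw [act_inc hs, hτθ, map_mul, hmap]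
  have hz : ∃ z : maxUnr k K, z ≠ 0 ∧ IsIntegral k z ∧ (∀ h ∈ G ⊓ stabS t (I θ), t h z = z) ∧
      ∏ i ∈ Finset.range p, t (τ ^ i) z = algebraMap k' (maxUnr k K) (algebraMap k k' b) := by
    by_cases h2 : p = 2
    · have hdiv := isDivisible_eval ιF hιFint g g' hcop hg0 (p := p)
        (by rw [h2]; exact (hp2 h2).two_dvd) xF (algebraMap k F b) yF isIntegral_algebraMap hbF0
        (hfF g g' hgg')
      obtain ⟨γ, hγ⟩ := hexroot _ hdiv U (hevF g)
      exact norm_thm_even hs B hζ' ⟨θ ^ p, hak⟩ ha0 (I θ) hθp hτG hτθ' (algebraMap k k' b) U yM γ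
        hU0 hyM0 hUH (fun ρ _ => hyfix ρ) hNU hγ
    · have hdiv := isDivisible_eval_quot ιF hιFint g g' h₁ h₁' hcop hcop' hg0 hh0 (p := p)
        (Polynomial.natDegree_map _).symm xF (algebraMap k F b) yF isIntegral_algebraMap hbF0
        (hfF g g' hgg') (hfF h₁ h₁' hhh')
      obtain ⟨γ, hγ⟩ := hexroot _ hdiv (t τ U / U) (by
        rw [hUτ]
        have h3 : ((eval₂ ιF xF h₁ / eval₂ ιF xF g : F) : AlgebraicClosure K) =
            ((eval₂ ιF xF h₁ : F) : AlgebraicClosure K) / ((eval₂ ιF xF g : F) :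
              AlgebraicClosure K) := rfl
        rw [h3, hevF, hevF]
        rfl)
      exact norm_thm_odd h2 hs B hζ' ⟨θ ^ p, hak⟩ ha0 (I θ) hθp hτG hτθ' (algebraMap k k' b) U yM
        γ hU0 hyM0 hUH (fun ρ _ => hyfix ρ) hNU hγ
  obtain ⟨z, -, hzint, hzH, hzN⟩ := hz
  obtain ⟨zC, rfl⟩ := exists_inc z hzint
  refine hdesc zC ?_ b ?_
  · intro ρ h1 h2
    have h3 := hzH ρ (Subgroup.mem_inf.2 ⟨(hGζ ρ).2 h1, by
      rw [mem_stabS, act_inc hs, h2]⟩)
    rw [act_inc hs] at h3
    exact I.injective h3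
  · apply I.injective
    rw [map_prod]
    have h1 : ∀ i ∈ Finset.range p, I ((τ ^ i) zC) = t (τ ^ i) (I zC) := fun i _ =>
      (act_inc hs (τ ^ i) zC).symm
    rw [Finset.prod_congr rfl h1, hzN]
    rfl

end P025H16
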