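import Vale.Agent.P025.H16.Kummer
import Vale.Agent.P025.H461.Desc
import Vale.Agent.P025.H511.NormPow

/-! # The norm theorem for cyclic extensions of any degree -/

open IntermediateField

namespace P025H16

universe u v w

open Polynomial P025H641

/-- products over a finite cyclic group -/
lemma prod_zpowers {G M : Type*} [Group G] [Fintype G] [CommMonoid M] (σ : G)
    (hσ : ∀ ρ, ρ ∈ Subgroup.zpowers σ) (F : G → M) :
    ∏ i ∈ Finset.range (Fintype.card G), F (σ ^ i) = ∏ ρ : G, F ρ := by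
  classical
  have hord : orderOf σ = Fintype.card G := by
    rw [← Nat.card_eq_fintype_card]
    exact orderOf_eq_card_of_forall_mem_zpowers hσ
  have hinj : Set.InjOn (fun i : ℕ => σ ^ i) (Finset.range (Fintype.card G) : Set ℕ) := by
    intro i hi j hj h
    rw [Finset.coe_range, Set.mem_Iio, ← hord] at hi hj
    exact pow_injOn_Iio_orderOf hi hj h
  have h1 : (Finset.range (Fintype.card G)).image (fun i : ℕ => σ ^ i) = Finset.univ := by
    apply Finset.eq_univ_of_card
    rw [Finset.card_image_of_injOn hinj, Finset.card_range]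
  rw [← h1, Finset.prod_image (fun i hi j hj h => hinj hi hj h)]

section cyc

variable {k : Type u} {k₁ : Type w} {K : Type v} [Field k] [CharZero k] [Field k₁] [Field K]
  [Algebra k k₁] [Algebra k K]
  {s : Gal(constClosure k K/k) →* Gal(maxUnr k K/K)}
  (e₁ : k₁ →ₐ[k] constClosure k K) {σ : Gal(k₁/k)}
  {τ : Gal(constClosure k K/k)}

omit [CharZero k] in
lemma tau_pow_e (hτ : ∀ c, τ (e₁ c) = e₁ (σ c)) (i : ℕ) (c : k₁) :
    (τ ^ i) (e₁ c) = e₁ ((σ ^ i) c) := by
  induction i with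
  | zero => rfl
  | succ i ih => rw [pow_succ', AlgEquiv.mul_apply, ih, hτ, pow_succ', AlgEquiv.mul_apply]

omit [CharZero k] in
/-- conjugates of elements fixed over `k₁` are fixed over `k₁` -/
lemma conj_fixed_e (hτ : ∀ c, τ (e₁ c) = e₁ (σ c)) (x : maxUnr k K)
    (hx : ∀ h : Gal(constClosure k K/k), (∀ c, h (e₁ c) = e₁ c) → s h x = x) (i : ℕ)
    (h : Gal(constClosure k K/k)) (hh : ∀ c, h (e₁ c) = e₁ c) :
    s h (s (τ ^ i) x) = s (τ ^ i) x := by
  have h1 : ∀ c, ((τ ^ i)⁻¹ * h * τ ^ i) (e₁ c) = e₁ c := by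
    intro c
    rw [AlgEquiv.mul_apply, AlgEquiv.mul_apply, tau_pow_e e₁ hτ, hh, ← tau_pow_e e₁ hτ,
      ← AlgEquiv.mul_apply, inv_mul_cancel, AlgEquiv.one_apply]
  have h2 : s (τ ^ i) (s ((τ ^ i)⁻¹ * h * τ ^ i) x) = s (τ ^ i) x := by rw [hx _ h1]
  rw [← AlgEquiv.mul_apply, ← map_mul] at h2
  have h3 : τ ^ i * ((τ ^ i)⁻¹ * h * τ ^ i) = h * τ ^ i := by group
  rw [h3, map_mul, AlgEquiv.mul_apply] at h2
  exact h2

variable [FiniteDimensional k k₁] [IsGalois k k₁]

omit [CharZero k] in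
lemma sigma_pow_n {n : ℕ} (hn : Module.finrank k k₁ = n) : σ ^ n = 1 := by
  classical
  rw [← hn, ← IsGalois.card_aut_eq_finrank, Nat.card_eq_fintype_card]
  exact pow_card_eq_one

omit [CharZero k] in
include k in
/-- **Hilbert 90** for cyclic extensions. -/
lemma hilbert90_cyc (hσ : ∀ ρ, ρ ∈ Subgroup.zpowers σ) (d : k₁)
    (hd : Algebra.norm k d = 1) : ∃ g : k₁, g ≠ 0 ∧ σ g = d * g := by
  classical
  have hord : orderOf σ = Fintype.card Gal(k₁/k) := by
    rw [← Nat.card_eq_fintype_card]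
    exact orderOf_eq_card_of_forall_mem_zpowers hσ
  set n := Fintype.card Gal(k₁/k) with hn
  have hσn : σ ^ n = 1 := by rw [← hord]; exact pow_orderOf_eq_one σ
  set D : ℕ → k₁ := fun i => ∏ j ∈ Finset.range i, (σ ^ j) d with hD
  have hD0 : D 0 = 1 := by simp [hD]
  have hDn : D n = 1 := by
    rw [hD]
    simp only
    rw [prod_zpowers σ hσ (fun ρ : Gal(k₁/k) => ρ d), ← Algebra.norm_eq_prod_automorphisms, hd,
      map_one]
  have hDs : ∀ i, d * σ (D i) = D (i + 1) := by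
    intro i
    rw [hD]
    simp only
    rw [Finset.prod_range_succ', pow_zero, AlgEquiv.one_apply, mul_comm, map_prod]
    congr 1
    refine Finset.prod_congr rfl (fun j _ => ?_)
    rw [pow_succ', AlgEquiv.mul_apply]
  set S : k₁ → k₁ := fun z => ∑ i ∈ Finset.range n, D i * (σ ^ i) z with hS
  have hSσ : ∀ z, d * σ (S z) = S z := by
    intro z
    have h1 : ∀ i ∈ Finset.range n, d * σ (D i * (σ ^ i) z) = D (i + 1) * (σ ^ (i + 1)) z := by
      intro i _
      rw [map_mul, ← mul_assoc, hDs, pow_succ', AlgEquiv.mul_apply]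
    have h2 := Finset.sum_range_succ (fun i => D i * (σ ^ i) z) n
    have h3 := Finset.sum_range_succ' (fun i => D i * (σ ^ i) z) n
    rw [h2, hD0, hDn, hσn, pow_zero] at h3
    have h4 := add_right_cancel h3
    rw [hS]
    simp only
    rw [map_sum, Finset.mul_sum, Finset.sum_congr rfl h1]
    exact h4.symm
  have hex : ∃ z, S z ≠ 0 := by
    by_contra hcon
    push Not at hcon
    let χ : Fin n → (k₁ →* k₁) := fun i => ((σ ^ (i : ℕ) : Gal(k₁/k)) : k₁ →* k₁)
    have hinj : Function.Injective χ := by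
      intro i j hij
      have h1 : σ ^ (i : ℕ) = σ ^ (j : ℕ) := by
        ext z
        exact DFunLike.congr_fun hij z
      have h2 := pow_injOn_Iio_orderOf (x := σ) (by rw [hord]; exact i.2) (by rw [hord]; exact j.2)
        h1
      exact Fin.ext h2
    have hli := (linearIndependent_monoidHom k₁ k₁).comp χ hinj
    rw [Fintype.linearIndependent_iff] at hli
    have hnpos : 0 < n := Fintype.card_pos
    have h1 := hli (fun i => D i) (by
      funext z
      rw [Finset.sum_apply]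
      have h2 := hcon z
      rw [hS] at h2
      simp only at h2
      rw [Finset.sum_range] at h2
      exact h2) ⟨0, hnpos⟩
    simp only [hD0] at h1
    exact one_ne_zero h1
  obtain ⟨z, hz⟩ := hex
  refine ⟨(S z)⁻¹, inv_ne_zero hz, ?_⟩
  have h1 := hSσ z
  have h2 : σ (S z) ≠ 0 := by
    rw [Ne, EmbeddingLike.map_eq_zero_iff]; exact hz
  have hd0 : d ≠ 0 := by
    rintro rfl
    rw [zero_mul] at h1
    exact hz h1.symm
  rw [map_inv₀, ← h1, mul_inv, ← mul_assoc, mul_inv_cancel₀ hd0, one_mul, h1]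

omit [CharZero k] in
lemma shift_e (hτ : ∀ c, τ (e₁ c) = e₁ (σ c)) {n : ℕ} (hn : Module.finrank k k₁ = n)
    (x : maxUnr k K)
    (hx : ∀ h : Gal(constClosure k K/k), (∀ c, h (e₁ c) = e₁ c) → s h x = x) :
    s (τ ^ n) x = s (τ ^ 0) x := by
  rw [hx _ (fun c => by rw [tau_pow_e e₁ hτ, sigma_pow_n hn, AlgEquiv.one_apply]), pow_zero,
    map_one]
  rfl

omit [CharZero k] in
/-- elements fixed over `k₁` and by `τ` are fixed -/
lemma fixed_of_e (hσ : ∀ ρ, ρ ∈ Subgroup.zpowers σ) (hτ : ∀ c, τ (e₁ c) = e₁ (σ c))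
    (x : maxUnr k K)
    (hx : ∀ h : Gal(constClosure k K/k), (∀ c, h (e₁ c) = e₁ c) → s h x = x) (hx2 : s τ x = x)
    (ρ : Gal(constClosure k K/k)) : s ρ x = x := by
  obtain ⟨g, hg⟩ := P025H461.exists_restr e₁ ρ
  obtain ⟨j, hj⟩ : ∃ j : ℕ, σ ^ j = g := by
    have h1 := hσ g
    rw [← mem_powers_iff_mem_zpowers] at h1
    exact h1
  have h1 : ∀ i : ℕ, s (τ ^ i) x = x := by
    intro i
    induction i with
    | zero => rw [pow_zero, map_one]; rfl
    | succ i ih => rw [pow_succ, map_mul, AlgEquiv.mul_apply, hx2, ih]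
  have h2 : s ρ x = s (τ ^ j) (s ((τ ^ j)⁻¹ * ρ) x) := by
    rw [← AlgEquiv.mul_apply, ← map_mul, mul_inv_cancel_left]
  rw [h2, hx, h1]
  intro c
  rw [AlgEquiv.mul_apply, ← hg, ← hj, ← tau_pow_e e₁ hτ, ← AlgEquiv.mul_apply, inv_mul_cancel,
    AlgEquiv.one_apply]

omit [CharZero k] in
/-- norms are fixed -/
lemma norm_fixed_e (hσ : ∀ ρ, ρ ∈ Subgroup.zpowers σ) (hτ : ∀ c, τ (e₁ c) = e₁ (σ c)) {n : ℕ}
    (hn : Module.finrank k k₁ = n) (x : maxUnr k K)
    (hx : ∀ h : Gal(constClosure k K/k), (∀ c, h (e₁ c) = e₁ c) → s h x = x)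
    (ρ : Gal(constClosure k K/k)) :
    s ρ (∏ i ∈ Finset.range n, s (τ ^ i) x) = ∏ i ∈ Finset.range n, s (τ ^ i) x := by
  refine fixed_of_e e₁ hσ hτ _ ?_ ?_ ρ
  · intro h hh
    rw [map_prod]
    exact Finset.prod_congr rfl (fun i _ => conj_fixed_e e₁ hτ x hx i h hh)
  · have hn0 : 0 < n := hn ▸ Module.finrank_pos
    obtain ⟨m, hm⟩ : ∃ m, n = m + 1 := ⟨n - 1, by omega⟩
    rw [map_prod]
    have h1 : ∀ i, s τ (s (τ ^ i) x) = s (τ ^ (i + 1)) x := by
      intro i
      rw [← AlgEquiv.mul_apply, ← map_mul, ← pow_succ']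
    have h2 := shift_e (s := s) e₁ hτ hn x hx
    rw [Finset.prod_congr rfl (fun i _ => h1 i), hm, Finset.prod_range_succ,
      Finset.prod_range_succ', ← hm, h2]

omit [FiniteDimensional k k₁] [IsGalois k k₁] in
/-- constants fixed over `k₁` come from `k₁` -/
lemma exists_k1 (hs : IsSection k K s) (z : maxUnr k K) (hz : IsIntegral k z)
    (hzH : ∀ h : Gal(constClosure k K/k), (∀ c, h (e₁ c) = e₁ c) → s h z = z) :
    ∃ c : k₁, incl k K (e₁ c) = z := by
  obtain ⟨zC, rfl⟩ := exists_incl z hz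
  have h1 : zC ∈ IntermediateField.fixedField e₁.fieldRange.fixingSubgroup := by
    rw [IntermediateField.mem_fixedField_iff]
    intro h hh
    have h2 := hzH h (fun c => (IntermediateField.mem_fixingSubgroup_iff _ _).1 hh _ ⟨c, rfl⟩)
    rw [act_incl hs] at h2
    exact (incl k K).injective h2
  rw [InfiniteGalois.fixedField_fixingSubgroup] at h1
  obtain ⟨c, hc⟩ := h1
  exact ⟨c, congrArg _ hc⟩

/-- constants fixed by the section come from `k` -/
lemma exists_k0 (hs : IsSection k K s) (z : maxUnr k K) (hz : IsIntegral k z)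
    (hzG : ∀ h : Gal(constClosure k K/k), s h z = z) :
    ∃ c : k, algebraMap k (maxUnr k K) c = z := by
  obtain ⟨c, hc⟩ := (base_top hs).ex z hz (fun h _ => hzG h)
  exact ⟨c, hc⟩

/-- norms of elements of `k₁` -/
lemma norm_k1 (hs : IsSection k K s) (hσ : ∀ ρ, ρ ∈ Subgroup.zpowers σ)
    (hτ : ∀ c, τ (e₁ c) = e₁ (σ c)) {n : ℕ} (hn : Module.finrank k k₁ = n) (c : k₁) :
    ∏ i ∈ Finset.range n, s (τ ^ i) (incl k K (e₁ c)) =
      algebraMap k (maxUnr k K) (Algebra.norm k c) := by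
  classical
  have hcard : Fintype.card (Gal(k₁/k)) = n := by
    rw [← Nat.card_eq_fintype_card, IsGalois.card_aut_eq_finrank, hn]
  have h1 : ∀ i ∈ Finset.range n, s (τ ^ i) (incl k K (e₁ c)) =
      incl k K (e₁ ((σ ^ i) c)) := by
    intro i _
    rw [act_incl hs, tau_pow_e e₁ hτ]
  have h2 := prod_zpowers σ hσ (fun ρ : Gal(k₁/k) => ρ c)
  rw [hcard] at h2
  rw [Finset.prod_congr rfl h1, ← map_prod, ← map_prod, h2, ← Algebra.norm_eq_prod_automorphisms,
    AlgHom.commutes]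
  rfl

/-- **The norm theorem for cyclic extensions.** -/
theorem norm_thm_cyc (hs : IsSection k K s) (n : ℕ)
    (hn : Module.finrank k k₁ = n) (σ : Gal(k₁/k))
    (hσ : ∀ ρ, ρ ∈ Subgroup.zpowers σ) (τ : Gal(constClosure k K/k))
    (hτ : ∀ c, τ (e₁ c) = e₁ (σ c)) (b : k) (u y γ : maxUnr k K) (hu0 : u ≠ 0) (hy0 : y ≠ 0)
    (huH : ∀ h : Gal(constClosure k K/k), (∀ c, h (e₁ c) = e₁ c) → s h u = u)
    (hyG : ∀ ρ, s ρ y = y)
    (hN : ∏ i ∈ Finset.range n, s (τ ^ i) u = algebraMap k (maxUnr k K) b * y ^ n)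
    (hγ : γ ^ n = u ∨ (Odd n ∧ γ ^ n = s τ u / u)) : ∃ z₁ : k₁, Algebra.norm k z₁ = b := by
  classical
  have hn0 : 0 < n := hn ▸ Module.finrank_pos
  set H : Subgroup Gal(constClosure k K/k) := e₁.fieldRange.fixingSubgroup with hH
  have hmem : ∀ h : Gal(constClosure k K/k), h ∈ H ↔ ∀ c, h (e₁ c) = e₁ c := by
    intro h
    rw [hH, IntermediateField.mem_fixingSubgroup_iff]
    constructor
    · exact fun h1 c => h1 _ ⟨c, rfl⟩
    · rintro h1 _ ⟨c, rfl⟩
      exact h1 c
  have hHcl : IsClosed (H : Set Gal(constClosure k K/k)) :=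
    InfiniteGalois.fixingSubgroup_isClosed _
  set w : maxUnr k K := γ ^ n with hw
  have hsτu0 : s τ u ≠ 0 := by rw [Ne, EmbeddingLike.map_eq_zero_iff]; exact hu0
  have hw0 : w ≠ 0 := by
    rcases hγ with h | ⟨-, h⟩
    · rw [h]; exact hu0
    · rw [h]; exact div_ne_zero hsτu0 hu0
  have hwH : ∀ h : Gal(constClosure k K/k), (∀ c, h (e₁ c) = e₁ c) → s h w = w := by
    intro h hh
    rcases hγ with h1 | ⟨-, h1⟩
    · rw [h1]; exact huH h hh
    · have h2 := conj_fixed_e e₁ hτ u huH 1 h hh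
      rw [pow_one] at h2
      rw [h1, map_div₀, h2, huH h hh]
  have hγ0 : γ ≠ 0 := by
    intro h0
    rw [hw, h0, zero_pow hn0.ne'] at hw0
    exact hw0 rfl
  obtain ⟨l, hl0, hlint, hlH⟩ := exists_const_class_gen hs hn0 H hHcl γ hγ0
    (fun h hh => hwH h ((hmem h).1 hh))
  set v := γ / l with hv
  have hv0 : v ≠ 0 := div_ne_zero hγ0 hl0
  have hvH : ∀ h : Gal(constClosure k K/k), (∀ c, h (e₁ c) = e₁ c) → s h v = v :=
    fun h hh => hlH h ((hmem h).2 hh)
  have hc : l ^ n = w / v ^ n := by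
    rw [hv, div_pow, ← hw]
    field_simp
  have hwc : w = l ^ n * v ^ n := by
    rw [hc, div_mul_cancel₀ _ (pow_ne_zero n hv0)]
  obtain ⟨c₁, hc₁⟩ := exists_k1 e₁ hs (l ^ n) (hlint.pow n) (by
    intro h hh
    rw [hc, map_div₀, map_pow (s h) v n, hwH h hh, hvH h hh])
  set ν := ∏ i ∈ Finset.range n, s (τ ^ i) v with hν
  have hν0 : ν ≠ 0 := nm_ne_zero n τ hv0
  have hνG : ∀ ρ, s ρ ν = ν := norm_fixed_e e₁ hσ hτ hn v hvH
  have hNw : ∏ i ∈ Finset.range n, s (τ ^ i) w =
      algebraMap k (maxUnr k K) (Algebra.norm k c₁) * ν ^ n := by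
    rw [hwc, nm_mul, nm_pow n τ v n, ← hc₁, norm_k1 e₁ hs hσ hτ hn]
  have hnc0 : Algebra.norm k c₁ ≠ 0 := by
    rw [Ne, Algebra.norm_eq_zero_iff]
    rintro rfl
    rw [map_zero, map_zero] at hc₁
    exact pow_ne_zero n hl0 hc₁.symm
  have hncM : algebraMap k (maxUnr k K) (Algebra.norm k c₁) ≠ 0 :=
    (_root_.map_ne_zero _).2 hnc0
  rcases hγ with hγu | ⟨hodd, hγu⟩
  · -- the case of an `n`-th power
    have hwu : w = u := hγu
    rw [hwu, hN] at hNw
    set r := ν / y with hr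
    have hrn : r ^ n = algebraMap k (maxUnr k K) (b / Algebra.norm k c₁) := by
      rw [hr, div_pow, map_div₀, div_eq_div_iff (pow_ne_zero n hy0) hncM, hNw]
      ring
    obtain ⟨r₀, hr₀⟩ := exists_k0 hs r (by
      apply IsIntegral.of_pow hn0
      rw [hrn]
      exact isIntegral_algebraMap) (fun ρ => by rw [hr, map_div₀, hνG, hyG])
    refine ⟨c₁ * algebraMap k k₁ r₀, ?_⟩
    rw [map_mul, Algebra.norm_algebraMap, hn]
    have h1 : r₀ ^ n = b / Algebra.norm k c₁ := by
      apply (algebraMap k (maxUnr k K)).injective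
      rw [map_pow, hr₀, hrn]
    rw [h1, mul_div_cancel₀ _ hnc0]
  · -- the case of `τ u / u`
    have hcyc : IsCyclic Gal(k₁/k) := ⟨σ, hσ⟩
    obtain ⟨m, hm⟩ := hodd
    have hNw1 : ∏ i ∈ Finset.range n, s (τ ^ i) w = 1 := by
      have h1 : ∀ i, s (τ ^ i) w = s (τ ^ (i + 1)) u / s (τ ^ i) u := by
        intro i
        rw [hγu, map_div₀, pow_succ, map_mul s, AlgEquiv.mul_apply]
      have h2 : ∀ i, s (τ ^ i) u ≠ 0 := fun i => by
        rw [Ne, EmbeddingLike.map_eq_zero_iff]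
        exact hu0
      have h3 := Finset.prod_range_succ (fun i => s (τ ^ i) u) n
      have h4 := Finset.prod_range_succ' (fun i => s (τ ^ i) u) n
      rw [h3, shift_e e₁ hτ hn u huH] at h4
      rw [Finset.prod_congr rfl (fun i _ => h1 i), Finset.prod_div_distrib,
        ← mul_right_cancel₀ (h2 0) h4, div_self]
      exact Finset.prod_ne_zero_iff.2 (fun i _ => h2 i)
    rw [hNw1] at hNw
    obtain ⟨ν₀, hν₀⟩ := exists_k0 hs ν (by
      apply IsIntegral.of_pow hn0
      rw [eq_inv_of_mul_eq_one_right hNw.symm, ← map_inv₀]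
      exact isIntegral_algebraMap) hνG
    have hν₀n : Algebra.norm k c₁ * ν₀ ^ n = 1 := by
      apply (algebraMap k (maxUnr k K)).injective
      rw [map_mul, map_pow, hν₀, ← hNw, map_one]
    -- Hilbert 90
    have hd : Algebra.norm k (c₁ * algebraMap k k₁ ν₀) = 1 := by
      rw [map_mul, Algebra.norm_algebraMap, hn]
      exact hν₀n
    obtain ⟨g₁, hg₁0, hσg⟩ := hilbert90_cyc hσ _ hd
    set g : maxUnr k K := incl k K (e₁ g₁) with hg
    have hg0 : g ≠ 0 := by
      rw [hg, Ne, map_eq_zero, map_eq_zero]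
      exact hg₁0
    have hgτ : s τ g = l ^ n * ν * g := by
      have h1 : incl k K (e₁ (algebraMap k k₁ ν₀)) = ν := by
        rw [AlgHom.commutes]
        exact hν₀
      rw [hg, act_incl hs, hτ, hσg, map_mul, map_mul, map_mul, map_mul, hc₁, h1]
    have hgH : ∀ h : Gal(constClosure k K/k), (∀ c, h (e₁ c) = e₁ c) → s h g = g := by
      intro h hh
      rw [hg, act_incl hs, hh]
    set U := u / g with hU
    have hU0 : U ≠ 0 := div_ne_zero hu0 hg0
    have hUH : ∀ h : Gal(constClosure k K/k), (∀ c, h (e₁ c) = e₁ c) → s h U = U := by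
      intro h hh
      rw [hU, map_div₀, huH h hh, hgH h hh]
    have hl0' : l ^ n ≠ 0 := pow_ne_zero n hl0
    have hUτ : s τ U = U * ν⁻¹ * v ^ n := by
      have h1 : s τ u = l ^ n * v ^ n * u := by
        rw [← hwc, hγu, div_mul_cancel₀ _ hu0]
      rw [hU, map_div₀, hgτ, h1]
      field_simp
    set V : ℕ → maxUnr k K := fun i => ∏ j ∈ Finset.range i, s (τ ^ j) v with hV
    have hUi : ∀ i : ℕ, s (τ ^ i) U = U * ν⁻¹ ^ i * V i ^ n := by
      intro i
      induction i with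
      | zero => simp [hV]
      | succ i ih =>
        have h1 : s (τ ^ (i + 1)) U = s (τ ^ i) (s τ U) := by
          rw [pow_succ, map_mul s, AlgEquiv.mul_apply]
        have h2 : s (τ ^ i) ν = ν := hνG _
        have h3 : V (i + 1) = V i * s (τ ^ i) v := by
          simp only [hV]
          rw [Finset.prod_range_succ]
        rw [h1, hUτ, map_mul (s (τ ^ i)), map_mul (s (τ ^ i)), map_inv₀ (s (τ ^ i)),
          map_pow (s (τ ^ i)), h2, ih, h3]
        ring
    set R := U * ν⁻¹ ^ m * ∏ i ∈ Finset.range n, V i with hR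
    have hsum : ∑ i ∈ Finset.range n, i = n * m := by
      have h1 := Finset.sum_range_id_mul_two n
      have h2 : n - 1 = 2 * m := by omega
      rw [h2] at h1
      have h3 : (∑ i ∈ Finset.range n, i) * 2 = n * m * 2 := by rw [h1]; ring
      omega
    have hNU : ∏ i ∈ Finset.range n, s (τ ^ i) U = R ^ n := by
      rw [Finset.prod_congr rfl (fun i _ => hUi i), Finset.prod_mul_distrib,
        Finset.prod_mul_distrib, Finset.prod_const, Finset.card_range,
        Finset.prod_pow_eq_pow_sum, hsum, Finset.prod_pow, hR, mul_pow, mul_pow, ← pow_mul,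
        mul_comm m n]
    have hNg : ∏ i ∈ Finset.range n, s (τ ^ i) g =
        algebraMap k (maxUnr k K) (Algebra.norm k g₁) := norm_k1 e₁ hs hσ hτ hn g₁
    have hNu : ∏ i ∈ Finset.range n, s (τ ^ i) u =
        R ^ n * algebraMap k (maxUnr k K) (Algebra.norm k g₁) := by
      have h1 : u = U * g := by rw [hU, div_mul_cancel₀ _ hg0]
      conv_lhs => rw [h1]
      rw [nm_mul, hNU, hNg]
    have hng0 : Algebra.norm k g₁ ≠ 0 := by
      rw [Ne, Algebra.norm_eq_zero_iff]
      exact hg₁0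
    have hngM : algebraMap k (maxUnr k K) (Algebra.norm k g₁) ≠ 0 :=
      (_root_.map_ne_zero _).2 hng0
    have hVH : ∀ i, ∀ h : Gal(constClosure k K/k), (∀ c, h (e₁ c) = e₁ c) →
        s h (V i) = V i := by
      intro i h hh
      simp only [hV]
      rw [map_prod]
      exact Finset.prod_congr rfl (fun j _ => conj_fixed_e e₁ hτ v hvH j h hh)
    have hRH : ∀ h : Gal(constClosure k K/k), (∀ c, h (e₁ c) = e₁ c) → s h R = R := by
      intro h hh
      rw [hR, map_mul, map_mul, map_pow, map_inv₀, hUH h hh, hνG h,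
        map_prod, Finset.prod_congr rfl (fun i _ => hVH i h hh)]
    set q := R / y with hq
    have hqn : q ^ n = algebraMap k (maxUnr k K) (b / Algebra.norm k g₁) := by
      rw [hNu] at hN
      rw [hq, div_pow, map_div₀, div_eq_div_iff (pow_ne_zero n hy0) hngM, hN]
    obtain ⟨q₁, hq₁⟩ := exists_k1 e₁ hs q (by
      apply IsIntegral.of_pow hn0
      rw [hqn]
      exact isIntegral_algebraMap) (by
      intro h hh
      rw [hq, map_div₀, hRH h hh, hyG])
    have hq₁n : q₁ ^ n = algebraMap k k₁ (b / Algebra.norm k g₁) := by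
      have h1 : incl k K (e₁ (q₁ ^ n)) =
          incl k K (e₁ (algebraMap k k₁ (b / Algebra.norm k g₁))) := by
        rw [map_pow, map_pow, hq₁, hqn, AlgHom.commutes]
        rfl
      exact (e₁ : k₁ →+* constClosure k K).injective ((incl k K).injective h1)
    have h1 := P025H511.norm_of_pow n hn ⟨m, hm⟩ q₁ _ hq₁n
    exact ⟨g₁ * q₁, by rw [map_mul, h1, mul_div_cancel₀ _ hng0]⟩

end cyc

end P025H16
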