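import Vale.Agent.P025.H641.NormRel

/-! # The norm theorem

Let `s` be a section, `k' / k` finite with `μ_p ⊆ k'`, `k'(θ) / k'` cyclic of degree `p`, and
`u` fixed by the section of `k'(θ)` with norm `b y ^ p`. If `u` is a `p`-th power in the maximal
unramified extension, or if `p` is odd and `τ u / u` is, then `b` is a norm from `k'(θ)`. -/

open IntermediateField

namespace P025H16

universe u v w

open Polynomial P025H641

variable {k : Type u} {K : Type v} [Field k] [Field K] [Algebra k K] [CharZero k]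
  {s : Gal(constClosure k K/k) →* Gal(maxUnr k K/K)} {G : Subgroup Gal(constClosure k K/k)}

omit [CharZero k] in
/-- conjugates of constants are constants -/
lemma integral_conj (σ : Gal(maxUnr k K/K)) {x : maxUnr k K} (hx : IsIntegral k x) :
    IsIntegral k (σ x) :=
  hx.map ((σ : maxUnr k K →ₐ[K] maxUnr k K).restrictScalars k)

section cyc

variable {p : ℕ} [Fact p.Prime] {ζ : maxUnr k K} (hζ : IsPrimitiveRoot ζ p)
  (hζG : ∀ σ ∈ G, s σ ζ = ζ) {θ : maxUnr k K} (hθ0 : θ ≠ 0) (hθG : ∀ σ ∈ G, s σ (θ ^ p) = θ ^ p)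
  {τ : Gal(constClosure k K/k)} (hτ : τ ∈ G) (hτθ : s τ θ = ζ * θ)

omit [CharZero k] in
/-- norms are multiplicative -/
lemma nm_mul (p : ℕ) (τ : Gal(constClosure k K/k)) (x y : maxUnr k K) :
    ∏ i ∈ Finset.range p, s (τ ^ i) (x * y) =
      (∏ i ∈ Finset.range p, s (τ ^ i) x) * ∏ i ∈ Finset.range p, s (τ ^ i) y := by
  rw [← Finset.prod_mul_distrib]
  exact Finset.prod_congr rfl (fun i _ => map_mul _ _ _)

omit [CharZero k] in
lemma nm_pow (p : ℕ) (τ : Gal(constClosure k K/k)) (x : maxUnr k K) (n : ℕ) :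
    ∏ i ∈ Finset.range p, s (τ ^ i) (x ^ n) = (∏ i ∈ Finset.range p, s (τ ^ i) x) ^ n := by
  rw [← Finset.prod_pow]
  exact Finset.prod_congr rfl (fun i _ => map_pow _ _ _)

omit [CharZero k] in
lemma nm_fixed (p : ℕ) (hτ : τ ∈ G) (x : maxUnr k K) (hx : ∀ σ ∈ G, s σ x = x) :
    ∏ i ∈ Finset.range p, s (τ ^ i) x = x ^ p := by
  rw [Finset.prod_congr rfl (fun i _ => hx _ (G.pow_mem hτ i)), Finset.prod_const,
    Finset.card_range]

omit [CharZero k] in
lemma nm_integral (p : ℕ) (τ : Gal(constClosure k K/k)) {x : maxUnr k K} (hx : IsIntegral k x) :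
    IsIntegral k (∏ i ∈ Finset.range p, s (τ ^ i) x) :=
  IsIntegral.prod _ (fun _ _ => integral_conj _ hx)

omit [CharZero k] in
lemma nm_ne_zero (p : ℕ) (τ : Gal(constClosure k K/k)) {x : maxUnr k K} (hx : x ≠ 0) :
    ∏ i ∈ Finset.range p, s (τ ^ i) x ≠ 0 :=
  Finset.prod_ne_zero_iff.2 (fun _ _ => by rw [Ne, EmbeddingLike.map_eq_zero_iff]; exact hx)

include hζ hζG hθ0 hτ hτθ

omit hθ0 [CharZero k] [Fact p.Prime] in
/-- the norm of `τ u / u` is one -/
lemma nm_quot (u : maxUnr k K) (hu0 : u ≠ 0) (hu : ∀ h ∈ G ⊓ stabS s θ, s h u = u) :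
    ∏ i ∈ Finset.range p, s (τ ^ i) (s τ u / u) = 1 := by
  have h1 : ∀ i, s (τ ^ i) (s τ u / u) = s (τ ^ (i + 1)) u / s (τ ^ i) u := by
    intro i
    rw [map_div₀, pow_succ, map_mul s, AlgEquiv.mul_apply]
  have h2 : ∀ i, s (τ ^ i) u ≠ 0 := fun i => by
    rw [Ne, EmbeddingLike.map_eq_zero_iff]
    exact hu0
  have h3 := Finset.prod_range_succ (fun i => s (τ ^ i) u) p
  have h4 := Finset.prod_range_succ' (fun i => s (τ ^ i) u) p
  rw [h3, tau_shift hζ hζG hτ hτθ u hu] at h4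
  rw [Finset.prod_congr rfl (fun i _ => h1 i), Finset.prod_div_distrib,
    ← mul_right_cancel₀ (h2 0) h4, div_self]
  exact Finset.prod_ne_zero_iff.2 (fun i _ => h2 i)

/-- **Hilbert 90** for `k'(θ) / k'`. -/
lemma hilbert90 (hθint : IsIntegral k θ) (d : maxUnr k K) (hdint : IsIntegral k d)
    (hd : ∀ h ∈ G ⊓ stabS s θ, s h d = d) (hN : ∏ i ∈ Finset.range p, s (τ ^ i) d = 1) :
    ∃ g : maxUnr k K, g ≠ 0 ∧ IsIntegral k g ∧ (∀ h ∈ G ⊓ stabS s θ, s h g = g) ∧
      s τ g = d * g := by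
  classical
  have hpp : p.Prime := Fact.out
  set D : ℕ → maxUnr k K := fun i => ∏ j ∈ Finset.range i, s (τ ^ j) d with hD
  have hD0 : D 0 = 1 := by simp [hD]
  have hDp : D p = 1 := hN
  have hDs : ∀ i, d * s τ (D i) = D (i + 1) := by
    intro i
    rw [hD]
    simp only
    rw [Finset.prod_range_succ', pow_zero, map_one, AlgEquiv.one_apply, mul_comm, map_prod]
    congr 1
    refine Finset.prod_congr rfl (fun j _ => ?_)
    rw [pow_succ', map_mul s, AlgEquiv.mul_apply]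
  have hDH : ∀ i, ∀ h ∈ G ⊓ stabS s θ, s h (D i) = D i := by
    intro i h hh
    rw [hD]
    simp only
    rw [map_prod]
    exact Finset.prod_congr rfl (fun j _ => conj_fixed hζG hτ hτθ d hd j h hh)
  have hDint : ∀ i, IsIntegral k (D i) := fun i => nm_integral i τ hdint
  set S : maxUnr k K → maxUnr k K := fun z => ∑ i ∈ Finset.range p, D i * s (τ ^ i) z with hS
  have hSτ : ∀ z, (∀ h ∈ G ⊓ stabS s θ, s h z = z) → d * s τ (S z) = S z := by
    intro z hz
    have h1 : ∀ i ∈ Finset.range p, d * s τ (D i * s (τ ^ i) z) =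
        D (i + 1) * s (τ ^ (i + 1)) z := by
      intro i _
      rw [map_mul, ← mul_assoc, hDs, pow_succ', map_mul s, AlgEquiv.mul_apply]
    have h2 := Finset.sum_range_succ (fun i => D i * s (τ ^ i) z) p
    have h3 := Finset.sum_range_succ' (fun i => D i * s (τ ^ i) z) p
    rw [h2, hD0, hDp, tau_shift hζ hζG hτ hτθ z hz] at h3
    have h4 := add_right_cancel h3
    rw [hS]
    simp only
    rw [map_sum, Finset.mul_sum, Finset.sum_congr rfl h1]
    exact h4.symm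
  -- non-vanishing
  have hθH : ∀ j : ℕ, ∀ h ∈ G ⊓ stabS s θ, s h (θ ^ j) = θ ^ j := by
    intro j h hh
    rw [map_pow, (mem_stabS _ _).1 (Subgroup.mem_inf.1 hh).2]
  have hex : ∃ j ∈ Finset.range p, S (θ ^ j) ≠ 0 := by
    by_contra hcon
    push Not at hcon
    have h1 : ∑ j ∈ Finset.range p, (θ ^ j)⁻¹ * S (θ ^ j) = 0 :=
      Finset.sum_eq_zero (fun j hj => by rw [hcon j hj, mul_zero])
    have h2 : ∀ j ∈ Finset.range p, (θ ^ j)⁻¹ * S (θ ^ j) =
        ∑ i ∈ Finset.range p, ζ ^ (i * j) * D i := by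
      intro j _
      rw [hS]
      simp only
      rw [Finset.mul_sum]
      refine Finset.sum_congr rfl (fun i _ => ?_)
      rw [map_pow, tau_pow hζG hτ hτθ, mul_pow, ← pow_mul]
      have h3 : θ ^ j ≠ 0 := pow_ne_zero j hθ0
      field_simp
    rw [Finset.sum_congr rfl h2, Finset.sum_comm] at h1
    have h3 : ∀ i ∈ Finset.range p, ∑ j ∈ Finset.range p, ζ ^ (i * j) * D i =
        if i = 0 then (p : maxUnr k K) else 0 := by
      intro i hi
      rw [← Finset.sum_mul]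
      split_ifs with h0
      · rw [h0, hD0]
        simp
      · have h4 : ζ ^ i ≠ 1 := by
          intro h5
          have h6 := (hζ.pow_eq_one_iff_dvd i).1 h5
          have h7 := Nat.le_of_dvd (Nat.pos_of_ne_zero h0) h6
          have h8 := Finset.mem_range.1 hi
          omega
        have h5 : (∑ j ∈ Finset.range p, ζ ^ (i * j)) * (ζ ^ i - 1) = 0 := by
          have h6 := geom_sum_mul (ζ ^ i) p
          rw [← pow_mul, mul_comm i p, pow_mul, hζ.pow_eq_one, one_pow, sub_self] at h6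
          rw [← h6]
          congr 1
          exact Finset.sum_congr rfl (fun j _ => pow_mul _ _ _)
        rw [(mul_eq_zero.1 h5).resolve_right (sub_ne_zero.2 h4), zero_mul]
    rw [Finset.sum_congr rfl h3, Finset.sum_ite_eq'] at h1
    simp only [Finset.mem_range, hpp.pos, if_true] at h1
    have h4 : ((p : k) : k) ≠ 0 := by exact_mod_cast hpp.ne_zero
    have h5 := (_root_.map_ne_zero (algebraMap k (maxUnr k K))).2 h4
    rw [map_natCast] at h5
    exact h5 h1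
  obtain ⟨j, -, hj⟩ := hex
  have hSH : ∀ h ∈ G ⊓ stabS s θ, s h (S (θ ^ j)) = S (θ ^ j) := by
    intro h hh
    rw [hS]
    simp only
    rw [map_sum]
    refine Finset.sum_congr rfl (fun i _ => ?_)
    rw [map_mul, hDH i h hh, conj_fixed hζG hτ hτθ _ (hθH j) i h hh]
  have hSint : IsIntegral k (S (θ ^ j)) := by
    rw [hS]
    exact IsIntegral.sum _ (fun i _ => (hDint i).mul (integral_conj _ (hθint.pow j)))
  refine ⟨(S (θ ^ j))⁻¹, inv_ne_zero hj, hSint.inv, ?_, ?_⟩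
  · intro h hh
    rw [map_inv₀, hSH h hh]
  · have h1 := hSτ _ (hθH j)
    have h2 : s τ (S (θ ^ j)) ≠ 0 := by
      rw [Ne, EmbeddingLike.map_eq_zero_iff]; exact hj
    have hd0 : d ≠ 0 := by
      rintro rfl
      rw [zero_mul] at h1
      exact hj h1.symm
    rw [map_inv₀, ← h1, mul_inv, ← mul_assoc, mul_inv_cancel₀ hd0, one_mul, h1]

end cyc

section main

variable {k' : Type w} [Field k'] [Algebra k' (maxUnr k K)] {p : ℕ} [Fact p.Prime]

/-- **Norm theorem**, the case of a `p`-th power. -/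
theorem norm_thm_even (hs : IsSection k K s) (B : Base s G k') {ζ : k'}
    (hζ : IsPrimitiveRoot ζ p) (a : k') (ha0 : a ≠ 0) (θ : maxUnr k K)
    (hθ : θ ^ p = algebraMap k' (maxUnr k K) a)
    {τ : Gal(constClosure k K/k)} (hτ : τ ∈ G)
    (hτθ : s τ θ = algebraMap k' (maxUnr k K) ζ * θ) (b : k') (u y γ : maxUnr k K)
    (hu0 : u ≠ 0) (hy0 : y ≠ 0) (huH : ∀ h ∈ G ⊓ stabS s θ, s h u = u)
    (hyG : ∀ σ ∈ G, s σ y = y)
    (hN : ∏ i ∈ Finset.range p, s (τ ^ i) u = algebraMap k' (maxUnr k K) b * y ^ p)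
    (hγ : γ ^ p = u) :
    ∃ z : maxUnr k K, z ≠ 0 ∧ IsIntegral k z ∧ (∀ h ∈ G ⊓ stabS s θ, s h z = z) ∧
      ∏ i ∈ Finset.range p, s (τ ^ i) z = algebraMap k' (maxUnr k K) b := by
  have hpp : p.Prime := Fact.out
  set Z := algebraMap k' (maxUnr k K) ζ with hZ
  have hZp : IsPrimitiveRoot Z p := hζ.map_of_injective (algebraMap k' (maxUnr k K)).injective
  have hZG : ∀ σ ∈ G, s σ Z = Z := B.fix ζ
  have hθ0 : θ ≠ 0 := by
    rintro rfl
    rw [zero_pow hpp.ne_zero] at hθ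
    exact ha0 ((map_eq_zero _).1 hθ.symm)
  have hθG : ∀ σ ∈ G, s σ (θ ^ p) = θ ^ p := by
    intro σ hσ
    rw [hθ, B.fix _ σ hσ]
  have hHcl : IsClosed ((G ⊓ stabS s θ : Subgroup _) : Set Gal(constClosure k K/k)) := by
    rw [Subgroup.coe_inf]
    exact B.closed.inter (isClosed_stabS hs θ)
  have hγ0 : γ ≠ 0 := by
    rintro rfl
    rw [zero_pow hpp.ne_zero] at hγ
    exact hu0 hγ.symm
  obtain ⟨l, hl0, hlint, hlH⟩ := exists_const_class hs (G ⊓ stabS s θ) hHcl Z hZp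
    (fun σ hσ => hZG σ (Subgroup.mem_inf.1 hσ).1) γ hγ0 (fun σ hσ => by rw [hγ, huH σ hσ])
  set v := γ / l with hv
  have hv0 : v ≠ 0 := div_ne_zero hγ0 hl0
  have hc : l ^ p = u / v ^ p := by
    rw [hv, div_pow, hγ]
    field_simp
  have hcH : ∀ h ∈ G ⊓ stabS s θ, s h (l ^ p) = l ^ p := by
    intro h hh
    rw [hc, map_div₀, map_pow, huH h hh, hlH h hh]
  have hu : u = l ^ p * v ^ p := by
    rw [hc, div_mul_cancel₀ _ (pow_ne_zero p hv0)]
  set P := ∏ i ∈ Finset.range p, s (τ ^ i) v with hP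
  have hP0 : P ≠ 0 := nm_ne_zero p τ hv0
  have hPG : ∀ σ ∈ G, s σ P = P := norm_fixed hZp hZG hθ0 hθG hτ hτθ v hlH
  set r := P / y with hr
  have hr0 : r ≠ 0 := div_ne_zero hP0 hy0
  have hrG : ∀ σ ∈ G, s σ r = r := by
    intro σ hσ
    rw [hr, map_div₀, hPG σ hσ, hyG σ hσ]
  set C := ∏ i ∈ Finset.range p, s (τ ^ i) (l ^ p) with hC
  have hC0 : C ≠ 0 := nm_ne_zero p τ (pow_ne_zero p hl0)
  have hCr : C * r ^ p = algebraMap k' (maxUnr k K) b := by
    have h1 : ∏ i ∈ Finset.range p, s (τ ^ i) u = C * P ^ p := by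
      rw [hu, nm_mul, nm_pow p τ v p]
    rw [h1] at hN
    rw [hr, div_pow, mul_div_assoc', hN, mul_div_cancel_right₀ _ (pow_ne_zero p hy0)]
  have hrint : IsIntegral k r := by
    apply isIntegral_of_pow' hpp.pos
    have h1 : r ^ p = algebraMap k' (maxUnr k K) b * C⁻¹ := by
      rw [← hCr]
      field_simp
    rw [h1]
    exact (B.alg b).mul (nm_integral p τ (hlint.pow p)).inv
  refine ⟨l ^ p * r, mul_ne_zero (pow_ne_zero p hl0) hr0, (hlint.pow p).mul hrint, ?_, ?_⟩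
  · intro h hh
    rw [map_mul, hcH h hh, hrG h (Subgroup.mem_inf.1 hh).1]
  · rw [nm_mul, nm_fixed p hτ r hrG]
    exact hCr

/-- **Norm theorem**, the case where `τ u / u` is a `p`-th power, `p` odd. -/
theorem norm_thm_odd (hp2 : p ≠ 2) (hs : IsSection k K s) (B : Base s G k') {ζ : k'}
    (hζ : IsPrimitiveRoot ζ p) (a : k') (ha0 : a ≠ 0) (θ : maxUnr k K)
    (hθ : θ ^ p = algebraMap k' (maxUnr k K) a)
    {τ : Gal(constClosure k K/k)} (hτ : τ ∈ G)
    (hτθ : s τ θ = algebraMap k' (maxUnr k K) ζ * θ) (b : k') (u y γ : maxUnr k K)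
    (hu0 : u ≠ 0) (hy0 : y ≠ 0) (huH : ∀ h ∈ G ⊓ stabS s θ, s h u = u)
    (hyG : ∀ σ ∈ G, s σ y = y)
    (hN : ∏ i ∈ Finset.range p, s (τ ^ i) u = algebraMap k' (maxUnr k K) b * y ^ p)
    (hγ : γ ^ p = s τ u / u) :
    ∃ z : maxUnr k K, z ≠ 0 ∧ IsIntegral k z ∧ (∀ h ∈ G ⊓ stabS s θ, s h z = z) ∧
      ∏ i ∈ Finset.range p, s (τ ^ i) z = algebraMap k' (maxUnr k K) b := by
  have hpp : p.Prime := Fact.out
  obtain ⟨m, hm⟩ : ∃ m, p = 2 * m + 1 := (hpp.odd_of_ne_two hp2)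
  set Z := algebraMap k' (maxUnr k K) ζ with hZ
  have hZp : IsPrimitiveRoot Z p := hζ.map_of_injective (algebraMap k' (maxUnr k K)).injective
  have hZG : ∀ σ ∈ G, s σ Z = Z := B.fix ζ
  have hθ0 : θ ≠ 0 := by
    rintro rfl
    rw [zero_pow hpp.ne_zero] at hθ
    exact ha0 ((map_eq_zero _).1 hθ.symm)
  have hθint : IsIntegral k θ := by
    apply isIntegral_of_pow' hpp.pos
    rw [hθ]
    exact B.alg _
  have hθG : ∀ σ ∈ G, s σ (θ ^ p) = θ ^ p := by
    intro σ hσ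
    rw [hθ, B.fix _ σ hσ]
  have hHcl : IsClosed ((G ⊓ stabS s θ : Subgroup _) : Set Gal(constClosure k K/k)) := by
    rw [Subgroup.coe_inf]
    exact B.closed.inter (isClosed_stabS hs θ)
  have hτ1 : ∀ x, (∀ h ∈ G ⊓ stabS s θ, s h x = x) → ∀ h ∈ G ⊓ stabS s θ,
      s h (s τ x) = s τ x := by
    intro x hx h hh
    have h1 := conj_fixed hZG hτ hτθ x hx 1 h hh
    rwa [pow_one] at h1
  have hsτu0 : s τ u ≠ 0 := by rw [Ne, EmbeddingLike.map_eq_zero_iff]; exact hu0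
  set w := s τ u / u with hw
  have hw0 : w ≠ 0 := div_ne_zero hsτu0 hu0
  have hwH : ∀ h ∈ G ⊓ stabS s θ, s h w = w := by
    intro h hh
    rw [hw, map_div₀, hτ1 u huH h hh, huH h hh]
  have hγ0 : γ ≠ 0 := by
    rintro rfl
    rw [zero_pow hpp.ne_zero] at hγ
    exact hw0 hγ.symm
  obtain ⟨l, hl0, hlint, hlH⟩ := exists_const_class hs (G ⊓ stabS s θ) hHcl Z hZp
    (fun σ hσ => hZG σ (Subgroup.mem_inf.1 hσ).1) γ hγ0 (fun σ hσ => by rw [hγ, hwH σ hσ])
  set v := γ / l with hv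
  have hv0 : v ≠ 0 := div_ne_zero hγ0 hl0
  set c := l ^ p with hcdef
  have hc0 : c ≠ 0 := pow_ne_zero p hl0
  have hcint : IsIntegral k c := hlint.pow p
  have hc : c = w / v ^ p := by
    rw [hv, div_pow, hγ, hcdef]
    field_simp
  have hcH : ∀ h ∈ G ⊓ stabS s θ, s h c = c := by
    intro h hh
    rw [hc, map_div₀, map_pow, hwH h hh, hlH h hh]
  have hwc : w = c * v ^ p := by
    rw [hc, div_mul_cancel₀ _ (pow_ne_zero p hv0)]
  -- the constant `ν = N(v)`
  set ν := ∏ i ∈ Finset.range p, s (τ ^ i) v with hν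
  have hν0 : ν ≠ 0 := nm_ne_zero p τ hv0
  have hνG : ∀ σ ∈ G, s σ ν = ν := norm_fixed hZp hZG hθ0 hθG hτ hτθ v hlH
  have hNc : (∏ i ∈ Finset.range p, s (τ ^ i) c) * ν ^ p = 1 := by
    have h1 := nm_quot hZp hZG hτ hτθ u hu0 huH
    rw [← hw, hwc, nm_mul, nm_pow p τ v p] at h1
    exact h1
  have hνint : IsIntegral k ν := by
    apply isIntegral_of_pow' hpp.pos
    rw [eq_inv_of_mul_eq_one_right hNc]
    exact (nm_integral p τ hcint).inv
  -- Hilbert 90
  obtain ⟨g, hg0, hgint, hgH, hgτ⟩ := hilbert90 hZp hZG hθ0 hτ hτθ hθint (c * ν)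
    (hcint.mul hνint) (by
      intro h hh
      rw [map_mul, hcH h hh, hνG h (Subgroup.mem_inf.1 hh).1]) (by
      rw [nm_mul, nm_fixed p hτ ν hνG]
      exact hNc)
  set U := u / g with hU
  have hU0 : U ≠ 0 := div_ne_zero hu0 hg0
  have hUH : ∀ h ∈ G ⊓ stabS s θ, s h U = U := by
    intro h hh
    rw [hU, map_div₀, huH h hh, hgH h hh]
  have hUτ : s τ U = U * ν⁻¹ * v ^ p := by
    rw [hU, map_div₀, hgτ]
    have h1 : s τ u = c * v ^ p * u := by
      rw [← hwc, hw, div_mul_cancel₀ _ hu0]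
    rw [h1]
    field_simp
  set V : ℕ → maxUnr k K := fun i => ∏ j ∈ Finset.range i, s (τ ^ j) v with hV
  have hUi : ∀ i : ℕ, s (τ ^ i) U = U * ν⁻¹ ^ i * V i ^ p := by
    intro i
    induction i with
    | zero => simp [hV]
    | succ i ih =>
      have h1 : s (τ ^ (i + 1)) U = s (τ ^ i) (s τ U) := by
        rw [pow_succ, map_mul s, AlgEquiv.mul_apply]
      have h2 : s (τ ^ i) ν = ν := hνG _ (G.pow_mem hτ i)
      have h3 : V (i + 1) = V i * s (τ ^ i) v := by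
        simp only [hV]
        rw [Finset.prod_range_succ]
      rw [h1, hUτ, map_mul (s (τ ^ i)), map_mul (s (τ ^ i)), map_inv₀ (s (τ ^ i)),
        map_pow (s (τ ^ i)), h2, ih, h3]
      ring
  set R := U * ν⁻¹ ^ m * ∏ i ∈ Finset.range p, V i with hR
  have hsum : ∑ i ∈ Finset.range p, i = p * m := by
    have h1 := Finset.sum_range_id_mul_two p
    have h2 : p - 1 = 2 * m := by omega
    rw [h2] at h1
    have h3 : (∑ i ∈ Finset.range p, i) * 2 = p * m * 2 := by rw [h1]; ring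
    omega
  have hNU : ∏ i ∈ Finset.range p, s (τ ^ i) U = R ^ p := by
    rw [Finset.prod_congr rfl (fun i _ => hUi i), Finset.prod_mul_distrib,
      Finset.prod_mul_distrib, Finset.prod_const, Finset.card_range,
      Finset.prod_pow_eq_pow_sum, hsum, Finset.prod_pow, hR, mul_pow, mul_pow, ← pow_mul,
      mul_comm m p]
  have hNu : ∏ i ∈ Finset.range p, s (τ ^ i) u = R ^ p * ∏ i ∈ Finset.range p, s (τ ^ i) g := by
    have h1 : u = U * g := by rw [hU, div_mul_cancel₀ _ hg0]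
    conv_lhs => rw [h1]
    rw [nm_mul, hNU]
  set Ng := ∏ i ∈ Finset.range p, s (τ ^ i) g with hNg
  have hNg0 : Ng ≠ 0 := nm_ne_zero p τ hg0
  have hNgG : ∀ σ ∈ G, s σ Ng = Ng := norm_fixed hZp hZG hθ0 hθG hτ hτθ g hgH
  have hVH : ∀ i, ∀ h ∈ G ⊓ stabS s θ, s h (V i) = V i := by
    intro i h hh
    simp only [hV]
    rw [map_prod]
    exact Finset.prod_congr rfl (fun j _ => conj_fixed hZG hτ hτθ v hlH j h hh)
  have hRH : ∀ h ∈ G ⊓ stabS s θ, s h R = R := by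
    intro h hh
    rw [hR, map_mul, map_mul, map_pow, map_inv₀, hUH h hh, hνG h (Subgroup.mem_inf.1 hh).1,
      map_prod, Finset.prod_congr rfl (fun i _ => hVH i h hh)]
  have hV0 : ∀ i, V i ≠ 0 := fun i => nm_ne_zero i τ hv0
  have hR0 : R ≠ 0 := mul_ne_zero (mul_ne_zero hU0 (pow_ne_zero m (inv_ne_zero hν0)))
    (Finset.prod_ne_zero_iff.2 (fun i _ => hV0 i))
  set q := R / y with hq
  have hq0 : q ≠ 0 := div_ne_zero hR0 hy0
  have hqH : ∀ h ∈ G ⊓ stabS s θ, s h q = q := by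
    intro h hh
    rw [hq, map_div₀, hRH h hh, hyG h (Subgroup.mem_inf.1 hh).1]
  have hqp : Ng * q ^ p = algebraMap k' (maxUnr k K) b := by
    rw [hNu] at hN
    rw [hq, div_pow, mul_div_assoc', mul_comm Ng, hN,
      mul_div_cancel_right₀ _ (pow_ne_zero p hy0)]
  have hqp' : q ^ p = algebraMap k' (maxUnr k K) b * Ng⁻¹ := by
    rw [← hqp]
    field_simp
  have hqint : IsIntegral k q := by
    apply isIntegral_of_pow' hpp.pos
    rw [hqp']
    exact (B.alg b).mul (nm_integral p τ hgint).inv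
  -- the norm of `q`
  have hqG : ∀ σ ∈ G, s σ (q ^ p) = q ^ p := by
    intro σ hσ
    rw [hqp', map_mul, map_inv₀, hNgG σ hσ, B.fix _ σ hσ]
  obtain ⟨j, -, hj⟩ : ∃ j : ℕ, j < p ∧ s τ q = Z ^ j * q := by
    have h1 : (s τ q / q) ^ p = 1 := by
      rw [div_pow, ← map_pow, hqG τ hτ, div_self (pow_ne_zero p hq0)]
    obtain ⟨i, hi, h2⟩ := hZp.eq_pow_of_pow_eq_one h1
    exact ⟨i, hi, by rw [h2, div_mul_cancel₀ _ hq0]⟩
  have hqi : ∀ i, s (τ ^ i) q = (Z ^ j) ^ i * q := by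
    intro i
    exact tau_pow (fun σ hσ => by rw [map_pow, hZG σ hσ]) hτ hj i
  have hNq : ∏ i ∈ Finset.range p, s (τ ^ i) q = q ^ p := by
    rw [Finset.prod_congr rfl (fun i _ => hqi i), Finset.prod_mul_distrib, Finset.prod_const,
      Finset.card_range, Finset.prod_pow_eq_pow_sum, hsum, ← pow_mul]
    have h1 : Z ^ (j * (p * m)) = 1 := by
      rw [mul_left_comm, pow_mul, hZp.pow_eq_one, one_pow]
    rw [h1, one_mul]
  refine ⟨g * q, mul_ne_zero hg0 hq0, hgint.mul hqint, ?_, ?_⟩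
  · intro h hh
    rw [map_mul, hgH h hh, hqH h hh]
  · rw [nm_mul, hNq, ← hNg]
    exact hqp

end main

end P025H16
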