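import Vale.Agent.P025.H16.NormCyc

/-! # The norm theorem, torsion form -/

open IntermediateField

namespace P025H16

universe u v w

open Polynomial P025H641

variable {k : Type u} {k₁ : Type w} {K : Type v} [Field k] [CharZero k] [Field k₁] [Field K]
  [Algebra k k₁] [Algebra k K] [FiniteDimensional k k₁] [IsGalois k k₁]
  {s : Gal(constClosure k K/k) →* Gal(maxUnr k K/K)}

/-- **The norm theorem, torsion form.** Let `k₁ / k` be cyclic of degree `n` with generator `σ`,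
and let `u`, `h` be fixed by the section of `k₁`, with `N(u) = b` in `k`, `h` an `m`-th power in
the maximal unramified extension, and `u ^ m σ(h) / h` a constant. Then `b` is a norm. -/
theorem norm_thm_tors (hs : IsSection k K s) (n : ℕ) (hn : Module.finrank k k₁ = n)
    (e₁ : k₁ →ₐ[k] constClosure k K) (σ : Gal(k₁/k)) (hσ : ∀ ρ, ρ ∈ Subgroup.zpowers σ)
    (τ : Gal(constClosure k K/k)) (hτ : ∀ c, τ (e₁ c) = e₁ (σ c)) (b : k) (m : ℕ) (hm : 0 < m)
    (c : k₁) (u h γ : maxUnr k K) (hu0 : u ≠ 0) (hh0 : h ≠ 0)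
    (huH : ∀ ρ : Gal(constClosure k K/k), (∀ c, ρ (e₁ c) = e₁ c) → s ρ u = u)
    (hhH : ∀ ρ : Gal(constClosure k K/k), (∀ c, ρ (e₁ c) = e₁ c) → s ρ h = h)
    (hN : ∏ i ∈ Finset.range n, s (τ ^ i) u = algebraMap k (maxUnr k K) b) (hγ : γ ^ m = h)
    (hc : u ^ m * s τ h = incl k K (e₁ c) * h) : ∃ z₁ : k₁, Algebra.norm k z₁ = b := by
  classical
  set H : Subgroup Gal(constClosure k K/k) := e₁.fieldRange.fixingSubgroup with hH
  have hmem : ∀ ρ : Gal(constClosure k K/k), ρ ∈ H ↔ ∀ c, ρ (e₁ c) = e₁ c := by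
    intro ρ
    rw [hH, IntermediateField.mem_fixingSubgroup_iff]
    constructor
    · exact fun h1 c => h1 _ ⟨c, rfl⟩
    · rintro h1 _ ⟨c, rfl⟩
      exact h1 c
  have hHcl : IsClosed (H : Set Gal(constClosure k K/k)) :=
    InfiniteGalois.fixingSubgroup_isClosed _
  have hγ0 : γ ≠ 0 := by
    rintro rfl
    rw [zero_pow hm.ne'] at hγ
    exact hh0 hγ.symm
  obtain ⟨l, hl0, hlint, hlH⟩ := exists_const_class_gen hs hm H hHcl γ hγ0
    (fun ρ hρ => by rw [hγ]; exact hhH ρ ((hmem ρ).1 hρ))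
  set v := γ / l with hv
  have hv0 : v ≠ 0 := div_ne_zero hγ0 hl0
  have hvH : ∀ ρ : Gal(constClosure k K/k), (∀ c, ρ (e₁ c) = e₁ c) → s ρ v = v :=
    fun ρ hρ => hlH ρ ((hmem ρ).2 hρ)
  have hγv : γ = l * v := by rw [hv, mul_div_cancel₀ _ hl0]
  have hsv0 : s τ v ≠ 0 := by rw [Ne, EmbeddingLike.map_eq_zero_iff]; exact hv0
  have hsl0 : s τ l ≠ 0 := by rw [Ne, EmbeddingLike.map_eq_zero_iff]; exact hl0
  have hsvH : ∀ ρ : Gal(constClosure k K/k), (∀ c, ρ (e₁ c) = e₁ c) → s ρ (s τ v) = s τ v := by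
    intro ρ hρ
    have h1 := conj_fixed_e e₁ hτ v hvH 1 ρ hρ
    rwa [pow_one] at h1
  set w := u * (s τ v / v) with hw
  have hwm : w ^ m = incl k K (e₁ c) * (l ^ m / s τ l ^ m) := by
    have h1 : s τ h = s τ l ^ m * s τ v ^ m := by
      rw [← hγ, hγv, map_pow, map_mul, mul_pow]
    have h2 : h = l ^ m * v ^ m := by rw [← hγ, hγv, mul_pow]
    rw [h1, h2] at hc
    have h3 : s τ l ^ m ≠ 0 := pow_ne_zero m hsl0
    have h4 : v ^ m ≠ 0 := pow_ne_zero m hv0
    rw [hw, mul_pow, div_pow, mul_div_assoc', mul_div_assoc', div_eq_div_iff h4 h3]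
    linear_combination hc
  obtain ⟨w₁, hw₁⟩ := exists_k1 e₁ hs w (by
    apply IsIntegral.of_pow hm
    rw [hwm, div_eq_mul_inv]
    exact (incl_integral _).mul ((hlint.pow m).mul ((integral_conj _ hlint).pow m).inv)) (by
    intro ρ hρ
    rw [hw, map_mul, map_div₀, huH ρ hρ, hsvH ρ hρ, hvH ρ hρ])
  refine ⟨w₁, (algebraMap k (maxUnr k K)).injective ?_⟩
  rw [← norm_k1 e₁ hs hσ hτ hn w₁, hw₁, hw, nm_mul, hN]
  -- the norm of `τ v / v` is one
  have h1 : ∀ i, s (τ ^ i) (s τ v / v) = s (τ ^ (i + 1)) v / s (τ ^ i) v := by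
    intro i
    rw [map_div₀, pow_succ, map_mul s, AlgEquiv.mul_apply]
  have h2 : ∀ i, s (τ ^ i) v ≠ 0 := fun i => by
    rw [Ne, EmbeddingLike.map_eq_zero_iff]
    exact hv0
  have h3 := Finset.prod_range_succ (fun i => s (τ ^ i) v) n
  have h4 := Finset.prod_range_succ' (fun i => s (τ ^ i) v) n
  rw [h3, shift_e e₁ hτ hn v hvH] at h4
  rw [Finset.prod_congr rfl (fun i _ => h1 i), Finset.prod_div_distrib,
    ← mul_right_cancel₀ (h2 0) h4, div_self, mul_one]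
  exact Finset.prod_ne_zero_iff.2 (fun i _ => h2 i)

end P025H16
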