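import Vale.Agent.P025.H641.ZRing
import Mathlib.Topology.Algebra.Module.Cardinality

/-! # The place attached to a class map defined outside a countable set -/

namespace P025H16

open P025H641 Filter Topology

universe u v w

/-- the data of a class map on the units of a ring, satisfying all finite pattern conditions -/
structure PChiData (p : ℕ) [Fact p.Prime] (k : Type u) [NontriviallyNormedField k]
    (F : Type v) [Field F] [Algebra k F] where
  /-- the constant of local constancy -/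
  ε : ℝ
  ε_pos : 0 < ε
  ε_lt : ε < 1
  near : ∀ x δ : k, x ≠ 0 → ‖δ‖ ≤ ‖x‖ * ε → x + δ ≠ 0 ∧ clsm p (x + δ) = clsm p x
  /-- the symbol -/
  H : Cl p k →ₗ[ZMod p] Cl p k →ₗ[ZMod p] ZMod p
  H_ne : ∃ u v, H u v ≠ 0
  H_st : ∀ x : k, x ≠ 0 → x ≠ 1 → H (clsm p x) (clsm p (1 - x)) = 0
  /-- the ring -/
  R : Subring F
  const_mem : ∀ c : k, algebraMap k F c ∈ R
  ctb : ∀ x : F, x ∉ Set.range (algebraMap k F) →
    {c : k | (x - algebraMap k F c)⁻¹ ∉ R}.Countable
  /-- the classes -/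
  χ : F → Cl p k
  mul : ∀ f g, f ∈ R → f⁻¹ ∈ R → g ∈ R → g⁻¹ ∈ R → f ≠ 0 → g ≠ 0 → χ (f * g) = χ f + χ g
  const : ∀ c : k, c ≠ 0 → χ (algebraMap k F c) = clsm p c
  pat : ∀ f ∈ R, f ∉ Set.range (algebraMap k F) → ∀ A₀ : Finset k,
    (∀ a ∈ A₀, (f - algebraMap k F a)⁻¹ ∈ R) →
      ∃ z, ∀ a ∈ A₀, z ≠ a ∧ χ (f - algebraMap k F a) = clsm p (z - a)

namespace PChiData

variable {p : ℕ} [Fact p.Prime] {k : Type u} [NontriviallyNormedField k]
  {F : Type v} [Field F] [Algebra k F] (D : PChiData p k F)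

/-- units of `R` -/
def U (f : F) : Prop := f ∈ D.R ∧ f⁻¹ ∈ D.R ∧ f ≠ 0

/-- `f` takes the value `z` -/
def At (f : F) (z : k) : Prop := {a : k | D.χ (f - algebraMap k F a) ≠ clsm p (z - a)}.Countable

/-- `f` takes the value `∞` -/
def Inf (f : F) : Prop := ∃ γ, {a : k | D.χ (f - algebraMap k F a) ≠ γ}.Countable

lemma U_mul {f g : F} (hf : D.U f) (hg : D.U g) : D.U (f * g) :=
  ⟨D.R.mul_mem hf.1 hg.1, by rw [mul_inv]; exact D.R.mul_mem hf.2.1 hg.2.1,
    mul_ne_zero hf.2.2 hg.2.2⟩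

lemma U_inv {f : F} (hf : D.U f) : D.U f⁻¹ :=
  ⟨hf.2.1, by rw [inv_inv]; exact hf.1, inv_ne_zero hf.2.2⟩

lemma U_div {f g : F} (hf : D.U f) (hg : D.U g) : D.U (f / g) := by
  rw [div_eq_mul_inv]
  exact D.U_mul hf (D.U_inv hg)

lemma U_const {c : k} (hc : c ≠ 0) : D.U (algebraMap k F c) :=
  ⟨D.const_mem c, by rw [← map_inv₀]; exact D.const_mem _, (map_ne_zero _).2 hc⟩

lemma U_neg {f : F} (hf : D.U f) : D.U (-f) :=
  ⟨D.R.neg_mem hf.1, by rw [inv_neg]; exact D.R.neg_mem hf.2.1, neg_ne_zero.2 hf.2.2⟩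

lemma chi_mul {f g : F} (hf : D.U f) (hg : D.U g) : D.χ (f * g) = D.χ f + D.χ g :=
  D.mul f g hf.1 hf.2.1 hg.1 hg.2.1 hf.2.2 hg.2.2

lemma chi_div {f g : F} (hf : D.U f) (hg : D.U g) : D.χ (f / g) = D.χ f - D.χ g := by
  have h := D.chi_mul (D.U_div hf hg) hg
  rw [div_mul_cancel₀ _ hg.2.2] at h
  rw [h, add_sub_cancel_right]

lemma chi_neg {f : F} (hf : D.U f) : D.χ (-f) = clsm p (-1) + D.χ f := by
  have h1 : (-1 : k) ≠ 0 := neg_ne_zero.2 one_ne_zero
  have h := D.chi_mul (D.U_const h1) hf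
  rwa [D.const _ h1, map_neg, map_one, neg_one_mul] at h

lemma ctb_inv (f : F) : {c : k | (f - algebraMap k F c)⁻¹ ∉ D.R}.Countable := by
  by_cases hf : f ∈ Set.range (algebraMap k F)
  · obtain ⟨e, rfl⟩ := hf
    refine Set.countable_empty.mono ?_
    intro c hc
    apply hc
    rw [← map_sub, ← map_inv₀]
    exact D.const_mem _
  · exact D.ctb f hf

lemma ctb_eq (f : F) : {c : k | f = algebraMap k F c}.Countable := by
  refine Set.Subsingleton.countable ?_
  intro a ha b hb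
  have h1 : f = algebraMap k F a := ha
  have h2 : f = algebraMap k F b := hb
  exact (algebraMap k F).injective (h1.symm.trans h2)

lemma ctb_U {f : F} (hf : f ∈ D.R) : {c : k | ¬ D.U (f - algebraMap k F c)}.Countable := by
  refine ((D.ctb_inv f).union (ctb_eq f)).mono ?_
  intro c hc
  by_contra h
  rw [Set.mem_union, not_or] at h
  apply hc
  refine ⟨D.R.sub_mem hf (D.const_mem c), ?_, ?_⟩
  · by_contra h1
    exact h.1 h1
  · intro h1
    exact h.2 (sub_eq_zero.1 h1)

include D in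
lemma exists_ne : ∃ v : Cl p k, v ≠ 0 := by
  obtain ⟨u, v, h⟩ := D.H_ne
  exact ⟨v, by rintro rfl; exact h (map_zero _)⟩

include D in
/-- every class has small representatives outside a given countable set -/
lemma exists_small [CompleteSpace k] (v : Cl p k) {ρ : ℝ} (hρ : 0 < ρ) {S : Set k}
    (hS : S.Countable) : ∃ x : k, x ≠ 0 ∧ ‖x‖ < ρ ∧ clsm p x = v ∧ x ∉ S := by
  obtain ⟨x₀, h0, h1, h2⟩ := clsm_small v ρ hρ
  have hn : 0 < ‖x₀‖ := norm_pos_iff.2 h0
  set r := min (‖x₀‖ * D.ε) (ρ - ‖x₀‖) with hr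
  have hr0 : 0 < r := lt_min (mul_pos hn D.ε_pos) (by linarith)
  obtain ⟨x, hx1, hx2⟩ := (hS.dense_compl k).exists_mem_open Metric.isOpen_ball
    ⟨x₀, Metric.mem_ball_self hr0⟩
  rw [Metric.mem_ball, dist_eq_norm] at hx2
  have h3 := D.near x₀ (x - x₀) h0 (hx2.le.trans (min_le_left _ _))
  have h4 : x₀ + (x - x₀) = x := by ring
  rw [h4] at h3
  refine ⟨x, h3.1, ?_, h3.2.trans h2, hx1⟩
  have h5 : ‖x‖ ≤ ‖x - x₀‖ + ‖x₀‖ := by
    have := norm_add_le (x - x₀) x₀
    rwa [sub_add_cancel] at this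
  have h6 : ‖x - x₀‖ < ρ - ‖x₀‖ := lt_of_lt_of_le hx2 (min_le_right _ _)
  linarith

lemma countable_sub {S : Set k} (hS : S.Countable) (c : k) : {a : k | c - a ∈ S}.Countable :=
  hS.preimage (f := fun a => c - a) sub_right_injective

lemma countable_add {S : Set k} (hS : S.Countable) (c : k) : {a : k | c + a ∈ S}.Countable :=
  hS.preimage (f := fun a => c + a) (add_right_injective c)

lemma countable_mul {S : Set k} (hS : S.Countable) {c : k} (hc : c ≠ 0) :
    {a : k | c * a ∈ S}.Countable :=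
  hS.preimage (f := fun a => c * a) (mul_right_injective₀ hc)

omit [NontriviallyNormedField k] in
lemma nsub {k : Type u} [Field k] {S T : Set k} {c x : k} (h : x ∉ {a : k | c - a ∈ S ∪ T}) :
    c - x ∉ S ∧ c - x ∉ T := not_or.1 h

omit [NontriviallyNormedField k] in
lemma nadd {k : Type u} [Field k] {S T : Set k} {c x : k} (h : x ∉ {a : k | c + a ∈ S ∪ T}) :
    c + x ∉ S ∧ c + x ∉ T := not_or.1 h

omit [NontriviallyNormedField k] in
lemma nmul {k : Type u} [Field k] {S T : Set k} {c x : k} (h : x ∉ {a : k | c * a ∈ S ∪ T}) :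
    c * x ∉ S ∧ c * x ∉ T := not_or.1 h

lemma at_const (c : k) : D.At (algebraMap k F c) c := by
  refine (Set.countable_singleton c).mono ?_
  intro a ha
  by_contra h
  apply ha
  have h1 : c ≠ a := fun h0 => h (by rw [h0]; rfl)
  rw [← map_sub, D.const _ (sub_ne_zero.2 h1)]

lemma at_zero : D.At 0 0 := by
  have h := D.at_const 0
  rwa [map_zero] at h

lemma at_one : D.At 1 1 := by
  have h := D.at_const 1
  rwa [map_one] at h

section cpl

variable [CompleteSpace k]

lemma at_unique {f : F} {z z' : k} (h : D.At f z) (h' : D.At f z') : z = z' := by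
  by_contra hne
  have hd : z' - z ≠ 0 := sub_ne_zero.2 (Ne.symm hne)
  have hdn : 0 < ‖z' - z‖ := norm_pos_iff.2 hd
  have key : ∀ v : Cl p k, v = clsm p (z' - z) := by
    intro v
    obtain ⟨x, hx0, hx, hv, hxS⟩ := D.exists_small v (mul_pos hdn D.ε_pos)
      (countable_sub (Set.Countable.union h h') z)
    obtain ⟨h1, h2⟩ := nsub hxS
    have h1' := not_not.1 h1
    have h2' := not_not.1 h2
    have hn := D.near (z' - z) x hd hx.le
    have e1 : z - (z - x) = x := by ring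
    have e2 : z' - (z - x) = z' - z + x := by ring
    rw [e1] at h1'
    rw [e2] at h2'
    rw [← hv, ← h1', h2', hn.2]
  obtain ⟨v, hv⟩ := D.exists_ne
  exact hv ((key v).trans (key 0).symm)

lemma not_inf_of_at {f : F} {z : k} (h : D.At f z) : ¬ D.Inf f := by
  rintro ⟨γ, hγ⟩
  have key : ∀ v : Cl p k, v = γ := by
    intro v
    obtain ⟨x, hx0, -, hv, hxS⟩ := D.exists_small v one_pos
      (countable_sub (Set.Countable.union h hγ) z)
    obtain ⟨h1, h2⟩ := nsub hxS
    have h1' := not_not.1 h1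
    have h2' := not_not.1 h2
    have e1 : z - (z - x) = x := by ring
    rw [e1] at h1'
    rw [← hv, ← h1', h2']
  obtain ⟨v, hv⟩ := D.exists_ne
  exact hv ((key v).trans (key 0).symm)

end cpl

lemma at_or_inf [ProperSpace k] {f : F} (hfR : f ∈ D.R) : (∃ z, D.At f z) ∨ D.Inf f := by
  classical
  by_cases hf : f ∈ Set.range (algebraMap k F)
  · obtain ⟨c, rfl⟩ := hf
    exact Or.inl ⟨c, D.at_const c⟩
  set T : Set k := {c : k | (f - algebraMap k F c)⁻¹ ∉ D.R} with hT
  have hTc : T.Countable := D.ctb_inv f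
  have h : ∀ S : Finset k, ∃ z, ∀ a ∈ S, a ∉ T → z ≠ a ∧
      D.χ (f - algebraMap k F a) = clsm p (z - a) := by
    intro S
    obtain ⟨z, hz⟩ := D.pat f hfR hf (S.filter fun a => a ∉ T) (by
      intro a ha
      have h1 := (Finset.mem_filter.1 ha).2
      exact not_not.1 h1)
    exact ⟨z, fun a ha haT => hz a (Finset.mem_filter.2 ⟨ha, haT⟩)⟩
  choose z hz using h
  set W : Ultrafilter (Finset k) := Ultrafilter.of Filter.atTop with hW
  have hWle : (W : Filter (Finset k)) ≤ Filter.atTop := Ultrafilter.of_le _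
  have hmem : ∀ a : k, ∀ᶠ S in (W : Filter (Finset k)), a ∈ S := by
    intro a
    have h1 : ∀ᶠ S : Finset k in Filter.atTop, {a} ≤ S := Filter.eventually_ge_atTop _
    exact (h1.filter_mono hWle).mono (fun S hS => hS (Finset.mem_singleton_self a))
  by_cases hbd : ∃ R : ℝ, ∀ᶠ S in (W : Filter (Finset k)), ‖z S‖ ≤ R
  · left
    obtain ⟨R, hR⟩ := hbd
    have hcomp := isCompact_closedBall (0 : k) R
    obtain ⟨z0, -, hz0⟩ := hcomp.ultrafilter_le_nhds (W.map z) (by
      rw [Filter.le_principal_iff]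
      exact hR.mono (fun S hS => by simpa using hS))
    refine ⟨z0, (hTc.union (Set.countable_singleton z0)).mono ?_⟩
    intro a ha
    by_contra hc
    rw [Set.mem_union, not_or] at hc
    apply ha
    have hd : z0 - a ≠ 0 := sub_ne_zero.2 (fun h0 => hc.2 (by rw [h0]; rfl))
    have hdn : 0 < ‖z0 - a‖ := norm_pos_iff.2 hd
    have h1 : ∀ᶠ y in 𝓝 z0, ‖y - z0‖ < ‖z0 - a‖ * D.ε := by
      have := Metric.ball_mem_nhds z0 (mul_pos hdn D.ε_pos)
      filter_upwards [this] with y hy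
      rwa [Metric.mem_ball, dist_eq_norm] at hy
    have h2 : ∀ᶠ S in (W : Filter (Finset k)), ‖z S - z0‖ < ‖z0 - a‖ * D.ε := hz0 h1
    obtain ⟨S, hS1, hS2⟩ := (h2.and (hmem a)).exists
    have h3 := (hz S a hS2 hc.1).2
    have h4 := (D.near (z0 - a) (z S - z0) hd hS1.le).2
    have e1 : z0 - a + (z S - z0) = z S - a := by ring
    rw [h3, ← h4, e1]
  · right
    push Not at hbd
    have key0 : ∀ a b : k, a ∉ T → b ∉ T →
        D.χ (f - algebraMap k F a) = D.χ (f - algebraMap k F b) := by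
      intro a b haT hbT
      have h1 := hbd (max ‖a‖ ‖b‖ / D.ε)
      obtain ⟨S, hS1, hS2, hS3⟩ := (h1.and ((hmem a).and (hmem b))).exists
      have key : ∀ c : k, c ∈ S → c ∉ T → ‖c‖ ≤ max ‖a‖ ‖b‖ →
          D.χ (f - algebraMap k F c) = clsm p (z S) := by
        intro c hc hcT hcn
        rw [(hz S c hc hcT).2]
        have h2 : ‖-c‖ ≤ ‖z S‖ * D.ε := by
          rw [norm_neg]
          rw [div_lt_iff₀ D.ε_pos] at hS1
          exact hcn.trans hS1.le
        have h3 : z S ≠ 0 := by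
          intro h0
          rw [h0, norm_zero] at hS1
          exact absurd hS1 (not_lt.2 (div_nonneg (le_max_of_le_left (norm_nonneg _)) D.ε_pos.le))
        have h4 := (D.near (z S) (-c) h3 h2).2
        rw [← h4, sub_eq_add_neg]
      rw [key a hS2 haT (le_max_left _ _), key b hS3 hbT (le_max_right _ _)]
    obtain ⟨b, -, -, -, hb⟩ := D.exists_small 0 one_pos hTc
    refine ⟨D.χ (f - algebraMap k F b), hTc.mono ?_⟩
    intro a ha
    by_contra haT
    exact ha (key0 a b haT hb)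

/-- the Steinberg relation -/
lemma steinberg {q : F} (h0 : D.U q) (h1 : D.U (1 - q)) : D.H (D.χ q) (D.χ (1 - q)) = 0 := by
  classical
  by_cases hq : q ∈ Set.range (algebraMap k F)
  · obtain ⟨c, rfl⟩ := hq
    have hc0 : c ≠ 0 := by rintro rfl; exact h0.2.2 (map_zero _)
    have e1 : 1 - algebraMap k F c = algebraMap k F (1 - c) := by rw [map_sub, map_one]
    have hc1 : c ≠ 1 := by
      rintro rfl
      apply h1.2.2
      rw [map_one, sub_self]
    rw [e1, D.const c hc0, D.const _ (sub_ne_zero.2 hc1.symm)]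
    exact D.H_st c hc0 hc1
  · have h1' : D.U (q - 1) := by
      have := D.U_neg h1
      rwa [neg_sub] at this
    obtain ⟨z, hz⟩ := D.pat q h0.1 hq {0, 1} (by
      intro a ha
      rw [Finset.mem_insert, Finset.mem_singleton] at ha
      rcases ha with rfl | rfl
      · rw [map_zero, sub_zero]
        exact h0.2.1
      · rw [map_one]
        exact h1'.2.1)
    obtain ⟨hz0, h2⟩ := hz 0 (by simp)
    obtain ⟨hz1, h3⟩ := hz 1 (by simp)
    rw [map_zero, sub_zero, sub_zero] at h2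
    rw [map_one] at h3
    have e1 : 1 - q = -(q - 1) := by ring
    rw [e1, D.chi_neg h1', h2, h3, ← clsm_neg _ (sub_ne_zero.2 hz1), neg_sub]
    exact D.H_st z hz0 hz1

lemma at_add_const {f : F} {z : k} (h : D.At f z) (c : k) :
    D.At (f + algebraMap k F c) (z + c) := by
  refine (countable_add h (-c)).mono ?_
  intro a ha
  by_contra hc
  apply ha
  have h1 : D.χ (f - algebraMap k F (-c + a)) = clsm p (z - (-c + a)) := not_not.1 hc
  have e1 : f + algebraMap k F c - algebraMap k F a = f - algebraMap k F (-c + a) := by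
    rw [map_add, map_neg]; ring
  have e2 : z + c - a = z - (-c + a) := by ring
  rw [e1, e2, h1]

lemma at_sub_const {f : F} {z : k} (h : D.At f z) (c : k) :
    D.At (f - algebraMap k F c) (z - c) := by
  have h1 := D.at_add_const h (-c)
  rwa [map_neg, ← sub_eq_add_neg, ← sub_eq_add_neg] at h1

lemma at_mul_const {f : F} (hf : f ∈ D.R) {z : k} (h : D.At f z) (c : k) :
    D.At (algebraMap k F c * f) (c * z) := by
  by_cases hc : c = 0
  · rw [hc, map_zero, zero_mul, zero_mul]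
    exact D.at_zero
  have hci := inv_ne_zero hc
  refine ((countable_mul (h.union (D.ctb_U hf)) hci).union
    (Set.countable_singleton (c * z))).mono ?_
  intro a ha
  by_contra hcon
  rw [Set.mem_union, not_or] at hcon
  have h0 := nmul hcon.1
  apply ha
  have h1 : D.χ (f - algebraMap k F (c⁻¹ * a)) = clsm p (z - (c⁻¹ * a)) := not_not.1 h0.1
  have h2 : D.U (f - algebraMap k F (c⁻¹ * a)) := not_not.1 h0.2
  have h3 : z - c⁻¹ * a ≠ 0 := by
    intro h4
    apply hcon.2
    rw [sub_eq_zero] at h4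
    rw [h4, mul_inv_cancel_left₀ hc]
    rfl
  have hcE : algebraMap k F c ≠ 0 := (map_ne_zero _).2 hc
  have e1 : algebraMap k F c * f - algebraMap k F a =
      algebraMap k F c * (f - algebraMap k F (c⁻¹ * a)) := by
    rw [mul_sub, ← map_mul, mul_inv_cancel_left₀ hc]
  have e2 : c * z - a = c * (z - c⁻¹ * a) := by
    rw [mul_sub, mul_inv_cancel_left₀ hc]
  rw [e1, D.chi_mul (D.U_const hc) h2, D.const c hc, h1, e2, clsm_mul _ _ hc h3]

lemma at_neg {f : F} (hf : f ∈ D.R) {z : k} (h : D.At f z) : D.At (-f) (-z) := by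
  have h1 := D.at_mul_const hf h (-1)
  rwa [map_neg, map_one, neg_one_mul, neg_one_mul] at h1

lemma small_or {h : F} (hor : (∃ z, D.At h z) ∨ D.Inf h) :
    D.At h 0 ∨ ∃ (γ : Cl p k) (ρ : ℝ) (S : Set k), 0 < ρ ∧ S.Countable ∧ ∀ c : k, ‖c‖ < ρ →
      c ∉ S → D.χ (h - algebraMap k F c) = γ := by
  rcases hor with ⟨w, hw⟩ | ⟨γ, hγ⟩
  · by_cases hw0 : w = 0
    · left; rwa [hw0] at hw
    right
    have hwn : 0 < ‖w‖ := norm_pos_iff.2 hw0
    refine ⟨clsm p w, ‖w‖ * D.ε, _, mul_pos hwn D.ε_pos, hw, fun c hc hcS => ?_⟩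
    have h1 : ‖-c‖ ≤ ‖w‖ * D.ε := by rw [norm_neg]; exact hc.le
    obtain ⟨h2, h3⟩ := D.near w (-c) hw0 h1
    rw [not_not.1 hcS, ← h3, sub_eq_add_neg]
  · right
    exact ⟨γ, 1, _, one_pos, hγ, fun c _ hcS => not_not.1 hcS⟩

section cpl

variable [CompleteSpace k]

/-- additivity, the main case -/
lemma add_main {f g : F} (hf : f ∈ D.R) (hg : g ∈ D.R)
    (hor : (∃ z, D.At (f + g) z) ∨ D.Inf (f + g)) (h1 : D.At f 0) (h2 : D.At g 0) :
    D.At (f + g) 0 := by
  rcases D.small_or hor with h | ⟨γ, ρ, S, hρ, hS, hγ⟩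
  · exact h
  exfalso
  obtain ⟨u, v, huv⟩ := D.H_ne
  apply huv
  have hfg := D.R.add_mem hf hg
  obtain ⟨a, ha0, ha, hau, haS⟩ := D.exists_small (u + γ - clsm p (-1)) (half_pos hρ)
    (Set.Countable.union h1 (D.ctb_U hf))
  obtain ⟨b, hb0, hb, hbv, hbS⟩ := D.exists_small (v + γ - clsm p (-1)) (half_pos hρ)
    ((Set.Countable.union h2 (D.ctb_U hg)).union (countable_add (hS.union (D.ctb_U hfg)) a))
  rw [Set.mem_union, not_or] at haS hbS
  obtain ⟨hbS1, hbS2⟩ := hbS
  rw [Set.mem_union, not_or] at hbS1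
  have hbS2' := nadd hbS2
  have hfa : D.U (f - algebraMap k F a) := not_not.1 haS.2
  have hgb : D.U (g - algebraMap k F b) := not_not.1 hbS1.2
  have hhab : D.U (f + g - algebraMap k F (a + b)) := not_not.1 hbS2'.2
  have k1 : D.χ (f - algebraMap k F a) = clsm p (0 - a) := not_not.1 haS.1
  have k2 : D.χ (g - algebraMap k F b) = clsm p (0 - b) := not_not.1 hbS1.1
  have e0 : f - algebraMap k F a + (g - algebraMap k F b) = f + g - algebraMap k F (a + b) := by
    rw [map_add]; ring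
  have e1 : 1 - (f - algebraMap k F a) / (f + g - algebraMap k F (a + b)) =
      (g - algebraMap k F b) / (f + g - algebraMap k F (a + b)) := by
    rw [eq_div_iff hhab.2.2, sub_mul, div_mul_cancel₀ _ hhab.2.2, ← e0]; ring
  have hq := D.steinberg (q := (f - algebraMap k F a) / (f + g - algebraMap k F (a + b)))
    (D.U_div hfa hhab) (by rw [e1]; exact D.U_div hgb hhab)
  have hab : ‖a + b‖ < ρ := lt_of_le_of_lt (norm_add_le _ _) (by linarith)
  rw [e1, D.chi_div hfa hhab, D.chi_div hgb hhab, hγ _ hab hbS2'.1, k1, k2,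
    zero_sub, zero_sub, clsm_neg _ ha0, clsm_neg _ hb0, hau, hbv] at hq
  have e2 : clsm p (-1) + (u + γ - clsm p (-1)) - γ = u := by abel
  have e3 : clsm p (-1) + (v + γ - clsm p (-1)) - γ = v := by abel
  rwa [e2, e3] at hq

/-- multiplicativity, the main case -/
lemma mul_main {f g : F} {e : k} (hf : f ∈ D.R) (hg : D.U g)
    (hor : (∃ z, D.At (f * g) z) ∨ D.Inf (f * g)) (h1 : D.At f 0) (h2 : D.At g e) :
    D.At (f * g) 0 := by
  rcases D.small_or hor with h | ⟨γ, ρ, S, hρ, hS, hγ⟩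
  · exact h
  exfalso
  obtain ⟨u, v, huv⟩ := D.H_ne
  apply huv
  have hfg := D.R.mul_mem hf hg.1
  -- `b = e - β`
  obtain ⟨β, hβ0, -, hβu, hβS⟩ := D.exists_small (D.χ g - u) one_pos
    ((countable_sub (Set.Countable.union h2 (D.ctb_U hg.1)) e).union (Set.countable_singleton e))
  rw [Set.mem_union, not_or] at hβS
  obtain ⟨hβS1, hβe⟩ := hβS
  have hβS1' := nsub hβS1
  set b := e - β with hb
  have hb0 : b ≠ 0 := by
    intro h0
    apply hβe
    rw [Set.mem_singleton_iff]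
    rw [hb, sub_eq_zero] at h0
    exact h0.symm
  have hbn : 0 < ‖b‖ := norm_pos_iff.2 hb0
  obtain ⟨a, ha0, ha, hav, haS⟩ := D.exists_small (γ - clsm p β - v) (div_pos hρ hbn)
    ((Set.Countable.union h1 (D.ctb_U hf)).union (countable_mul (hS.union (D.ctb_U hfg)) hb0))
  rw [Set.mem_union, not_or] at haS
  obtain ⟨haS1, haS2⟩ := haS
  rw [Set.mem_union, not_or] at haS1
  have haS2' := nmul haS2
  have hfa : D.U (f - algebraMap k F a) := not_not.1 haS1.2
  have hgb : D.U (g - algebraMap k F b) := not_not.1 hβS1'.2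
  have hhab : D.U (f * g - algebraMap k F (b * a)) := not_not.1 haS2'.2
  have k1 : D.χ (f - algebraMap k F a) = clsm p (0 - a) := not_not.1 haS1.1
  have k2 : D.χ (g - algebraMap k F b) = clsm p (e - b) := not_not.1 hβS1'.1
  have haE := D.U_const ha0
  have hden : D.U (algebraMap k F a * (g - algebraMap k F b)) := D.U_mul haE hgb
  have hnum : D.U (-(f - algebraMap k F a) * g) := D.U_mul (D.U_neg hfa) hg
  have e1 : 1 - -(f - algebraMap k F a) * g / (algebraMap k F a * (g - algebraMap k F b)) =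
      (f * g - algebraMap k F (b * a)) / (algebraMap k F a * (g - algebraMap k F b)) := by
    rw [eq_div_iff hden.2.2, sub_mul, div_mul_cancel₀ _ hden.2.2, one_mul, map_mul]
    ring
  have hq := D.steinberg
    (q := -(f - algebraMap k F a) * g / (algebraMap k F a * (g - algebraMap k F b)))
    (D.U_div hnum hden) (by rw [e1]; exact D.U_div hhab hden)
  have hab : ‖b * a‖ < ρ := by
    rw [norm_mul, mul_comm, ← lt_div_iff₀ hbn]
    exact ha
  have eb : e - b = β := by rw [hb]; ring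
  rw [e1, D.chi_div hnum hden, D.chi_div hhab hden, hγ _ hab haS2'.1,
    D.chi_mul (D.U_neg hfa) hg, D.chi_neg hfa, D.chi_mul haE hgb, D.const a ha0,
    k1, k2, eb, zero_sub, clsm_neg a ha0, hav, hβu] at hq
  have hn := clsm_neg_one_add (p := p) (k := k)
  have e2 : clsm p (-1) + (clsm p (-1) + (γ - (D.χ g - u) - v)) + D.χ g -
      (γ - (D.χ g - u) - v + (D.χ g - u)) = u := by
    rw [← add_assoc (clsm p (-1)) (clsm p (-1)), hn]
    abel
  have e3 : γ - (γ - (D.χ g - u) - v + (D.χ g - u)) = v := by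
    abel
  rwa [e2, e3] at hq

end cpl

section proper

variable [ProperSpace k]

lemma at_add_zero {f g : F} (hf : f ∈ D.R) (hg : g ∈ D.R) (h1 : D.At f 0) (h2 : D.At g 0) :
    D.At (f + g) 0 :=
  D.add_main hf hg (D.at_or_inf (D.R.add_mem hf hg)) h1 h2

lemma at_add {f g : F} (hf : f ∈ D.R) (hg : g ∈ D.R) {z w : k} (h1 : D.At f z)
    (h2 : D.At g w) : D.At (f + g) (z + w) := by
  have h3 := D.at_sub_const h1 z
  have h4 := D.at_sub_const h2 w
  rw [sub_self] at h3 h4
  have h5 := D.at_add_const (D.at_add_zero (D.R.sub_mem hf (D.const_mem z))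
    (D.R.sub_mem hg (D.const_mem w)) h3 h4) (z + w)
  rw [zero_add] at h5
  have e1 : f - algebraMap k F z + (g - algebraMap k F w) + algebraMap k F (z + w) = f + g := by
    rw [map_add]; ring
  rwa [e1] at h5

lemma at_mul_zero {f g : F} (hf : f ∈ D.R) (hg : g ∈ D.R) {w : k} (h1 : D.At f 0)
    (h2 : D.At g w) : D.At (f * g) 0 := by
  -- choose `c` such that `g - c` is a unit
  obtain ⟨c, -, -, -, hc⟩ := D.exists_small 0 one_pos (D.ctb_U hg)
  have hgc : D.U (g - algebraMap k F c) := not_not.1 hc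
  have h3 := D.at_sub_const h2 c
  have h4 := D.mul_main hf hgc (D.at_or_inf (D.R.mul_mem hf hgc.1)) h1 h3
  have h5 := D.at_mul_const hf h1 c
  rw [mul_zero] at h5
  have h6 := D.at_add_zero (D.R.mul_mem hf hgc.1) (D.R.mul_mem (D.const_mem c) hf) h4 h5
  have e1 : f * (g - algebraMap k F c) + algebraMap k F c * f = f * g := by ring
  rwa [e1] at h6

lemma at_mul {f g : F} (hf : f ∈ D.R) (hg : g ∈ D.R) {z w : k} (h1 : D.At f z)
    (h2 : D.At g w) : D.At (f * g) (z * w) := by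
  have h3 := D.at_sub_const h1 z
  rw [sub_self] at h3
  have hfz := D.R.sub_mem hf (D.const_mem z)
  have h5 := D.at_mul_zero hfz hg h3 h2
  have h6 := D.at_mul_const hg h2 z
  have h8 := D.at_add (D.R.mul_mem hfz hg) (D.R.mul_mem (D.const_mem z) hg) h5 h6
  have e1 : (f - algebraMap k F z) * g + algebraMap k F z * g = f * g := by ring
  rwa [e1, zero_add] at h8

omit [ProperSpace k] in
/-- the inverse of an infinite function -/
lemma exists_inv_of_inf [CompleteSpace k] {f : F} (hf : f ∈ D.R) (h : D.Inf f) :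
    ∃ e : k, D.U (f - algebraMap k F e) ∧ D.At (f - algebraMap k F e)⁻¹ 0 := by
  obtain ⟨γ, hγ⟩ := h
  obtain ⟨e, -, -, -, he⟩ := D.exists_small 0 one_pos (Set.Countable.union hγ (D.ctb_U hf))
  rw [Set.mem_union, not_or] at he
  have hfe : D.U (f - algebraMap k F e) := not_not.1 he.2
  have hγe : D.χ (f - algebraMap k F e) = γ := not_not.1 he.1
  refine ⟨e, hfe, ?_⟩
  have h1 := countable_add (Set.Countable.union hγ (D.ctb_U hf)) e
  have h2 : {a : k | a ≠ 0 ∧ e + a⁻¹ ∈ ({a : k | D.χ (f - algebraMap k F a) ≠ γ} ∪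
      {c : k | ¬ D.U (f - algebraMap k F c)})}.Countable :=
    (h1.preimage (f := fun a => a⁻¹) inv_injective).mono (fun a ha => ha.2)
  refine (h2.union (Set.countable_singleton 0)).mono ?_
  intro a ha
  by_contra hcon
  rw [Set.mem_union, not_or] at hcon
  apply ha
  have ha0 : a ≠ 0 := fun h0 => hcon.2 (by rw [h0]; rfl)
  have h3 : e + a⁻¹ ∉ {a : k | D.χ (f - algebraMap k F a) ≠ γ} ∧
      e + a⁻¹ ∉ {c : k | ¬ D.U (f - algebraMap k F c)} :=
    not_or.1 fun h4 => hcon.1 ⟨ha0, h4⟩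
  have k1 : D.χ (f - algebraMap k F (e + a⁻¹)) = γ := not_not.1 h3.1
  have k2 : D.U (f - algebraMap k F (e + a⁻¹)) := not_not.1 h3.2
  have haE : algebraMap k F a ≠ 0 := (map_ne_zero _).2 ha0
  have hna : -a ≠ 0 := neg_ne_zero.2 ha0
  have e1 : (f - algebraMap k F e)⁻¹ - algebraMap k F a =
      algebraMap k F (-a) * (f - algebraMap k F (e + a⁻¹)) / (f - algebraMap k F e) := by
    rw [eq_div_iff hfe.2.2, sub_mul, inv_mul_cancel₀ hfe.2.2, map_neg, map_add, map_inv₀]
    field_simp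
    ring
  rw [e1, D.chi_div (D.U_mul (D.U_const hna) k2) hfe, D.chi_mul (D.U_const hna) k2, k1, hγe,
    D.const _ hna, add_sub_cancel_right, zero_sub]

/-- the value of an element of `F` -/
def AtF (x : F) (z : k) : Prop := ∃ a ∈ D.R, ∃ b ∈ D.R, ∃ w : k, w ≠ 0 ∧ D.At b w ∧
  D.At a (z * w) ∧ x * b = a

omit [ProperSpace k] in
lemma ne_zero_of_at [CompleteSpace k] {b : F} {w : k} (hw : w ≠ 0) (h : D.At b w) : b ≠ 0 := by
  rintro rfl
  exact hw (D.at_unique h D.at_zero)

omit [ProperSpace k] in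
lemma atF_of_at {f : F} (hf : f ∈ D.R) {z : k} (h : D.At f z) : D.AtF f z :=
  ⟨f, hf, 1, D.R.one_mem, 1, one_ne_zero, D.at_one, by rwa [mul_one], mul_one f⟩

lemma atF_unique {x : F} {z z' : k} (h : D.AtF x z) (h' : D.AtF x z') : z = z' := by
  obtain ⟨a, ha, b, hb, w, hw, h1, h2, h3⟩ := h
  obtain ⟨a', ha', b', hb', w', hw', h1', h2', h3'⟩ := h'
  have h4 := D.at_mul ha hb' h2 h1'
  have h5 := D.at_mul ha' hb h2' h1
  have e1 : a * b' = a' * b := by rw [← h3, ← h3']; ring
  rw [e1] at h4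
  have h6 := D.at_unique h4 h5
  have h7 : (z - z') * (w * w') = 0 := by linear_combination h6
  exact sub_eq_zero.1 ((mul_eq_zero.1 h7).resolve_right (mul_ne_zero hw hw'))

lemma atF_add {x y : F} {z z' : k} (h : D.AtF x z) (h' : D.AtF y z') :
    D.AtF (x + y) (z + z') := by
  obtain ⟨a, ha, b, hb, w, hw, h1, h2, h3⟩ := h
  obtain ⟨a', ha', b', hb', w', hw', h1', h2', h3'⟩ := h'
  refine ⟨a * b' + a' * b, D.R.add_mem (D.R.mul_mem ha hb') (D.R.mul_mem ha' hb), b * b',
    D.R.mul_mem hb hb', w * w', mul_ne_zero hw hw', D.at_mul hb hb' h1 h1', ?_, ?_⟩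
  · have h4 := D.at_add (D.R.mul_mem ha hb') (D.R.mul_mem ha' hb) (D.at_mul ha hb' h2 h1')
      (D.at_mul ha' hb h2' h1)
    have e1 : z * w * w' + z' * w' * w = (z + z') * (w * w') := by ring
    rwa [e1] at h4
  · rw [← h3, ← h3']; ring

lemma atF_mul {x y : F} {z z' : k} (h : D.AtF x z) (h' : D.AtF y z') :
    D.AtF (x * y) (z * z') := by
  obtain ⟨a, ha, b, hb, w, hw, h1, h2, h3⟩ := h
  obtain ⟨a', ha', b', hb', w', hw', h1', h2', h3'⟩ := h'
  refine ⟨a * a', D.R.mul_mem ha ha', b * b',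
    D.R.mul_mem hb hb', w * w', mul_ne_zero hw hw', D.at_mul hb hb' h1 h1', ?_, ?_⟩
  · have h4 := D.at_mul ha ha' h2 h2'
    have e1 : z * w * (z' * w') = z * z' * (w * w') := by ring
    rwa [e1] at h4
  · rw [← h3, ← h3']; ring

omit [ProperSpace k] in
lemma atF_const (c : k) : D.AtF (algebraMap k F c) c := D.atF_of_at (D.const_mem c) (D.at_const c)

lemma atF_neg {x : F} {z : k} (h : D.AtF x z) : D.AtF (-x) (-z) := by
  have h1 := D.atF_mul (D.atF_const (-1)) h
  rwa [map_neg, map_one, neg_one_mul, neg_one_mul] at h1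

/-- the inverse -/
lemma atF_inv {x : F} {z : k} (h : D.AtF x z) (hz : z ≠ 0) : D.AtF x⁻¹ z⁻¹ := by
  obtain ⟨a, ha, b, hb, w, hw, h1, h2, h3⟩ := h
  have hb0 := D.ne_zero_of_at hw h1
  have ha0 := D.ne_zero_of_at (mul_ne_zero hz hw) h2
  have hx0 : x ≠ 0 := by
    rintro rfl
    rw [zero_mul] at h3
    exact ha0 h3.symm
  refine ⟨b, hb, a, ha, z * w, mul_ne_zero hz hw, h2, ?_, ?_⟩
  · rwa [inv_mul_cancel_left₀ hz]
  · rw [← h3, inv_mul_cancel_left₀ hx0]

/-- either `f` or its inverse is finite -/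
lemma atF_or_of_mem {f : F} (hf : f ∈ D.R) : (∃ z, D.AtF f z) ∨ D.AtF f⁻¹ 0 := by
  rcases D.at_or_inf hf with ⟨z, hz⟩ | h
  · exact Or.inl ⟨z, D.atF_of_at hf hz⟩
  right
  obtain ⟨e, he, hy⟩ := D.exists_inv_of_inf hf h
  have hy' := D.atF_of_at he.2.1 hy
  -- `1/f = y/(1 + e y)`
  have h1 := D.atF_add (D.atF_const 1) (D.atF_mul (D.atF_const e) hy')
  rw [mul_zero, add_zero, map_one] at h1
  have h2 := D.atF_mul hy' (D.atF_inv h1 one_ne_zero)
  rw [zero_mul] at h2
  have hfe := he.2.2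
  have e1 : (1 : F) + algebraMap k F e * (f - algebraMap k F e)⁻¹ =
      f * (f - algebraMap k F e)⁻¹ := by
    rw [eq_mul_inv_iff_mul_eq₀ hfe, add_mul, mul_assoc, inv_mul_cancel₀ hfe]
    ring
  have e2 : (f - algebraMap k F e)⁻¹ * (1 + algebraMap k F e * (f - algebraMap k F e)⁻¹)⁻¹ =
      f⁻¹ := by
    rw [e1, mul_inv, inv_inv, mul_comm f⁻¹, inv_mul_cancel_left₀ hfe]
  rwa [e2] at h2

lemma atF_or (x : F) : (∃ z, D.AtF x z) ∨ D.AtF x⁻¹ 0 := by
  obtain ⟨c, -, -, -, hc⟩ := D.exists_small 0 one_pos ((D.ctb_inv x).union (ctb_eq x))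
  rw [Set.mem_union, not_or] at hc
  have hy : (x - algebraMap k F c)⁻¹ ∈ D.R := not_not.1 hc.1
  have hxc : x - algebraMap k F c ≠ 0 := sub_ne_zero.2 hc.2
  rcases D.atF_or_of_mem hy with ⟨z, hz⟩ | h
  · by_cases hz0 : z = 0
    · right
      rw [hz0] at hz
      have h1 := D.atF_add (D.atF_const 1) (D.atF_mul (D.atF_const c) hz)
      rw [mul_zero, add_zero, map_one] at h1
      have h2 := D.atF_mul hz (D.atF_inv h1 one_ne_zero)
      rw [zero_mul] at h2
      have e1 : (1 : F) + algebraMap k F c * (x - algebraMap k F c)⁻¹ =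
          x * (x - algebraMap k F c)⁻¹ := by
        rw [eq_mul_inv_iff_mul_eq₀ hxc, add_mul, mul_assoc, inv_mul_cancel₀ hxc]
        ring
      have e2 : (x - algebraMap k F c)⁻¹ * (1 + algebraMap k F c * (x - algebraMap k F c)⁻¹)⁻¹ =
          x⁻¹ := by
        rw [e1, mul_inv, inv_inv, mul_comm x⁻¹, inv_mul_cancel_left₀ hxc]
      rwa [e2] at h2
    · left
      have h1 := D.atF_add (D.atF_inv hz hz0) (D.atF_const c)
      rw [inv_inv, sub_add_cancel] at h1
      exact ⟨_, h1⟩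
  · left
    rw [inv_inv] at h
    have h1 := D.atF_add h (D.atF_const c)
    rw [sub_add_cancel] at h1
    exact ⟨_, h1⟩

/-- the valuation ring -/
def vring : ValuationSubring F where
  carrier := {f | ∃ z, D.AtF f z}
  mul_mem' := fun ⟨z, hz⟩ ⟨w, hw⟩ => ⟨z * w, D.atF_mul hz hw⟩
  one_mem' := ⟨1, by have h := D.atF_const 1; rwa [map_one] at h⟩
  add_mem' := fun ⟨z, hz⟩ ⟨w, hw⟩ => ⟨z + w, D.atF_add hz hw⟩
  zero_mem' := ⟨0, by have h := D.atF_const 0; rwa [map_zero] at h⟩
  neg_mem' := fun ⟨z, hz⟩ => ⟨-z, D.atF_neg hz⟩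
  mem_or_inv_mem' := fun f => by
    rcases D.atF_or f with h | h
    · exact Or.inl h
    · exact Or.inr ⟨0, h⟩

lemma mem_vring (f : F) : f ∈ D.vring ↔ ∃ z, D.AtF f z := Iff.rfl

lemma const_mem_vring (c : k) : algebraMap k F c ∈ D.vring := ⟨c, D.atF_const c⟩

lemma val_lt_of_atF {f : F} {z : k} (h : D.AtF f z) :
    D.vring.valuation (f - algebraMap k F z) < 1 := by
  have h1 := D.atF_add h (D.atF_const (-z))
  rw [map_neg, ← sub_eq_add_neg, add_neg_cancel] at h1
  by_cases h0 : f - algebraMap k F z = 0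
  · rw [h0, map_zero]
    exact zero_lt_one
  by_contra hcon
  push Not at hcon
  have h2 : (f - algebraMap k F z)⁻¹ ∈ D.vring := by
    rw [← ValuationSubring.valuation_le_one_iff, map_inv₀]
    exact inv_le_one_of_one_le₀ hcon
  obtain ⟨w, hw⟩ := (D.mem_vring _).1 h2
  have h3 := D.atF_mul h1 hw
  rw [mul_inv_cancel₀ h0, zero_mul] at h3
  have h4 := D.atF_const 1
  rw [map_one] at h4
  exact zero_ne_one (D.atF_unique h3 h4)

lemma atF_iff (f : F) (z : k) :
    D.AtF f z ↔ D.vring.valuation (f - algebraMap k F z) < 1 := by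
  refine ⟨D.val_lt_of_atF, fun h => ?_⟩
  have h5 : f ∈ D.vring := by
    have h6 := D.vring.add_mem _ _ ((D.vring.valuation_le_one_iff _).1 h.le) (D.const_mem_vring z)
    rwa [sub_add_cancel] at h6
  obtain ⟨w, hw⟩ := (D.mem_vring _).1 h5
  have h1 := D.val_lt_of_atF hw
  by_cases hwz : w = z
  · rwa [← hwz]
  exfalso
  have h2 : D.vring.valuation (algebraMap k F (w - z)) < 1 := by
    have e1 : algebraMap k F (w - z) = (f - algebraMap k F z) - (f - algebraMap k F w) := by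
      rw [map_sub]; ring
    rw [e1]
    exact (Valuation.map_sub _ _ _).trans_lt (max_lt h h1)
  have h3 := D.const_mem_vring (w - z)⁻¹
  rw [← ValuationSubring.valuation_le_one_iff] at h3
  have h4 : D.vring.valuation (algebraMap k F (w - z)) *
      D.vring.valuation (algebraMap k F (w - z)⁻¹) = 1 := by
    rw [← map_mul, ← map_mul, mul_inv_cancel₀ (sub_ne_zero.2 hwz), map_one, map_one]
  exact absurd h4 (mul_lt_one_of_lt_of_le h2 h3).ne

/-- on `R` both notions agree -/
lemma atF_iff_at {f : F} (hf : f ∈ D.R) (z : k) : D.AtF f z ↔ D.At f z := by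
  refine ⟨fun h => ?_, D.atF_of_at hf⟩
  rcases D.at_or_inf hf with ⟨w, hw⟩ | hinf
  · rwa [D.atF_unique h (D.atF_of_at hf hw)]
  · exfalso
    obtain ⟨e, he, hy⟩ := D.exists_inv_of_inf hf hinf
    have h1 := D.atF_add h (D.atF_const (-e))
    rw [map_neg, ← sub_eq_add_neg] at h1
    have h2 := D.atF_mul h1 (D.atF_of_at he.2.1 hy)
    rw [mul_inv_cancel₀ he.2.2, mul_zero] at h2
    have h4 := D.atF_const 1
    rw [map_one] at h4
    exact zero_ne_one (D.atF_unique h2 h4)

/-- the place determines the classes, up to countable sets -/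
lemma val_lt_iff {f : F} (hf : f ∈ D.R) (z : k) :
    D.vring.valuation (f - algebraMap k F z) < 1 ↔
      {a : k | D.χ (f - algebraMap k F a) ≠ clsm p (z - a)}.Countable := by
  rw [← D.atF_iff, D.atF_iff_at hf]
  exact Iff.rfl

/-- the residue field is `k` -/
lemma exists_near {x : F} (hx : x ∈ D.vring) :
    ∃ c : k, D.vring.valuation (x - algebraMap k F c) < 1 := by
  obtain ⟨z, hz⟩ := hx
  exact ⟨z, D.val_lt_of_atF hz⟩

end proper

end PChiData

end P025H16
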