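import Vale.Agent.P025.H16.PChi

/-! # The place attached to a class map: global version -/

namespace P025H16

open P025H641 Filter Topology

universe u v w

/-- the value of `x` is `z`, in terms of ratio classes -/
def RVal (p : ℕ) {k : Type u} [Field k] {L : Type v} [Field L] [Algebra k L] (χ : L → Cl p k)
    (x : L) (z : k) : Prop :=
  ∃ B : Set k, B.Countable ∧ ∀ a ∉ B, ∀ b ∉ B,
    χ ((x - algebraMap k L a) / (x - algebraMap k L b)) = clsm p ((z - a) / (z - b))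

namespace PChiData

variable {p : ℕ} [Fact p.Prime] {k : Type u} [NontriviallyNormedField k]
  {F : Type v} [Field F] [Algebra k F] (D : PChiData p k F)

include D in
/-- classes of differences determine the point -/
lemma cls_unique [CompleteSpace k] {z z' : k} (hne : z ≠ z') {B : Set k} (hB : B.Countable)
    (δ : Cl p k) (h : ∀ a ∉ B, clsm p (z - a) - clsm p (z' - a) = δ) : False := by
  have hd : z' - z ≠ 0 := sub_ne_zero.2 (Ne.symm hne)
  have hdn : 0 < ‖z' - z‖ := norm_pos_iff.2 hd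
  have key : ∀ v : Cl p k, v = δ + clsm p (z' - z) := by
    intro v
    obtain ⟨x, hx0, hx, hv, hxS⟩ := D.exists_small v (mul_pos hdn D.ε_pos) (countable_sub hB z)
    have h1 := h (z - x) hxS
    have hn := D.near (z' - z) x hd hx.le
    have e1 : z - (z - x) = x := by ring
    have e2 : z' - (z - x) = z' - z + x := by ring
    rw [e1, e2, hn.2, hv] at h1
    rw [← h1, sub_add_cancel]
  obtain ⟨v, hv⟩ := D.exists_ne
  exact hv ((key v).trans (key 0).symm)

include D in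
/-- classes are not constant -/
lemma cls_not_const [CompleteSpace k] {z : k} {B : Set k} (hB : B.Countable)
    (δ : Cl p k) (h : ∀ a ∉ B, clsm p (z - a) = δ) : False := by
  have key : ∀ v : Cl p k, v = δ := by
    intro v
    obtain ⟨x, hx0, -, hv, hxS⟩ := D.exists_small v one_pos (countable_sub hB z)
    have h1 := h (z - x) hxS
    have e1 : z - (z - x) = x := by ring
    rwa [e1, hv] at h1
  obtain ⟨v, hv⟩ := D.exists_ne
  exact hv ((key v).trans (key 0).symm)

include D in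
lemma rval_unique [CompleteSpace k] {L : Type w} [Field L] [Algebra k L] {χ : L → Cl p k}
    {x : L} {z z' : k} (h : RVal p χ x z) (h' : RVal p χ x z') : z = z' := by
  by_contra hne
  obtain ⟨B, hB, h1⟩ := h
  obtain ⟨B', hB', h2⟩ := h'
  have hC : (B ∪ B' ∪ {z, z'}).Countable :=
    (hB.union hB').union ((Set.countable_singleton z').insert z)
  obtain ⟨b, -, -, -, hb⟩ := D.exists_small 0 one_pos hC
  have hsplit : ∀ a ∉ B ∪ B' ∪ {z, z'}, a ∉ B ∧ a ∉ B' ∧ z - a ≠ 0 ∧ z' - a ≠ 0 := by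
    intro a ha
    rw [Set.mem_union, Set.mem_union, not_or, not_or] at ha
    refine ⟨ha.1.1, ha.1.2, fun h => ha.2 ?_, fun h => ha.2 ?_⟩
    · exact Or.inl (sub_eq_zero.1 h).symm
    · exact Or.inr (sub_eq_zero.1 h).symm
  obtain ⟨b1, b2, b3, b4⟩ := hsplit b hb
  refine D.cls_unique hne hC (clsm p (z - b) - clsm p (z' - b)) fun a ha => ?_
  obtain ⟨a1, a2, a3, a4⟩ := hsplit a ha
  have h3 := (h1 a a1 b b1).symm.trans (h2 a a2 b b2)
  rw [clsm_div _ _ a3 b3, clsm_div _ _ a4 b4, sub_eq_sub_iff_add_eq_add] at h3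
  rw [sub_eq_sub_iff_add_eq_add, h3, add_comm]

/-- the basic computation with `y = 1 / (x - c)` -/
lemma ratio_aux {x : F} {c : k} (hxc : x - algebraMap k F c ≠ 0)
    (hy : (x - algebraMap k F c)⁻¹ ∈ D.R) :
    ∃ T : Set k, T.Countable ∧ ∀ a ∉ T, ∀ b ∉ T, a - c ≠ 0 ∧ b - c ≠ 0 ∧
      D.χ ((x - algebraMap k F a) / (x - algebraMap k F b)) =
        (clsm p (a - c) + D.χ ((x - algebraMap k F c)⁻¹ - algebraMap k F (a - c)⁻¹)) -
        (clsm p (b - c) + D.χ ((x - algebraMap k F c)⁻¹ - algebraMap k F (b - c)⁻¹)) := by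
  set y := (x - algebraMap k F c)⁻¹ with hydef
  have hy0 : y ≠ 0 := inv_ne_zero hxc
  have h1 : {a : k | a - c ∈ ({0} : Set k)}.Countable :=
    (Set.countable_singleton (0 : k)).preimage (f := fun a => a - c) (sub_left_injective)
  have h2 : {a : k | (a - c)⁻¹ ∈ {e : k | ¬ D.U (y - algebraMap k F e)}}.Countable :=
    ((D.ctb_U hy).preimage (f := fun a => a⁻¹) inv_injective).preimage
      (f := fun a => a - c) sub_left_injective
  refine ⟨_, h1.union h2, ?_⟩
  have key : ∀ a ∉ {a : k | a - c ∈ ({0} : Set k)} ∪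
      {a : k | (a - c)⁻¹ ∈ {e : k | ¬ D.U (y - algebraMap k F e)}}, a - c ≠ 0 ∧
      D.U (y - algebraMap k F (a - c)⁻¹) ∧
      x - algebraMap k F a = algebraMap k F (-(a - c)) * (y - algebraMap k F (a - c)⁻¹) / y := by
    intro a ha
    rw [Set.mem_union, not_or] at ha
    have h3 : a - c ≠ 0 := fun h => ha.1 h
    refine ⟨h3, not_not.1 ha.2, ?_⟩
    have h4 : algebraMap k F (a - c) ≠ 0 := (map_ne_zero _).2 h3
    have h5 : x - algebraMap k F c = y⁻¹ := by rw [hydef, inv_inv]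
    rw [eq_div_iff hy0, map_neg, map_inv₀, neg_mul, mul_sub, mul_inv_cancel₀ h4]
    have h6 : x - algebraMap k F a = y⁻¹ - algebraMap k F (a - c) := by
      rw [← h5, map_sub]; ring
    rw [h6, sub_mul, inv_mul_cancel₀ hy0]
    ring
  intro a ha b hb
  obtain ⟨a1, a2, a3⟩ := key a ha
  obtain ⟨b1, b2, b3⟩ := key b hb
  refine ⟨a1, b1, ?_⟩
  have hna := D.U_const a1
  have hnb := D.U_const b1
  have h7 : (x - algebraMap k F a) / (x - algebraMap k F b) =
      algebraMap k F (a - c) * (y - algebraMap k F (a - c)⁻¹) /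
      (algebraMap k F (b - c) * (y - algebraMap k F (b - c)⁻¹)) := by
    rw [a3, b3, div_div_div_cancel_right₀ hy0, map_neg, map_neg, neg_mul, neg_mul, neg_div_neg_eq]
  rw [h7, D.chi_div (D.U_mul hna a2) (D.U_mul hnb b2), D.chi_mul hna a2, D.chi_mul hnb b2,
    D.const _ a1, D.const _ b1]

variable [ProperSpace k]

/-- finite values -/
lemma rval_of_atF {x : F} {z : k} (h : D.AtF x z) : RVal p D.χ x z := by
  obtain ⟨c, -, -, -, hc⟩ := D.exists_small 0 one_pos
    (((D.ctb_inv x).union (ctb_eq x)).union (Set.countable_singleton z))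
  rw [Set.mem_union, Set.mem_union, not_or, not_or] at hc
  obtain ⟨⟨hc1, hc2⟩, hc3⟩ := hc
  have hy : (x - algebraMap k F c)⁻¹ ∈ D.R := not_not.1 hc1
  have hxc : x - algebraMap k F c ≠ 0 := sub_ne_zero.2 hc2
  have hzc : z - c ≠ 0 := fun h0 => hc3 (sub_eq_zero.1 h0).symm
  obtain ⟨T, hT, hTr⟩ := D.ratio_aux hxc hy
  have h1 := D.atF_add h (D.atF_const (-c))
  rw [map_neg, ← sub_eq_add_neg, ← sub_eq_add_neg] at h1
  have h2 := (D.atF_iff_at hy _).1 (D.atF_inv h1 hzc)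
  have h3 : {a : k | (a - c)⁻¹ ∈ {e : k | D.χ ((x - algebraMap k F c)⁻¹ - algebraMap k F e) ≠
      clsm p ((z - c)⁻¹ - e)}}.Countable :=
    (Set.Countable.preimage h2 (f := fun a => a⁻¹) inv_injective).preimage
      (f := fun a => a - c) sub_left_injective
  refine ⟨_, (hT.union h3).union (Set.countable_singleton z), ?_⟩
  have key : ∀ a ∉ T ∪ {a : k | (a - c)⁻¹ ∈ {e : k |
      D.χ ((x - algebraMap k F c)⁻¹ - algebraMap k F e) ≠ clsm p ((z - c)⁻¹ - e)}} ∪ {z},
      a - c ≠ 0 → z - a ≠ 0 ∧ clsm p (a - c) +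
        D.χ ((x - algebraMap k F c)⁻¹ - algebraMap k F (a - c)⁻¹) =
        clsm p (-1) + clsm p (z - a) - clsm p (z - c) := by
    intro a ha hac
    rw [Set.mem_union, Set.mem_union, not_or, not_or] at ha
    have hza : z - a ≠ 0 := fun h0 => ha.2 (sub_eq_zero.1 h0).symm
    refine ⟨hza, ?_⟩
    have h4 : D.χ ((x - algebraMap k F c)⁻¹ - algebraMap k F (a - c)⁻¹) =
        clsm p ((z - c)⁻¹ - (a - c)⁻¹) := not_not.1 ha.1.2
    have h5 : (z - c)⁻¹ - (a - c)⁻¹ ≠ 0 := by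
      intro h0
      rw [sub_eq_zero, inv_inj] at h0
      apply hza
      linear_combination h0
    have h6 : (a - c) * ((z - c)⁻¹ - (a - c)⁻¹) = -(z - a) / (z - c) := by
      field_simp
      ring
    rw [h4, ← clsm_mul _ _ hac h5, h6, clsm_div _ _ (neg_ne_zero.2 hza) hzc, clsm_neg _ hza]
  intro a ha b hb
  have haT : a ∉ T := by
    rw [Set.mem_union, Set.mem_union, not_or, not_or] at ha
    exact ha.1.1
  have hbT : b ∉ T := by
    rw [Set.mem_union, Set.mem_union, not_or, not_or] at hb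
    exact hb.1.1
  obtain ⟨hac, hbc, hr⟩ := hTr a haT b hbT
  obtain ⟨a1, a2⟩ := key a ha hac
  obtain ⟨b1, b2⟩ := key b hb hbc
  rw [hr, a2, b2, clsm_div _ _ a1 b1]
  abel

/-- the value infinity -/
lemma ratio_of_inf {x : F} (hx0 : x ≠ 0) (h : D.AtF x⁻¹ 0) : ∃ B : Set k, B.Countable ∧ ∀ a ∉ B, ∀ b ∉ B,
    D.χ ((x - algebraMap k F a) / (x - algebraMap k F b)) = 0 := by
  obtain ⟨c, -, -, -, hc⟩ := D.exists_small 0 one_pos
    (((D.ctb_inv x).union (ctb_eq x)).union (Set.countable_singleton 0))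
  rw [Set.mem_union, Set.mem_union, not_or, not_or] at hc
  obtain ⟨⟨hc1, hc2⟩, hc3⟩ := hc
  have hy : (x - algebraMap k F c)⁻¹ ∈ D.R := not_not.1 hc1
  have hxc : x - algebraMap k F c ≠ 0 := sub_ne_zero.2 hc2
  obtain ⟨T, hT, hTr⟩ := D.ratio_aux hxc hy
  -- the value of `y` is `0`
  have hy0 : D.At (x - algebraMap k F c)⁻¹ 0 := by
    rw [← D.atF_iff_at hy]
    have h1 := D.atF_add (D.atF_const 1) (D.atF_mul (D.atF_const (-c)) h)
    rw [mul_zero, add_zero, map_one] at h1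
    have h2 := D.atF_mul h (D.atF_inv h1 one_ne_zero)
    rw [zero_mul] at h2
    have e1 : x⁻¹ * (1 + algebraMap k F (-c) * x⁻¹)⁻¹ = (x - algebraMap k F c)⁻¹ := by
      rw [← mul_inv, mul_add, mul_one, map_neg, mul_left_comm, mul_inv_cancel₀ hx0, mul_one,
        ← sub_eq_add_neg]
    rwa [e1] at h2
  have h3 : {a : k | (a - c)⁻¹ ∈ {e : k | D.χ ((x - algebraMap k F c)⁻¹ - algebraMap k F e) ≠
      clsm p (0 - e)}}.Countable :=
    (Set.Countable.preimage hy0 (f := fun a => a⁻¹) inv_injective).preimage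
      (f := fun a => a - c) sub_left_injective
  refine ⟨_, hT.union h3, ?_⟩
  have key : ∀ a ∉ T ∪ {a : k | (a - c)⁻¹ ∈ {e : k |
      D.χ ((x - algebraMap k F c)⁻¹ - algebraMap k F e) ≠ clsm p (0 - e)}},
      a - c ≠ 0 → clsm p (a - c) +
        D.χ ((x - algebraMap k F c)⁻¹ - algebraMap k F (a - c)⁻¹) = clsm p (-1) := by
    intro a ha hac
    rw [Set.mem_union, not_or] at ha
    have h4 : D.χ ((x - algebraMap k F c)⁻¹ - algebraMap k F (a - c)⁻¹) =
        clsm p (0 - (a - c)⁻¹) := not_not.1 ha.2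
    have h6 : (a - c) * (0 - (a - c)⁻¹) = -1 := by
      field_simp
      ring
    rw [h4, ← clsm_mul _ _ hac (by rw [zero_sub]; exact neg_ne_zero.2 (inv_ne_zero hac)), h6]
  intro a ha b hb
  have haT : a ∉ T := by
    rw [Set.mem_union, not_or] at ha
    exact ha.1
  have hbT : b ∉ T := by
    rw [Set.mem_union, not_or] at hb
    exact hb.1
  obtain ⟨hac, hbc, hr⟩ := hTr a haT b hbT
  rw [hr, key a ha hac, key b hb hbc, sub_self]

lemma rval_iff (x : F) (z : k) : RVal p D.χ x z ↔ D.AtF x z := by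
  refine ⟨fun h => ?_, D.rval_of_atF⟩
  rcases D.atF_or x with ⟨w, hw⟩ | hinf
  · rwa [D.rval_unique h (D.rval_of_atF hw)]
  by_cases hx0 : x = 0
  · have h1 := D.atF_const 0
    rw [map_zero] at h1
    rw [hx0] at h ⊢
    rwa [D.rval_unique h (D.rval_of_atF h1)]
  exfalso
  obtain ⟨B, hB, h1⟩ := h
  obtain ⟨B', hB', h2⟩ := D.ratio_of_inf hx0 hinf
  have hC : (B ∪ B' ∪ {z}).Countable := (hB.union hB').union (Set.countable_singleton z)
  obtain ⟨b, -, -, -, hb⟩ := D.exists_small 0 one_pos hC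
  have hsplit : ∀ a ∉ B ∪ B' ∪ {z}, a ∉ B ∧ a ∉ B' ∧ z - a ≠ 0 := by
    intro a ha
    rw [Set.mem_union, Set.mem_union, not_or, not_or] at ha
    exact ⟨ha.1.1, ha.1.2, fun h => ha.2 (sub_eq_zero.1 h).symm⟩
  obtain ⟨b1, b2, b3⟩ := hsplit b hb
  refine D.cls_not_const (z := z) hC (clsm p (z - b)) fun a ha => ?_
  obtain ⟨a1, a2, a3⟩ := hsplit a ha
  have h3 := (h1 a a1 b b1).symm.trans (h2 a a2 b b2)
  rw [clsm_div _ _ a3 b3] at h3
  exact sub_eq_zero.1 h3

end PChiData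

/-- the data of a class map satisfying all finite pattern conditions locally -/
structure PData (p : ℕ) [Fact p.Prime] (k : Type u) [NontriviallyNormedField k]
    (L : Type v) [Field L] [Algebra k L] where
  /-- the constant of local constancy -/
  ε : ℝ
  ε_pos : 0 < ε
  ε_lt : ε < 1
  near : ∀ x δ : k, x ≠ 0 → ‖δ‖ ≤ ‖x‖ * ε → x + δ ≠ 0 ∧ clsm p (x + δ) = clsm p x
  /-- the symbol -/
  H : Cl p k →ₗ[ZMod p] Cl p k →ₗ[ZMod p] ZMod p
  H_ne : ∃ u v, H u v ≠ 0
  H_st : ∀ x : k, x ≠ 0 → x ≠ 1 → H (clsm p x) (clsm p (1 - x)) = 0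
  /-- the classes -/
  χ : L → Cl p k
  const : ∀ c : k, c ≠ 0 → χ (algebraMap k L c) = clsm p c
  loc : ∀ S : Finset L, ∃ (F : Subfield L) (R : Subring L), (S : Set L) ⊆ F ∧
    R ≤ F.toSubring ∧ (∀ c : k, algebraMap k L c ∈ R) ∧
    (∀ x ∈ F, x ∉ Set.range (algebraMap k L) →
      {c : k | (x - algebraMap k L c)⁻¹ ∉ R}.Countable) ∧
    (∀ f g, f ≠ 0 → g ≠ 0 → f ∈ R → f⁻¹ ∈ R → g ∈ R → g⁻¹ ∈ R → χ (f * g) = χ f + χ g) ∧
    (∀ f ∈ R, f ∉ Set.range (algebraMap k L) → ∀ A₀ : Finset k,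
      (∀ a ∈ A₀, (f - algebraMap k L a)⁻¹ ∈ R) →
        ∃ z, ∀ a ∈ A₀, z ≠ a ∧ χ (f - algebraMap k L a) = clsm p (z - a))

namespace PData

variable {p : ℕ} [Fact p.Prime] {k : Type u} [NontriviallyNormedField k]
  {L : Type v} [Field L] [Algebra k L] (D : PData p k L)

lemma exists_local [ProperSpace k] (S : Finset L) : ∃ F : Subfield L, (S : Set L) ⊆ F ∧
    (∀ x ∈ F, (∃ z, RVal p D.χ x z) ∨ RVal p D.χ x⁻¹ 0) ∧
    (∀ x ∈ F, ∀ z z' : k, RVal p D.χ x z → RVal p D.χ x z' → z = z') ∧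
    (∀ x ∈ F, ∀ y ∈ F, ∀ z w : k, RVal p D.χ x z → RVal p D.χ y w →
      RVal p D.χ (x + y) (z + w)) ∧
    (∀ x ∈ F, ∀ y ∈ F, ∀ z w : k, RVal p D.χ x z → RVal p D.χ y w →
      RVal p D.χ (x * y) (z * w)) ∧ ∀ c : k, RVal p D.χ (algebraMap k L c) c := by
  obtain ⟨F, R, hS, hRF, hc, hctb, hmul, hpat⟩ := D.loc S
  have hcF : ∀ c : k, algebraMap k L c ∈ F := fun c => hRF (hc c)
  let _ : Algebra k F := ((algebraMap k L).codRestrict F hcF).toAlgebra
  have hal : ∀ c : k, ((algebraMap k F c : F) : L) = algebraMap k L c := fun c => rfl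
  have hrange : ∀ x : F, x ∉ Set.range (algebraMap k F) →
      (x : L) ∉ Set.range (algebraMap k L) := by
    rintro x hx ⟨c, hcx⟩
    exact hx ⟨c, Subtype.ext (by rw [hal]; exact hcx)⟩
  have hR : ∀ x : F, x ∈ R.comap F.subtype ↔ (x : L) ∈ R := fun x => Iff.rfl
  let D' : PChiData p k F :=
    { ε := D.ε
      ε_pos := D.ε_pos
      ε_lt := D.ε_lt
      near := D.near
      H := D.H
      H_ne := D.H_ne
      H_st := D.H_st
      R := R.comap F.subtype
      const_mem := fun c => hc c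
      ctb := fun x hx => hctb x x.2 (hrange x hx)
      χ := fun x => D.χ x
      mul := fun f g hf hf' hg hg' hf0 hg0 => hmul f g
        (fun h => hf0 (Subtype.ext h)) (fun h => hg0 (Subtype.ext h)) hf hf' hg hg'
      const := fun c hc0 => D.const c hc0
      pat := fun f hf hfr A₀ hA₀ => hpat f hf (hrange f hfr) A₀ hA₀ }
  have hval : ∀ (x : F) (z : k), RVal p D'.χ x z ↔ RVal p D.χ (x : L) z := fun x z => Iff.rfl
  refine ⟨F, hS, fun x hx => ?_, fun x hx z z' h h' => ?_, fun x hx y hy z w h h' => ?_,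
    fun x hx y hy z w h h' => ?_, fun c => ?_⟩
  · rcases D'.atF_or ⟨x, hx⟩ with ⟨z, hz⟩ | h
    · exact Or.inl ⟨z, D'.rval_of_atF hz⟩
    · exact Or.inr (D'.rval_of_atF h)
  · exact D'.rval_unique h h'
  · exact D'.rval_of_atF (D'.atF_add ((D'.rval_iff ⟨x, hx⟩ z).1 h) ((D'.rval_iff ⟨y, hy⟩ w).1 h'))
  · exact D'.rval_of_atF (D'.atF_mul ((D'.rval_iff ⟨x, hx⟩ z).1 h) ((D'.rval_iff ⟨y, hy⟩ w).1 h'))
  · exact D'.rval_of_atF (D'.atF_const c)

variable [ProperSpace k]

lemma rval_const (c : k) : RVal p D.χ (algebraMap k L c) c := by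
  obtain ⟨F, -, -, -, -, -, h⟩ := D.exists_local ∅
  exact h c

lemma rval_add {x y : L} {z w : k} (h : RVal p D.χ x z) (h' : RVal p D.χ y w) :
    RVal p D.χ (x + y) (z + w) := by
  classical
  obtain ⟨F, hS, -, -, h1, -, -⟩ := D.exists_local {x, y}
  exact h1 x (hS (by simp)) y (hS (by simp)) z w h h'

lemma rval_mul {x y : L} {z w : k} (h : RVal p D.χ x z) (h' : RVal p D.χ y w) :
    RVal p D.χ (x * y) (z * w) := by
  classical
  obtain ⟨F, hS, -, -, -, h1, -⟩ := D.exists_local {x, y}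
  exact h1 x (hS (by simp)) y (hS (by simp)) z w h h'

lemma rval_unique {x : L} {z z' : k} (h : RVal p D.χ x z) (h' : RVal p D.χ x z') : z = z' := by
  classical
  obtain ⟨F, hS, -, h1, -, -, -⟩ := D.exists_local {x}
  exact h1 x (hS (by simp)) z z' h h'

lemma rval_or (x : L) : (∃ z, RVal p D.χ x z) ∨ RVal p D.χ x⁻¹ 0 := by
  classical
  obtain ⟨F, hS, h1, -, -, -, -⟩ := D.exists_local {x}
  exact h1 x (hS (by simp))

lemma rval_neg {x : L} {z : k} (h : RVal p D.χ x z) : RVal p D.χ (-x) (-z) := by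
  have h1 := D.rval_mul (D.rval_const (-1)) h
  rwa [map_neg, map_one, neg_one_mul, neg_one_mul] at h1

/-- the valuation ring -/
def vring : ValuationSubring L where
  carrier := {f | ∃ z, RVal p D.χ f z}
  mul_mem' := fun ⟨z, hz⟩ ⟨w, hw⟩ => ⟨z * w, D.rval_mul hz hw⟩
  one_mem' := ⟨1, by have h := D.rval_const 1; rwa [map_one] at h⟩
  add_mem' := fun ⟨z, hz⟩ ⟨w, hw⟩ => ⟨z + w, D.rval_add hz hw⟩
  zero_mem' := ⟨0, by have h := D.rval_const 0; rwa [map_zero] at h⟩
  neg_mem' := fun ⟨z, hz⟩ => ⟨-z, D.rval_neg hz⟩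
  mem_or_inv_mem' := fun f => by
    rcases D.rval_or f with h | h
    · exact Or.inl h
    · exact Or.inr ⟨0, h⟩

lemma mem_vring (f : L) : f ∈ D.vring ↔ ∃ z, RVal p D.χ f z := Iff.rfl

lemma const_mem_vring (c : k) : algebraMap k L c ∈ D.vring := ⟨c, D.rval_const c⟩

lemma val_lt_of_rval {f : L} {z : k} (h : RVal p D.χ f z) :
    D.vring.valuation (f - algebraMap k L z) < 1 := by
  have h1 := D.rval_add h (D.rval_const (-z))
  rw [map_neg, ← sub_eq_add_neg, add_neg_cancel] at h1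
  by_cases h0 : f - algebraMap k L z = 0
  · rw [h0, map_zero]
    exact zero_lt_one
  by_contra hcon
  push Not at hcon
  have h2 : (f - algebraMap k L z)⁻¹ ∈ D.vring := by
    rw [← ValuationSubring.valuation_le_one_iff, map_inv₀]
    exact inv_le_one_of_one_le₀ hcon
  obtain ⟨w, hw⟩ := (D.mem_vring _).1 h2
  have h3 := D.rval_mul h1 hw
  rw [mul_inv_cancel₀ h0, zero_mul] at h3
  have h4 := D.rval_const 1
  rw [map_one] at h4
  exact zero_ne_one (D.rval_unique h3 h4)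

lemma rval_iff (f : L) (z : k) :
    RVal p D.χ f z ↔ D.vring.valuation (f - algebraMap k L z) < 1 := by
  refine ⟨D.val_lt_of_rval, fun h => ?_⟩
  have h5 : f ∈ D.vring := by
    have h6 := D.vring.add_mem _ _ ((D.vring.valuation_le_one_iff _).1 h.le) (D.const_mem_vring z)
    rwa [sub_add_cancel] at h6
  obtain ⟨w, hw⟩ := (D.mem_vring _).1 h5
  have h1 := D.val_lt_of_rval hw
  by_cases hwz : w = z
  · rwa [← hwz]
  exfalso
  have h2 : D.vring.valuation (algebraMap k L (w - z)) < 1 := by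
    have e1 : algebraMap k L (w - z) = (f - algebraMap k L z) - (f - algebraMap k L w) := by
      rw [map_sub]; ring
    rw [e1]
    exact (Valuation.map_sub _ _ _).trans_lt (max_lt h h1)
  have h3 := D.const_mem_vring (w - z)⁻¹
  rw [← ValuationSubring.valuation_le_one_iff] at h3
  have h4 : D.vring.valuation (algebraMap k L (w - z)) *
      D.vring.valuation (algebraMap k L (w - z)⁻¹) = 1 := by
    rw [← map_mul, ← map_mul, mul_inv_cancel₀ (sub_ne_zero.2 hwz), map_one, map_one]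
  exact absurd h4 (mul_lt_one_of_lt_of_le h2 h3).ne

/-- **The place attached to a class map.** -/
theorem exists_place : ∃ V : ValuationSubring L, (∀ c : k, algebraMap k L c ∈ V) ∧
    (∀ f ∈ V, ∃ c : k, V.valuation (f - algebraMap k L c) < 1) ∧
    ∀ (f : L) (c : k), V.valuation (f - algebraMap k L c) < 1 ↔
      ∃ B : Set k, B.Countable ∧ ∀ a ∉ B, ∀ b ∉ B,
        D.χ ((f - algebraMap k L a) / (f - algebraMap k L b)) = clsm p ((c - a) / (c - b)) := by
  refine ⟨D.vring, D.const_mem_vring, fun f hf => ?_, fun f c => (D.rval_iff f c).symm⟩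
  obtain ⟨z, hz⟩ := hf
  exact ⟨z, D.val_lt_of_rval hz⟩

end PData

end P025H16
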