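import Vale.Agent.P025.H16.Curve

/-! # Existence of good pairs over a nonarchimedean field -/

namespace P025H16

universe u

variable {k : Type u} [NontriviallyNormedField k] [IsUltrametricDist k]

omit [IsUltrametricDist k] in
lemma exists_small (c : ℝ) (hc : 0 < c) : ∃ r : k, r ≠ 0 ∧ ‖r‖ < c := by
  obtain ⟨r, hr0, hr⟩ := NormedField.exists_norm_lt k hc
  exact ⟨r, norm_pos_iff.1 hr0, hr⟩

lemma exists_small_finset {ι : Type*} (S : Finset ι) (f : ι → ℝ) (hf : ∀ i ∈ S, 0 < f i) :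
    ∃ c : ℝ, 0 < c ∧ ∀ i ∈ S, c ≤ f i := by
  classical
  induction S using Finset.induction_on with
  | empty => exact ⟨1, one_pos, by simp⟩
  | insert i S hi ih =>
    obtain ⟨c, hc, h⟩ := ih (fun j hj => hf j (Finset.mem_insert_of_mem hj))
    refine ⟨min c (f i), lt_min hc (hf i (Finset.mem_insert_self _ _)), fun j hj => ?_⟩
    rcases Finset.mem_insert.1 hj with rfl | hj
    · exact min_le_right _ _
    · exact (min_le_left _ _).trans (h j hj)

omit [IsUltrametricDist k] in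
lemma sameClass_of_near {p : ℕ} {ε : ℝ}
    (hopen : ∀ u : k, ‖u - 1‖ < ε → ∃ e : k, e ≠ 0 ∧ u = e ^ p) (x y : k) (hy : y ≠ 0)
    (h : ‖x - y‖ < ε * ‖y‖) : SameClass p x y := by
  obtain ⟨e, he, hxy⟩ := hopen (x / y) (by
    have h1 : x / y - 1 = (x - y) / y := by field_simp
    rw [h1, norm_div, div_lt_iff₀ (norm_pos_iff.2 hy)]
    exact h)
  exact ⟨e, he, by rw [← hxy]; field_simp⟩

lemma norm_sub_small (x y : k) (h : ‖y‖ < ‖x‖) : ‖x - y‖ = ‖x‖ := by
  rw [sub_eq_add_neg]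
  have := IsUltrametricDist.norm_add_eq_max_of_norm_ne_norm (x := x) (y := -y) (by
    rw [norm_neg]; exact h.ne')
  rw [this, norm_neg, max_eq_left h.le]

theorem exists_goodPairs {p : ℕ} {ε : ℝ} (hε : 0 < ε)
    (hopen : ∀ u : k, ‖u - 1‖ < ε → ∃ e : k, e ≠ 0 ∧ u = e ^ p)
    (A₀ A₁ : Finset k) (hdisj : ∀ a ∈ A₀, ∀ b ∈ A₁, b ≠ a) :
    ∃ B : Finset (k × k), GoodPairs p A₀ B ∧ ∀ b ∈ A₁, ∃ b', (b, b') ∈ B := by
  classical
  obtain ⟨c₁, hc₁, h₁⟩ := exists_small_finset (A₁ ×ˢ A₀) (fun q => ‖q.1 - q.2‖) (by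
    intro q hq
    rw [Finset.mem_product] at hq
    exact norm_pos_iff.2 (sub_ne_zero.2 (hdisj _ hq.2 _ hq.1)))
  obtain ⟨c₂, hc₂, h₂⟩ := exists_small_finset ((A₁ ×ˢ A₁).filter (fun q => q.1 ≠ q.2))
    (fun q => ‖q.1 - q.2‖) (by
    intro q hq
    rw [Finset.mem_filter] at hq
    exact norm_pos_iff.2 (sub_ne_zero.2 hq.2))
  obtain ⟨r, hr0, hr⟩ := exists_small (k := k) (min (min c₁ (ε * c₁)) c₂)
    (lt_min (lt_min hc₁ (mul_pos hε hc₁)) hc₂)
  have hr1 : ‖r‖ < c₁ := hr.trans_le ((min_le_left _ _).trans (min_le_left _ _))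
  have hr2 : ‖r‖ < ε * c₁ := hr.trans_le ((min_le_left _ _).trans (min_le_right _ _))
  have hr3 : ‖r‖ < c₂ := hr.trans_le (min_le_right _ _)
  have hrpos : 0 < ‖r‖ := norm_pos_iff.2 hr0
  obtain ⟨β, hβ0, hβ⟩ := exists_small (k := k) (min ‖r‖ (ε * ‖r‖))
    (lt_min hrpos (mul_pos hε hrpos))
  have hβ1 : ‖β‖ < ‖r‖ := hβ.trans_le (min_le_left _ _)
  have hβ2 : ‖β‖ < ε * ‖r‖ := hβ.trans_le (min_le_right _ _)
  -- the pair condition away from `b`
  have hpair : ∀ z b : k, ‖r‖ ≤ ‖z - b‖ →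
      z ≠ b ∧ z ≠ b + β ∧ SameClass p (z - b) (z - (b + β)) := by
    intro z b hzb
    have h1 : ‖z - (b + β)‖ = ‖z - b‖ := by
      rw [← sub_sub]
      exact norm_sub_small _ _ (hβ1.trans_le hzb)
    have h2 : z - (b + β) ≠ 0 := by
      intro h0
      rw [h0, norm_zero] at h1
      linarith
    refine ⟨?_, sub_ne_zero.1 h2, sameClass_of_near hopen _ _ h2 ?_⟩
    · rintro rfl
      rw [sub_self, norm_zero] at hzb
      linarith
    · have h3 : z - b - (z - (b + β)) = β := by ring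
      rw [h3, h1]
      exact hβ2.trans_le (by gcongr)
  refine ⟨A₁.image (fun b => (b, b + β)), ⟨?_, ?_⟩, ?_⟩
  · intro q hq
    obtain ⟨b, -, rfl⟩ := Finset.mem_image.1 hq
    intro h
    exact hβ0 (by simpa using h)
  · intro z hz
    by_cases hcase : ∀ b ∈ A₁, ‖r‖ ≤ ‖z - b‖
    · refine ⟨z, fun a ha => ⟨hz a ha, SameClass.refl p _⟩, ?_⟩
      intro q hq
      obtain ⟨b, hb, rfl⟩ := Finset.mem_image.1 hq
      exact hpair z b (hcase b hb)
    · push Not at hcase
      obtain ⟨b, hb, hzb⟩ := hcase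
      have hba : ∀ a ∈ A₀, c₁ ≤ ‖b - a‖ := fun a ha => h₁ (b, a) (Finset.mem_product.2 ⟨hb, ha⟩)
      refine ⟨b + r, fun a ha => ⟨?_, ?_⟩, ?_⟩
      · intro h
        have h1 := hba a ha
        have h2 : b - a = -r := by rw [← h]; ring
        rw [h2, norm_neg] at h1
        linarith
      · have hba0 : b - a ≠ 0 := sub_ne_zero.2 (hdisj a ha b hb)
        have h1 : SameClass p (b + r - a) (b - a) := by
          apply sameClass_of_near hopen _ _ hba0
          have h3 : b + r - a - (b - a) = r := by ring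
          rw [h3]
          exact hr2.trans_le (by have := hba a ha; gcongr)
        have h2 : SameClass p (z - a) (b - a) := by
          apply sameClass_of_near hopen _ _ hba0
          have h3 : z - a - (b - a) = z - b := by ring
          rw [h3]
          exact (hzb.trans hr2).trans_le (by have := hba a ha; gcongr)
        exact h1.trans h2.symm
      · intro q hq
        obtain ⟨b₂, hb₂, rfl⟩ := Finset.mem_image.1 hq
        apply hpair
        by_cases hbb : b₂ = b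
        · rw [hbb]; simp
        · have h1 : c₂ ≤ ‖b - b₂‖ := h₂ (b, b₂)
            (Finset.mem_filter.2 ⟨Finset.mem_product.2 ⟨hb, hb₂⟩, fun h => hbb h.symm⟩)
          have h3 : b + r - b₂ = (b - b₂) - (-r) := by ring
          rw [h3, norm_sub_small]
          · linarith
          · rw [norm_neg]; linarith
  · intro b hb
    exact ⟨b + β, Finset.mem_image_of_mem _ hb⟩

end P025H16
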