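import Vale.Agent.P025.H16.Unram
import Vale.Agent.P025.H25.Place

/-! # Rational places of function fields generated by `p`-th roots from rational points -/

open IntermediateField
open P025H25 (shiftX algebraMap_laurent aeval_shiftX transcendental_shiftX)

namespace P025H16

universe u v w

section lift

variable {k : Type u} {K : Type v} {M : Type w} [Field k] [Field K] [Field M] [IsAlgClosed M]
  [Algebra k K] [Algebra k M]

lemma exists_lift {p : ℕ} (hp : 0 < p) (t : K) (τ : M) (ht : Transcendental k t)
    (hτ : Transcendental k τ)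
    {ι : Type*} (wf : ι → K) (hw : ∀ j, ∃ f : Polynomial k, wf j ^ p = Polynomial.aeval t f)
    (hgen : IntermediateField.adjoin k ({t} ∪ Set.range wf) = ⊤) :
    ∃ φ : K →ₐ[k] M, φ t = τ := by
  let algK : Algebra (Polynomial k) K := (Polynomial.aeval t).toRingHom.toAlgebra
  let algM : Algebra (Polynomial k) M := (Polynomial.aeval τ).toRingHom.toAlgebra
  have hK : Function.Injective (algebraMap (Polynomial k) K) :=
    transcendental_iff_injective.1 ht
  have hM : Function.Injective (algebraMap (Polynomial k) M) :=
    transcendental_iff_injective.1 hτ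
  have _ : FaithfulSMul (Polynomial k) K := (faithfulSMul_iff_algebraMap_injective _ _).2 hK
  have _ : FaithfulSMul (Polynomial k) M := (faithfulSMul_iff_algebraMap_injective _ _).2 hM
  have _ : Module.IsTorsionFree (Polynomial k) K := inferInstance
  have _ : Module.IsTorsionFree (Polynomial k) M := inferInstance
  have halg : ∀ x : K, IsAlgebraic (Polynomial k) x := by
    intro x
    have hx : x ∈ IntermediateField.adjoin k ({t} ∪ Set.range wf) := by rw [hgen]; trivial
    induction hx using IntermediateField.adjoin_induction with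
    | mem x hx =>
      rcases hx with hx | ⟨j, rfl⟩
      · rw [Set.mem_singleton_iff] at hx
        rw [hx]
        have : t = algebraMap (Polynomial k) K Polynomial.X := (Polynomial.aeval_X t).symm
        rw [this]
        exact isAlgebraic_algebraMap _
      · obtain ⟨f, hf⟩ := hw j
        apply IsAlgebraic.of_pow (n := p) hp
        rw [hf]
        exact isAlgebraic_algebraMap (R := Polynomial k) (A := K) f
    | algebraMap c =>
      have : algebraMap k K c = algebraMap (Polynomial k) K (Polynomial.C c) :=
        (Polynomial.aeval_C t c).symm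
      rw [this]
      exact isAlgebraic_algebraMap _
    | add x y _ _ hx hy => exact hx.add hy
    | inv x _ hx => exact hx.inv
    | mul x y _ _ hx hy => exact hx.mul hy
  have _ : Algebra.IsAlgebraic (Polynomial k) K := ⟨halg⟩
  let ψ : K →ₐ[Polynomial k] M := IsAlgClosed.lift
  have hψ : ∀ f : Polynomial k, ψ (Polynomial.aeval t f) = Polynomial.aeval τ f := fun f =>
    ψ.commutes f
  refine ⟨{ ψ.toRingHom with commutes' := ?_ }, ?_⟩
  · intro c
    have := hψ (Polynomial.C c)
    rw [Polynomial.aeval_C, Polynomial.aeval_C] at this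
    exact this
  · have := hψ Polynomial.X
    rw [Polynomial.aeval_X, Polynomial.aeval_X] at this
    exact this

end lift

section series

variable {k : Type u} [Field k] [CharZero k]

open PowerSeries in
lemma exists_root_one_add {p : ℕ} (hp : p ≠ 0) (b : k) :
    ∃ Q : k⟦X⟧, Q ^ p = 1 + PowerSeries.C b * PowerSeries.X := by
  set B : k⟦X⟧ := binomialSeries k (1 / (p : ℚ)) with hB
  have hpow : ∀ n : ℕ, B ^ n = binomialSeries k ((n : ℚ) * (1 / (p : ℚ))) := by
    intro n
    induction n with
    | zero => simp [binomialSeries_zero]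
    | succ n ih =>
      rw [pow_succ, ih, hB, ← binomialSeries_add]
      congr 1
      push_cast
      ring
  have hBp : B ^ p = 1 + PowerSeries.X := by
    rw [hpow]
    have h1 : (p : ℚ) * (1 / (p : ℚ)) = ((1 : ℕ) : ℚ) := by
      have : (p : ℚ) ≠ 0 := Nat.cast_ne_zero.2 hp
      field_simp
      norm_num
    rw [h1, binomialSeries_nat, pow_one]
  refine ⟨rescale b B, ?_⟩
  rw [← map_pow, hBp, map_add, map_one, rescale_X]

/-- `p`-th roots in power series of products of shifted linear factors -/
lemma exists_root_prod {p : ℕ} (hp : p ≠ 0) (z η c : k) (S : Finset k) (m : k → ℕ)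
    (hz : ∀ a ∈ S, z ≠ a) (hη : c * η ^ p = ∏ a ∈ S, (z - a) ^ m a) :
    ∃ Q : PowerSeries k, PowerSeries.C c * Q ^ p =
      ∏ a ∈ S, (PowerSeries.C z + PowerSeries.X - PowerSeries.C a) ^ m a := by
  choose B hB using (exists_root_one_add (k := k) hp)
  refine ⟨PowerSeries.C η * ∏ a ∈ S, B (z - a)⁻¹ ^ m a, ?_⟩
  rw [mul_pow, ← mul_assoc, ← map_pow, ← map_mul, hη, ← Finset.prod_pow, map_prod,
    ← Finset.prod_mul_distrib]
  refine Finset.prod_congr rfl (fun a ha => ?_)
  have hza : z - a ≠ 0 := sub_ne_zero.2 (hz a ha)
  rw [← pow_mul, mul_comm (m a) p, pow_mul, hB, map_pow, ← mul_pow]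
  congr 1
  rw [mul_add, mul_one, ← mul_assoc, ← map_mul, mul_inv_cancel₀ hza, map_one, one_mul,
    map_sub]
  ring

end series

section main

variable {k : Type u} [Field k] [CharZero k] {K : Type v} [Field K] [Algebra k K]

theorem exists_ratPlace {p : ℕ} (hp : p.Prime) {ζ : k} (hζ : IsPrimitiveRoot ζ p)
    (t : K) (ht : Transcendental k t) {ι : Type*} (S : ι → Finset k) (m : ι → k → ℕ)
    (c : ι → k) (hc : ∀ j, c j ≠ 0) (wf : ι → K)
    (hw : ∀ j, algebraMap k K (c j) * wf j ^ p = ∏ a ∈ S j, (t - algebraMap k K a) ^ m j a)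
    (hgen : IntermediateField.adjoin k ({t} ∪ Set.range wf) = ⊤) (z : k)
    (hz : ∀ j, ∀ a ∈ S j, z ≠ a) (η : ι → k)
    (hη : ∀ j, c j * η j ^ p = ∏ a ∈ S j, (z - a) ^ m j a) :
    ∃ V : ValuationSubring K, IsRatPlace k K V := by
  set L := LaurentSeries k with hL
  set M := AlgebraicClosure L with hM
  have htrans : Transcendental k (algebraMap L M (shiftX z)) := by
    have h := transcendental_shiftX z
    exact (transcendental_algebraMap_iff (algebraMap L M).injective).2 h
  obtain ⟨φ, hφ⟩ := exists_lift (M := M) hp.pos t (algebraMap L M (shiftX z)) ht htrans wf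
    (by
      intro j
      refine ⟨Polynomial.C (c j)⁻¹ * ∏ a ∈ S j, (Polynomial.X - Polynomial.C a) ^ m j a, ?_⟩
      rw [map_mul, map_prod, Polynomial.aeval_C]
      simp only [map_pow, map_sub, Polynomial.aeval_X, Polynomial.aeval_C]
      rw [← hw j, ← mul_assoc, ← map_mul, inv_mul_cancel₀ (hc j), map_one, one_mul]) hgen
  -- the image lies in the Laurent series
  have hrange : ∀ x : K, ∃ l : L, algebraMap L M l = φ x := by
    set T : IntermediateField k K :=
      ((IsScalarTower.toAlgHom k L M).fieldRange).comap φ with hT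
    have hle : (⊤ : IntermediateField k K) ≤ T := by
      rw [← hgen, IntermediateField.adjoin_le_iff]
      rintro x (hx | ⟨j, rfl⟩)
      · rw [Set.mem_singleton_iff] at hx
        rw [hx]
        exact ⟨shiftX z, hφ.symm⟩
      · obtain ⟨Q, hQ⟩ := exists_root_prod hp.ne_zero z (η j) (c j) (S j) (m j) (hz j) (hη j)
        set q : L := (Q : LaurentSeries k) with hq
        have h1 : algebraMap k L (c j) * q ^ p =
            ∏ a ∈ S j, (shiftX z - algebraMap k L a) ^ m j a := by
          have h2 := congrArg (HahnSeries.ofPowerSeries ℤ k) hQ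
          rw [map_mul, map_pow, map_prod] at h2
          rw [algebraMap_laurent, h2]
          refine Finset.prod_congr rfl (fun a _ => ?_)
          rw [map_pow, map_sub, algebraMap_laurent]
          rfl
        have h2 : algebraMap k M (c j) * (algebraMap L M q) ^ p =
            ∏ a ∈ S j, (algebraMap L M (shiftX z) - algebraMap k M a) ^ m j a := by
          have h3 := congrArg (algebraMap L M) h1
          rw [map_mul, map_pow, map_prod, ← IsScalarTower.algebraMap_apply] at h3
          rw [h3]
          refine Finset.prod_congr rfl (fun a _ => ?_)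
          rw [map_pow, map_sub, ← IsScalarTower.algebraMap_apply]
        have h3 : algebraMap k M (c j) * (φ (wf j)) ^ p =
            ∏ a ∈ S j, (algebraMap L M (shiftX z) - algebraMap k M a) ^ m j a := by
          have h4 := congrArg φ (hw j)
          rw [map_mul, map_pow, map_prod, AlgHom.commutes] at h4
          rw [h4]
          refine Finset.prod_congr rfl (fun a _ => ?_)
          rw [map_pow, map_sub, AlgHom.commutes, hφ]
        have hcM : algebraMap k M (c j) ≠ 0 := (map_ne_zero _).2 (hc j)
        have h4 : (φ (wf j)) ^ p = (algebraMap L M q) ^ p :=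
          mul_left_cancel₀ hcM (h3.trans h2.symm)
        by_cases hq0 : algebraMap L M q = 0
        · refine ⟨q, ?_⟩
          rw [hq0, zero_pow hp.ne_zero] at h4
          show algebraMap L M q = φ (wf j)
          rw [hq0]
          exact (pow_eq_zero_iff hp.ne_zero |>.1 h4).symm
        · have h5 : (φ (wf j) / algebraMap L M q) ^ p = 1 := by
            rw [div_pow, h4, div_self (pow_ne_zero p hq0)]
          have hζM : IsPrimitiveRoot (algebraMap k M ζ) p :=
            hζ.map_of_injective (algebraMap k M).injective
          have _ : NeZero p := ⟨hp.ne_zero⟩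
          obtain ⟨i, -, hi⟩ := hζM.eq_pow_of_pow_eq_one h5
          refine ⟨algebraMap k L ζ ^ i * q, ?_⟩
          show algebraMap L M (algebraMap k L ζ ^ i * q) = φ (wf j)
          rw [map_mul, map_pow, ← IsScalarTower.algebraMap_apply, hi, div_mul_cancel₀ _ hq0]
    intro x
    exact hle (IntermediateField.mem_top (x := x))
  choose ψ hψ using hrange
  have hinj := (algebraMap L M).injective
  let Ψ : K →+* L :=
    { toFun := ψ
      map_one' := hinj (by rw [hψ, map_one, map_one])
      map_mul' := fun x y => hinj (by rw [map_mul, hψ, hψ, hψ, map_mul])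
      map_zero' := hinj (by rw [hψ, map_zero, map_zero])
      map_add' := fun x y => hinj (by rw [map_add, hψ, hψ, hψ, map_add]) }
  have hΨc : ∀ a : k, Ψ (algebraMap k K a) = algebraMap k L a := by
    intro a
    apply hinj
    show algebraMap L M (ψ (algebraMap k K a)) = _
    rw [hψ, AlgHom.commutes, ← IsScalarTower.algebraMap_apply]
  have hΨt : Ψ t = shiftX z := by
    apply hinj
    show algebraMap L M (ψ t) = _
    rw [hψ, hφ]
  set v : Valuation K _ := (Valued.v : Valuation L _).comap Ψ with hv
  have hequiv : v.valuationSubring.valuation.IsEquiv v :=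
    (Valuation.isEquiv_valuation_valuationSubring v).symm
  have hX : (Valued.v : Valuation L _) ((PowerSeries.X : PowerSeries k) : LaurentSeries k) < 1 := by
    have := LaurentSeries.valuation_X_pow (K := k) 1
    rw [pow_one] at this
    rw [this, ← WithZero.exp_zero, WithZero.exp_lt_exp]
    norm_num
  refine ⟨v.valuationSubring, ⟨⟨?_, ?_, ?_⟩, ?_⟩⟩
  · intro a
    rw [Valuation.mem_valuationSubring_iff, hv, Valuation.comap_apply, hΨc, algebraMap_laurent]
    exact (LaurentSeries.val_le_one_iff_eq_coe k _).2 ⟨_, rfl⟩
  · rw [Ne, Valuation.valuationSubring_eq_top_iff, not_not]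
    refine ⟨t - algebraMap k K z, ?_⟩
    have h1 : Ψ (t - algebraMap k K z) = ((PowerSeries.X : PowerSeries k) : LaurentSeries k) := by
      rw [map_sub, hΨt, hΨc, algebraMap_laurent, shiftX, map_add, add_sub_cancel_left]
    rw [hv, Valuation.comap_apply, h1]
    refine ⟨?_, hX.ne⟩
    rw [Valuation.ne_zero_iff]
    intro h0
    rw [← map_zero (HahnSeries.ofPowerSeries ℤ k)] at h0
    exact PowerSeries.X_ne_zero (HahnSeries.ofPowerSeries_injective h0)
  · intro x y hx hy
    have hy' : v y < 1 := by
      rw [← map_one v]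
      rw [← map_one v.valuationSubring.valuation] at hy
      exact hequiv.lt_iff_lt.1 hy
    have hvx : v x ≠ 0 := (Valuation.ne_zero_iff v).2 hx
    obtain ⟨n, hn⟩ := exists_pow_lt₀ hy' (Units.mk0 (v x) hvx)
    refine ⟨n, ?_⟩
    rw [← map_pow]
    rw [Units.val_mk0, ← map_pow] at hn
    exact hequiv.lt_iff_lt.2 hn
  · intro x hx
    rw [Valuation.mem_valuationSubring_iff, hv, Valuation.comap_apply,
      LaurentSeries.val_le_one_iff_eq_coe] at hx
    obtain ⟨F, hF⟩ := hx
    refine ⟨PowerSeries.constantCoeff F, ?_⟩
    rw [hequiv.lt_one_iff_lt_one, hv, Valuation.comap_apply, map_sub, hΨc, ← hF,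
      algebraMap_laurent, ← map_sub]
    have h1 : PowerSeries.X ∣ (F - PowerSeries.C (PowerSeries.constantCoeff F)) := by
      rw [PowerSeries.X_dvd_iff]
      simp
    obtain ⟨G, hG⟩ := h1
    rw [hG, map_mul, map_mul]
    have hG1 : (Valued.v : Valuation L _) (G : LaurentSeries k) ≤ 1 :=
      (LaurentSeries.val_le_one_iff_eq_coe k _).2 ⟨G, rfl⟩
    exact mul_lt_one_of_lt_of_le hX hG1

end main

end P025H16
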