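import Vale.Agent.P025.H641.Good

/-! # The place defined by a class homomorphism

Let `k` be a `p`-adic field and `E` an extension field. A homomorphism `χ : Eˣ → kˣ/p` which is the
class map on constants, and which on the translates `f - a` of every nonconstant `f` looks, on every
finite set of `a`, like a point `z` of `k`, comes from a `k`-rational place of `E`. -/

namespace P025H16

open P025H641 Filter Topology

universe u v

section normed

variable {p : ℕ} {k : Type u} [NontriviallyNormedField k]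

lemma clsm_div (x y : k) (hx : x ≠ 0) (hy : y ≠ 0) : clsm p (x / y) = clsm p x - clsm p y := by
  have h := clsm_mul (p := p) (x / y) y (div_ne_zero hx hy) hy
  rw [div_mul_cancel₀ _ hy] at h
  rw [h, add_sub_cancel_right]

/-- every class has representatives close to `0` -/
lemma exists_small_class (hp : p ≠ 0) (v : Cl p k) {U : Set k} (hU : U ∈ 𝓝 (0 : k)) :
    ∃ δ ∈ U, δ ≠ 0 ∧ clsm p δ = v := by
  obtain ⟨x, hx, rfl⟩ := clsm_surj v
  have h1 : Tendsto (fun y : k => x * y ^ p) (𝓝[≠] 0) (𝓝 0) := by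
    have h2 : Continuous (fun y : k => x * y ^ p) := by fun_prop
    have h3 := h2.tendsto 0
    rw [zero_pow hp, mul_zero] at h3
    exact h3.mono_left nhdsWithin_le_nhds
  obtain ⟨y, hy1, hy2⟩ := ((h1.eventually hU).and self_mem_nhdsWithin).exists
  have hy0 : y ≠ 0 := hy2
  refine ⟨x * y ^ p, hy1, mul_ne_zero hx (pow_ne_zero p hy0), ?_⟩
  rw [clsm_mul _ _ hx (pow_ne_zero p hy0), clsm_pow hp y hy0, add_zero]

variable [ProperSpace k]

lemma clsm_near_one (hp : p ≠ 0) (hpk : (p : k) ≠ 0) : ∀ᶠ x : k in 𝓝 1, clsm p x = 0 := by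
  have h1 : HasStrictDerivAt (fun x : k => x ^ p) ((p : k) * 1 ^ (p - 1)) 1 :=
    hasStrictDerivAt_pow p 1
  have h2 := h1.map_nhds_eq (by simpa using hpk)
  rw [one_pow] at h2
  rw [← h2, eventually_map]
  filter_upwards [eventually_ne_nhds (one_ne_zero : (1 : k) ≠ 0)] with y hy
  exact clsm_pow hp y hy

lemma clsm_near' (hp : p ≠ 0) (hpk : (p : k) ≠ 0) {x : k} (hx : x ≠ 0) :
    ∀ᶠ y : k in 𝓝 x, y ≠ 0 ∧ clsm p y = clsm p x := by
  have h1 : Tendsto (fun y : k => y / x) (𝓝 x) (𝓝 1) := by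
    have h2 : Continuous (fun y : k => y / x) := by fun_prop
    have h3 := h2.tendsto x
    rwa [div_self hx] at h3
  filter_upwards [h1.eventually (clsm_near_one hp hpk), eventually_ne_nhds hx] with y h2 h3
  rw [clsm_div _ _ h3 hx, sub_eq_zero] at h2
  exact ⟨h3, h2⟩

lemma clsm_cocompact (hp : p ≠ 0) (hpk : (p : k) ≠ 0) (a b : k) :
    ∀ᶠ z : k in cocompact k, clsm p (z - a) = clsm p (z - b) := by
  rw [← Metric.cobounded_eq_cocompact]
  have h1 : Tendsto (fun z : k => z - b) (Bornology.cobounded k) (Bornology.cobounded k) :=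
    tendsto_sub_const_cobounded b
  have h2 : Tendsto (fun z : k => 1 + (b - a) * (z - b)⁻¹) (Bornology.cobounded k) (𝓝 1) := by
    have h3 := (tendsto_inv₀_cobounded.comp h1).const_mul (b - a)
    have h4 := h3.const_add 1
    rw [mul_zero, add_zero] at h4
    exact h4
  filter_upwards [h2.eventually (clsm_near_one hp hpk), h2.eventually
    (eventually_ne_nhds (one_ne_zero : (1 : k) ≠ 0)),
    h1.eventually_ne_cobounded 0] with z h3 h4 h5
  have h6 : z - a = (z - b) * (1 + (b - a) * (z - b)⁻¹) := by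
    rw [mul_add, mul_one, mul_comm (b - a), ← mul_assoc, mul_inv_cancel₀ h5]
    ring
  rw [h6, clsm_mul _ _ h5 h4, h3, add_zero]

/-- compactness of the projective line -/
lemma exists_limit (hp : p ≠ 0) (hpk : (p : k) ≠ 0) (x : k → Cl p k)
    (h : ∀ A₀ : Finset k, ∃ z, ∀ a ∈ A₀, z ≠ a ∧ x a = clsm p (z - a)) :
    (∃ z, ∀ a, a ≠ z → x a = clsm p (z - a)) ∨ (∀ a b, x a = x b) := by
  classical
  let Z : Finset k → Set k := fun A₀ => {z | ∀ a ∈ A₀, z ≠ a ∧ x a = clsm p (z - a)}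
  have hZ : ∀ A B : Finset k, A ⊆ B → Z B ⊆ Z A := fun A B hAB z hz a ha => hz a (hAB ha)
  have hne : NeBot (⨅ A₀ : Finset k, 𝓟 (Z A₀)) := by
    apply iInf_neBot_of_directed
    · intro A B
      refine ⟨A ∪ B, ?_, ?_⟩
      · exact principal_mono.2 (hZ _ _ Finset.subset_union_left)
      · exact principal_mono.2 (hZ _ _ Finset.subset_union_right)
    · intro A
      rw [principal_neBot_iff]
      exact h A
  obtain ⟨U, hU⟩ := Ultrafilter.exists_le (⨅ A₀ : Finset k, 𝓟 (Z A₀))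
  have hZU : ∀ A, Z A ∈ U := fun A => hU (mem_iInf_of_mem A (mem_principal_self _))
  by_cases hK : ∃ K : Set k, IsCompact K ∧ K ∈ U
  · obtain ⟨K, hK, hKU⟩ := hK
    obtain ⟨z, -, hz⟩ := isCompact_iff_ultrafilter_le_nhds.1 hK U (le_principal_iff.2 hKU)
    refine Or.inl ⟨z, fun a ha => ?_⟩
    have h1 : ∀ᶠ y : k in 𝓝 z, clsm p (y - a) = clsm p (z - a) := by
      have h2 : Tendsto (fun y : k => y - a) (𝓝 z) (𝓝 (z - a)) :=
        (continuous_id.sub continuous_const).tendsto z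
      filter_upwards [h2.eventually (clsm_near' hp hpk (sub_ne_zero.2 ha.symm))] with y hy
      exact hy.2
    obtain ⟨y, hy1, hy2⟩ := ((show ∀ᶠ y : k in (U : Filter k), clsm p (y - a) = clsm p (z - a) from hz h1).and
      (hZU {a})).exists
    rw [(hy2 a (Finset.mem_singleton_self a)).2, hy1]
  · push Not at hK
    refine Or.inr fun a b => ?_
    have h1 : ∀ᶠ z : k in (U : Filter k), clsm p (z - a) = clsm p (z - b) := by
      have h2 : (U : Filter k) ≤ cocompact k := by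
        intro S hS
        obtain ⟨K, hK1, hK2⟩ := mem_cocompact.1 hS
        exact mem_of_superset (Ultrafilter.compl_mem_iff_notMem.2 (hK K hK1)) hK2
      exact h2 (clsm_cocompact hp hpk a b)
    obtain ⟨z, hz1, hz2⟩ := (h1.and (hZU {a, b})).exists
    rw [(hz2 a (by simp)).2, (hz2 b (by simp)).2, hz1]


variable {E : Type v} [Field E] [Algebra k E] {χ : E → Cl p k}

/-- `f` takes the value `z` for `χ` -/
def At (χ : E → Cl p k) (f : E) (z : k) : Prop :=
  ∀ a, a ≠ z → f ≠ algebraMap k E a ∧ χ (f - algebraMap k E a) = clsm p (z - a)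

/-- the hypotheses on `χ` -/
structure ChiData (H : Cl p k → Cl p k → ZMod p) (χ : E → Cl p k) : Prop where
  hp : p ≠ 0
  hpk : (p : k) ≠ 0
  hH0 : ∃ u v, H u v ≠ 0
  hHst : ∀ x : k, x ≠ 0 → x ≠ 1 → H (clsm p x) (clsm p (1 - x)) = 0
  hmul : ∀ f g, f ≠ 0 → g ≠ 0 → χ (f * g) = χ f + χ g
  hconst : ∀ c : k, c ≠ 0 → χ (algebraMap k E c) = clsm p c
  hpat : ∀ f : E, (∀ c : k, f ≠ algebraMap k E c) → ∀ A₀ : Finset k, ∃ z : k, ∀ a ∈ A₀, z ≠ a ∧
    χ (f - algebraMap k E a) = clsm p (z - a)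

namespace ChiData

variable {H : Cl p k → Cl p k → ZMod p} (D : ChiData (E := E) H χ)

include D

omit [ProperSpace k] in
lemma chi_div (f g : E) (hf : f ≠ 0) (hg : g ≠ 0) : χ (f / g) = χ f - χ g := by
  have h := D.hmul (f / g) g (div_ne_zero hf hg) hg
  rw [div_mul_cancel₀ _ hg] at h
  rw [h, add_sub_cancel_right]

omit [ProperSpace k] in
lemma at_const (c : k) : At χ (algebraMap k E c) c := by
  intro a ha
  refine ⟨fun h => ha ((algebraMap k E).injective h).symm, ?_⟩
  rw [← map_sub, D.hconst _ (sub_ne_zero.2 ha.symm)]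

omit [ProperSpace k] in
/-- **Steinberg for `χ`**. -/
lemma steinberg (q : E) (hq0 : q ≠ 0) (hq1 : q ≠ 1) : H (χ q) (χ (1 - q)) = 0 := by
  by_cases hq : ∃ c : k, q = algebraMap k E c
  · obtain ⟨c, rfl⟩ := hq
    have hc0 : c ≠ 0 := by rintro rfl; exact hq0 (map_zero _)
    have hc1 : c ≠ 1 := by rintro rfl; exact hq1 (map_one _)
    have h1 : (1 : E) - algebraMap k E c = algebraMap k E (1 - c) := by rw [map_sub, map_one]
    rw [h1, D.hconst c hc0, D.hconst _ (sub_ne_zero.2 hc1.symm)]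
    exact D.hHst c hc0 hc1
  · push Not at hq
    classical
    obtain ⟨z, hz⟩ := D.hpat q hq {0, 1}
    obtain ⟨h0, h0'⟩ := hz 0 (by simp)
    obtain ⟨h1, h1'⟩ := hz 1 (by simp)
    rw [map_zero, sub_zero, sub_zero] at h0'
    rw [map_one] at h1'
    have h2 : (1 : E) - q = algebraMap k E (-1) * (q - 1) := by rw [map_neg, map_one]; ring
    have h3 : (1 : k) - z = (-1) * (z - 1) := by ring
    have h4 : (-1 : k) ≠ 0 := neg_ne_zero.2 one_ne_zero
    have h5 := D.hHst z h0 h1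
    rw [h3, clsm_mul _ _ h4 (sub_ne_zero.2 h1), ← h1', ← D.hconst _ h4,
      ← D.hmul _ _ ((map_ne_zero _).2 h4) (sub_ne_zero.2 hq1), ← h2, ← h0'] at h5
    exact h5

omit [ProperSpace k] in
/-- Steinberg in homogeneous form -/
lemma steinberg' (u v w : E) (hu : u ≠ 0) (hv : v ≠ 0) (hw : w ≠ 0) (h : u + v = w) :
    H (χ u - χ w) (χ v - χ w) = 0 := by
  have h1 : 1 - u / w = v / w := by
    rw [eq_sub_of_add_eq' h, sub_div, div_self hw]
  have h2 := D.steinberg (u / w) (div_ne_zero hu hw) (fun h3 => by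
    rw [h3, sub_self] at h1
    exact div_ne_zero hv hw h1.symm)
  rw [h1, D.chi_div _ _ hu hw, D.chi_div _ _ hv hw] at h2
  exact h2

lemma at_or (f : E) : (∃ z, At χ f z) ∨
    ((∀ c : k, f ≠ algebraMap k E c) ∧
      ∀ a b : k, χ (f - algebraMap k E a) = χ (f - algebraMap k E b)) := by
  by_cases hf : ∃ c : k, f = algebraMap k E c
  · obtain ⟨c, rfl⟩ := hf
    exact Or.inl ⟨c, D.at_const c⟩
  · push Not at hf
    rcases exists_limit D.hp D.hpk (fun a => χ (f - algebraMap k E a)) (D.hpat f hf) with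
      ⟨z, hz⟩ | h
    · exact Or.inl ⟨z, fun a ha => ⟨hf a, hz a ha⟩⟩
    · exact Or.inr ⟨hf, h⟩

omit [ProperSpace k] in
lemma at_add_const {f : E} {z : k} (h : At χ f z) (c : k) :
    At χ (f + algebraMap k E c) (z + c) := by
  intro a ha
  obtain ⟨h1, h2⟩ := h (a - c) (fun h3 => ha (by rw [← h3]; ring))
  rw [map_sub] at h1 h2
  refine ⟨fun h3 => h1 (by rw [← h3]; ring), ?_⟩
  have e1 : f + algebraMap k E c - algebraMap k E a = f - (algebraMap k E a - algebraMap k E c) := by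
    ring
  have e2 : z + c - a = z - (a - c) := by ring
  rw [e1, e2, h2]

lemma at_mul_const {f : E} {z : k} (h : At χ f z) (c : k) :
    At χ (algebraMap k E c * f) (c * z) := by
  by_cases hc : c = 0
  · rw [hc, map_zero, zero_mul, zero_mul]
    have := D.at_const 0
    rwa [map_zero] at this
  intro a ha
  obtain ⟨h1, h2⟩ := h (a / c) (fun h3 => ha (by rw [← h3, mul_div_cancel₀ _ hc]))
  have hcE : algebraMap k E c ≠ 0 := (map_ne_zero _).2 hc
  rw [map_div₀] at h1 h2
  have e1 : algebraMap k E c * f - algebraMap k E a =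
      algebraMap k E c * (f - algebraMap k E a / algebraMap k E c) := by
    field_simp
  have e2 : c * z - a = c * (z - a / c) := by field_simp
  have e3 : z - a / c ≠ 0 := fun h3 => ha (by rw [sub_eq_zero.1 h3, mul_div_cancel₀ _ hc])
  refine ⟨fun h3 => h1 (by rw [← h3]; field_simp), ?_⟩
  rw [e1, e2, D.hmul _ _ hcE (sub_ne_zero.2 h1), clsm_mul _ _ hc e3, D.hconst c hc, h2]

/-- near `0` the class of `h - c` is constant unless `h` takes the value `0` -/
lemma const_near {h : E} (hh : ¬ At χ h 0) :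
    ∃ γ, ∀ᶠ c : k in 𝓝 0, h ≠ algebraMap k E c ∧ χ (h - algebraMap k E c) = γ := by
  rcases D.at_or h with ⟨z, hz⟩ | ⟨h1, h2⟩
  · have hz0 : z ≠ 0 := by rintro rfl; exact hh hz
    refine ⟨clsm p z, ?_⟩
    have h2 : Tendsto (fun c : k => z - c) (𝓝 0) (𝓝 z) := by
      have h5 : Continuous (fun c : k => z - c) := by fun_prop
      have h6 := h5.tendsto 0
      simpa using h6
    filter_upwards [h2.eventually (clsm_near' D.hp D.hpk hz0), eventually_ne_nhds hz0.symm]
      with c hc1 hc2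
    obtain ⟨h3, h4⟩ := hz c hc2
    exact ⟨h3, by rw [h4, hc1.2]⟩
  · exact ⟨χ (h - algebraMap k E 0), Eventually.of_forall fun c => ⟨h1 c, h2 c 0⟩⟩

lemma at_add_zero {f g : E} (hf : At χ f 0) (hg : At χ g 0) : At χ (f + g) 0 := by
  by_contra hcon
  obtain ⟨γ, hγ⟩ := D.const_near hcon
  obtain ⟨u, v, huv⟩ := D.hH0
  apply huv
  have h1 : Tendsto (fun x : k × k => x.1 + x.2) (𝓝 0 ×ˢ 𝓝 0) (𝓝 0) := by
    rw [← nhds_prod_eq]
    have h5 : Continuous (fun x : k × k => x.1 + x.2) := by fun_prop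
    have h6 := h5.tendsto (0, 0)
    simpa using h6
  obtain ⟨pa, hpa, pb, hpb, hab⟩ := eventually_prod_iff.1 (h1.eventually hγ)
  -- choose `a`, `b`
  obtain ⟨a, ha, ha0, ha1⟩ := exists_small_class D.hp (u + γ - clsm p (-1 : k)) hpa
  obtain ⟨b, hb, hb0, hb1⟩ := exists_small_class D.hp (v + γ - clsm p (-1 : k)) hpb
  obtain ⟨h2, h3⟩ := hab ha hb
  obtain ⟨h4, h5⟩ := hf a ha0
  obtain ⟨h6, h7⟩ := hg b hb0
  have hm1 : (-1 : k) ≠ 0 := neg_ne_zero.2 one_ne_zero
  have h8 := D.steinberg' (f - algebraMap k E a) (g - algebraMap k E b)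
    (f + g - algebraMap k E (a + b)) (sub_ne_zero.2 h4) (sub_ne_zero.2 h6) (sub_ne_zero.2 h2)
    (by rw [map_add]; ring)
  have e1 : ∀ c : k, c ≠ 0 → clsm p (0 - c) = clsm p (-1 : k) + clsm p c := fun c hc => by
    rw [← clsm_mul _ _ hm1 hc]
    congr 1
    ring
  rw [h5, h7, h3, e1 a ha0, e1 b hb0, ha1, hb1] at h8
  have e2 : ∀ w : Cl p k, clsm p (-1 : k) + (w + γ - clsm p (-1 : k)) - γ = w := fun w => by abel
  rwa [e2, e2] at h8

lemma at_add {f g : E} {z z' : k} (hf : At χ f z) (hg : At χ g z') : At χ (f + g) (z + z') := by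
  have h1 := D.at_add_const hf (-z)
  have h2 := D.at_add_const hg (-z')
  rw [add_neg_cancel] at h1 h2
  have h3 := D.at_add_const (D.at_add_zero h1 h2) (z + z')
  rw [zero_add] at h3
  have e : f + algebraMap k E (-z) + (g + algebraMap k E (-z')) + algebraMap k E (z + z') =
      f + g := by
    rw [map_neg, map_neg, map_add]
    ring
  rwa [e] at h3

lemma at_mul_zero {f g : E} (hf : At χ f 0) (hg : At χ g 0) : At χ (f * g) 0 := by
  have h00 : At χ (0 : E) 0 := by
    have := D.at_const 0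
    rwa [map_zero] at this
  by_cases hf0 : f = 0
  · rw [hf0, zero_mul]; exact h00
  by_cases hg0 : g = 0
  · rw [hg0, mul_zero]; exact h00
  by_contra hcon
  obtain ⟨γ, hγ⟩ := D.const_near hcon
  obtain ⟨u, v, huv⟩ := D.hH0
  apply huv
  have h1 : Tendsto (fun x : k × k => x.1 * x.2) (𝓝 0 ×ˢ 𝓝 0) (𝓝 0) := by
    rw [← nhds_prod_eq]
    have h5 : Continuous (fun x : k × k => x.1 * x.2) := by fun_prop
    have h6 := h5.tendsto (0, 0)
    simpa using h6
  obtain ⟨pa, hpa, pb, hpb, hab⟩ := eventually_prod_iff.1 (h1.eventually hγ)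
  -- choose `a`, `b`
  obtain ⟨a, ha, ha0, ha1⟩ := exists_small_class D.hp (u + γ - χ g - clsm p (-1 : k)) hpa
  obtain ⟨b, hb, hb0, hb1⟩ := exists_small_class D.hp (v + γ - clsm p a - clsm p (-1 : k)) hpb
  obtain ⟨h2, h3⟩ := hab ha hb
  obtain ⟨h4, h5⟩ := hf a ha0
  obtain ⟨h6, h7⟩ := hg b hb0
  have hm1 : (-1 : k) ≠ 0 := neg_ne_zero.2 one_ne_zero
  have haE : algebraMap k E a ≠ 0 := (map_ne_zero _).2 ha0
  have h8 := D.steinberg' ((f - algebraMap k E a) * g) (algebraMap k E a * (g - algebraMap k E b))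
    (f * g - algebraMap k E (a * b)) (mul_ne_zero (sub_ne_zero.2 h4) hg0)
    (mul_ne_zero haE (sub_ne_zero.2 h6)) (sub_ne_zero.2 h2) (by rw [map_mul]; ring)
  have e1 : ∀ c : k, c ≠ 0 → clsm p (0 - c) = clsm p (-1 : k) + clsm p c := fun c hc => by
    rw [← clsm_mul _ _ hm1 hc]
    congr 1
    ring
  rw [D.hmul _ _ (sub_ne_zero.2 h4) hg0, D.hmul _ _ haE (sub_ne_zero.2 h6), D.hconst a ha0,
    h5, h7, h3, e1 a ha0, e1 b hb0, ha1, hb1] at h8
  have e2 : clsm p (-1 : k) + (u + γ - χ g - clsm p (-1 : k)) + χ g - γ = u := by abel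
  have e3 : ∀ α : Cl p k, α + (clsm p (-1 : k) + (v + γ - α - clsm p (-1 : k))) - γ = v :=
    fun α => by abel
  rw [← ha1, e3] at h8
  rw [ha1, e2] at h8
  exact h8

lemma at_mul {f g : E} {z z' : k} (hf : At χ f z) (hg : At χ g z') : At χ (f * g) (z * z') := by
  have h1 := D.at_add_const hf (-z)
  have h2 := D.at_add_const hg (-z')
  rw [add_neg_cancel] at h1 h2
  have h3 := D.at_add (D.at_add (D.at_mul_zero h1 h2) (D.at_mul_const hg z))
    (D.at_add_const (D.at_mul_const hf z') (-(z * z')))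
  have e : (f + algebraMap k E (-z)) * (g + algebraMap k E (-z')) + algebraMap k E z * g +
      (algebraMap k E z' * f + algebraMap k E (-(z * z'))) = f * g := by
    rw [map_neg, map_neg, map_neg, map_mul]
    ring
  have e' : 0 + z * z' + (z' * z + -(z * z')) = z * z' := by ring
  rwa [e, e'] at h3

lemma at_unique {f : E} {z z' : k} (h : At χ f z) (h' : At χ f z') : z = z' := by
  by_contra hne
  -- `f - z` takes the values `0` and `z' - z`
  have h1 := D.at_add_const h (-z)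
  have h2 := D.at_add_const h' (-z)
  rw [add_neg_cancel] at h1
  have h3 : z' + -z ≠ 0 := fun h4 => hne (by linear_combination -h4)
  obtain ⟨u, v, huv⟩ := D.hH0
  have key : ∀ w : Cl p k, w = clsm p (z' + -z) := by
    intro w
    have h5 : Tendsto (fun c : k => z' + -z - c) (𝓝 0) (𝓝 (z' + -z)) := by
      have h5 : Continuous (fun c : k => z' + -z - c) := by fun_prop
      have h6 := h5.tendsto 0
      simpa using h6
    obtain ⟨c, hc, hc0, hc1⟩ := exists_small_class D.hp (w - clsm p (-1 : k))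
      ((h5.eventually (clsm_near' D.hp D.hpk h3)).and (eventually_ne_nhds h3.symm))
    obtain ⟨hc2, hc3⟩ := hc
    have hm1 : (-1 : k) ≠ 0 := neg_ne_zero.2 one_ne_zero
    have h6 := (h1 c hc0).2
    have h7 := (h2 c hc3).2
    rw [h6] at h7
    have e1 : clsm p (0 - c) = clsm p (-1 : k) + clsm p c := by
      rw [← clsm_mul _ _ hm1 hc0]
      congr 1
      ring
    rw [e1, hc1, hc2.2, add_sub_cancel] at h7
    exact h7
  have h9 : H u v = 0 := by
    have hcl : ∀ a b : Cl p k, a = b := fun a b => (key a).trans (key b).symm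
    obtain ⟨x, hx0, hx1⟩ : ∃ x : k, x ≠ 0 ∧ x ≠ 1 := by
      obtain ⟨x, hx, hx2⟩ := NormedField.exists_norm_lt k (zero_lt_one' ℝ)
      exact ⟨x, norm_pos_iff.1 hx, fun h => by rw [h, norm_one] at hx2; exact lt_irrefl _ hx2⟩
    rw [hcl u (clsm p x), hcl v (clsm p (1 - x))]
    exact D.hHst x hx0 hx1
  exact huv h9

lemma at_inv {f : E} {z : k} (h : At χ f z) (hz : z ≠ 0) : At χ f⁻¹ z⁻¹ := by
  have hf0 : f ≠ 0 := by
    have := (h 0 hz.symm).1
    rwa [map_zero] at this
  intro a ha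
  by_cases ha0 : a = 0
  · rw [ha0, map_zero, sub_zero, sub_zero]
    refine ⟨inv_ne_zero hf0, ?_⟩
    have h1 := (h 0 hz.symm).2
    rw [map_zero, sub_zero, sub_zero] at h1
    have h2 := D.chi_div 1 f one_ne_zero hf0
    have h3 := clsm_div (p := p) (1 : k) z one_ne_zero hz
    have h4 := D.hconst 1 one_ne_zero
    rw [map_one] at h4
    rw [one_div] at h2 h3
    rw [h2, h3, h4, h1]
  obtain ⟨h1, h2⟩ := h a⁻¹ (fun h3 => ha (by rw [← h3, inv_inv]))
  have haE : algebraMap k E a ≠ 0 := (map_ne_zero _).2 ha0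
  rw [map_inv₀] at h1 h2
  have h3 : f⁻¹ ≠ algebraMap k E a := fun h4 => h1 (by rw [← h4, inv_inv])
  refine ⟨h3, ?_⟩
  have h4 := (h 0 hz.symm).2
  rw [map_zero, sub_zero, sub_zero] at h4
  have e1 : f⁻¹ - algebraMap k E a = algebraMap k E (-a) * (f - (algebraMap k E a)⁻¹) / f := by
    rw [map_neg]
    field_simp
    ring
  have e2 : z⁻¹ - a = (-a) * (z - a⁻¹) / z := by
    field_simp
    ring
  have hza : z - a⁻¹ ≠ 0 := fun h5 => ha (by rw [sub_eq_zero.1 h5, inv_inv])
  have ha0' := neg_ne_zero.2 ha0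
  rw [e1, e2, D.chi_div _ _ (mul_ne_zero ((map_ne_zero _).2 ha0') (sub_ne_zero.2 h1)) hf0,
    D.hmul _ _ ((map_ne_zero _).2 ha0') (sub_ne_zero.2 h1), D.hconst _ ha0', h2, h4,
    clsm_div _ _ (mul_ne_zero ha0' hza) hz, clsm_mul _ _ ha0' hza]

lemma at_inv_inf {f : E} (hf : ∀ c : k, f ≠ algebraMap k E c)
    (h : ∀ a b : k, χ (f - algebraMap k E a) = χ (f - algebraMap k E b)) : At χ f⁻¹ 0 := by
  have hf0 : f ≠ 0 := by
    have := hf 0
    rwa [map_zero] at this
  intro a ha0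
  have haE : algebraMap k E a ≠ 0 := (map_ne_zero _).2 ha0
  have h1 : f ≠ (algebraMap k E a)⁻¹ := by
    rw [← map_inv₀]; exact hf _
  refine ⟨fun h4 => h1 (by rw [← h4, inv_inv]), ?_⟩
  have e1 : f⁻¹ - algebraMap k E a = algebraMap k E (-a) * (f - (algebraMap k E a)⁻¹) / f := by
    rw [map_neg]
    field_simp
    ring
  have ha0' := neg_ne_zero.2 ha0
  have h2 := h a⁻¹ 0
  rw [map_inv₀, map_zero, sub_zero] at h2
  rw [e1, D.chi_div _ _ (mul_ne_zero ((map_ne_zero _).2 ha0') (sub_ne_zero.2 h1)) hf0,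
    D.hmul _ _ ((map_ne_zero _).2 ha0') (sub_ne_zero.2 h1), D.hconst _ ha0', h2,
    add_sub_cancel_right, zero_sub]

/-- the valuation ring of the place -/
def vr : ValuationSubring E where
  carrier := {f | ∃ z, At χ f z}
  mul_mem' := by
    rintro f g ⟨z, hz⟩ ⟨z', hz'⟩
    exact ⟨_, D.at_mul hz hz'⟩
  one_mem' := ⟨1, by have := D.at_const 1; rwa [map_one] at this⟩
  add_mem' := by
    rintro f g ⟨z, hz⟩ ⟨z', hz'⟩
    exact ⟨_, D.at_add hz hz'⟩
  zero_mem' := ⟨0, by have := D.at_const 0; rwa [map_zero] at this⟩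
  neg_mem' := by
    rintro f ⟨z, hz⟩
    have := D.at_mul_const hz (-1)
    rw [map_neg, map_one, neg_one_mul] at this
    exact ⟨_, this⟩
  mem_or_inv_mem' := by
    intro f
    rcases D.at_or f with h | ⟨h1, h2⟩
    · exact Or.inl h
    · exact Or.inr ⟨0, D.at_inv_inf h1 h2⟩

lemma mem_vr {f : E} : f ∈ D.vr ↔ ∃ z, At χ f z := Iff.rfl

lemma val_lt_one_iff (V : ValuationSubring E) (x : E) :
    V.valuation x < 1 ↔ x = 0 ∨ x⁻¹ ∉ V := by
  by_cases hx : x = 0
  · simp [hx]
  · rw [← V.valuation_le_one_iff, map_inv₀, not_le,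
      one_lt_inv₀ (zero_lt_iff.2 (V.valuation.ne_zero_iff.2 hx))]
    simp [hx]

lemma val_sub_lt {f : E} {c : k} : D.vr.valuation (f - algebraMap k E c) < 1 ↔ At χ f c := by
  have h10 : At χ (1 : E) 1 := by have := D.at_const 1; rwa [map_one] at this
  constructor
  · intro h
    have h1 : f - algebraMap k E c ∈ D.vr := (D.vr.valuation_le_one_iff _).1 h.le
    obtain ⟨w, hw⟩ := D.mem_vr.1 h1
    have h2 : w = 0 := by
      by_contra hw0
      have h3 := D.at_inv hw hw0
      rcases (D.val_lt_one_iff _ _).1 h with h4 | h4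
      · have h5 := (hw 0 (Ne.symm hw0)).1
        rw [map_zero] at h5
        exact h5 h4
      · exact h4 ⟨_, h3⟩
    rw [h2] at hw
    have h3 := D.at_add_const hw c
    rwa [sub_add_cancel, zero_add] at h3
  · intro h
    have h1 := D.at_add_const h (-c)
    rw [map_neg, ← sub_eq_add_neg, add_neg_cancel] at h1
    rw [D.val_lt_one_iff]
    by_contra hcon
    push Not at hcon
    obtain ⟨h2, w, hw⟩ := hcon
    have h3 := D.at_mul h1 hw
    rw [mul_inv_cancel₀ h2, zero_mul] at h3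
    exact zero_ne_one (D.at_unique h3 h10)

/-- the place -/
theorem exists_place : ∃ V : ValuationSubring E, (∀ c : k, algebraMap k E c ∈ V) ∧
    (∀ x ∈ V, ∃ c : k, V.valuation (x - algebraMap k E c) < 1) ∧
    (∀ (f : E) (c : k), c ≠ 0 → V.valuation (f - algebraMap k E c) < 1 → χ f = clsm p c) ∧
    (∀ f : E, (∀ a : k, f ≠ algebraMap k E a) → ∀ c : k,
      (∀ a : k, a ≠ c → χ (f - algebraMap k E a) = clsm p (c - a)) →
        V.valuation (f - algebraMap k E c) < 1) := by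
  refine ⟨D.vr, fun c => ⟨c, D.at_const c⟩, ?_, ?_, ?_⟩
  · rintro x ⟨z, hz⟩
    exact ⟨z, D.val_sub_lt.2 hz⟩
  · intro f c hc h
    have h1 := (D.val_sub_lt.1 h 0 hc.symm).2
    rwa [map_zero, sub_zero, sub_zero] at h1
  · intro f hf c h
    exact D.val_sub_lt.2 fun a ha => ⟨hf a, h a ha⟩

end ChiData

end normed

section padic

variable {p : ℕ} [Fact p.Prime] {k : Type u} [Field k] [Algebra ℚ_[p] k]
  [FiniteDimensional ℚ_[p] k] {E : Type v} [Field E] [Algebra k E]

/-- **The place defined by a class homomorphism** over a `p`-adic field. -/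
theorem place_of_chi (H : Cl p k →ₗ[ZMod p] Cl p k →ₗ[ZMod p] ZMod p)
    (hH0 : ∃ u v, H u v ≠ 0)
    (hHst : ∀ x : k, x ≠ 0 → x ≠ 1 → H (clsm p x) (clsm p (1 - x)) = 0)
    (χ : E → Cl p k) (hmul : ∀ f g, f ≠ 0 → g ≠ 0 → χ (f * g) = χ f + χ g)
    (hconst : ∀ c : k, c ≠ 0 → χ (algebraMap k E c) = clsm p c)
    (hpat : ∀ f : E, f ∉ Set.range (algebraMap k E) → ∀ A₀ : Finset k,
      ∃ z : k, ∀ a ∈ A₀, z ≠ a ∧ χ (f - algebraMap k E a) = clsm p (z - a)) :
    ∃ V : ValuationSubring E, (∀ c : k, algebraMap k E c ∈ V) ∧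
      (∀ x ∈ V, ∃ c : k, V.valuation (x - algebraMap k E c) < 1) ∧
      (∀ (f : E) (c : k), c ≠ 0 → V.valuation (f - algebraMap k E c) < 1 → χ f = clsm p c) ∧
      (∀ f : E, f ∉ Set.range (algebraMap k E) → ∀ c : k,
        (∀ a : k, a ≠ c → χ (f - algebraMap k E a) = clsm p (c - a)) →
          V.valuation (f - algebraMap k E c) < 1) := by
  have hpp : p.Prime := Fact.out
  let inst1 : NontriviallyNormedField k := spectralNorm.nontriviallyNormedField ℚ_[p] k
  have hproper : ProperSpace k := by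
    let _ : NormedAlgebra ℚ_[p] k := spectralNorm.normedAlgebra ℚ_[p] k
    exact FiniteDimensional.proper ℚ_[p] k
  have : CharZero k := charZero_of_injective_algebraMap (algebraMap ℚ_[p] k).injective
  have D : ChiData (E := E) (fun u v => H u v) χ :=
    { hp := hpp.ne_zero
      hpk := Nat.cast_ne_zero.2 hpp.ne_zero
      hH0 := hH0
      hHst := hHst
      hmul := hmul
      hconst := hconst
      hpat := fun f hf A₀ => hpat f (fun ⟨c, hc⟩ => hf c hc.symm) A₀ }
  obtain ⟨V, h1, h2, h3, h4⟩ := D.exists_place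
  exact ⟨V, h1, h2, h3, fun f hf c h => h4 f (fun a ha => hf ⟨a, ha.symm⟩) c h⟩

end padic

end P025H16
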