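import Vale.Agent.P025.H16.Symbol
import Vale.Agent.P025.H16.Place

open IntermediateField Polynomial
open P025H25 (constClosure GalOf emb NonConst isGalois_const)

namespace P025H16

universe u v w

section arith

variable {k : Type u} [Field k]

/-- `x` and `y` have the same class modulo `p`-th powers -/
def SameClass (p : ℕ) (x y : k) : Prop := ∃ e : k, e ≠ 0 ∧ x = y * e ^ p

lemma SameClass.refl (p : ℕ) (x : k) : SameClass p x x := ⟨1, one_ne_zero, by simp⟩

lemma SameClass.symm {p : ℕ} {x y : k} (h : SameClass p x y) : SameClass p y x := by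
  obtain ⟨e, he, rfl⟩ := h
  refine ⟨e⁻¹, inv_ne_zero he, ?_⟩
  rw [mul_assoc, ← mul_pow, mul_inv_cancel₀ he, one_pow, mul_one]

lemma SameClass.trans {p : ℕ} {x y z : k} (h : SameClass p x y) (h' : SameClass p y z) :
    SameClass p x z := by
  obtain ⟨e, he, rfl⟩ := h
  obtain ⟨f, hf, rfl⟩ := h'
  exact ⟨f * e, mul_ne_zero hf he, by rw [mul_pow, mul_assoc]⟩

/-- The relations between the classes of the functions `t - a`, `a ∈ A`, seen by a section: if
`x a` has the class of `b - a`, then `x c / (b - a)` is a norm from `k(g^{1/p})`,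
`g = (c - a)/(b - a)`. -/
def Relations (p : ℕ) (ζ : k) (A : Finset k) (x : k → k) : Prop :=
  (∀ a ∈ A, x a ≠ 0) ∧ ∀ a ∈ A, ∀ b ∈ A, b ≠ a → SameClass p (x a) (b - a) →
    ∀ c ∈ A, c ≠ a → (∃ e : k, (c - a) / (b - a) = e ^ p) ∨
      IsNormP p ζ ((c - a) / (b - a)) (x c / (b - a))

/-- The relations on `A` imply that on `A₀` the classes are those of `z - a` for some `z ∈ k`. -/
def RigidOn (p : ℕ) (ζ : k) (A A₀ : Finset k) : Prop :=
  ∀ x : k → k, Relations p ζ A x → ∃ z : k, ∀ a ∈ A₀, z ≠ a ∧ SameClass p (x a) (z - a)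

end arith

variable {k : Type u} {K : Type v} [Field k] [Field K] [Algebra k K] [CharZero k]
variable {s : Gal(constClosure k K/k) →* Gal(maxUnr k K/K)}

/-- the classes attached to a section satisfy the relations -/
theorem relations_of_section {p : ℕ} (hp : p.Prime) {ζ : k} (hζ : IsPrimitiveRoot ζ p)
    (hs : IsSection k K s) (t : K) (ht : ∀ z : k, t ≠ algebraMap k K z) (A : Finset k)
    (hdiv : ∀ a ∈ A, IsDiv p k (t - algebraMap k K a)) :
    ∃ (x : k → k) (y : k → maxUnr k K), Relations p ζ A x ∧ ∀ a ∈ A, (∀ σ, s σ (y a) = y a) ∧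
      y a ≠ 0 ∧ algebraMap K (maxUnr k K) (t - algebraMap k K a) =
        algebraMap k (maxUnr k K) (x a) * y a ^ p := by
  have h1 : ∀ a ∈ A, ∃ (x : k) (y : maxUnr k K), x ≠ 0 ∧ (∀ σ, s σ y = y) ∧
      algebraMap K (maxUnr k K) (t - algebraMap k K a) =
        algebraMap k (maxUnr k K) x * y ^ p := by
    intro a ha
    exact exists_class hp hζ hs _ (fun h0 => ht _ (sub_eq_zero.1 h0)) (hdiv a ha)
  choose! x y hx0 hy hxy using h1
  refine ⟨x, y, ⟨hx0, ?_⟩, fun a ha => ⟨hy a ha, ?_, hxy a ha⟩⟩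
  · rintro a ha b hb hab ⟨e, he0, he⟩ c hc hca
    refine norm_relation hp hζ hs t ht a b c hab hca (hdiv a ha) (hdiv b hb) (hdiv c hc)
      (algebraMap k (maxUnr k K) e * y a) (y c) (x c) ?_ (hy c hc) ?_ (hxy c hc)
    · intro σ
      rw [map_mul, s_const, hy a ha]
    · rw [hxy a ha, he, map_mul, map_pow, mul_pow, mul_assoc]
  · intro h0
    have h3 := hxy a ha
    rw [h0, zero_pow hp.ne_zero, mul_zero, map_eq_zero] at h3
    exact ht _ (sub_eq_zero.1 h3)

/-- **Kummer shadow.** -/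
theorem kummer_shadow {p : ℕ} (hp : p.Prime) {ζ : k} (hζ : IsPrimitiveRoot ζ p)
    (hs : IsSection k K s) (t : K) (ht : ∀ z : k, t ≠ algebraMap k K z) (A A₀ : Finset k)
    (hA : A₀ ⊆ A) (hrig : RigidOn p ζ A A₀)
    (hdiv : ∀ a ∈ A, IsDiv p k (t - algebraMap k K a)) :
    ∃ z : k, ∀ a ∈ A₀, z ≠ a ∧ ∃ y : maxUnr k K, (∀ σ, s σ y = y) ∧ y ≠ 0 ∧
      algebraMap K (maxUnr k K) (t - algebraMap k K a) =
        algebraMap k (maxUnr k K) (z - a) * y ^ p := by
  obtain ⟨x, y, hrel, hy⟩ := relations_of_section hp hζ hs t ht A hdiv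
  obtain ⟨z, hz⟩ := hrig x hrel
  refine ⟨z, fun a ha => ⟨(hz a ha).1, ?_⟩⟩
  obtain ⟨hfix, hy0, hty⟩ := hy a (hA ha)
  obtain ⟨e, he0, he⟩ := (hz a ha).2
  refine ⟨algebraMap k (maxUnr k K) e * y a, ?_, ?_, ?_⟩
  · intro σ
    rw [map_mul, s_const, hfix]
  · exact mul_ne_zero ((_root_.map_ne_zero _).2 he0) hy0
  · rw [hty, he, map_mul, map_pow, mul_pow, mul_assoc]

/-- a relation `c w^p = ∏ (t - a)^{m_a}` gives a constant -/
theorem exists_eta {p : ℕ} (hp : p.Prime) (hs : IsSection k K s) (c : k) (hc : c ≠ 0) (w : K)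
    (S : Finset k) (m : k → ℕ) (f : k → K) (x : k → k) (y : k → maxUnr k K)
    (hy : ∀ a ∈ S, ∀ σ, s σ (y a) = y a) (hy0 : ∀ a ∈ S, y a ≠ 0)
    (hf : ∀ a ∈ S, algebraMap K (maxUnr k K) (f a) = algebraMap k (maxUnr k K) (x a) * y a ^ p)
    (hw : algebraMap k K c * w ^ p = ∏ a ∈ S, f a ^ m a) :
    ∃ η : k, algebraMap K (maxUnr k K) w =
        algebraMap k (maxUnr k K) η * ∏ a ∈ S, y a ^ m a ∧
      c * η ^ p = ∏ a ∈ S, x a ^ m a := by
  have htow : IsScalarTower k (maxUnr k K) (AlgebraicClosure K) :=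
    IsScalarTower.of_algebraMap_eq (fun x => by
      rw [IsScalarTower.algebraMap_apply k K (AlgebraicClosure K)]; rfl)
  set P : maxUnr k K := ∏ a ∈ S, y a ^ m a with hP
  have hP0 : P ≠ 0 := Finset.prod_ne_zero_iff.2 (fun a ha => pow_ne_zero _ (hy0 a ha))
  set W : maxUnr k K := algebraMap K (maxUnr k K) w / P with hW
  have hWfix : ∀ σ, s σ W = W := by
    intro σ
    rw [hW, map_div₀, AlgEquiv.commutes, hP, map_prod]
    congr 1
    refine Finset.prod_congr rfl (fun a ha => ?_)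
    rw [map_pow, hy a ha]
  have hWp : algebraMap k (maxUnr k K) c * W ^ p =
      algebraMap k (maxUnr k K) (∏ a ∈ S, x a ^ m a) := by
    have h1 := congrArg (algebraMap K (maxUnr k K)) hw
    rw [map_mul, map_pow, ← IsScalarTower.algebraMap_apply, map_prod] at h1
    have h2 : ∏ a ∈ S, algebraMap K (maxUnr k K) (f a ^ m a) =
        algebraMap k (maxUnr k K) (∏ a ∈ S, x a ^ m a) * P ^ p := by
      rw [hP, map_prod, ← Finset.prod_pow, ← Finset.prod_mul_distrib]
      refine Finset.prod_congr rfl (fun a ha => ?_)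
      rw [map_pow, hf a ha, mul_pow, map_pow, ← pow_mul, ← pow_mul, mul_comm p]
    rw [h2] at h1
    rw [hW, div_pow, ← mul_div_assoc, h1, mul_div_cancel_right₀ _ (pow_ne_zero p hP0)]
  have hcT : algebraMap k (maxUnr k K) c ≠ 0 := (_root_.map_ne_zero _).2 hc
  have hWalg : IsAlgebraic k (W : AlgebraicClosure K) := by
    apply IsAlgebraic.of_pow hp.pos
    have h1 : (W : AlgebraicClosure K) ^ p =
        algebraMap k (AlgebraicClosure K) (c⁻¹ * ∏ a ∈ S, x a ^ m a) := by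
      have h2 : W ^ p = algebraMap k (maxUnr k K) (c⁻¹ * ∏ a ∈ S, x a ^ m a) := by
        rw [map_mul, ← hWp, map_inv₀, ← mul_assoc, inv_mul_cancel₀ hcT, one_mul]
      have h3 := congrArg (algebraMap (maxUnr k K) (AlgebraicClosure K)) h2
      rw [← IsScalarTower.algebraMap_apply, map_pow] at h3
      exact h3
    rw [h1]
    exact isAlgebraic_algebraMap _
  obtain ⟨η, hη⟩ := fixed_algebraic hs W hWfix hWalg
  refine ⟨η, ?_, ?_⟩
  · rw [← hη, hW, div_mul_cancel₀ _ hP0]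
  · apply (algebraMap k (maxUnr k K)).injective
    rw [map_mul, map_pow, ← hη, hWp]

end P025H16
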