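import Vale.Agent.P025.H16.SteinN

/-! # The Steinberg relation for sections, any exponent: main theorem -/

open IntermediateField

namespace P025H16

universe u v w

open Polynomial P025H641

variable {k : Type u} {K : Type v} [Field k] [Field K] [Algebra k K] [CharZero k]

/-- classes of divisible functions -/
lemma exists_class_n (s : Section k K) {n : ℕ} (hn : 0 < n) (f : K) (hf0 : f ≠ 0)
    (hf : IsDivisible n k f) : ∃ (a : k) (l : constClosure k K) (y : maxUnr k K), l ≠ 0 ∧ y ≠ 0 ∧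
      l ^ n = algebraMap k (constClosure k K) a ∧ (∀ σ, s.toHom σ y = y) ∧
      (incl k K l * y) ^ n = algebraMap K (maxUnr k K) f := by
  classical
  have hpk : (n : k) ≠ 0 := by exact_mod_cast hn.ne'
  have hs := s.isSection
  obtain ⟨γ', hγ'⟩ := IsAlgClosed.exists_pow_nat_eq (algebraMap K (AlgebraicClosure K) f) hn
  obtain ⟨F, hF, -, hγF⟩ := (isFinUnr_bot (k := k) (K := K)).exists_root hpk γ'
    (algebraMap K (⊥ : IntermediateField K (AlgebraicClosure K)) f) hγ'
    (hf.map_algebraMap (E := (⊥ : IntermediateField K (AlgebraicClosure K))))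
  set γ : maxUnr k K := ⟨γ', hF.le_maxUnr hγF⟩ with hγdef
  have hγ : γ ^ n = algebraMap K (maxUnr k K) f := Subtype.ext hγ'
  have hfM : algebraMap K (maxUnr k K) f ≠ 0 := (_root_.map_ne_zero _).2 hf0
  have hγ0 : γ ≠ 0 := by
    intro h0
    rw [h0, zero_pow hn.ne'] at hγ
    exact hfM hγ.symm
  obtain ⟨l, hl0, hlint, hlH⟩ := exists_const_class_gen hs hn ⊤ isClosed_univ γ hγ0
    (fun σ _ => by rw [hγ]; exact AlgEquiv.commutes _ _)
  obtain ⟨lC, rfl⟩ := exists_incl l hlint
  have hlC0 : lC ≠ 0 := by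
    rintro rfl
    exact hl0 (map_zero _)
  have hy : ∀ σ, s.toHom σ (γ / incl k K lC) = γ / incl k K lC := fun σ => hlH σ trivial
  obtain ⟨a, ha⟩ := exists_k0 hs (incl k K lC ^ n) (hlint.pow n) (by
    intro σ
    have h1 : incl k K lC ^ n = algebraMap K (maxUnr k K) f / (γ / incl k K lC) ^ n := by
      rw [div_pow, hγ]
      field_simp
    rw [h1, map_div₀, map_pow, hy, AlgEquiv.commutes])
  refine ⟨a, lC, γ / incl k K lC, hlC0, div_ne_zero hγ0 hl0, ?_, hy, ?_⟩
  · apply (incl k K).injective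
    rw [map_pow, ← ha]
    rfl
  · rw [mul_div_cancel₀ _ hl0, hγ]

/-- **The Steinberg relation for sections**, with given representatives. -/
theorem steinberg_n (s : Section k K) {n : ℕ} (hn : 0 < n) {ζ : k} (hζ : IsPrimitiveRoot ζ n)
    (g : K) (hg1 : g ≠ 1) (h1 : IsDivisible n k g)
    (h1' : Even n → IsDivisible (2 * n) k g) (h2 : IsDivisible n k (1 - g))
    (a b : k) (l : constClosure k K) (y y' : maxUnr k K) (hl0 : l ≠ 0)
    (hl : l ^ n = algebraMap k (constClosure k K) a)
    (hy : ∀ σ, s.toHom σ y = y) (hy' : ∀ σ, s.toHom σ y' = y')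
    (hg : (incl k K l * y) ^ n = algebraMap K (maxUnr k K) g)
    (hg' : algebraMap K (maxUnr k K) (1 - g) = algebraMap k (maxUnr k K) b * y' ^ n) :
    NormTrivial n a b := by
  classical
  have hn' : NeZero n := ⟨hn.ne'⟩
  have hpk : (n : k) ≠ 0 := by exact_mod_cast hn.ne'
  have hs := s.isSection
  set t := s.toHom with ht
  have hΩc : IsAlgClosure k (constClosure k K) := inferInstance
  have hΩn : Normal k (constClosure k K) := IsAlgClosure.normal k _
  have hlint : IsIntegral k l := Algebra.IsIntegral.isIntegral l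
  -- the field `k(l)`
  set k₁ : IntermediateField k (constClosure k K) := IntermediateField.adjoin k {l} with hk₁
  set L : k₁ := ⟨l, IntermediateField.mem_adjoin_simple_self k l⟩ with hL
  have hL0 : L ≠ 0 := fun h => hl0 (congrArg Subtype.val h)
  have hfin : FiniteDimensional k k₁ := IntermediateField.adjoin.finiteDimensional hlint
  have hLn : L ^ n = algebraMap k k₁ a := Subtype.ext hl
  set ζ₁ : k₁ := algebraMap k k₁ ζ with hζ₁
  have hζ₁p : IsPrimitiveRoot ζ₁ n := hζ.map_of_injective (algebraMap k k₁).injective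
  -- `k(l)` is stable
  have hact : ∀ ρ : constClosure k K →ₐ[k] constClosure k K,
      ∃ j : ℕ, ρ l = algebraMap k _ ζ ^ j * l := by
    intro ρ
    have h3 : (ρ l / l) ^ n = 1 := by
      rw [div_pow, ← map_pow, hl, AlgHom.commutes, ← hl, div_self (pow_ne_zero n hl0)]
    obtain ⟨j, -, hj⟩ := (hζ.map_of_injective
      (algebraMap k (constClosure k K)).injective).eq_pow_of_pow_eq_one h3
    exact ⟨j, by rw [hj, div_mul_cancel₀ _ hl0]⟩
  have hnorm : Normal k k₁ := by
    rw [IntermediateField.normal_iff_forall_map_le]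
    intro ρ
    rw [hk₁, IntermediateField.adjoin_map, IntermediateField.adjoin_le_iff]
    rintro _ ⟨x, hx, rfl⟩
    rw [Set.mem_singleton_iff] at hx
    rw [hx]
    obtain ⟨j, hj⟩ := hact ρ
    rw [SetLike.mem_coe]
    show ρ l ∈ _
    rw [hj]
    exact mul_mem (pow_mem (k₁.algebraMap_mem ζ) j) (IntermediateField.mem_adjoin_simple_self k l)
  have hgal : IsGalois k k₁ := ⟨⟩
  -- the action on `L`
  have hrat : ∀ ρ : Gal(k₁/k), ∃ j : ℕ, ρ L = ζ₁ ^ j * L := by
    intro ρ
    have h3 : (ρ L / L) ^ n = 1 := by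
      rw [div_pow, ← map_pow, hLn, AlgEquiv.commutes, ← hLn, div_self (pow_ne_zero n hL0)]
    obtain ⟨j, -, hj⟩ := hζ₁p.eq_pow_of_pow_eq_one h3
    exact ⟨j, by rw [hj, div_mul_cancel₀ _ hL0]⟩
  have hfaith : ∀ ρ : Gal(k₁/k), ρ L = L → ρ = 1 := by
    intro ρ hρ
    apply AlgEquiv.ext
    intro x
    have hLint : IsIntegral k l := hlint
    have hx : (x : constClosure k K) ∈ Algebra.adjoin k {l} := by
      rw [← IntermediateField.adjoin_simple_toSubalgebra_of_isAlgebraic hLint.isAlgebraic]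
      exact x.2
    rw [Algebra.adjoin_singleton_eq_range_aeval] at hx
    obtain ⟨P, hP⟩ := hx
    have hxP : x = aeval L P := by
      apply Subtype.ext
      rw [← hP]
      exact Polynomial.aeval_algHom_apply k₁.val L P
    rw [hxP, ← Polynomial.aeval_algHom_apply, hρ]
    rfl
  have hcyc : IsCyclic Gal(k₁/k) := by
    let φ : Gal(k₁/k) →* k₁ :=
      { toFun := fun ρ => ρ L / L
        map_one' := div_self hL0
        map_mul' := fun ρ ρ' => by
          obtain ⟨j, hj⟩ := hrat ρ'
          have h3 : ρ ζ₁ = ζ₁ := AlgEquiv.commutes _ _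
          rw [AlgEquiv.mul_apply, hj, map_mul, map_pow, h3, mul_div_assoc, mul_div_assoc,
            div_self hL0, mul_one, mul_comm] }
    refine isCyclic_of_injective_ringHom φ ?_
    rw [injective_iff_map_eq_one]
    intro ρ hρ
    exact hfaith ρ ((div_eq_one_iff_eq hL0).1 hρ)
  obtain ⟨σ, hσ⟩ := IsCyclic.exists_generator (α := Gal(k₁/k))
  set d := Module.finrank k k₁ with hd
  have hd0 : 0 < d := Module.finrank_pos
  have hord : orderOf σ = d := by
    rw [orderOf_eq_card_of_forall_mem_zpowers hσ, IsGalois.card_aut_eq_finrank]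
  obtain ⟨j₀, hj₀⟩ := hrat σ
  set ξ : k₁ := ζ₁ ^ j₀ with hξ
  have hσξ : σ ξ = ξ := by
    rw [hξ, map_pow]
    congr 1
    exact AlgEquiv.commutes _ _
  have hpow : ∀ i : ℕ, (σ ^ i) L = ξ ^ i * L := by
    intro i
    induction i with
    | zero => rw [pow_zero, pow_zero, one_mul]; rfl
    | succ i ih => rw [pow_succ', AlgEquiv.mul_apply, ih, map_mul, map_pow, hσξ, hj₀]; ring
  have hξd : IsPrimitiveRoot ξ d := by
    rw [IsPrimitiveRoot.iff_def]
    constructor
    · have h3 := hpow d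
      rw [← hord, pow_orderOf_eq_one, hord] at h3
      exact (mul_right_cancel₀ hL0 ((one_mul L).trans h3)).symm
    · intro m hm
      rw [← hord]
      apply orderOf_dvd_of_pow_eq_one
      apply hfaith
      rw [hpow, hm, one_mul]
  have hξn : ξ ^ n = 1 := by
    rw [hξ, ← pow_mul, mul_comm, pow_mul, hζ₁p.pow_eq_one, one_pow]
  obtain ⟨e, hne⟩ := hξd.dvd_of_pow_eq_one n hξn
  have he0 : 0 < e := Nat.pos_of_ne_zero (by rintro rfl; omega)
  -- the lift of the generator
  obtain ⟨τ, hτe⟩ : ∃ τ : Gal(constClosure k K/k), ∀ c, τ (k₁.val c) = k₁.val (σ c) := by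
    obtain ⟨τ, hτ⟩ := AlgEquiv.restrictNormalHom_surjective (F := k) (K₁ := k₁)
      (constClosure k K) σ
    refine ⟨τ, fun c => ?_⟩
    have h3 := τ.restrictNormal_commutes k₁ c
    have h4 : τ.restrictNormal k₁ = σ := hτ
    rw [h4] at h3
    exact h3.symm
  set Z : maxUnr k K := algebraMap k (maxUnr k K) ζ with hZ
  have hZp : IsPrimitiveRoot Z n := hζ.map_of_injective (algebraMap k (maxUnr k K)).injective
  set Ξ : maxUnr k K := incl k K (k₁.val ξ) with hΞ
  have hΞp : IsPrimitiveRoot Ξ d :=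
    (hξd.map_of_injective (f := k₁.val) k₁.val.injective).map_of_injective (incl k K).injective
  have hΞZ : Ξ = Z ^ j₀ := by
    rw [hΞ, hξ, map_pow, map_pow, hζ₁, AlgHom.commutes]
    rfl
  have hZs : ∀ ρ, t ρ Z = Z := by
    intro ρ
    rw [hZ, IsScalarTower.algebraMap_apply k K (maxUnr k K), AlgEquiv.commutes]
  have hΞs : ∀ ρ, t ρ Ξ = Ξ := by
    intro ρ
    rw [hΞZ, map_pow, hZs]
  set ω : maxUnr k K := incl k K l * y with hω
  have hωτ : t τ ω = Ξ * ω := by
    have h3 : τ l = k₁.val (σ L) := hτe L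
    rw [hω, map_mul, hy, act_incl hs, h3, hj₀, map_mul, map_mul, ← hΞ, mul_assoc]
    rfl
  have hωH : ∀ ρ : Gal(constClosure k K/k), (∀ c, ρ (k₁.val c) = k₁.val c) → t ρ ω = ω := by
    intro ρ hρ
    have h3 : ρ l = l := hρ L
    rw [hω, map_mul, hy, act_incl hs, h3]
  set U : ℕ → maxUnr k K := fun i => ∏ j ∈ Finset.range e, (1 - Z ^ j * Ξ ^ i * ω) with hU
  have hUs : ∀ i, t τ (U i) = U (i + 1) := by
    intro i
    rw [hU]
    simp only
    rw [map_prod]
    refine Finset.prod_congr rfl (fun j _ => ?_)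
    rw [map_sub, map_one, map_mul, map_mul, map_pow, map_pow, hZs, hΞs, hωτ]
    ring
  have hU0s : ∀ i, t (τ ^ i) (U 0) = U i := by
    intro i
    induction i with
    | zero => rw [pow_zero, map_one]; rfl
    | succ i ih => rw [pow_succ', map_mul, AlgEquiv.mul_apply, ih, hUs]
  have hUH : ∀ ρ : Gal(constClosure k K/k), (∀ c, ρ (k₁.val c) = k₁.val c) →
      ∀ i, t ρ (U i) = U i := by
    intro ρ hρ i
    rw [hU]
    simp only
    rw [map_prod]
    refine Finset.prod_congr rfl (fun j _ => ?_)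
    rw [map_sub, map_one, map_mul, map_mul, map_pow, map_pow, hZs, hΞs, hωH ρ hρ]
  have hprod : ∏ i ∈ Finset.range d, U i = algebraMap k (maxUnr k K) b * y' ^ n := by
    rw [hU]
    simp only
    rw [two_step hne hd0 he0 hZp hΞp ω, hg, ← hg', map_sub, map_one]
  have h1g : algebraMap K (maxUnr k K) (1 - g) ≠ 0 := by
    rw [_root_.map_ne_zero]
    exact sub_ne_zero.2 (Ne.symm hg1)
  have hy'0 : y' ≠ 0 := by
    rintro rfl
    rw [zero_pow hn.ne', mul_zero] at hg'
    exact h1g hg'
  have hUi0 : ∀ i < d, U i ≠ 0 := by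
    intro i hi
    have h3 : ∏ i ∈ Finset.range d, U i ≠ 0 := by rw [hprod, ← hg']; exact h1g
    exact Finset.prod_ne_zero_iff.1 h3 i (Finset.mem_range.2 hi)
  set u : maxUnr k K := U 0 / y' ^ e with hu
  set h : maxUnr k K := ∏ i ∈ Finset.range d, U i ^ (d - 1 - i) with hh
  -- the root of `h`
  obtain ⟨γ, hγ⟩ : ∃ γ : maxUnr k K, γ ^ d = h := by
    have hdk : (d : k) ≠ 0 := by exact_mod_cast hd0.ne'
    have hF0 := isFinUnr_bot (k := k) (K := K)
    obtain ⟨F, hF, -, hωF⟩ := hF0.exists_root hpk (ω : AlgebraicClosure K)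
      (algebraMap K (⊥ : IntermediateField K (AlgebraicClosure K)) g)
      (congrArg (fun z : maxUnr k K => (z : AlgebraicClosure K)) hg)
      (h1.map_algebraMap (E := (⊥ : IntermediateField K (AlgebraicClosure K))))
    have hωgF : (⟨(ω : AlgebraicClosure K), hωF⟩ : F) ^ n = algebraMap K F g :=
      Subtype.ext (congrArg (fun z : maxUnr k K => (z : AlgebraicClosure K)) hg)
    have hζF : IsPrimitiveRoot (algebraMap k F ζ) n :=
      hζ.map_of_injective (algebraMap k F).injective
    have hξk : (ζ ^ j₀) ^ d = 1 := by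
      apply (algebraMap k k₁).injective
      rw [map_pow, map_pow, map_one]
      exact hξd.pow_eq_one
    have hξF : ((algebraMap k F ζ) ^ j₀) ^ d = 1 := by
      rw [← map_pow, ← map_pow, hξk, map_one]
    have h3 := isDivisible_steinberg (k := k) hne hd0 he0 hζF ((algebraMap k F ζ) ^ j₀)
      (⟨(ω : AlgebraicClosure K), hωF⟩ : F) (algebraMap K F g) hξF hωgF
      (fun hev => (h1' hev).map_algebraMap (E := F)) (by
        have h4 := h2.map_algebraMap (E := F)
        rwa [map_sub, map_one] at h4)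
    obtain ⟨γ', hγ'⟩ := IsAlgClosed.exists_pow_nat_eq (h : AlgebraicClosure K) hd0
    have h5 : algebraMap F (AlgebraicClosure K) (∏ i ∈ Finset.range d,
        (∏ j ∈ Finset.range e, (1 - algebraMap k F ζ ^ j * (algebraMap k F ζ ^ j₀) ^ i *
          (⟨(ω : AlgebraicClosure K), hωF⟩ : F))) ^ (d - 1 - i)) =
        algebraMap (maxUnr k K) (AlgebraicClosure K) h := by
      rw [hh, map_prod, map_prod]
      refine Finset.prod_congr rfl (fun i _ => ?_)
      rw [map_pow, map_pow]
      congr 1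
      rw [hU]
      simp only
      rw [map_prod, map_prod]
      refine Finset.prod_congr rfl (fun j _ => ?_)
      rw [hΞZ]
      simp only [map_sub, map_one, map_mul, map_pow]
      rfl
    obtain ⟨F2, hF2, -, hγF2⟩ := hF.exists_root hdk γ' _ (hγ'.trans h5.symm) h3
    exact ⟨⟨γ', hF2.le_maxUnr hγF2⟩, Subtype.ext hγ'⟩
  have hh0 : h ≠ 0 := by
    rw [hh]
    exact Finset.prod_ne_zero_iff.2 (fun i hi => pow_ne_zero _ (hUi0 i (Finset.mem_range.1 hi)))
  obtain ⟨z, hz⟩ := norm_thm_tors hs d hd.symm k₁.val σ hσ τ hτe b d hd0 (algebraMap k k₁ b) u h γ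
    (div_ne_zero (hUi0 0 hd0) (pow_ne_zero _ hy'0)) hh0
    (by
      intro ρ hρ
      rw [hu, map_div₀, map_pow, hUH ρ hρ, hy'])
    (by
      intro ρ hρ
      rw [hh, map_prod]
      refine Finset.prod_congr rfl (fun i _ => ?_)
      rw [map_pow, hUH ρ hρ])
    (by
      have h3 : ∀ i ∈ Finset.range d, t (τ ^ i) u = U i / y' ^ e := by
        intro i _
        rw [hu, map_div₀, hU0s, map_pow (t (τ ^ i)), hy']
      rw [Finset.prod_congr rfl h3, Finset.prod_div_distrib, hprod, Finset.prod_const,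
        Finset.card_range, ← pow_mul, mul_comm e d, ← hne, mul_div_assoc,
        div_self (pow_ne_zero n hy'0), mul_one]) hγ (by
      have h3 := tele U d
      have h4 : t τ h = ∏ i ∈ Finset.range d, U (i + 1) ^ (d - 1 - i) := by
        rw [hh, map_prod]
        refine Finset.prod_congr rfl (fun i _ => ?_)
        rw [map_pow, hUs]
      rw [← h4, hprod, ← hh] at h3
      have h5 : incl k K (k₁.val (algebraMap k k₁ b)) = algebraMap k (maxUnr k K) b := by
        rw [AlgHom.commutes]
        rfl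
      rw [h5, hu, div_pow, ← pow_mul, mul_comm e d, ← hne, div_mul_eq_mul_div, h3,
        div_eq_iff (pow_ne_zero n hy'0)]
      ring)
  exact normTrivial_of l hl z hz

/-- **The Steinberg relation for sections**: all representatives. -/
theorem steinberg_repr (s : Section k K) {n : ℕ} (hn : 0 < n) {ζ : k} (hζ : IsPrimitiveRoot ζ n)
    (g : K) (hg1 : g ≠ 1) (h1 : IsDivisible n k g)
    (h1' : Even n → IsDivisible (2 * n) k g) (h2 : IsDivisible n k (1 - g))
    (a b : k) (ha0 : a ≠ 0) (y y' : maxUnr k K) (hy : ∀ σ, s.toHom σ y = y) (hy' : ∀ σ, s.toHom σ y' = y')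
    (hg : algebraMap K (maxUnr k K) g = algebraMap k (maxUnr k K) a * y ^ n)
    (hg' : algebraMap K (maxUnr k K) (1 - g) = algebraMap k (maxUnr k K) b * y' ^ n) :
    NormTrivial n a b := by
  have hΩc : IsAlgClosed (constClosure k K) :=
    (inferInstance : IsAlgClosure k (constClosure k K)).isAlgClosed
  obtain ⟨l, hl⟩ := IsAlgClosed.exists_pow_nat_eq (algebraMap k (constClosure k K) a) hn
  have hincl : incl k K l ^ n = algebraMap k (maxUnr k K) a := by
    rw [← map_pow, hl, incl_algebraMap]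
  refine steinberg_n s hn hζ g hg1 h1 h1' h2 a b l y y' ?_ hl hy hy' ?_ hg'
  · rintro rfl
    rw [zero_pow hn.ne'] at hl
    exact ha0 ((_root_.map_eq_zero _).1 hl.symm)
  · rw [mul_pow, hincl, hg]

/-- **The Steinberg relation for sections**: existence of representatives. -/
theorem exists_repr (s : Section k K) {n : ℕ} (hn : 0 < n) (g : K) (hg0 : g ≠ 0)
    (h1 : IsDivisible n k g) : ∃ (a : k) (y : maxUnr k K), a ≠ 0 ∧ (∀ σ, s.toHom σ y = y) ∧
      algebraMap K (maxUnr k K) g = algebraMap k (maxUnr k K) a * y ^ n := by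
  obtain ⟨a, l, y, hl0, -, hl, hy, hg⟩ := exists_class_n s hn g hg0 h1
  refine ⟨a, y, ?_, hy, ?_⟩
  · rintro rfl
    rw [map_zero] at hl
    exact hl0 (pow_eq_zero_iff hn.ne' |>.1 hl)
  · rw [← hg, mul_pow, ← map_pow, hl, incl_algebraMap]

end P025H16
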