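import Vale.Agent.P025.H16.NormThm
import Vale.Agent.P025.H641.Stein

/-! # The Steinberg relation for sections, `p` odd -/

open IntermediateField

namespace P025H16

universe u v w

open Polynomial P025H641

/-- the values of linear factors `1 - η w` -/
lemma val_lin {k : Type u} [Field k] {E : Type w} [Field E] [Algebra k E] {p : ℕ}
    (hp : 0 < p) {ζ : E} (hζ : IsPrimitiveRoot ζ p) (w g η : E) (hw : w ^ p = g)
    (hη : η ^ p = 1) (h2 : IsDivisible p k (1 - g)) {V : ValuationSubring E} (hV : IsPlace k E V)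
    (hfin : V.valuation w ≤ 1) : ∃ z : E, V.valuation (1 - η * w) = V.valuation z ^ p := by
  have hηint : IsIntegral k η := isIntegral_of_pow' hp (by rw [hη]; exact isIntegral_one)
  have hη0 : η ≠ 0 := by
    rintro rfl
    rw [zero_pow hp.ne'] at hη
    exact zero_ne_one hη
  have hηv := hV.val_alg hηint hη0
  have hle : V.valuation (η * w) ≤ 1 := by rw [map_mul, hηv, one_mul]; exact hfin
  rcases hV.factor hp hζ 1 (η * w) isIntegral_one one_ne_zero hle with h | h
  · refine ⟨1, ?_⟩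
    rw [map_one, one_pow, ← h, ← Valuation.map_neg, neg_sub]
  · obtain ⟨z, hz⟩ := h2 V hV
    refine ⟨z, ?_⟩
    rw [← hz, ← Valuation.map_neg, neg_sub, h, mul_pow, hη, one_mul, hw, one_pow,
      ← Valuation.map_neg, neg_sub]

/-- `(1 - η w) / (1 - w)` is divisible by `p` when `w ^ p = g` and `1 - g` is divisible by `p` -/
lemma isDivisible_quot_root {k : Type u} [Field k] {E : Type w} [Field E] [Algebra k E] {p : ℕ}
    (hp : 0 < p) {ζ : E} (hζ : IsPrimitiveRoot ζ p) (w g η : E) (hw : w ^ p = g)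
    (hη : η ^ p = 1) (h2 : IsDivisible p k (1 - g)) :
    IsDivisible p k ((1 - η * w) / (1 - w)) := by
  intro V hV
  rcases le_or_gt (V.valuation w) 1 with hfin | hpole
  · obtain ⟨z1, hz1⟩ := val_lin hp hζ w g η hw hη h2 hV hfin
    obtain ⟨z2, hz2⟩ := val_lin hp hζ w g 1 hw (one_pow p) h2 hV hfin
    rw [one_mul] at hz2
    exact ⟨z1 / z2, by rw [map_div₀, map_div₀, hz1, hz2, div_pow]⟩
  · have hηint : IsIntegral k η := isIntegral_of_pow' hp (by rw [hη]; exact isIntegral_one)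
    have hη0 : η ≠ 0 := by
      rintro rfl
      rw [zero_pow hp.ne'] at hη
      exact zero_ne_one hη
    have hηv := hV.val_alg hηint hη0
    have h3 : V.valuation (1 - w) = V.valuation w := by
      rw [Valuation.map_sub_eq_of_lt_right]
      rw [map_one]; exact hpole
    have h4 : V.valuation (1 - η * w) = V.valuation w := by
      have h5 : V.valuation (η * w) = V.valuation w := by rw [map_mul, hηv, one_mul]
      rw [Valuation.map_sub_eq_of_lt_right, h5]
      rw [map_one, h5]; exact hpole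
    refine ⟨1, ?_⟩
    rw [map_div₀, h3, h4, map_one, one_pow, div_self]
    exact (zero_lt_one.trans hpole).ne'

variable {k : Type u} {K : Type v} [Field k] [Field K] [Algebra k K] [CharZero k]
  {s : Gal(constClosure k K/k) →* Gal(maxUnr k K/K)} {G : Subgroup Gal(constClosure k K/k)}
  {k' : Type w} [Field k'] [Algebra k' (maxUnr k K)] {p : ℕ} [Fact p.Prime]

/-- elements fixed by `H` with given norm, in polynomial form -/
lemma nrm_of_elem (B : Base s G k') {ζ : k'} (hζ : IsPrimitiveRoot ζ p) {x : k'} (hx0 : x ≠ 0)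
    (θ : maxUnr k K) (hθp : θ ^ p = algebraMap k' (maxUnr k K) x)
    {τ : Gal(constClosure k K/k)} (hτ : τ ∈ G) (hτθ : s τ θ = algebraMap k' (maxUnr k K) ζ * θ)
    (b : k') (z : maxUnr k K) (hzint : IsIntegral k z) (hzH : ∀ h ∈ G ⊓ stabS s θ, s h z = z)
    (hz : ∏ i ∈ Finset.range p, s (τ ^ i) z = algebraMap k' (maxUnr k K) b) :
    ∃ f : k'[X], b = nrm p ζ f x := by
  have hpp : p.Prime := Fact.out
  have hθ0 : θ ≠ 0 := by
    rintro rfl
    rw [zero_pow hpp.ne_zero] at hθp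
    exact hx0 ((map_eq_zero _).1 hθp.symm)
  have hθint : IsIntegral k θ := by
    apply isIntegral_of_pow' hpp.pos
    rw [hθp]
    exact B.alg _
  have hθG : ∀ σ ∈ G, s σ (θ ^ p) = θ ^ p := by
    intro σ hσ
    rw [hθp, B.fix _ σ hσ]
  obtain ⟨f, hf⟩ := fixed_poly B hζ hθ0 hθint hθG hτ hτθ z hzint hzH
  refine ⟨f, (algebraMap k' (maxUnr k K)).injective ?_⟩
  rw [nrm_spec hpp.pos hζ f _ θ hθp, ← hz]
  refine Finset.prod_congr rfl (fun i _ => ?_)
  have h1 : ∀ d : k', s (τ ^ i) (algebraMap k' (maxUnr k K) d) =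
      algebraMap k' (maxUnr k K) d := fun d => B.fix d _ (G.pow_mem hτ i)
  rw [hf, aeval_eq_sum_range, aeval_eq_sum_range, map_sum]
  refine Finset.sum_congr rfl (fun j _ => ?_)
  rw [Algebra.smul_def, Algebra.smul_def, map_mul, h1, map_pow,
    tau_pow (B.fix ζ) hτ hτθ, map_pow (algebraMap k' (maxUnr k K)) ζ i]

/-- **The Steinberg relation for sections**, `p` odd. -/
theorem stein_rel_odd (hp2 : p ≠ 2) (hs : IsSection k K s) (B : Base s G k') {ζ : k'}
    (hζ : IsPrimitiveRoot ζ p)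
    {F : IntermediateField K (AlgebraicClosure K)} (hF : IsFinUnr k F)
    (hkF : ∀ c : k', ((algebraMap k' (maxUnr k K) c : maxUnr k K) : AlgebraicClosure K) ∈ F)
    (g : maxUnr k K) (hgF : (g : AlgebraicClosure K) ∈ F)
    (h1 : IsDivisible p k (⟨g, hgF⟩ : F)) (h2 : IsDivisible p k (1 - (⟨g, hgF⟩ : F)))
    (hg1 : g ≠ 1) (x x' : k') (y y' : maxUnr k K) (hx0 : x ≠ 0)
    (hyG : ∀ σ ∈ G, s σ y = y) (hy'G : ∀ σ ∈ G, s σ y' = y')
    (hg : g = algebraMap k' (maxUnr k K) x * y ^ p)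
    (hg' : 1 - g = algebraMap k' (maxUnr k K) x' * y' ^ p) :
    (∃ θ0 : k', x = θ0 ^ p) ∨ ∃ f : k'[X], x' = nrm p ζ f x := by
  classical
  have hpp : p.Prime := Fact.out
  have hpk : (p : k) ≠ 0 := by exact_mod_cast hpp.ne_zero
  -- the constant `θ`
  obtain ⟨θ', hθ'⟩ := IsAlgClosed.exists_pow_nat_eq
    ((algebraMap k' (maxUnr k K) x : maxUnr k K) : AlgebraicClosure K) hpp.pos
  have hθint' : IsIntegral k θ' := by
    apply isIntegral_of_pow' hpp.pos
    rw [hθ']
    exact isIntegral_coe.2 (B.alg _)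
  set θ : maxUnr k K := ⟨θ', mem_maxUnr_of_const _ hθint'⟩ with hθ
  have hθp : θ ^ p = algebraMap k' (maxUnr k K) x := Subtype.ext hθ'
  have hθint : IsIntegral k θ := by
    apply isIntegral_of_pow' hpp.pos
    rw [hθp]
    exact B.alg _
  by_cases hfix : ∀ σ ∈ G, s σ θ = θ
  · left
    obtain ⟨θ0, hθ0'⟩ := B.ex θ hθint hfix
    refine ⟨θ0, ?_⟩
    apply (algebraMap k' (maxUnr k K)).injective
    rw [← hθp, map_pow, hθ0']
  right
  obtain ⟨τ, hτ, hτθ⟩ := exists_tau B hζ hx0 θ hθp hfix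
  set Z := algebraMap k' (maxUnr k K) ζ with hZ
  have hZp : IsPrimitiveRoot Z p := hζ.map_of_injective (algebraMap k' (maxUnr k K)).injective
  have hZG : ∀ σ ∈ G, s σ Z = Z := B.fix ζ
  -- the root `ω` of `g`
  set ω := θ * y with hω
  have hωp : ω ^ p = g := by rw [hω, mul_pow, hθp, hg]
  -- the field containing it
  obtain ⟨F1, hF1, hFF1, hωF1⟩ := hF.exists_root hpk (ω : AlgebraicClosure K) ⟨g, hgF⟩
    (congrArg (fun z : maxUnr k K => (z : AlgebraicClosure K)) hωp) h1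
  have hζF : IsPrimitiveRoot (⟨_, hFF1 (hkF ζ)⟩ : F1) p := by
    have h1 : IsPrimitiveRoot ((algebraMap k' (maxUnr k K) ζ : maxUnr k K) :
        AlgebraicClosure K) p :=
      (hζ.map_of_injective (algebraMap k' (maxUnr k K)).injective).map_of_injective
        (f := (maxUnr k K).val) Subtype.val_injective
    exact IsPrimitiveRoot.of_map_of_injective (f := F1.val) h1 Subtype.val_injective
  set ζF : F1 := ⟨_, hFF1 (hkF ζ)⟩ with hζFdef
  have hdiv := isDivisible_quot_root (k := k) hpp.pos hζF (⟨ω, hωF1⟩ : F1) ⟨g, hFF1 hgF⟩ ζF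
    (Subtype.ext (congrArg (fun z : maxUnr k K => (z : AlgebraicClosure K)) hωp))
    hζF.pow_eq_one (h2.of_le hFF1)
  obtain ⟨γ', hγ'⟩ := IsAlgClosed.exists_pow_nat_eq
    (((1 - ζF * ⟨ω, hωF1⟩) / (1 - ⟨ω, hωF1⟩) : F1) : AlgebraicClosure K) hpp.pos
  obtain ⟨F2, hF2, -, hγF2⟩ := hF1.exists_root hpk γ' _ hγ' hdiv
  set γ : maxUnr k K := ⟨γ', hF2.le_maxUnr hγF2⟩ with hγ
  have hγp : γ ^ p = (1 - Z * ω) / (1 - ω) := Subtype.ext hγ'
  have hω1 : 1 - ω ≠ 0 := by
    intro h0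
    apply hg1
    rw [← hωp, ← sub_eq_zero.1 h0, one_pow]
  have hy'0 : y' ≠ 0 := by
    rintro rfl
    rw [zero_pow hpp.ne_zero, mul_zero] at hg'
    exact hg1 (sub_eq_zero.1 hg').symm
  -- the product
  have h3 : ∏ i ∈ Finset.range p, s (τ ^ i) (1 - ω) = 1 - g := by
    have h4 : ∀ i ∈ Finset.range p, s (τ ^ i) (1 - ω) = 1 - Z ^ i * ω := by
      intro i _
      rw [map_sub, map_one, hω, map_mul, tau_pow hZG hτ hτθ, hyG _ (G.pow_mem hτ i)]
      ring
    rw [Finset.prod_congr rfl h4]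
    have h5 := X_pow_sub_C_eq_prod hZp hpp.pos (rfl : ω ^ p = ω ^ p)
    have h6 := congrArg (Polynomial.eval 1) h5
    rw [Polynomial.eval_prod] at h6
    simp only [Polynomial.eval_sub, Polynomial.eval_pow, Polynomial.eval_X,
      Polynomial.eval_C, one_pow] at h6
    rw [← h6, hωp]
  obtain ⟨z, -, hzint, hzH, hz⟩ := norm_thm_odd hp2 hs B hζ x hx0 θ hθp hτ hτθ x' (1 - ω) y' γ
    hω1 hy'0 (by
      intro σ hσ
      obtain ⟨h3, h4⟩ := Subgroup.mem_inf.1 hσ
      rw [mem_stabS] at h4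
      rw [map_sub, map_one, hω, map_mul, h4, hyG σ h3]) hy'G (by rw [h3, hg']) (by
      rw [hγp, map_sub, map_one, hω, map_mul, hτθ, hyG τ hτ, mul_assoc])
  exact nrm_of_elem B hζ hx0 θ hθp hτ hτθ x' z hzint hzH hz

end P025H16
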