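import Vale.Agent.P025.H16.NormTors
import Vale.Agent.P025.H16.SteinOdd

/-! # The Steinberg relation for sections, any exponent -/

open IntermediateField

namespace P025H16

universe u v w

open Polynomial P025H641

/-- telescoping -/
lemma tele {M : Type*} [CommMonoid M] (U : ℕ → M) (d : ℕ) :
    U 0 ^ d * ∏ i ∈ Finset.range d, U (i + 1) ^ (d - 1 - i) =
      (∏ i ∈ Finset.range d, U i) * ∏ i ∈ Finset.range d, U i ^ (d - 1 - i) := by
  have h1 : (∏ i ∈ Finset.range d, U i) * ∏ i ∈ Finset.range d, U i ^ (d - 1 - i) =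
      ∏ i ∈ Finset.range d, U i ^ (d - i) := by
    rw [← Finset.prod_mul_distrib]
    refine Finset.prod_congr rfl (fun i hi => ?_)
    rw [← pow_succ']
    congr 1
    have := Finset.mem_range.1 hi
    omega
  have h2 := Finset.prod_range_succ (fun i => U i ^ (d - i)) d
  have h3 := Finset.prod_range_succ' (fun i => U i ^ (d - i)) d
  rw [h2, Nat.sub_self, pow_zero, mul_one, Nat.sub_zero] at h3
  rw [h1, h3, mul_comm]
  congr 1
  refine Finset.prod_congr rfl (fun i _ => ?_)
  congr 1
  omega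

/-- the factorization of `1 - ω ^ n` in two steps -/
lemma two_step {M : Type*} [Field M] {n d e : ℕ} (hn : n = d * e) (hd : 0 < d) (he : 0 < e)
    {Z Ξ : M} (hZ : IsPrimitiveRoot Z n) (hΞ : IsPrimitiveRoot Ξ d) (ω : M) :
    ∏ i ∈ Finset.range d, ∏ j ∈ Finset.range e, (1 - Z ^ j * Ξ ^ i * ω) = 1 - ω ^ n := by
  have key : ∀ {m : ℕ} {η : M}, 0 < m → IsPrimitiveRoot η m → ∀ x : M,
      ∏ i ∈ Finset.range m, (1 - η ^ i * x) = 1 - x ^ m := by
    intro m η hm hη x
    have h5 := X_pow_sub_C_eq_prod hη hm (rfl : x ^ m = x ^ m)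
    have h6 := congrArg (Polynomial.eval 1) h5
    rw [Polynomial.eval_prod] at h6
    simp only [Polynomial.eval_sub, Polynomial.eval_pow, Polynomial.eval_X,
      Polynomial.eval_C, one_pow] at h6
    exact h6.symm
  rw [Finset.prod_comm]
  have h1 : ∀ j ∈ Finset.range e, ∏ i ∈ Finset.range d, (1 - Z ^ j * Ξ ^ i * ω) =
      1 - (Z ^ d) ^ j * ω ^ d := by
    intro j _
    have h2 := key hd hΞ (Z ^ j * ω)
    rw [mul_pow, ← pow_mul, mul_comm j d, pow_mul] at h2
    rw [← h2]
    exact Finset.prod_congr rfl (fun i _ => by ring)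
  rw [Finset.prod_congr rfl h1, key he (hZ.pow (hn ▸ Nat.mul_pos hd he) hn), ← pow_mul, ← hn]

/-- the root of the torsion function -/
lemma isDivisible_steinberg {k : Type u} [Field k] {E : Type w} [Field E] [Algebra k E]
    {n d e : ℕ} (hn : n = d * e) (hd : 0 < d) (he : 0 < e) {ζ : E} (hζ : IsPrimitiveRoot ζ n)
    (ξ ω g : E) (hξ : ξ ^ d = 1) (hω : ω ^ n = g)
    (h1 : Even n → IsDivisible (2 * n) k g) (h2 : IsDivisible n k (1 - g)) :
    IsDivisible d k (∏ i ∈ Finset.range d,
      (∏ j ∈ Finset.range e, (1 - ζ ^ j * ξ ^ i * ω)) ^ (d - 1 - i)) := by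
  have hn0 : 0 < n := hn ▸ Nat.mul_pos hd he
  intro V hV
  have hη : ∀ i j : ℕ, (ζ ^ j * ξ ^ i) ^ n = 1 := by
    intro i j
    rw [mul_pow, ← pow_mul, mul_comm j n, pow_mul, hζ.pow_eq_one, one_pow, one_mul, ← pow_mul,
      mul_comm i n, hn, mul_assoc, pow_mul, hξ, one_pow]
  rcases le_or_gt (V.valuation ω) 1 with hfin | hpole
  · have h3 : ∀ i j : ℕ, ∃ z : E, V.valuation (1 - ζ ^ j * ξ ^ i * ω) = V.valuation z ^ n :=
      fun i j => val_lin hn0 hζ ω g _ hω (hη i j) h2 hV hfin
    choose z hz using h3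
    refine ⟨∏ i ∈ Finset.range d, (∏ j ∈ Finset.range e, z i j ^ e) ^ (d - 1 - i), ?_⟩
    rw [map_prod, map_prod, ← Finset.prod_pow]
    refine Finset.prod_congr rfl (fun i _ => ?_)
    rw [map_pow, map_pow, ← pow_mul, mul_comm (d - 1 - i) d, pow_mul]
    congr 1
    rw [map_prod, map_prod, ← Finset.prod_pow]
    refine Finset.prod_congr rfl (fun j _ => ?_)
    rw [hz, map_pow, ← pow_mul, hn, mul_comm d e]
  · have hω0 : V.valuation ω ≠ 0 := (zero_lt_one.trans hpole).ne'
    have h3 : ∀ i j : ℕ, V.valuation (1 - ζ ^ j * ξ ^ i * ω) = V.valuation ω := by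
      intro i j
      have hηint : IsIntegral k (ζ ^ j * ξ ^ i) :=
        isIntegral_of_pow' hn0 (by rw [hη]; exact isIntegral_one)
      have hη0 : ζ ^ j * ξ ^ i ≠ 0 := by
        intro h0
        have h4 := hη i j
        rw [h0, zero_pow hn0.ne'] at h4
        exact zero_ne_one h4
      have hηv := hV.val_alg hηint hη0
      have h5 : V.valuation (ζ ^ j * ξ ^ i * ω) = V.valuation ω := by
        rw [map_mul, hηv, one_mul]
      rw [Valuation.map_sub_eq_of_lt_right, h5]
      rw [map_one, h5]; exact hpole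
    have hsum : (∑ i ∈ Finset.range d, (d - 1 - i)) * 2 = d * (d - 1) := by
      rw [Finset.sum_range_reflect (fun i => i) d]
      exact Finset.sum_range_id_mul_two d
    have h4 : V.valuation (∏ i ∈ Finset.range d,
        (∏ j ∈ Finset.range e, (1 - ζ ^ j * ξ ^ i * ω)) ^ (d - 1 - i)) =
        V.valuation ω ^ (e * ∑ i ∈ Finset.range d, (d - 1 - i)) := by
      rw [map_prod]
      have h5 : ∀ i ∈ Finset.range d, V.valuation
          ((∏ j ∈ Finset.range e, (1 - ζ ^ j * ξ ^ i * ω)) ^ (d - 1 - i)) =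
          (V.valuation ω ^ e) ^ (d - 1 - i) := by
        intro i _
        rw [map_pow, map_prod, Finset.prod_congr rfl (fun j _ => h3 i j), Finset.prod_const,
          Finset.card_range]
      rw [Finset.prod_congr rfl h5, Finset.prod_pow_eq_pow_sum, ← pow_mul]
    rw [h4]
    rcases Nat.even_or_odd d with hdev | hdodd
    · have hnev : Even n := by rw [hn]; exact hdev.mul_right e
      obtain ⟨z, hz⟩ := h1 hnev V hV
      have h5 : V.valuation ω = V.valuation z ^ 2 := by
        have h6 : V.valuation ω ^ n = (V.valuation z ^ 2) ^ n := by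
          rw [← map_pow, hω, hz, ← pow_mul]
        exact (pow_left_inj₀ zero_le zero_le hn0.ne').1 h6
      refine ⟨z ^ (e * (d - 1)), ?_⟩
      rw [h5, map_pow, ← pow_mul, ← pow_mul]
      congr 1
      have : 2 * (e * ∑ i ∈ Finset.range d, (d - 1 - i)) =
          e * ((∑ i ∈ Finset.range d, (d - 1 - i)) * 2) := by ring
      rw [this, hsum]
      ring
    · obtain ⟨m, hm⟩ := hdodd
      refine ⟨ω ^ (e * m), ?_⟩
      rw [map_pow, ← pow_mul]
      congr 1
      have h5 : d - 1 = 2 * m := by omega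
      rw [h5] at hsum
      have h6 : ∑ i ∈ Finset.range d, (2 * m - i) = d * m := by
        have : (∑ i ∈ Finset.range d, (2 * m - i)) * 2 = d * m * 2 := by rw [hsum]; ring
        omega
      rw [h5, h6]
      ring

/-- `b` is a norm from `k(a ^ (1 / n))`: for some `α` with `α ^ n = a` in the algebraic closure
of `k`, the element `b` is the norm of an element of `k(α)`. -/
def NormTrivial (n : ℕ) {k : Type u} [Field k] (a b : k) : Prop :=
  ∃ α : AlgebraicClosure k, α ^ n = algebraMap k (AlgebraicClosure k) a ∧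
    ∃ z : IntermediateField.adjoin k {α}, Algebra.norm k z = b

/-- transfer to the algebraic closure of `k` -/
lemma normTrivial_of {k : Type u} [Field k] {Ω : Type v} [Field Ω] [Algebra k Ω]
    [hΩ : IsAlgClosure k Ω] {n : ℕ} {a b : k} (α : Ω) (hα : α ^ n = algebraMap k Ω a)
    (z : IntermediateField.adjoin k {α}) (hz : Algebra.norm k z = b) : NormTrivial n a b := by
  let φ : Ω ≃ₐ[k] AlgebraicClosure k := IsAlgClosure.equiv k Ω (AlgebraicClosure k)
  refine ⟨φ α, by rw [← map_pow, hα, AlgEquiv.commutes], ?_⟩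
  have h1 : (IntermediateField.adjoin k {α}).map (φ : Ω →ₐ[k] AlgebraicClosure k) =
      IntermediateField.adjoin k {φ α} := by
    rw [IntermediateField.adjoin_map, Set.image_singleton]
    rfl
  let ψ : IntermediateField.adjoin k {α} ≃ₐ[k]
      (IntermediateField.adjoin k {α}).map (φ : Ω →ₐ[k] AlgebraicClosure k) :=
    IntermediateField.equivMap _ _
  let ψ' : IntermediateField.adjoin k {α} ≃ₐ[k] IntermediateField.adjoin k {φ α} :=
    ψ.trans (IntermediateField.equivOfEq h1)
  exact ⟨ψ' z, by rw [Algebra.norm_eq_of_algEquiv, hz]⟩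

end P025H16
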