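import Vale.Agent.P025.H16.Kummer

open IntermediateField Polynomial
open P025H25 (constClosure GalOf emb NonConst isGalois_const)

namespace P025H16

universe u v w

section factor

variable {k : Type u} [Field k] {F : Type w} [Field F] [Algebra k F]

/-- a factor of `y^p - θ^p` has value divisible by `p` if the product has -/
lemma div_factor {p : ℕ} (hp : p.Prime) {ζ : k} (hζ : IsPrimitiveRoot ζ p)
    {V : ValuationSubring F} (hV : IsPlace k F V) (y θ z : F) (hy : V.valuation y ≤ 1)
    (hθ : V.valuation θ = 1) (hz : V.valuation (y ^ p - θ ^ p) = V.valuation z ^ p) :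
    ∃ z' : F, V.valuation (y - θ) = V.valuation z' ^ p := by
  have hle : V.valuation (y - θ) ≤ 1 := (V.valuation.map_sub _ _).trans (max_le hy hθ.le)
  by_cases h1 : V.valuation (y - θ) = 1
  · exact ⟨1, by rw [h1, map_one, one_pow]⟩
  have hlt : V.valuation (y - θ) < 1 := lt_of_le_of_ne hle h1
  refine ⟨z, ?_⟩
  rw [← hz]
  have hζF : IsPrimitiveRoot (algebraMap k F ζ) p := hζ.map_of_injective (algebraMap k F).injective
  rw [pow_sub_pow_eq_prod' hζF hp.pos, map_prod]
  obtain ⟨n, hn⟩ : ∃ n, p = n + 1 := ⟨p - 1, (Nat.succ_pred_eq_of_pos hp.pos).symm⟩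
  conv_rhs => rw [hn, Finset.prod_range_succ']
  rw [pow_zero, one_mul, Finset.prod_eq_one, one_mul]
  intro i hi
  have h3 : y - algebraMap k F ζ ^ (i + 1) * θ =
      algebraMap k F (1 - ζ ^ (i + 1)) * θ + (y - θ) := by
    rw [map_sub, map_pow, map_one]; ring
  have h4 : V.valuation (algebraMap k F (1 - ζ ^ (i + 1)) * θ) = 1 := by
    rw [map_mul, hθ, mul_one]
    apply hV.val_const
    rw [sub_ne_zero]
    exact (hζ.pow_ne_one_of_pos_of_lt (Nat.succ_ne_zero i)
      (by have := Finset.mem_range.1 hi; omega)).symm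
  rw [h3, Valuation.map_add_eq_of_lt_left, h4]
  rw [h4]; exact hlt

/-- the function `(y - θ)/(y - 1)` on the Fermat-type cover -/
lemma isDiv_quot {p : ℕ} (hp : p.Prime) {ζ : k} (hζ : IsPrimitiveRoot ζ p) (t y θ : F)
    (a b c : k) (hab : b - a ≠ 0) (g : k) (hg : g * (b - a) = c - a) (hg0 : g ≠ 0)
    (hθ : θ ^ p = algebraMap k F g) (hb : IsDiv p k (t - algebraMap k F b))
    (hc : IsDiv p k (t - algebraMap k F c))
    (ha : t - algebraMap k F a = algebraMap k F (b - a) * y ^ p) :
    IsDiv p k ((y - θ) / (y - 1)) := by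
  intro V hV
  have hθ1 : V.valuation θ = 1 := by
    have h1 : V.valuation θ ^ p = 1 := by rw [← map_pow, hθ, hV.val_const hg0]
    exact (pow_eq_one_iff_of_nonneg zero_le hp.ne_zero).1 h1
  have hba : algebraMap k F (b - a) ≠ 0 := (_root_.map_ne_zero _).2 hab
  rcases le_or_gt (V.valuation y) 1 with hle | hgt
  · obtain ⟨zc, hzc⟩ := hc V hV
    obtain ⟨zb, hzb⟩ := hb V hV
    obtain ⟨z1, hz1⟩ := div_factor hp hζ hV y θ zc hle hθ1 (by
      rw [← hzc]
      have h1 : t - algebraMap k F c = algebraMap k F (b - a) * (y ^ p - θ ^ p) := by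
        have h2 : algebraMap k F c = algebraMap k F a + algebraMap k F (b - a) * θ ^ p := by
          rw [hθ, ← map_mul, ← map_add]; congr 1; linear_combination -hg
        rw [mul_sub, ← ha, h2]; ring
      rw [h1, map_mul, hV.val_const hab, one_mul])
    obtain ⟨z2, hz2⟩ := div_factor hp hζ hV y 1 zb hle (map_one _) (by
      rw [← hzb]
      have h1 : t - algebraMap k F b = algebraMap k F (b - a) * (y ^ p - 1 ^ p) := by
        rw [mul_sub, ← ha, one_pow, mul_one, map_sub]; ring
      rw [h1, map_mul, hV.val_const hab, one_mul])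
    exact ⟨z1 / z2, by rw [map_div₀, map_div₀, hz1, hz2, div_pow]⟩
  · have h1 : V.valuation (y - θ) = V.valuation y :=
      Valuation.map_sub_eq_of_lt_left _ (by rw [hθ1]; exact hgt)
    have h2 : V.valuation (y - 1) = V.valuation y :=
      Valuation.map_sub_eq_of_lt_left _ (by rw [map_one]; exact hgt)
    refine ⟨1, ?_⟩
    rw [map_div₀, h1, h2, map_one, one_pow, div_self]
    intro h0
    rw [h0] at hgt
    exact not_lt.2 zero_le hgt

end factor

variable {k : Type u} {K : Type v} [Field k] [Field K] [Algebra k K] [CharZero k]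
variable {s : Gal(constClosure k K/k) →* Gal(maxUnr k K/K)}

lemma exists_class {p : ℕ} (hp : p.Prime) {ζ : k} (hζ : IsPrimitiveRoot ζ p)
    (hs : IsSection k K s) (f : K) (hf0 : f ≠ 0) (hev : IsDiv p k f) :
    ∃ (x : k) (y : maxUnr k K), x ≠ 0 ∧ (∀ σ, s σ y = y) ∧
      algebraMap K (maxUnr k K) f = algebraMap k (maxUnr k K) x * y ^ p := by
  obtain ⟨w, hw⟩ := IsAlgClosed.exists_pow_nat_eq (algebraMap K (AlgebraicClosure K) f)
    (n := p) hp.pos
  obtain ⟨F, hF, -, hwF⟩ := isFinUnr_bot.exists_root_base hp hζ w f hw hev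
  set γ : maxUnr k K := ⟨w, hF.le_maxUnr hwF⟩ with hγdef
  have hγ : γ ^ p = algebraMap K (maxUnr k K) f := Subtype.ext hw
  have hγ0 : γ ≠ 0 := by
    intro h0
    rw [h0, zero_pow hp.ne_zero] at hγ
    exact hf0 (by simpa using hγ.symm)
  obtain ⟨l, q, hl0, hlq, hfix⟩ := exists_class_stab hp hζ hs 1
    (isAlgebraic_one) hF F.one_mem γ hγ0 (fun σ _ => by rw [hγ, AlgEquiv.commutes])
  have hq1 : aeval (1 : maxUnr k K) q = algebraMap k (maxUnr k K) (q.eval 1) := by
    have := aeval_algebraMap_apply (maxUnr k K) (1 : k) q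
    rw [map_one, coe_aeval_eq_eval] at this
    exact this
  rw [hq1] at hlq
  refine ⟨q.eval 1, γ / l, ?_, ?_, ?_⟩
  · intro h0
    rw [h0, map_zero] at hlq
    exact pow_ne_zero p hl0 hlq
  · intro σ
    exact hfix σ ((mem_stabS _ _).2 (map_one _))
  · rw [div_pow, ← hlq, hγ, mul_div_cancel₀ _ (pow_ne_zero p hl0)]

/-- **Norm relation.** If `t - a = (b - a) y^p` with `y` fixed by the section, then for every `c`
the class of `(t - c)/(b - a)` is a norm from `k(g^{1/p})`, `g = (c - a)/(b - a)`. -/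
theorem norm_relation {p : ℕ} (hp : p.Prime) {ζ : k} (hζ : IsPrimitiveRoot ζ p)
    (hs : IsSection k K s) (t : K) (ht : ∀ z : k, t ≠ algebraMap k K z) (a b c : k)
    (hab : b ≠ a) (hca : c ≠ a)
    (hda : IsDiv p k (t - algebraMap k K a)) (hdb : IsDiv p k (t - algebraMap k K b))
    (hdc : IsDiv p k (t - algebraMap k K c)) (y yc : maxUnr k K) (xc : k)
    (hy : ∀ σ, s σ y = y) (hyc : ∀ σ, s σ yc = yc)
    (ha : algebraMap K (maxUnr k K) (t - algebraMap k K a) =
      algebraMap k (maxUnr k K) (b - a) * y ^ p)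
    (hc : algebraMap K (maxUnr k K) (t - algebraMap k K c) =
      algebraMap k (maxUnr k K) xc * yc ^ p) :
    (∃ e : k, (c - a) / (b - a) = e ^ p) ∨ IsNormP p ζ ((c - a) / (b - a)) (xc / (b - a)) := by
  have hba : b - a ≠ 0 := sub_ne_zero.2 hab
  have hca' : c - a ≠ 0 := sub_ne_zero.2 hca
  set g : k := (c - a) / (b - a) with hg
  have hgba : g * (b - a) = c - a := div_mul_cancel₀ _ hba
  have hg0 : g ≠ 0 := div_ne_zero hca' hba
  by_cases hgp : ∃ e : k, g = e ^ p
  · exact Or.inl hgp
  right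
  have htow : IsScalarTower k (maxUnr k K) (AlgebraicClosure K) :=
    IsScalarTower.of_algebraMap_eq (fun x => by
      rw [IsScalarTower.algebraMap_apply k K (AlgebraicClosure K)]; rfl)
  -- the constant `θ`
  obtain ⟨θΩ, hθΩ⟩ := IsAlgClosed.exists_pow_nat_eq (algebraMap k (AlgebraicClosure K) g)
    (n := p) hp.pos
  obtain ⟨F0, hF0, -, hθF0⟩ := isFinUnr_bot.exists_root_const (K := K) hp hζ θΩ g hg0 hθΩ
  have hba' : algebraMap K (maxUnr k K) (algebraMap k K (b - a)) ≠ 0 :=
    (_root_.map_ne_zero _).2 ((_root_.map_ne_zero _).2 hba)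
  obtain ⟨F, hF, hF0F, hyF⟩ := hF0.exists_root_base hp hζ (y : AlgebraicClosure K)
    ((t - algebraMap k K a) * algebraMap k K (b - a)⁻¹) (by
      have h1 : (y : maxUnr k K) ^ p = algebraMap K (maxUnr k K)
          ((t - algebraMap k K a) * algebraMap k K (b - a)⁻¹) := by
        rw [map_mul, ha, ← IsScalarTower.algebraMap_apply, map_inv₀]
        have : algebraMap k (maxUnr k K) (b - a) ≠ 0 := (_root_.map_ne_zero _).2 hba
        field_simp
      exact congrArg (fun z : maxUnr k K => (z : AlgebraicClosure K)) h1)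
    (hda.mul (isDiv_const p (inv_ne_zero hba)))
  have hθF : θΩ ∈ F := hF0F hθF0
  set θ : maxUnr k K := ⟨θΩ, hF.le_maxUnr hθF⟩ with hθdef
  have hθ : θ ^ p = algebraMap k (maxUnr k K) g := Subtype.ext hθΩ
  have hθalg : IsAlgebraic k (θ : AlgebraicClosure K) := by
    have h1 : IsIntegral k ((θ : AlgebraicClosure K) ^ p) := by
      rw [show ((θ : AlgebraicClosure K) ^ p) = algebraMap k (AlgebraicClosure K) g from hθΩ]
      exact isIntegral_algebraMap
    exact (IsIntegral.of_pow hp.pos h1).isAlgebraic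
  have hθ0 : θ ≠ 0 := by
    intro h0
    rw [h0, zero_pow hp.ne_zero] at hθ
    exact hg0 (by simpa using hθ.symm)
  -- `t` is not constant
  have htT : ∀ z : k, algebraMap K (maxUnr k K) t ≠ algebraMap k (maxUnr k K) z := by
    intro z h
    rw [IsScalarTower.algebraMap_apply k K (maxUnr k K)] at h
    exact ht z ((algebraMap K (maxUnr k K)).injective h)
  rw [map_sub, ← IsScalarTower.algebraMap_apply] at ha hc
  have hy1 : y ≠ 1 := by
    intro h0
    apply htT b
    rw [h0, one_pow, mul_one, map_sub] at ha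
    linear_combination ha
  have hyp : y ^ p ≠ algebraMap k (maxUnr k K) g := by
    intro h0
    apply htT c
    rw [h0, ← map_mul, mul_comm, hgba, map_sub] at ha
    linear_combination ha
  have hyθ : y ≠ θ := fun h => hyp (by rw [h, hθ])
  have hyc0 : yc ≠ 0 := by
    intro h0
    apply htT c
    rw [h0, zero_pow hp.ne_zero, mul_zero] at hc
    linear_combination hc
  -- the `p`-th root of `(y - θ)/(y - 1)`
  obtain ⟨γΩ, hγΩ⟩ := IsAlgClosed.exists_pow_nat_eq
    (((y - θ) / (y - 1) : maxUnr k K) : AlgebraicClosure K) (n := p) hp.pos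
  have hγmem : γΩ ∈ maxUnr k K := by
    haveI := hF.1
    have hdiv := isDiv_quot hp hζ (algebraMap K F t) (⟨y, hyF⟩ : F) ⟨θΩ, hθF⟩ a b c hba g hgba
      hg0 (Subtype.ext hθΩ) (by
        have := hdb.map_algebraMap (E := F)
        rwa [map_sub, ← IsScalarTower.algebraMap_apply] at this) (by
        have := hdc.map_algebraMap (E := F)
        rwa [map_sub, ← IsScalarTower.algebraMap_apply] at this) (by
        apply Subtype.ext
        exact congrArg (fun z : maxUnr k K => (z : AlgebraicClosure K)) ha)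
    obtain ⟨F', hF', -, hγF'⟩ := hF.exists_root hp hζ γΩ _ hγΩ hdiv
    exact hF'.le_maxUnr hγF'
  set γ : maxUnr k K := ⟨γΩ, hγmem⟩ with hγdef
  have hγ : γ ^ p = (y - θ) / (y - 1) := Subtype.ext hγΩ
  have hy1' : y - 1 ≠ 0 := sub_ne_zero.2 hy1
  have hγ0 : γ ≠ 0 := by
    intro h0
    rw [h0, zero_pow hp.ne_zero] at hγ
    exact div_ne_zero (sub_ne_zero.2 hyθ) hy1' hγ.symm
  obtain ⟨l, q, hl0, hlq, hfix⟩ := exists_class_stab hp hζ hs θ hθalg hF hθF γ hγ0 (by
    intro σ hσ
    rw [hγ, map_div₀, map_sub, map_sub, map_one, hy, (mem_stabS _ _).1 hσ])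
  set r : maxUnr k K := γ / l with hr
  have hrp : r ^ p = (y - θ) / ((y - 1) * aeval θ q) := by
    rw [hr, div_pow, hγ, hlq, div_div]
  -- an element `τ` with `τ θ = ζ θ`
  have hζT : IsPrimitiveRoot (algebraMap k (maxUnr k K) ζ) p :=
    hζ.map_of_injective (algebraMap k (maxUnr k K)).injective
  have _ : NeZero p := ⟨hp.ne_zero⟩
  have hσθ : ∀ σ, ∃ i : ℕ, i < p ∧ s σ θ = algebraMap k (maxUnr k K) ζ ^ i * θ := by
    intro σ
    have h1 : (s σ θ / θ) ^ p = 1 := by
      rw [div_pow, ← map_pow, hθ, s_const, div_self ((_root_.map_ne_zero _).2 hg0)]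
    obtain ⟨i, hip, hi⟩ := hζT.eq_pow_of_pow_eq_one h1
    exact ⟨i, hip, by rw [hi, div_mul_cancel₀ _ hθ0]⟩
  obtain ⟨τ, hτ⟩ : ∃ τ, s τ θ = algebraMap k (maxUnr k K) ζ * θ := by
    by_contra hcon
    push Not at hcon
    have hfixθ : ∀ σ, s σ θ = θ := by
      intro σ
      obtain ⟨i, hip, hi⟩ := hσθ σ
      by_contra hne
      have hi0 : 0 < i := by
        rcases Nat.eq_zero_or_pos i with h0 | h0
        · exfalso; apply hne; rw [hi, h0, pow_zero, one_mul]
        · exact h0
      have hcop : Nat.Coprime i p :=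
        ((hp.coprime_iff_not_dvd).2 (fun h => absurd (Nat.le_of_dvd hi0 h) (by omega))).symm
      obtain ⟨m, -, hm⟩ := (hζT.pow_of_coprime i hcop).eq_pow_of_pow_eq_one hζT.pow_eq_one
      apply hcon (σ ^ m)
      have h3 : ∀ n : ℕ, s (σ ^ n) θ = (algebraMap k (maxUnr k K) ζ ^ i) ^ n * θ := by
        intro n
        induction n with
        | zero => simp
        | succ n ih =>
          rw [pow_succ', map_mul, AlgEquiv.mul_apply, ih, map_mul, map_pow, map_pow, s_const, hi,
            pow_succ]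
          ring
      rw [h3, hm]
    obtain ⟨e, he⟩ := fixed_algebraic hs θ hfixθ hθalg
    apply hgp
    refine ⟨e, ?_⟩
    apply (algebraMap k (maxUnr k K)).injective
    rw [← hθ, he, map_pow]
  have hτi : ∀ i : ℕ, s (τ ^ i) θ = algebraMap k (maxUnr k K) ζ ^ i * θ := by
    intro i
    induction i with
    | zero => simp
    | succ i ih =>
      rw [pow_succ', map_mul, AlgEquiv.mul_apply, ih, map_mul, map_pow, s_const, hτ, pow_succ]
      ring
  -- `s ρ r` depends only on `s ρ θ`
  have hdep : ∀ ρ ρ' : Gal(constClosure k K/k), s ρ θ = s ρ' θ → s ρ r = s ρ' r := by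
    intro ρ ρ' h
    have h1 : ρ'⁻¹ * ρ ∈ stabS s θ := by
      rw [mem_stabS, map_mul, AlgEquiv.mul_apply, h, ← AlgEquiv.mul_apply, ← map_mul,
        inv_mul_cancel]
      simp
    have h2 := hfix _ h1
    have h3 : s ρ' (s (ρ'⁻¹ * ρ) r) = s ρ' r := by rw [h2]
    rw [← AlgEquiv.mul_apply, ← map_mul] at h3
    simpa using h3
  set R : ℕ → maxUnr k K := fun j => ∏ i ∈ Finset.range p, s (τ ^ (i + j)) r with hR
  have hRstep : ∀ j, R (j + 1) = R j := by
    intro j
    obtain ⟨n, hn⟩ : ∃ n, p = n + 1 := ⟨p - 1, (Nat.succ_pred_eq_of_pos hp.pos).symm⟩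
    rw [hR]
    simp only
    conv_lhs => rw [hn, Finset.prod_range_succ]
    conv_rhs => rw [hn, Finset.prod_range_succ']
    congr 1
    · refine Finset.prod_congr rfl (fun i _ => ?_)
      rw [add_right_comm, add_assoc]
    · apply hdep
      rw [hτi, hτi]
      have : n + (j + 1) = p + j := by omega
      rw [this, pow_add, hζT.pow_eq_one, one_mul, zero_add]
  have hRj : ∀ j, R j = R 0 := by
    intro j
    induction j with
    | zero => rfl
    | succ j ih => rw [hRstep, ih]
  have hRfix : ∀ σ, s σ (R 0) = R 0 := by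
    intro σ
    obtain ⟨j, -, hj⟩ := hσθ σ
    rw [← hRj j]
    conv_lhs => rw [hRj j]
    rw [hR]
    simp only
    rw [map_prod]
    refine Finset.prod_congr rfl (fun i _ => ?_)
    rw [← AlgEquiv.mul_apply, ← map_mul]
    apply hdep
    rw [map_mul, AlgEquiv.mul_apply, add_zero, hτi, hτi, map_mul, map_pow, s_const, hj, pow_add]
    ring
  have hsq : ∀ ρ, s ρ (aeval θ q) = aeval (s ρ θ) q := by
    intro ρ
    rw [aeval_eq_sum_range, aeval_eq_sum_range, map_sum]
    refine Finset.sum_congr rfl (fun i _ => ?_)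
    rw [Algebra.smul_def, Algebra.smul_def, map_mul, s_const, map_pow]
  have hRp : (R 0) ^ p = (y ^ p - algebraMap k (maxUnr k K) g) /
      ((y - 1) ^ p * ∏ i ∈ Finset.range p, aeval (algebraMap k (maxUnr k K) ζ ^ i * θ) q) := by
    have h1 : ∀ i, (s (τ ^ i) r) ^ p = (y - algebraMap k (maxUnr k K) ζ ^ i * θ) /
        ((y - 1) * aeval (algebraMap k (maxUnr k K) ζ ^ i * θ) q) := by
      intro i
      rw [← map_pow, hrp, map_div₀, map_sub, map_mul, map_sub, map_one, hy, hsq, hτi]
    rw [hR]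
    simp only [add_zero]
    rw [← Finset.prod_pow, Finset.prod_congr rfl (fun i _ => h1 i), Finset.prod_div_distrib,
      Finset.prod_mul_distrib, Finset.prod_const, Finset.card_range, ← hθ,
      pow_sub_pow_eq_prod' hζT hp.pos]
  set P : maxUnr k K :=
    ∏ i ∈ Finset.range p, aeval (algebraMap k (maxUnr k K) ζ ^ i * θ) q with hP
  have hP0 : P ≠ 0 := by
    rw [hP, Finset.prod_ne_zero_iff]
    intro i _ h0
    have h1 : s (τ ^ i) (aeval θ q) = 0 := by rw [hsq, hτi, h0]
    rw [EmbeddingLike.map_eq_zero_iff] at h1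
    rw [h1] at hlq
    exact pow_ne_zero p hl0 hlq
  have hPalg : IsAlgebraic k (P : AlgebraicClosure K) := by
    have hmem : ∀ z ∈ constClosure k K, aeval z q ∈ constClosure k K := by
      intro z hz
      rw [aeval_eq_sum_range]
      exact sum_mem (fun i _ => (constClosure k K).smul_mem (pow_mem hz i))
    have h1 : algebraMap (maxUnr k K) (AlgebraicClosure K) P ∈ constClosure k K := by
      rw [hP, map_prod]
      refine prod_mem (fun i _ => ?_)
      rw [← aeval_algebraMap_apply]
      apply hmem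
      rw [map_mul, map_pow, ← IsScalarTower.algebraMap_apply]
      exact mul_mem (pow_mem ((constClosure k K).algebraMap_mem ζ) i)
        (mem_algebraicClosure_iff.2 hθalg)
    exact mem_algebraicClosure_iff.1 h1
  -- the element `W`
  set W : maxUnr k K := (y - 1) * R 0 / yc with hW
  have hxcba : algebraMap k (maxUnr k K) (xc / (b - a)) = W ^ p * P := by
    have hba'' : algebraMap k (maxUnr k K) (b - a) ≠ 0 := (_root_.map_ne_zero _).2 hba
    have h1 : algebraMap k (maxUnr k K) (b - a) * (y ^ p - algebraMap k (maxUnr k K) g) =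
        algebraMap k (maxUnr k K) xc * yc ^ p := by
      rw [← hc, mul_sub, ← ha, ← map_mul, mul_comm (b - a) g, hgba, map_sub]
      ring
    rw [hW, div_pow, mul_pow, hRp, map_div₀]
    field_simp
    linear_combination -h1
  have hWfix : ∀ σ, s σ W = W := by
    intro σ
    rw [hW, map_div₀, map_mul, map_sub, map_one, hy, hyc, hRfix]
  have hWalg : IsAlgebraic k (W : AlgebraicClosure K) := by
    have h1 : (W : AlgebraicClosure K) ^ p =
        algebraMap k (AlgebraicClosure K) (xc / (b - a)) / (P : AlgebraicClosure K) := by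
      have h2 := congrArg (algebraMap (maxUnr k K) (AlgebraicClosure K)) hxcba
      rw [← IsScalarTower.algebraMap_apply, map_mul, map_pow] at h2
      have h3 : algebraMap (maxUnr k K) (AlgebraicClosure K) P ≠ 0 :=
        (_root_.map_ne_zero _).2 hP0
      rw [h2]
      exact (mul_div_cancel_right₀ _ h3).symm
    apply IsAlgebraic.of_pow hp.pos
    rw [h1, div_eq_mul_inv]
    exact (isAlgebraic_algebraMap _).mul hPalg.inv
  obtain ⟨e, he⟩ := fixed_algebraic hs W hWfix hWalg
  -- conclusion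
  refine ⟨C e * q, ?_⟩
  have hirr : Irreducible (X ^ p - C g : k[X]) :=
    X_pow_sub_C_irreducible_of_prime hp (fun b hb => hgp ⟨b, hb.symm⟩)
  have hmin : X ^ p - C g = minpoly k θ := by
    apply minpoly.eq_of_irreducible_of_monic hirr
    · rw [map_sub, map_pow, aeval_X, aeval_C, hθ, sub_self]
    · exact monic_X_pow_sub_C _ hp.ne_zero
  rw [hmin]
  apply minpoly.dvd
  rw [map_sub, map_prod, aeval_C, hxcba, sub_eq_zero, he, hP, ← Finset.card_range p,
    ← Finset.prod_const, Finset.card_range, ← Finset.prod_mul_distrib]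
  refine Finset.prod_congr rfl (fun i _ => ?_)
  rw [aeval_comp, map_mul, map_mul, aeval_C, aeval_C, aeval_X, map_pow]

end P025H16
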