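import Vale.Agent.P025.H16.Unram

open IntermediateField Polynomial

namespace P025H16

universe u v w

variable {k : Type u} {K : Type v} [Field k] [Field K] [Algebra k K]

/-- finite and unramified subextensions of the algebraic closure -/
def IsFinUnr (k : Type u) {K : Type v} [Field k] [Field K] [Algebra k K]
    (F : IntermediateField K (AlgebraicClosure K)) : Prop :=
  FiniteDimensional K F ∧ IsUnramified k K F

lemma IsDiv.map_algebraMap {p : ℕ} {F E : Type*} [Field F] [Field E] [Algebra F E] [Algebra k F]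
    [Algebra k E] [IsScalarTower k F E] [Algebra.IsAlgebraic F E] {f : F} (hf : IsDiv p k f) :
    IsDiv p k (algebraMap F E f) := by
  intro V hV
  obtain ⟨y, hy⟩ := hf _ (hV.comap (F := F))
  refine ⟨algebraMap F E y, ?_⟩
  rw [← map_pow, comap_val_eq_iff] at hy
  rw [hy, map_pow, map_pow]

lemma isDiv_const (p : ℕ) {F : Type*} [Field F] [Algebra k F] {c : k} (hc : c ≠ 0) :
    IsDiv p k (algebraMap k F c) := by
  intro V hV
  exact ⟨1, by rw [hV.val_const hc]; simp⟩

lemma isDiv_algebraic (p : ℕ) {F : Type*} [Field F] [Algebra k F] {c : F} (hc0 : c ≠ 0)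
    (hc : IsAlgebraic k c) : IsDiv p k c := by
  intro V hV
  exact ⟨1, by rw [hV.val_algebraic hc hc0]; simp⟩

lemma IsDiv.mul {p : ℕ} {F : Type*} [Field F] [Algebra k F] {f g : F} (hf : IsDiv p k f)
    (hg : IsDiv p k g) : IsDiv p k (f * g) := by
  intro V hV
  obtain ⟨y, hy⟩ := hf V hV
  obtain ⟨z, hz⟩ := hg V hV
  exact ⟨y * z, by rw [map_mul, map_mul, mul_pow, hy, hz]⟩

lemma isFinUnr_bot : IsFinUnr k (⊥ : IntermediateField K (AlgebraicClosure K)) := by
  refine ⟨inferInstance, ?_⟩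
  intro V _ x
  obtain ⟨y, hy⟩ := IntermediateField.mem_bot.1 x.2
  refine ⟨y, ?_⟩
  congr 1
  apply Subtype.ext
  exact hy

lemma IsFinUnr.le_maxUnr {F : IntermediateField K (AlgebraicClosure K)} (hF : IsFinUnr k F) :
    F ≤ maxUnr k K :=
  le_sSup hF

lemma adjoin_root_gen {F : Type*} [Field F] {Ω : Type*} [Field Ω] [Algebra F Ω]
    (w : Ω) (hint : IsIntegral F w) (x : F⟮w⟯) :
    ∃ Q : F[X], x = aeval (AdjoinSimple.gen F w) Q := by
  have hx : (x : Ω) ∈ Algebra.adjoin F {w} := by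
    have h1 := IntermediateField.adjoin_simple_toSubalgebra_of_isAlgebraic hint.isAlgebraic
    rw [← h1]
    exact x.2
  rw [Algebra.adjoin_singleton_eq_range_aeval] at hx
  obtain ⟨Q, hQ⟩ := hx
  refine ⟨Q, ?_⟩
  apply Subtype.ext
  have h1 : ((aeval (AdjoinSimple.gen F w) Q : F⟮w⟯) : Ω) = aeval w Q := by
    have := aeval_algebraMap_apply Ω (AdjoinSimple.gen F w) Q
    rw [← IntermediateField.algebraMap_apply, ← this]
    rfl
  rw [h1, ← hQ]
  rfl

lemma IsFinUnr.adjoin_root {p : ℕ} (hp : p.Prime) {ζ : k} (hζ : IsPrimitiveRoot ζ p)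
    {F : IntermediateField K (AlgebraicClosure K)}
    (hF : IsFinUnr k F) (w : AlgebraicClosure K) (f : F) (hw : w ^ p = (f : AlgebraicClosure K))
    (hev : IsDiv p k f) :
    IsFinUnr k ((F⟮w⟯).restrictScalars K) := by
  obtain ⟨hfin, hunr⟩ := hF
  have hint : IsIntegral F w := by
    refine IsIntegral.of_pow (n := p) hp.pos ?_
    rw [hw]
    exact isIntegral_algebraMap (x := f)
  haveI : FiniteDimensional F F⟮w⟯ := IntermediateField.adjoin.finiteDimensional hint
  have hfin2 : FiniteDimensional K F⟮w⟯ := FiniteDimensional.trans K F F⟮w⟯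
  set E : IntermediateField K (AlgebraicClosure K) := (F⟮w⟯).restrictScalars K with hE
  have hfinE : FiniteDimensional K E := hfin2
  have hFE : F ≤ E := fun x hx => (F⟮w⟯).algebraMap_mem ⟨x, hx⟩
  letI : Algebra F E := (IntermediateField.inclusion hFE).toRingHom.toAlgebra
  haveI : IsScalarTower K F E := IsScalarTower.of_algebraMap_eq (fun x => rfl)
  haveI : IsScalarTower k F E := IsScalarTower.of_algebraMap_eq (fun x => rfl)
  haveI : Algebra.IsAlgebraic F E := Algebra.IsAlgebraic.tower_top (K := K) F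
  refine ⟨hfinE, ?_⟩
  have hwE : w ∈ E := IntermediateField.mem_adjoin_simple_self F w
  refine isUnramified_of_root (F := F) (E := E) hp hζ hunr ⟨w, hwE⟩ f ?_ ?_ hev
  · apply Subtype.ext
    exact hw
  · intro x
    obtain ⟨Q, h⟩ := adjoin_root_gen w hint ⟨x.1, x.2⟩
    refine ⟨Q, ?_⟩
    have h1 := congrArg (fun z : F⟮w⟯ => (⟨z.1, z.2⟩ : E)) h
    refine h1.trans ?_
    rw [aeval_eq_sum_range, aeval_eq_sum_range]
    apply Subtype.ext
    simp only [AddSubmonoidClass.coe_finsetSum]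
    rfl

lemma IsFinUnr.exists_root {p : ℕ} (hp : p.Prime) {ζ : k} (hζ : IsPrimitiveRoot ζ p)
    {F : IntermediateField K (AlgebraicClosure K)}
    (hF : IsFinUnr k F) (w : AlgebraicClosure K) (f : F) (hw : w ^ p = (f : AlgebraicClosure K))
    (hev : IsDiv p k f) :
    ∃ F' : IntermediateField K (AlgebraicClosure K), IsFinUnr k F' ∧ F ≤ F' ∧ w ∈ F' := by
  refine ⟨_, hF.adjoin_root hp hζ w f hw hev, ?_, ?_⟩
  · intro x hx
    exact (F⟮w⟯).algebraMap_mem ⟨x, hx⟩
  · exact IntermediateField.mem_adjoin_simple_self F w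

lemma IsFinUnr.exists_root_base {p : ℕ} (hp : p.Prime) {ζ : k} (hζ : IsPrimitiveRoot ζ p)
    {F : IntermediateField K (AlgebraicClosure K)}
    (hF : IsFinUnr k F) (w : AlgebraicClosure K) (f : K)
    (hw : w ^ p = algebraMap K (AlgebraicClosure K) f) (hev : IsDiv p k f) :
    ∃ F' : IntermediateField K (AlgebraicClosure K), IsFinUnr k F' ∧ F ≤ F' ∧ w ∈ F' := by
  haveI := hF.1
  exact hF.exists_root hp hζ w (algebraMap K F f) hw hev.map_algebraMap

lemma IsFinUnr.exists_root_const {p : ℕ} (hp : p.Prime) {ζ : k} (hζ : IsPrimitiveRoot ζ p)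
    {F : IntermediateField K (AlgebraicClosure K)}
    (hF : IsFinUnr k F) (w : AlgebraicClosure K) (c : k) (hc : c ≠ 0)
    (hw : w ^ p = algebraMap k (AlgebraicClosure K) c) :
    ∃ F' : IntermediateField K (AlgebraicClosure K), IsFinUnr k F' ∧ F ≤ F' ∧ w ∈ F' := by
  refine hF.exists_root_base hp hζ w (algebraMap k K c) ?_ (isDiv_const p hc)
  rw [hw, ← IsScalarTower.algebraMap_apply]

end P025H16
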