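import Vale.Agent.P025.H16.Defs

open IntermediateField Polynomial

namespace P025H16

universe u v w

section place

variable {k : Type u} [Field k] {E : Type w} [Field E] [Algebra k E] {V : ValuationSubring E}

lemma IsPlace.val_const (hV : IsPlace k E V) {c : k} (hc : c ≠ 0) :
    V.valuation (algebraMap k E c) = 1 := by
  apply le_antisymm
  · exact (V.valuation_le_one_iff _).2 (hV.const_mem c)
  · have h := (V.valuation_le_one_iff _).2 (hV.const_mem c⁻¹)
    rw [map_inv₀, map_inv₀] at h
    have h0 : V.valuation (algebraMap k E c) ≠ 0 := by simpa using hc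
    exact (inv_le_one₀ (zero_lt_iff.2 h0)).1 h

lemma IsPlace.val_const_le (hV : IsPlace k E V) (c : k) :
    V.valuation (algebraMap k E c) ≤ 1 :=
  (V.valuation_le_one_iff _).2 (hV.const_mem c)

lemma IsPlace.exists_gt (hV : IsPlace k E V) : ∃ h : E, 1 < V.valuation h := by
  by_contra hcon
  push Not at hcon
  apply hV.ne_top
  rw [eq_top_iff]
  intro x _
  exact (V.valuation_le_one_iff _).1 (hcon x)

/-- nonzero constants algebraic over `k` are units -/
lemma IsPlace.val_algebraic (hV : IsPlace k E V) {c : E} (hc : IsAlgebraic k c) (hc0 : c ≠ 0) :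
    V.valuation c = 1 := by
  have hle : ∀ d : E, IsAlgebraic k d → V.valuation d ≤ 1 := by
    intro d hd
    rw [V.valuation_le_one_iff]
    let φ : k →+* V := (algebraMap k E).codRestrict V.toSubring (fun x => hV.const_mem x)
    let _ : Algebra k V := φ.toAlgebra
    have _ : IsScalarTower k V E := IsScalarTower.of_algebraMap_eq (fun x => rfl)
    have hx : IsIntegral V d := hd.isIntegral.tower_top
    obtain ⟨y, hy⟩ := IsIntegrallyClosed.isIntegral_iff.mp hx
    rw [← hy]
    exact y.2
  apply le_antisymm (hle c hc)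
  have h := hle c⁻¹ hc.inv
  rw [map_inv₀] at h
  have h0 : V.valuation c ≠ 0 := by simpa using hc0
  exact (inv_le_one₀ (zero_lt_iff.2 h0)).1 h

end place

section comap

variable {F : Type v} {E : Type w} [Field F] [Field E] [Algebra F E]

lemma comap_isEquiv (V : ValuationSubring E) :
    (V.comap (algebraMap F E)).valuation.IsEquiv (V.valuation.comap (algebraMap F E)) := by
  apply Valuation.isEquiv_of_val_le_one
  intro x
  rw [ValuationSubring.valuation_le_one_iff, ValuationSubring.mem_comap, Valuation.comap_apply,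
    ValuationSubring.valuation_le_one_iff]

lemma comap_val_eq_iff (V : ValuationSubring E) (x y : F) :
    (V.comap (algebraMap F E)).valuation x = (V.comap (algebraMap F E)).valuation y ↔
      V.valuation (algebraMap F E x) = V.valuation (algebraMap F E y) :=
  (comap_isEquiv V).eq_iff

lemma comap_val_lt_iff (V : ValuationSubring E) (x y : F) :
    (V.comap (algebraMap F E)).valuation x < (V.comap (algebraMap F E)).valuation y ↔
      V.valuation (algebraMap F E x) < V.valuation (algebraMap F E y) :=
  (comap_isEquiv V).lt_iff_lt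

lemma IsPlace.comap {k : Type u} [Field k] [Algebra k F] [Algebra k E] [IsScalarTower k F E]
    [Algebra.IsAlgebraic F E] {V : ValuationSubring E} (hV : IsPlace k E V) :
    IsPlace k F (V.comap (algebraMap F E)) where
  const_mem c := by
    rw [ValuationSubring.mem_comap, ← IsScalarTower.algebraMap_apply]
    exact hV.const_mem c
  ne_top := by
    intro htop
    apply hV.ne_top
    have hF : ∀ x : F, algebraMap F E x ∈ V := by
      intro x
      have : x ∈ V.comap (algebraMap F E) := by rw [htop]; exact ValuationSubring.mem_top x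
      simpa using this
    rw [eq_top_iff]
    intro x _
    let φ : F →+* V := (algebraMap F E).codRestrict V.toSubring (fun x => hF x)
    let _ : Algebra F V := φ.toAlgebra
    have _ : IsScalarTower F V E := IsScalarTower.of_algebraMap_eq (fun x => rfl)
    have hx : IsIntegral V x := (Algebra.IsIntegral.isIntegral (R := F) x).tower_top
    obtain ⟨y, hy⟩ := IsIntegrallyClosed.isIntegral_iff.mp hx
    rw [← hy]
    exact y.2
  rank_one := by
    intro x y hx hy
    have hy' : V.valuation (algebraMap F E y) < 1 := by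
      rw [← map_one (V.comap (algebraMap F E)).valuation, comap_val_lt_iff, map_one, map_one]
        at hy
      exact hy
    obtain ⟨n, hn⟩ := hV.rank_one (algebraMap F E x) (algebraMap F E y)
      ((_root_.map_ne_zero _).2 hx) hy'
    refine ⟨n, ?_⟩
    rw [← map_pow, comap_val_lt_iff, map_pow, map_pow]
    exact hn

end comap

section poly

variable {F : Type v} {E : Type w} [Field F] [Field E] [Algebra F E]

/-- the product of the conjugates of a polynomial expression in `u`, `u^p ∈ F`, lies in `F` -/
lemma prod_conj_mem {p : ℕ} (hp : p.Prime) {ζ : F} (hζ : IsPrimitiveRoot ζ p) (u : E) (g : F)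
    (hu : u ^ p = algebraMap F E g) (Q : F[X]) :
    ∃ c : F, algebraMap F E c = ∏ i ∈ Finset.range p, aeval (algebraMap F E ζ ^ i * u) Q := by
  set S : F[X] := ∏ i ∈ Finset.range p, Q.comp (C (ζ ^ i) * X) with hS
  have hinv : S.comp (C ζ * X) = S := by
    have h1 : S.comp (C ζ * X) = ∏ i ∈ Finset.range p, Q.comp (C (ζ ^ (i + 1)) * X) := by
      rw [hS, Polynomial.prod_comp]
      refine Finset.prod_congr rfl (fun i _ => ?_)
      rw [Polynomial.comp_assoc]
      congr 1
      simp only [mul_comp, C_comp, X_comp]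
      rw [← mul_assoc, ← C_mul, pow_succ]
    obtain ⟨n, rfl⟩ : ∃ n, p = n + 1 := ⟨p - 1, (Nat.succ_pred_eq_of_pos hp.pos).symm⟩
    rw [h1, hS, Finset.prod_range_succ, Finset.prod_range_succ', hζ.pow_eq_one, pow_zero]
  have hcoef : ∀ n, ¬ p ∣ n → S.coeff n = 0 := by
    intro n hn
    have h1 : S.coeff n * ζ ^ n = S.coeff n := by
      conv_rhs => rw [← hinv]
      rw [comp_C_mul_X_coeff]
    have h2 : ζ ^ n ≠ 1 := fun h => hn ((hζ.pow_eq_one_iff_dvd n).1 h)
    have h3 : S.coeff n * (ζ ^ n - 1) = 0 := by rw [mul_sub, h1, mul_one, sub_self]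
    exact (mul_eq_zero.1 h3).resolve_right (sub_ne_zero.2 h2)
  refine ⟨∑ n ∈ S.support, S.coeff n * g ^ (n / p), ?_⟩
  have h1 : aeval u S = ∏ i ∈ Finset.range p, aeval (algebraMap F E ζ ^ i * u) Q := by
    rw [hS, map_prod]
    refine Finset.prod_congr rfl (fun i _ => ?_)
    rw [aeval_comp]
    simp
  rw [← h1, aeval_eq_sum_range' (n := S.natDegree + 1) (Nat.lt_succ_self _), map_sum]
  have h2 : ∀ n, algebraMap F E (S.coeff n * g ^ (n / p)) = S.coeff n • u ^ n := by
    intro n
    by_cases hn : p ∣ n
    · obtain ⟨m, rfl⟩ := hn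
      rw [Nat.mul_div_cancel_left _ hp.pos, map_mul, map_pow, ← hu, ← pow_mul, Algebra.smul_def]
    · rw [hcoef n hn]; simp
  rw [Finset.sum_congr rfl (fun n _ => h2 n)]
  symm
  refine Finset.sum_subset_zero_on_sdiff ?_ ?_ (fun _ _ => rfl) |>.symm
  · intro n hn
    rw [Finset.mem_range]
    exact Nat.lt_succ_of_le (le_natDegree_of_mem_supp n hn)
  · intro n hn
    rw [Finset.mem_sdiff, notMem_support_iff] at hn
    rw [hn.2, zero_smul]

end poly

lemma pow_sub_pow_eq_prod' {R : Type*} [CommRing R] [IsDomain R] {n : ℕ} {ζ : R}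
    (hζ : IsPrimitiveRoot ζ n) (hn : 0 < n) (x α : R) :
    x ^ n - α ^ n = ∏ i ∈ Finset.range n, (x - ζ ^ i * α) := by
  have h := congrArg (eval x) (X_pow_sub_C_eq_prod hζ hn (rfl : α ^ n = α ^ n))
  rw [eval_prod] at h
  simpa using h

section ext

variable {k : Type u} [Field k]

lemma val_aeval_le {F : Type v} {E : Type w} [Field F] [Field E] [Algebra F E]
    (V : ValuationSubring E) (z : E) (hz : V.valuation z ≤ 1) (Q : F[X]) (M : V.ValueGroup)
    (hM : ∀ i, V.valuation (algebraMap F E (Q.coeff i)) ≤ M) : V.valuation (aeval z Q) ≤ M := by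
  rw [aeval_eq_sum_range]
  refine V.valuation.map_sum_le (fun i _ => ?_)
  rw [Algebra.smul_def, map_mul, map_pow]
  calc _ ≤ M * 1 := by
        gcongr
        · exact hM i
        · exact pow_le_one₀ zero_le hz
    _ = M := mul_one M

/-- Case A: `u` is not congruent to an element of `F`; then the powers of `u` are independent
modulo the place. -/
lemma val_poly_eq_one {F : Type v} {E : Type w} [Field F] [Field E] [Algebra F E] {p : ℕ}
    (hp : p.Prime) (V : ValuationSubring E) (u : E) (g : F) (hu : u ^ p = algebraMap F E g)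
    (hu1 : V.valuation u = 1) (hA : ∀ h : F, ¬ V.valuation (u - algebraMap F E h) < 1)
    (Q : F[X]) (hdeg : Q.natDegree < p) (hle : ∀ i, V.valuation (algebraMap F E (Q.coeff i)) ≤ 1)
    (i₀ : ℕ) (hi₀ : V.valuation (algebraMap F E (Q.coeff i₀)) = 1)
    (hpw : ∀ b : F, V.valuation (u ^ p - algebraMap F E b ^ p) < 1 →
      ∃ h : F, V.valuation (u - algebraMap F E h) < 1) :
    V.valuation (aeval u Q) = 1 := by
  set VF := V.comap (algebraMap F E) with hVF
  let ι : VF →+* V := ((algebraMap F E).comp VF.subtype).codRestrict V.toSubring (fun x => x.2)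
  have hι : ∀ x : VF, ((ι x : V) : E) = algebraMap F E x := fun x => rfl
  have hloc : IsLocalHom ι := by
    refine ⟨fun x hx => ?_⟩
    have hx0 : (x : F) ≠ 0 := by
      intro h0
      apply hx.ne_zero
      apply Subtype.ext
      rw [hι, h0, map_zero]; rfl
    have hinv : (x : F)⁻¹ ∈ VF := by
      show (x : F)⁻¹ ∈ V.comap (algebraMap F E)
      rw [ValuationSubring.mem_comap, map_inv₀]
      obtain ⟨y, hy⟩ := hx
      have h1 : algebraMap F E x * ((y⁻¹ : Vˣ) : V) = 1 := by
        rw [← hι, ← hy]
        have := congrArg (fun z : V => (z : E)) (Units.mul_inv y)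
        exact this
      rw [← eq_inv_of_mul_eq_one_right h1]
      exact ((y⁻¹ : Vˣ) : V).2
    exact IsUnit.of_mul_eq_one ⟨_, hinv⟩ (Subtype.ext (mul_inv_cancel₀ hx0))
  let φ : IsLocalRing.ResidueField VF →+* IsLocalRing.ResidueField V :=
    IsLocalRing.ResidueField.map ι
  have hφ : ∀ x : VF, φ (IsLocalRing.residue VF x) = IsLocalRing.residue V (ι x) := fun x => rfl
  have hres : ∀ x : V, IsLocalRing.residue V x = 0 ↔ V.valuation x < 1 := by
    intro x
    rw [IsLocalRing.residue_eq_zero_iff]
    exact V.valuation_lt_one_iff x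
  have huV : u ∈ V := (V.valuation_le_one_iff u).1 hu1.le
  set u' : V := ⟨u, huV⟩ with hu'
  have hgV : g ∈ VF := by
    rw [hVF, ValuationSubring.mem_comap, ← hu]
    exact V.pow_mem huV p
  set g' : VF := ⟨g, hgV⟩ with hg'
  have hug : u' ^ p = ι g' := Subtype.ext hu
  let _ : Algebra (IsLocalRing.ResidueField VF) (IsLocalRing.ResidueField V) := φ.toAlgebra
  have hirr : Irreducible (X ^ p - C (IsLocalRing.residue VF g')) := by
    apply X_pow_sub_C_irreducible_of_prime hp
    intro b hb
    obtain ⟨b', rfl⟩ := IsLocalRing.residue_surjective b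
    obtain ⟨h, hh⟩ := hpw b' (by
      have h1 : IsLocalRing.residue V (u' ^ p - ι b' ^ p) = 0 := by
        rw [hug, map_sub, map_pow, ← hφ, ← hφ, ← map_pow, hb, sub_self]
      exact (hres _).1 h1)
    exact hA h hh
  set qc : ℕ → VF := fun i => ⟨Q.coeff i, (V.valuation_le_one_iff _).1 (hle i)⟩ with hqc
  set Qb : (IsLocalRing.ResidueField VF)[X] :=
    ∑ i ∈ Finset.range p, C (IsLocalRing.residue VF (qc i)) * X ^ i with hQb
  have hQbcoeff : ∀ i, i < p → Qb.coeff i = IsLocalRing.residue VF (qc i) := by
    intro i hi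
    rw [hQb, finsetSum_coeff]
    simp only [coeff_C_mul, coeff_X_pow]
    rw [Finset.sum_eq_single i]
    · simp
    · intro j _ hj; simp [hj.symm]
    · intro h; exact absurd (Finset.mem_range.2 hi) h
  have heval : aeval (IsLocalRing.residue V u') Qb =
      IsLocalRing.residue V (∑ i ∈ Finset.range p, ι (qc i) * u' ^ i) := by
    rw [hQb, map_sum, map_sum]
    refine Finset.sum_congr rfl (fun i _ => ?_)
    rw [map_mul, aeval_C, map_pow, aeval_X, map_mul, map_pow]
    rfl
  have hsum : ((∑ i ∈ Finset.range p, ι (qc i) * u' ^ i : V) : E) = aeval u Q := by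
    rw [aeval_eq_sum_range' hdeg, AddSubmonoidClass.coe_finsetSum]
    refine Finset.sum_congr rfl (fun i _ => ?_)
    rw [Algebra.smul_def]
    rfl
  have hle1 : V.valuation (aeval u Q) ≤ 1 := by
    rw [← hsum, V.valuation_le_one_iff]
    exact SetLike.coe_mem _
  by_contra hne
  have hlt : V.valuation (aeval u Q) < 1 := lt_of_le_of_ne hle1 hne
  have hzero : aeval (IsLocalRing.residue V u') Qb = 0 := by
    rw [heval, hres, hsum]
    exact hlt
  have hmin : X ^ p - C (IsLocalRing.residue VF g') =
      minpoly (IsLocalRing.ResidueField VF) (IsLocalRing.residue V u') := by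
    apply minpoly.eq_of_irreducible_of_monic hirr
    · rw [map_sub, map_pow, aeval_X, aeval_C]
      show _ - φ _ = 0
      rw [hφ, ← hug, map_pow, sub_self]
    · exact monic_X_pow_sub_C _ hp.ne_zero
  have hdvd := minpoly.dvd _ _ hzero
  rw [← hmin] at hdvd
  have hi₀p : i₀ < p := by
    by_contra hcon
    have h0 : Q.coeff i₀ = 0 := coeff_eq_zero_of_natDegree_lt (by omega)
    rw [h0, map_zero, map_zero] at hi₀
    exact zero_ne_one hi₀
  have hQb0 : Qb ≠ 0 := by
    intro h0
    have h1 := hQbcoeff i₀ hi₀p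
    rw [h0, coeff_zero] at h1
    have h2 : IsLocalRing.residue V (ι (qc i₀)) = 0 := by rw [← hφ, ← h1, map_zero]
    rw [hres] at h2
    have h3 : V.valuation ((ι (qc i₀) : V) : E) = 1 := hi₀
    rw [h3] at h2
    exact lt_irrefl _ h2
  have h1 := natDegree_le_of_dvd hdvd hQb0
  rw [natDegree_X_pow_sub_C] at h1
  have h2 : Qb.natDegree < p := by
    rw [hQb]
    refine lt_of_le_of_lt (natDegree_sum_le_of_forall_le (n := p - 1) _ _ ?_)
      (Nat.sub_lt hp.pos one_pos)
    intro i hi
    refine (natDegree_C_mul_X_pow_le _ _).trans ?_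
    have := Finset.mem_range.1 hi
    omega
  omega

/-- `E = F(w)`, `w^p = f ∈ F`, `f` divisible by `p` at all places: then `E/K` is unramified if
`F/K` is. -/
lemma isUnramified_of_root {K F E : Type*} [Field K] [Field F] [Field E] [Algebra K F]
    [Algebra F E] [Algebra K E] [IsScalarTower K F E] [Algebra k F] [Algebra k E]
    [IsScalarTower k F E] [Algebra.IsAlgebraic F E] {p : ℕ} (hp : p.Prime)
    {ζ : k} (hζ : IsPrimitiveRoot ζ p)
    (hF : IsUnramified k K F) (w : E) (f : F) (hw : w ^ p = algebraMap F E f)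
    (hgen : ∀ x : E, ∃ Q : F[X], x = aeval w Q) (hdiv : IsDiv p k f) :
    IsUnramified k K E := by
  intro V hV x
  have hVF : IsPlace k F (V.comap (algebraMap F E)) := hV.comap
  -- it suffices to find `α : F` with the same value
  suffices h : ∃ α : F, V.valuation (algebraMap F E α) = V.valuation x by
    obtain ⟨α, hα⟩ := h
    obtain ⟨y, hy⟩ := hF _ hVF α
    refine ⟨y, ?_⟩
    rw [comap_val_eq_iff] at hy
    rw [IsScalarTower.algebraMap_apply K F E, hy, hα]
  by_cases hx0 : x = 0
  · exact ⟨0, by rw [hx0, map_zero]⟩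
  obtain ⟨Q₀, hQ₀⟩ := hgen x
  by_cases hf : f = 0
  · have hw0 : w = 0 := by
      have : w ^ p = 0 := by rw [hw, hf, map_zero]
      exact pow_eq_zero_iff hp.ne_zero |>.1 this
    refine ⟨Q₀.coeff 0, ?_⟩
    rw [hQ₀, hw0, coeff_zero_eq_aeval_zero, ← aeval_algebraMap_apply, map_zero]
  obtain ⟨y, hy⟩ := hdiv _ hVF
  have hfy : V.valuation (algebraMap F E f) = V.valuation (algebraMap F E y) ^ p := by
    have : (V.comap (algebraMap F E)).valuation f =
        (V.comap (algebraMap F E)).valuation (y ^ p) := by rw [hy, map_pow]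
    rw [comap_val_eq_iff] at this
    rw [this, map_pow, map_pow]
  have hw0 : w ≠ 0 := by
    intro h0
    apply hf
    have : algebraMap F E f = 0 := by rw [← hw, h0, zero_pow hp.ne_zero]
    simpa using this
  have hfE : algebraMap F E f ≠ 0 := by simpa using hf
  have hy0 : y ≠ 0 := by
    intro h0
    rw [h0, map_zero, map_zero, zero_pow hp.ne_zero, map_eq_zero] at hfy
    exact hfE hfy
  have hyE : algebraMap F E y ≠ 0 := by simpa using hy0
  set u : E := w / algebraMap F E y with hu
  have hwu : w = u * algebraMap F E y := by rw [hu]; field_simp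
  have hu1 : V.valuation u = 1 := by
    have h1 : V.valuation u ^ p = 1 := by
      rw [← map_pow, hu, div_pow, hw, map_div₀, map_pow, hfy]
      apply div_self
      have : V.valuation (algebraMap F E y) ≠ 0 := by simpa using hy0
      exact pow_ne_zero p this
    exact (pow_eq_one_iff_of_nonneg zero_le hp.ne_zero).1 h1
  have hup : u ^ p = algebraMap F E (f / y ^ p) := by
    rw [hu, div_pow, hw, map_div₀, map_pow]
  -- `x` is a polynomial of degree `< p` in `u`
  obtain ⟨Q, hxQ, hdeg⟩ : ∃ Q : F[X], x = aeval u Q ∧ Q.natDegree < p := by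
    have hmonic : (X ^ p - C (f / y ^ p) : F[X]).Monic := monic_X_pow_sub_C _ hp.ne_zero
    refine ⟨(Q₀.comp (C y * X)) %ₘ (X ^ p - C (f / y ^ p)), ?_, ?_⟩
    · rw [modByMonic_eq_sub_mul_div, map_sub, map_mul, aeval_comp]
      have h1 : aeval u (X ^ p - C (f / y ^ p) : F[X]) = 0 := by
        rw [map_sub, map_pow, aeval_X, aeval_C, hup, sub_self]
      rw [h1, zero_mul, sub_zero, hQ₀]
      congr 1
      rw [map_mul, aeval_C, aeval_X, hwu, mul_comm]
    · have h1 := natDegree_modByMonic_lt (Q₀.comp (C y * X)) hmonic (by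
        intro h
        have := congrArg natDegree h
        rw [natDegree_X_pow_sub_C, natDegree_one] at this
        exact hp.ne_zero this)
      rwa [natDegree_X_pow_sub_C] at h1
  set g : F := f / y ^ p with hg
  -- a coefficient of maximal value
  have hQ0 : Q ≠ 0 := by
    intro h0; apply hx0; rw [hxQ, h0, map_zero]
  obtain ⟨i₀, hi₀s, hmax⟩ := Finset.exists_max_image Q.support
    (fun i => V.valuation (algebraMap F E (Q.coeff i))) (nonempty_support_iff.2 hQ0)
  have hm0 : Q.coeff i₀ ≠ 0 := mem_support_iff.1 hi₀s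
  have hm0E : algebraMap F E (Q.coeff i₀) ≠ 0 := by simpa using hm0
  have hvm0 : V.valuation (algebraMap F E (Q.coeff i₀)) ≠ 0 := by simpa using hm0
  have hmax' : ∀ i, V.valuation (algebraMap F E (Q.coeff i)) ≤
      V.valuation (algebraMap F E (Q.coeff i₀)) := by
    intro i
    by_cases hi : i ∈ Q.support
    · exact hmax i hi
    · rw [notMem_support_iff.1 hi, map_zero, map_zero]
      exact zero_le
  set ζF : F := algebraMap k F ζ with hζFdef
  have hζF : IsPrimitiveRoot ζF p := hζ.map_of_injective (algebraMap k F).injective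
  have hζE : algebraMap F E ζF = algebraMap k E ζ := by
    rw [hζFdef, ← IsScalarTower.algebraMap_apply]
  by_cases hcase : ∃ h : F, V.valuation (u - algebraMap F E h) < 1
  · obtain ⟨h, hh⟩ := hcase
    obtain ⟨h₁, hh₁⟩ := hVF.exists_gt
    have hh₁' : 1 < V.valuation (algebraMap F E h₁) := by
      rw [← map_one (V.comap (algebraMap F E)).valuation, comap_val_lt_iff, map_one, map_one]
        at hh₁
      exact hh₁
    set β : F := h₁ * Q.coeff i₀ with hβ
    have hh₁0 : algebraMap F E h₁ ≠ 0 := by
      intro h0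
      rw [h0, map_zero] at hh₁'
      exact not_lt.2 zero_le hh₁'
    have hβ0 : algebraMap F E β ≠ 0 := by
      rw [hβ, map_mul]
      exact mul_ne_zero hh₁0 hm0E
    have hvβ : V.valuation (algebraMap F E (Q.coeff i₀)) < V.valuation (algebraMap F E β) := by
      rw [hβ, map_mul, map_mul]
      exact lt_mul_of_one_lt_left (zero_lt_iff.2 hvm0) hh₁'
    obtain ⟨N, hN⟩ := hV.rank_one (x / algebraMap F E β) (u - algebraMap F E h)
      (div_ne_zero hx0 hβ0) hh
    have hvβ0 : 0 < V.valuation (algebraMap F E β) := by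
      rw [zero_lt_iff]; simpa using hβ0
    have hN' : V.valuation (algebraMap F E β * (u - algebraMap F E h) ^ N) < V.valuation x := by
      rw [map_mul, map_pow]
      rw [map_div₀, lt_div_iff₀ hvβ0] at hN
      rwa [mul_comm]
    obtain ⟨c, hc⟩ := prod_conj_mem hp hζF u g hup (Q + C β * (X - C h) ^ N)
    have hval : ∀ z : E, aeval z (Q + C β * (X - C h) ^ N) =
        aeval z Q + algebraMap F E β * (z - algebraMap F E h) ^ N := by
      intro z
      simp
    have hzero : V.valuation (aeval (algebraMap F E ζF ^ 0 * u) (Q + C β * (X - C h) ^ N)) =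
        V.valuation x := by
      rw [pow_zero, one_mul, hval, ← hxQ]
      exact Valuation.map_add_eq_of_lt_left _ hN'
    have hne : ∀ i, i + 1 < p →
        V.valuation (aeval (algebraMap F E ζF ^ (i + 1) * u) (Q + C β * (X - C h) ^ N)) =
          V.valuation (algebraMap F E β) := by
      intro i hi
      have h1 : V.valuation (algebraMap F E ζF ^ (i + 1) * u) = 1 := by
        rw [map_mul, hu1, mul_one, map_pow, hζE, hV.val_const (hζ.ne_zero hp.ne_zero), one_pow]
      have h2 : V.valuation (algebraMap F E ζF ^ (i + 1) * u - algebraMap F E h) = 1 := by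
        have h3 : algebraMap F E ζF ^ (i + 1) * u - algebraMap F E h =
            algebraMap k E (ζ ^ (i + 1) - 1) * u + (u - algebraMap F E h) := by
          rw [hζE, map_sub, map_pow, map_one]; ring
        have h4 : V.valuation (algebraMap k E (ζ ^ (i + 1) - 1) * u) = 1 := by
          rw [map_mul, hu1, mul_one]
          apply hV.val_const
          rw [sub_ne_zero]
          exact hζ.pow_ne_one_of_pos_of_lt (Nat.succ_ne_zero i) hi
        rw [h3, Valuation.map_add_eq_of_lt_left, h4]
        rw [h4]; exact hh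
      rw [hval, Valuation.map_add_eq_of_lt_right]
      · rw [map_mul, map_pow, h2, one_pow, mul_one]
      · rw [map_mul, map_pow, h2, one_pow, mul_one]
        exact (val_aeval_le V _ h1.le Q _ hmax').trans_lt hvβ
    have hprod : V.valuation (algebraMap F E c) =
        V.valuation x * V.valuation (algebraMap F E β) ^ (p - 1) := by
      rw [hc, map_prod]
      obtain ⟨n, hn⟩ : ∃ n, p = n + 1 := ⟨p - 1, (Nat.succ_pred_eq_of_pos hp.pos).symm⟩
      rw [hn, Finset.prod_range_succ', hzero, mul_comm, Nat.add_sub_cancel]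
      congr 1
      rw [Finset.prod_congr rfl (fun i hi => hne i (by have := Finset.mem_range.1 hi; omega))]
      rw [Finset.prod_const, Finset.card_range]
    refine ⟨c / β ^ (p - 1), ?_⟩
    rw [map_div₀, map_div₀, hprod, map_pow, map_pow]
    exact mul_div_cancel_right₀ _ (pow_ne_zero _ hvβ0.ne')
  · push Not at hcase
    have hkey := val_poly_eq_one hp V u g hup hu1 (fun h => not_lt.2 (hcase h))
      (C (Q.coeff i₀)⁻¹ * Q)
      (lt_of_le_of_lt (natDegree_C_mul_le _ _) hdeg) (by
        intro i
        rw [coeff_C_mul, map_mul, map_mul, map_inv₀, map_inv₀]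
        exact (inv_mul_le_one₀ (zero_lt_iff.2 hvm0)).2 (hmax' i)) i₀ (by
        rw [coeff_C_mul, map_mul, map_mul, map_inv₀, map_inv₀]
        exact inv_mul_cancel₀ hvm0) (by
        intro b hb
        exfalso
        have h1 := pow_sub_pow_eq_prod' (hζF.map_of_injective (algebraMap F E).injective) hp.pos
          u (algebraMap F E b)
        rw [h1, map_prod] at hb
        apply not_le.2 hb
        apply Finset.one_le_prod''
        intro i
        have h2 := hcase (ζF ^ i * b)
        rwa [map_mul, map_pow] at h2)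
    refine ⟨Q.coeff i₀, ?_⟩
    rw [map_mul, aeval_C, ← hxQ, map_mul, map_inv₀, map_inv₀] at hkey
    exact (eq_of_inv_mul_eq_one hkey)

end ext

end P025H16
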